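import Vale.Agent.P089.K0Basic

/-! Abstract (purely ring theoretic) index theory: definitions. -/

noncomputable section

namespace Vale.Agent.P089

/-- A Morita type context: `B` is the ring of (adjointable) operators, `J` the ideal of compact
operators, `j : R → B` identifies `R` with the corner `ε B ε`, `ε = j 1 ∈ J`, and `approx` says
that a matrix over `J` is, up to something small, of finite rank. -/
structure Ctx (B R : Type) [Ring B] [Ring R] where
  J : TwoSidedIdeal B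
  j : R →ₙ+* B
  j_inj : Function.Injective j
  j_range : ∀ b, ∃ r, j r = j 1 * b * j 1
  eps_mem : j 1 ∈ J
  approx : ∀ (I : Type) [Fintype I] [DecidableEq I] (x : Matrix I I B), (∀ a b, x a b ∈ J) →
    ∃ (n : ℕ) (A : Matrix I (Fin n) B) (C : Matrix (Fin n) I B),
      IsUnit (1 + x - A * ((Matrix.diagonal (fun _ => j 1) : Matrix (Fin n) (Fin n) B) * C :
        Matrix (Fin n) I B))

namespace Ctx

variable {B R : Type} [Ring B] [Ring R] (κ : Ctx B R)

/-- Entrywise congruence of matrices modulo `J`. -/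
def Near {α β : Type} (x y : Matrix α β B) : Prop := ∀ a b, x a b - y a b ∈ κ.J

/-- `T : range P₀ → range P₁` is Fredholm with parametrix `T'`. -/
structure Fred {I : Type} [Fintype I] (P₀ P₁ T T' : Matrix I I B) : Prop where
  idem₀ : P₀ * P₀ = P₀
  idem₁ : P₁ * P₁ = P₁
  left : P₁ * T = T
  right : T * P₀ = T
  left' : P₀ * T' = T'
  right' : T' * P₁ = T'
  inv₀ : κ.Near (T' * T) P₀
  inv₁ : κ.Near (T * T') P₁

/-- `x` is the index of `T : range P₀ → range P₁`. -/
def Ind {I : Type} [Fintype I] (P₀ P₁ T : Matrix I I B) (x : K0 R) : Prop :=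
  ∃ p q : Idem R, x = K0.diff p q ∧
    ∃ (W : Matrix (I ⊕ Fin p.n) (I ⊕ Fin q.n) B) (W' : Matrix (I ⊕ Fin q.n) (I ⊕ Fin p.n) B),
      W' * W = Matrix.fromBlocks P₀ 0 0 (q.e.map κ.j) ∧
      W * W' = Matrix.fromBlocks P₁ 0 0 (p.e.map κ.j) ∧
      κ.Near W (Matrix.fromBlocks T 0 0 0)

/-- An element of `B` as a `1 × 1` matrix. -/
def one11 (b : B) : Matrix Unit Unit B := Matrix.of fun _ _ => b

/-- `Fred` for `1 × 1` matrices. -/
structure Fred1 (P₀ P₁ T T' : B) : Prop where
  idem₀ : P₀ * P₀ = P₀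
  idem₁ : P₁ * P₁ = P₁
  left : P₁ * T = T
  right : T * P₀ = T
  left' : P₀ * T' = T'
  right' : T' * P₁ = T'
  inv₀ : T' * T - P₀ ∈ κ.J
  inv₁ : T * T' - P₁ ∈ κ.J

/-- `Ind` for `1 × 1` matrices. -/
def Ind1 (P₀ P₁ T : B) (x : K0 R) : Prop := κ.Ind (one11 P₀) (one11 P₁) (one11 T) x

end Ctx

end Vale.Agent.P089
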