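import Vale.Agent.P089.AbsDefs

/-! Task T1: abstract index theory (pure ring theory). See notes/P089/PROOF.md, section T1. -/

noncomputable section

namespace Vale.Agent.P089.Ctx

open Matrix

variable {B R : Type} [Ring B] [Ring R] (κ : Ctx B R)

section NearLemmas

variable {κ} {α β γ δ : Type}

theorem Near.refl (x : Matrix α β B) : κ.Near x x := fun a b => by
  rw [sub_self]; exact κ.J.zero_mem

theorem Near.symm {x y : Matrix α β B} (h : κ.Near x y) : κ.Near y x := fun a b => by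
  rw [← neg_sub]; exact κ.J.neg_mem (h a b)

theorem Near.trans {x y z : Matrix α β B} (h : κ.Near x y) (h' : κ.Near y z) : κ.Near x z :=
  fun a b => by
    rw [← sub_add_sub_cancel _ (y a b)]; exact κ.J.add_mem (h a b) (h' a b)

theorem Near.add {x y x' y' : Matrix α β B} (h : κ.Near x y) (h' : κ.Near x' y') :
    κ.Near (x + x') (y + y') := fun a b => by
  rw [Matrix.add_apply, Matrix.add_apply, add_sub_add_comm]; exact κ.J.add_mem (h a b) (h' a b)

theorem Near.neg {x y : Matrix α β B} (h : κ.Near x y) : κ.Near (-x) (-y) := fun a b => by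
  rw [Matrix.neg_apply, Matrix.neg_apply, neg_sub_neg]; exact h.symm a b

theorem Near.sub {x y x' y' : Matrix α β B} (h : κ.Near x y) (h' : κ.Near x' y') :
    κ.Near (x - x') (y - y') := by
  rw [sub_eq_add_neg, sub_eq_add_neg]; exact h.add h'.neg

theorem Near.mul_left [Fintype β] {x y : Matrix β γ B} (h : κ.Near x y) (z : Matrix α β B) :
    κ.Near (z * x) (z * y) := fun a b => by
  rw [Matrix.mul_apply, Matrix.mul_apply, ← Finset.sum_sub_distrib]
  exact sum_mem fun i _ => by rw [← mul_sub]; exact κ.J.mul_mem_left _ _ (h i b)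

theorem Near.mul_right [Fintype β] {x y : Matrix α β B} (h : κ.Near x y) (z : Matrix β γ B) :
    κ.Near (x * z) (y * z) := fun a b => by
  rw [Matrix.mul_apply, Matrix.mul_apply, ← Finset.sum_sub_distrib]
  exact sum_mem fun i _ => by rw [← sub_mul]; exact κ.J.mul_mem_right _ _ (h a i)

theorem Near.mul [Fintype β] {x y : Matrix α β B} {x' y' : Matrix β γ B} (h : κ.Near x y)
    (h' : κ.Near x' y') : κ.Near (x * x') (y * y') := (h.mul_right x').trans (h'.mul_left y)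

theorem Near.zero_mul [Fintype β] {x : Matrix α β B} (h : κ.Near x 0) (z : Matrix β γ B) :
    κ.Near (x * z) 0 := by simpa using h.mul_right z

theorem Near.mul_zero [Fintype β] {x : Matrix β γ B} (h : κ.Near x 0) (z : Matrix α β B) :
    κ.Near (z * x) 0 := by simpa using h.mul_left z

theorem Near.of_eq {x y : Matrix α β B} (h : x = y) : κ.Near x y := h ▸ Near.refl x

theorem Near.fromBlocks {a a' : Matrix α γ B} {b b' : Matrix α δ B} {c c' : Matrix β γ B}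
    {d d' : Matrix β δ B} (ha : κ.Near a a') (hb : κ.Near b b') (hc : κ.Near c c')
    (hd : κ.Near d d') : κ.Near (fromBlocks a b c d) (fromBlocks a' b' c' d') := by
  rintro (i | i) (k | k)
  exacts [ha i k, hb i k, hc i k, hd i k]

theorem near_fromBlocks_iff {a a' : Matrix α γ B} {b b' : Matrix α δ B} {c c' : Matrix β γ B}
    {d d' : Matrix β δ B} : κ.Near (fromBlocks a b c d) (fromBlocks a' b' c' d') ↔
      κ.Near a a' ∧ κ.Near b b' ∧ κ.Near c c' ∧ κ.Near d d' :=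
  ⟨fun h => ⟨fun i k => h (Sum.inl i) (Sum.inl k), fun i k => h (Sum.inl i) (Sum.inr k),
    fun i k => h (Sum.inr i) (Sum.inl k), fun i k => h (Sum.inr i) (Sum.inr k)⟩,
    fun h => h.1.fromBlocks h.2.1 h.2.2.1 h.2.2.2⟩

theorem Near.fromRows {a a' : Matrix α γ B} {c c' : Matrix β γ B} (ha : κ.Near a a')
    (hc : κ.Near c c') : κ.Near (fromRows a c) (fromRows a' c') := by
  rintro (i | i) k
  exacts [ha i k, hc i k]

theorem Near.fromCols {a a' : Matrix α γ B} {b b' : Matrix α δ B} (ha : κ.Near a a')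
    (hb : κ.Near b b') : κ.Near (fromCols a b) (fromCols a' b') := by
  rintro i (k | k)
  exacts [ha i k, hb i k]

theorem j_mem (r : R) : κ.j r ∈ κ.J := by
  rw [← one_mul r, map_mul]; exact κ.J.mul_mem_right _ _ κ.eps_mem

theorem near_map (p : Matrix α β R) : κ.Near (p.map κ.j) 0 := fun a b => by
  simpa using j_mem (p a b)

theorem map_j_mul [Fintype β] (p : Matrix α β R) (q : Matrix β γ R) :
    (p * q).map κ.j = p.map κ.j * q.map κ.j := Matrix.map_mul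

theorem map_j_inj {p q : Matrix α β R} (h : p.map κ.j = q.map κ.j) : p = q :=
  Matrix.map_injective κ.j_inj h

theorem map_j_idem [Fintype α] {p : Matrix α α R} (hp : p * p = p) :
    p.map κ.j * p.map κ.j = p.map κ.j := by rw [← map_j_mul, hp]

theorem map_j_fromBlocks (p : Matrix α α R) (q : Matrix β β R) :
    (fromBlocks p 0 0 q).map κ.j = fromBlocks (p.map κ.j) 0 0 (q.map κ.j) := by
  rw [fromBlocks_map, Matrix.map_zero _ (map_zero _), Matrix.map_zero _ (map_zero _)]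

theorem map_j_one [DecidableEq α] :
    (1 : Matrix α α R).map κ.j = diagonal fun _ => κ.j 1 := diagonal_map (map_zero _)

theorem exists_lift [Fintype β] [Fintype γ] (p : Matrix α β R) (s : Matrix β γ B)
    (q : Matrix γ δ R) : ∃ r : Matrix α δ R, r.map κ.j = p.map κ.j * s * q.map κ.j := by
  have h : ∀ a b, ∃ r, κ.j r = (p.map κ.j * s * q.map κ.j) a b := fun a b => by
    obtain ⟨r, hr⟩ := κ.j_range ((p.map κ.j * s * q.map κ.j) a b)
    refine ⟨r, hr.trans ?_⟩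
    simp only [Matrix.mul_apply, Matrix.map_apply, Finset.mul_sum, Finset.sum_mul]
    refine Finset.sum_congr rfl fun i _ => Finset.sum_congr rfl fun k _ => ?_
    rw [mul_assoc, mul_assoc, ← map_mul, mul_one, ← mul_assoc, ← mul_assoc, ← map_mul, one_mul]
  choose r hr using h
  exact ⟨Matrix.of r, Matrix.ext hr⟩

theorem ofMat_eq_of_iso [Fintype α] [Fintype β] {p : Matrix α α R} {q : Matrix β β R}
    (hp : p * p = p) (hq : q * q = q) (s : Matrix α β B) (t : Matrix β α B)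
    (h1 : s * t = p.map κ.j) (h2 : t * s = q.map κ.j) : K0.ofMat p hp = K0.ofMat q hq := by
  obtain ⟨x, hx⟩ := exists_lift (κ := κ) p s q
  obtain ⟨y, hy⟩ := exists_lift (κ := κ) q t p
  have hp' := map_j_idem (κ := κ) hp
  have hq' := map_j_idem (κ := κ) hq
  refine K0.ofMat_eqv hp hq x y (map_j_inj (κ := κ) ?_) (map_j_inj (κ := κ) ?_)
  · rw [map_j_mul, hx, hy]
    calc _ = p.map κ.j * (s * (q.map κ.j * q.map κ.j) * t) * p.map κ.j := by
          simp only [Matrix.mul_assoc]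
      _ = p.map κ.j * ((s * t) * (s * t)) * p.map κ.j := by
          rw [hq', ← h2]; simp only [Matrix.mul_assoc]
      _ = _ := by simp only [h1, hp']
  · rw [map_j_mul, hx, hy]
    calc _ = q.map κ.j * (t * (p.map κ.j * p.map κ.j) * s) * q.map κ.j := by
          simp only [Matrix.mul_assoc]
      _ = q.map κ.j * ((t * s) * (t * s)) * q.map κ.j := by
          rw [hp', ← h1]; simp only [Matrix.mul_assoc]
      _ = _ := by simp only [h2, hq']

end NearLemmas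

section IsoLemmas

variable {α β γ δ α' β' : Type} [Fintype α] [Fintype β] [Fintype γ] [Fintype δ] [Fintype α']
  [Fintype β']

/-- `W` is invertible from the range of `E` to the range of `F`. -/
def MIso (E : Matrix α α B) (F : Matrix β β B) (W : Matrix β α B) : Prop :=
  ∃ W' : Matrix α β B, W' * W = E ∧ W * W' = F

theorem MIso.refl {E : Matrix α α B} (h : E * E = E) : MIso E E E := ⟨E, h, h⟩

theorem MIso.comp {E : Matrix α α B} {F : Matrix β β B} {G : Matrix γ γ B} {W : Matrix β α B}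
    {V : Matrix γ β B} (hE : E * E = E) (hG : G * G = G) (h : MIso E F W) (h' : MIso F G V) :
    MIso E G (V * W) := by
  obtain ⟨W', h1, h2⟩ := h
  obtain ⟨V', h3, h4⟩ := h'
  refine ⟨W' * V', ?_, ?_⟩
  · calc W' * V' * (V * W) = W' * (V' * V) * W := by simp only [Matrix.mul_assoc]
      _ = (W' * W) * (W' * W) := by rw [h3, ← h2]; simp only [Matrix.mul_assoc]
      _ = E := by rw [h1, hE]
  · calc V * W * (W' * V') = V * (W * W') * V' := by simp only [Matrix.mul_assoc]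
      _ = (V * V') * (V * V') := by rw [h2, ← h3]; simp only [Matrix.mul_assoc]
      _ = G := by rw [h4, hG]

theorem MIso.sum {E : Matrix α α B} {F : Matrix β β B} {W : Matrix β α B} {E' : Matrix γ γ B}
    {F' : Matrix δ δ B} {V : Matrix δ γ B} (h : MIso E F W) (h' : MIso E' F' V) :
    MIso (fromBlocks E 0 0 E') (fromBlocks F 0 0 F') (fromBlocks W 0 0 V) := by
  obtain ⟨W', h1, h2⟩ := h
  obtain ⟨V', h3, h4⟩ := h'
  exact ⟨fromBlocks W' 0 0 V', by simp [fromBlocks_multiply, h1, h3],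
    by simp [fromBlocks_multiply, h2, h4]⟩

theorem MIso.submatrix {E : Matrix α α B} {F : Matrix β β B} {W : Matrix β α B} (h : MIso E F W)
    (σ : α' ≃ α) (τ : β' ≃ β) :
    MIso (E.submatrix σ σ) (F.submatrix τ τ) (W.submatrix τ σ) := by
  obtain ⟨W', h1, h2⟩ := h
  exact ⟨W'.submatrix σ τ, by rw [submatrix_mul_equiv, h1], by rw [submatrix_mul_equiv, h2]⟩

theorem idem_fromBlocks {E : Matrix α α B} {F : Matrix β β B} (hE : E * E = E) (hF : F * F = F) :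
    fromBlocks E 0 0 F * fromBlocks E 0 0 F = fromBlocks E 0 0 F := by
  simp [fromBlocks_multiply, hE, hF]

theorem MIso.stab {I I' : Type} [Fintype I] [Fintype I'] {P₀ : Matrix I I B} {P₁ : Matrix I' I' B}
    {e : Matrix α α B} {f : Matrix β β B} {a : Matrix I' I B} {b : Matrix I' β B}
    {c : Matrix α I B} {d : Matrix α β B}
    (h : MIso (fromBlocks P₀ 0 0 f) (fromBlocks P₁ 0 0 e) (fromBlocks a b c d))
    {g : Matrix γ γ B} (hg : g * g = g) :
    MIso (fromBlocks P₀ 0 0 (fromBlocks f 0 0 g)) (fromBlocks P₁ 0 0 (fromBlocks e 0 0 g))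
      (fromBlocks a (fromCols b 0) (fromRows c 0) (fromBlocks d 0 0 g)) := by
  have := (h.sum (MIso.refl hg)).submatrix (Equiv.sumAssoc I β γ).symm
    (Equiv.sumAssoc I' α γ).symm
  convert this using 1 <;> ext (i | i | i) (k | k | k) <;> rfl

theorem MIso.lower {I : Type} [Fintype I] [DecidableEq I] {F : Matrix β β B} (hF : F * F = F)
    {c : Matrix β I B} (hc : F * c = c) :
    MIso (fromBlocks (1 : Matrix I I B) 0 0 F) (fromBlocks (1 : Matrix I I B) 0 0 F)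
      (fromBlocks 1 0 c F) :=
  ⟨fromBlocks 1 0 (-c) F, by simp [fromBlocks_multiply, hF, hc],
    by simp [fromBlocks_multiply, hF, hc]⟩

theorem MIso.upper {I : Type} [Fintype I] [DecidableEq I] {F : Matrix β β B} (hF : F * F = F)
    {b : Matrix I β B} (hb : b * F = b) :
    MIso (fromBlocks (1 : Matrix I I B) 0 0 F) (fromBlocks (1 : Matrix I I B) 0 0 F)
      (fromBlocks 1 b 0 F) :=
  ⟨fromBlocks 1 (-b) 0 F, by simp [fromBlocks_multiply, hF, hb],
    by simp [fromBlocks_multiply, hF, hb]⟩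

/-- Schur complement. -/
theorem MIso.schur {I : Type} [Fintype I] [DecidableEq I] {e : Matrix α α B} {f : Matrix β β B}
    {W : Matrix (I ⊕ α) (I ⊕ β) B} (h : MIso (fromBlocks 1 0 0 f) (fromBlocks 1 0 0 e) W)
    (hu : IsUnit W.toBlocks₁₁) :
    ∃ (s : Matrix α β B) (t : Matrix β α B), s * t = e ∧ t * s = f := by
  obtain ⟨W', h1, h2⟩ := h
  obtain ⟨u, hu⟩ := hu
  rw [← fromBlocks_toBlocks W, ← fromBlocks_toBlocks W', ← hu, fromBlocks_multiply,
    fromBlocks_inj] at h1 h2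
  generalize W.toBlocks₁₂ = b at h1 h2
  generalize W.toBlocks₂₁ = c at h1 h2
  generalize W.toBlocks₂₂ = d at h1 h2
  generalize W'.toBlocks₁₂ = b' at h1 h2
  generalize W'.toBlocks₂₁ = c' at h1 h2
  generalize W'.toBlocks₂₂ = d' at h1 h2
  refine ⟨d - c * (↑u⁻¹ : Matrix I I B) * b, d', ?_, ?_⟩
  · have h3 : b * d' = -((u : Matrix I I B) * b') := eq_neg_of_add_eq_zero_right h2.2.1
    rw [Matrix.sub_mul, Matrix.mul_assoc, h3, Matrix.mul_neg, sub_neg_eq_add, Matrix.mul_assoc,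
      ← Matrix.mul_assoc _ _ b', u.inv_mul, Matrix.one_mul, add_comm, h2.2.2.2]
  · have h3 : d' * c = -(c' * (u : Matrix I I B)) := eq_neg_of_add_eq_zero_right h1.2.2.1
    rw [Matrix.mul_sub, ← Matrix.mul_assoc, ← Matrix.mul_assoc, h3, Matrix.neg_mul,
      Matrix.neg_mul, sub_neg_eq_add, Matrix.mul_assoc c', u.mul_inv, Matrix.mul_one, add_comm,
      h1.2.2.2]

theorem normal_aux {E : Matrix α α B} {F : Matrix β β B} {W : Matrix β α B} {W' : Matrix α β B}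
    (hE : E * E = E) (hF : F * F = F) (h1 : W' * W = E) (h2 : W * W' = F) :
    (E * W') * (W * E) = E ∧ (W * E) * (E * W') = F ∧ F * (W * E) = W * E ∧
      (W * E) * E = W * E ∧ E * (E * W') = E * W' ∧ (E * W') * F = E * W' := by
  have h3 : F * W = W * E := by rw [← h1, ← h2, Matrix.mul_assoc]
  have h4 : W' * F = E * W' := by rw [← h1, ← h2, Matrix.mul_assoc]
  refine ⟨?_, ?_, ?_, ?_, ?_, ?_⟩
  · rw [Matrix.mul_assoc, ← Matrix.mul_assoc W', h1, hE, hE]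
  · rw [Matrix.mul_assoc, ← Matrix.mul_assoc E, hE, ← h4, ← Matrix.mul_assoc, h2, hF]
  · rw [← Matrix.mul_assoc, h3, Matrix.mul_assoc, hE]
  · rw [Matrix.mul_assoc, hE]
  · rw [← Matrix.mul_assoc, hE]
  · rw [Matrix.mul_assoc, h4, ← Matrix.mul_assoc, hE]

end IsoLemmas

section WitLemmas

variable {I I' I'' α β γ δ : Type} [Fintype I] [Fintype I'] [Fintype I''] [Fintype α] [Fintype β]
  [Fintype γ] [Fintype δ]

/-- An invertible perturbation of `T ⊕ 0` from `P₀ ⊕ f` to `P₁ ⊕ e`. -/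
def Wit (P₀ : Matrix I I B) (P₁ : Matrix I' I' B) (T : Matrix I' I B) (e : Matrix α α B)
    (f : Matrix β β B) : Prop :=
  ∃ W, MIso (fromBlocks P₀ 0 0 f) (fromBlocks P₁ 0 0 e) W ∧ κ.Near W (fromBlocks T 0 0 0)

variable {κ} {P₀ : Matrix I I B} {P₁ : Matrix I' I' B} {T : Matrix I' I B} {e : Matrix α α B}
  {f : Matrix β β B}

theorem Wit.submatrix {K K' : Type} [Fintype K] [Fintype K'] (h : κ.Wit P₀ P₁ T e f)
    (ρ : K ≃ I) (ρ' : K' ≃ I') (σ : γ ≃ α) (τ : δ ≃ β) :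
    κ.Wit (P₀.submatrix ρ ρ) (P₁.submatrix ρ' ρ') (T.submatrix ρ' ρ) (e.submatrix σ σ)
      (f.submatrix τ τ) := by
  obtain ⟨W, h1, h2⟩ := h
  refine ⟨W.submatrix (ρ'.sumCongr σ) (ρ.sumCongr τ), ?_, ?_⟩
  · convert h1.submatrix (ρ.sumCongr τ) (ρ'.sumCongr σ) using 1 <;> ext (i | i) (k | k) <;> rfl
  · rintro (i | i) (k | k) <;> exact h2 _ _

theorem Wit.near {S : Matrix I' I B} (h : κ.Wit P₀ P₁ T e f) (hS : κ.Near T S) :
    κ.Wit P₀ P₁ S e f := by
  obtain ⟨W, h1, h2⟩ := h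
  exact ⟨W, h1, h2.trans (hS.fromBlocks (Near.refl _) (Near.refl _) (Near.refl _))⟩

theorem Wit.stab (h : κ.Wit P₀ P₁ T e f) {g : Matrix γ γ B} (hg : g * g = g) (hg' : κ.Near g 0) :
    κ.Wit P₀ P₁ T (fromBlocks e 0 0 g) (fromBlocks f 0 0 g) := by
  obtain ⟨W, h1, h2⟩ := h
  rw [← fromBlocks_toBlocks W] at h1 h2
  obtain ⟨ha, hb, hc, hd⟩ := near_fromBlocks_iff.1 h2
  refine ⟨_, h1.stab hg, ha.fromBlocks ?_ ?_ ?_⟩
  · simpa using hb.fromCols (Near.refl (0 : Matrix I' γ B))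
  · simpa using hc.fromRows (Near.refl (0 : Matrix γ I B))
  · simpa using hd.fromBlocks (Near.refl (0 : Matrix α γ B)) (Near.refl (0 : Matrix γ β B)) hg'

theorem Wit.comp' {P₂ : Matrix I'' I'' B} {S : Matrix I'' I' B} {g : Matrix γ γ B}
    (h : κ.Wit P₀ P₁ T e f) (h' : κ.Wit P₁ P₂ S g e) (h0 : P₀ * P₀ = P₀) (h2 : P₂ * P₂ = P₂)
    (hf : f * f = f) (hg : g * g = g) : κ.Wit P₀ P₂ (S * T) g f := by
  obtain ⟨W, h3, h4⟩ := h
  obtain ⟨V, h5, h6⟩ := h'
  refine ⟨V * W, h3.comp (idem_fromBlocks h0 hf) (idem_fromBlocks h2 hg) h5, ?_⟩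
  simpa [fromBlocks_multiply] using h6.mul h4

theorem Wit.comp {P₂ : Matrix I'' I'' B} {S : Matrix I'' I' B} {e' : Matrix γ γ B}
    {f' : Matrix δ δ B} (h : κ.Wit P₀ P₁ T e f) (h' : κ.Wit P₁ P₂ S e' f')
    (h0 : P₀ * P₀ = P₀) (h2 : P₂ * P₂ = P₂) (he : e * e = e) (hf : f * f = f)
    (he' : e' * e' = e') (hf' : f' * f' = f') (ne : κ.Near e 0) (nf : κ.Near f' 0) :
    κ.Wit P₀ P₂ (S * T) (fromBlocks e' 0 0 e) (fromBlocks f 0 0 f') := by
  refine (h.stab hf' nf).comp' ?_ h0 h2 (idem_fromBlocks hf hf') (idem_fromBlocks he' he)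
  have h3 : fromBlocks e 0 0 f' =
      (fromBlocks f' 0 0 e).submatrix (Equiv.sumComm α δ) (Equiv.sumComm α δ) := by
    ext (i | i) (k | k) <;> rfl
  rw [h3]
  exact (h'.stab he ne).submatrix (Equiv.refl _) (Equiv.refl _) (Equiv.refl _)
    (Equiv.sumComm α δ)

theorem Wit.sum {K K' : Type} [Fintype K] [Fintype K'] {Q₀ : Matrix K K B} {Q₁ : Matrix K' K' B}
    {S : Matrix K' K B} {e' : Matrix γ γ B} {f' : Matrix δ δ B} (h : κ.Wit P₀ P₁ T e f)
    (h' : κ.Wit Q₀ Q₁ S e' f') :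
    κ.Wit (fromBlocks P₀ 0 0 Q₀) (fromBlocks P₁ 0 0 Q₁) (fromBlocks T 0 0 S)
      (fromBlocks e 0 0 e') (fromBlocks f 0 0 f') := by
  obtain ⟨W, h1, h2⟩ := h
  obtain ⟨V, h3, h4⟩ := h'
  refine ⟨(fromBlocks W 0 0 V).submatrix (Equiv.sumSumSumComm I' K' α γ)
    (Equiv.sumSumSumComm I K β δ), ?_, ?_⟩
  · convert (h1.sum h3).submatrix (Equiv.sumSumSumComm I K β δ)
      (Equiv.sumSumSumComm I' K' α γ) using 1 <;>
    ext ((i | i) | (i | i)) ((k | k) | (k | k)) <;> rfl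
  · have h5 := h2.fromBlocks (Near.refl 0) (Near.refl 0) h4
    intro i k
    have h6 := h5 (Equiv.sumSumSumComm I' K' α γ i) (Equiv.sumSumSumComm I K β δ k)
    rcases i with (i | i) | (i | i) <;> rcases k with (k | k) | (k | k) <;> exact h6

theorem normal_wit {T' : Matrix I I' B} {W : Matrix (I' ⊕ α) (I ⊕ β) B}
    {W' : Matrix (I ⊕ β) (I' ⊕ α) B} (h0 : P₀ * P₀ = P₀) (h1 : P₁ * P₁ = P₁) (he : e * e = e)
    (hf : f * f = f) (ne : κ.Near e 0) (hT : T * P₀ = T) (hT' : P₀ * T' = T')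
    (hi : κ.Near (T * T') P₁) (h2 : W' * W = fromBlocks P₀ 0 0 f)
    (h3 : W * W' = fromBlocks P₁ 0 0 e) (h4 : κ.Near W (fromBlocks T 0 0 0)) :
    κ.Near (W * fromBlocks P₀ 0 0 f) (fromBlocks T 0 0 0) ∧
      κ.Near (fromBlocks P₀ 0 0 f * W') (fromBlocks T' 0 0 0) := by
  obtain ⟨a1, -, -, -, -, a6⟩ := normal_aux (idem_fromBlocks h0 hf) (idem_fromBlocks h1 he) h2 h3
  have n1 : κ.Near (W * fromBlocks P₀ 0 0 f) (fromBlocks T 0 0 0) := by
    simpa [fromBlocks_multiply, hT] using h4.mul_right (fromBlocks P₀ 0 0 f)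
  refine ⟨n1, ?_⟩
  have n2 : κ.Near (fromBlocks P₁ 0 0 e)
      (W * fromBlocks P₀ 0 0 f * (fromBlocks T' 0 0 0 : Matrix (I ⊕ β) (I' ⊕ α) B)) := by
    refine Near.trans ?_ (n1.mul_right _).symm
    simpa [fromBlocks_multiply] using
      hi.symm.fromBlocks (Near.refl (0 : Matrix I' α B)) (Near.refl (0 : Matrix α I' B)) ne
  have n3 := n2.mul_left (fromBlocks P₀ 0 0 f * W')
  rw [a6, ← Matrix.mul_assoc, a1] at n3
  simpa [fromBlocks_multiply, hT'] using n3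

theorem Wit.symm {T' : Matrix I I' B} (h : κ.Wit P₀ P₁ T e f) (h0 : P₀ * P₀ = P₀)
    (h1 : P₁ * P₁ = P₁) (he : e * e = e) (hf : f * f = f) (ne : κ.Near e 0) (hT : T * P₀ = T)
    (hT' : P₀ * T' = T') (hi : κ.Near (T * T') P₁) : κ.Wit P₁ P₀ T' f e := by
  obtain ⟨W, ⟨W', h2, h3⟩, h4⟩ := h
  obtain ⟨a1, a2, -⟩ := normal_aux (idem_fromBlocks h0 hf) (idem_fromBlocks h1 he) h2 h3
  exact ⟨_, ⟨_, a2, a1⟩, (normal_wit h0 h1 he hf ne hT hT' hi h2 h3 h4).2⟩

theorem Wit.zero [DecidableEq I] {P : Matrix I I B} (hP : P * P = P) {p : Matrix α α R}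
    {q : Matrix β β R} (hp : p * p = p) (hq : q * q = q)
    (h : κ.Wit P P P (p.map κ.j) (q.map κ.j)) : K0.ofMat p hp = K0.ofMat q hq := by
  classical
  have he := map_j_idem (κ := κ) hp
  have hf := map_j_idem (κ := κ) hq
  obtain ⟨V, h1, h2⟩ : κ.Wit (1 : Matrix I I B) 1 1 (p.map κ.j) (q.map κ.j) := by
    obtain ⟨W, ⟨W', h2, h3⟩, h4⟩ := h
    obtain ⟨a1, a2, a3, a4, a5, a6⟩ :=
      normal_aux (idem_fromBlocks hP hf) (idem_fromBlocks hP he) h2 h3
    have n1 := (normal_wit hP hP he hf (near_map p) hP hP (Near.of_eq hP) h2 h3 h4).1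
    generalize W * fromBlocks P 0 0 (q.map κ.j) = X at a1 a2 a3 a4 n1
    generalize fromBlocks P 0 0 (q.map κ.j) * W' = X' at a1 a2 a5 a6
    have hP1 : P * (1 - P) = 0 := by rw [Matrix.mul_sub, Matrix.mul_one, hP, sub_self]
    have hP2 : (1 - P) * P = 0 := by rw [Matrix.sub_mul, Matrix.one_mul, hP, sub_self]
    have hP3 : (1 - P) * (1 - P) = 1 - P := by rw [Matrix.mul_sub, Matrix.mul_one, hP2, sub_zero]
    refine ⟨X + fromBlocks (1 - P) 0 0 0, ⟨X' + fromBlocks (1 - P) 0 0 0, ?_, ?_⟩, ?_⟩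
    · rw [Matrix.add_mul, Matrix.mul_add, Matrix.mul_add, a1]
      conv_lhs => rw [← a6, ← a3, Matrix.mul_assoc X', ← Matrix.mul_assoc _ _ X]
      simp [fromBlocks_multiply, hP1, hP2, hP3, fromBlocks_add]
    · rw [Matrix.add_mul, Matrix.mul_add, Matrix.mul_add, a2]
      conv_lhs => rw [← a4, ← a5, Matrix.mul_assoc X, ← Matrix.mul_assoc _ _ X']
      simp [fromBlocks_multiply, hP1, hP2, hP3, fromBlocks_add]
    · have n2 := n1.add (Near.refl (fromBlocks (1 - P) 0 0 0))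
      rwa [fromBlocks_add, add_sub_cancel, add_zero, add_zero, add_zero] at n2
  rw [← fromBlocks_toBlocks V] at h1 h2
  obtain ⟨n, A, C, hu⟩ := κ.approx I (V.toBlocks₁₁ - 1) (near_fromBlocks_iff.1 h2).1
  have hε := map_j_idem (κ := κ) (one_mul (1 : Matrix (Fin n) (Fin n) R))
  rw [← map_j_one] at hu
  have hp' := idem_fromBlocks hp (one_mul (1 : Matrix (Fin n) (Fin n) R))
  have hq' := idem_fromBlocks hq (one_mul (1 : Matrix (Fin n) (Fin n) R))
  suffices hs : K0.ofMat _ hp' = K0.ofMat _ hq' by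
    rw [K0.ofMat_fromBlocks hp (one_mul _), K0.ofMat_fromBlocks hq (one_mul _)] at hs
    exact add_right_cancel hs
  suffices hs : ∃ (s : Matrix (α ⊕ Fin n) (β ⊕ Fin n) B) (t : Matrix (β ⊕ Fin n) (α ⊕ Fin n) B),
      s * t = fromBlocks (p.map κ.j) 0 0 ((1 : Matrix (Fin n) (Fin n) R).map κ.j) ∧
      t * s = fromBlocks (q.map κ.j) 0 0 ((1 : Matrix (Fin n) (Fin n) R).map κ.j) by
    obtain ⟨s, t, h5, h6⟩ := hs
    exact ofMat_eq_of_iso (κ := κ) hp' hq' s t (by rw [h5, map_j_fromBlocks])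
      (by rw [h6, map_j_fromBlocks])
  generalize (1 : Matrix (Fin n) (Fin n) R).map κ.j = ε at hu hε
  have h3 := h1.stab hε
  have hE := idem_fromBlocks he hε
  have hF := idem_fromBlocks hf hε
  have hL := MIso.lower hF (c := fromRows 0 (ε * C))
    (by simp [fromBlocks_mul_fromRows, ← Matrix.mul_assoc, hε])
  have hU := MIso.upper hE (b := fromCols 0 (-(A * ε)))
    (by simp [fromCols_mul_fromBlocks, Matrix.mul_assoc, hε])
  have h4 := (hL.comp (idem_fromBlocks (one_mul _) hF) (idem_fromBlocks (one_mul _) hE) h3).comp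
    (idem_fromBlocks (one_mul _) hF) (idem_fromBlocks (one_mul _) hE) hU
  refine h4.schur ?_
  convert hu using 1
  simp [fromBlocks_multiply, fromBlocks_mul_fromRows, fromCols_mul_fromRows, Matrix.mul_assoc,
    Matrix.mul_add, ← Matrix.mul_assoc ε, hε, sub_eq_add_neg]

theorem exists_factor [DecidableEq α] (he : e * e = e) (ne : κ.Near e 0) :
    ∃ (n : ℕ) (X : Matrix α (Fin n) B) (Y : Matrix (Fin n) α B) (p : Matrix (Fin n) (Fin n) R),
      p * p = p ∧ X * Y = e ∧ Y * X = p.map κ.j ∧ e * X = X ∧ Y * e = Y ∧ κ.Near Y 0 := by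
  obtain ⟨n, A, C, u, hu⟩ := κ.approx α (-e) fun a b => by simpa using ne.neg a b
  rw [← map_j_one] at hu
  have hε := map_j_idem (κ := κ) (one_mul (1 : Matrix (Fin n) (Fin n) R))
  obtain ⟨p, hp⟩ := exists_lift (κ := κ) (1 : Matrix (Fin n) (Fin n) R)
    (C * (↑u⁻¹ : Matrix α α B) * e * -(e * A)) (1 : Matrix (Fin n) (Fin n) R)
  have hn := near_map (κ := κ) (1 : Matrix (Fin n) (Fin n) R)
  generalize (1 : Matrix (Fin n) (Fin n) R).map κ.j = ε at hu hε hp hn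
  have h1 : -(e * A) * ε * (ε * (C * (↑u⁻¹ : Matrix α α B) * e)) = e := by
    have h2 : e * (u : Matrix α α B) = -(e * A) * (ε * C) := by
      rw [hu, Matrix.mul_sub, Matrix.mul_add, Matrix.mul_neg, he, Matrix.mul_one, add_neg_cancel,
        zero_sub, Matrix.neg_mul, Matrix.mul_assoc]
    calc _ = -(e * A) * ((ε * ε) * C) * (↑u⁻¹ : Matrix α α B) * e := by
          simp only [Matrix.mul_assoc]
      _ = e := by
          rw [hε, ← h2, Matrix.mul_assoc e, u.mul_inv, Matrix.mul_one, he]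
  have h3 : ε * (C * (↑u⁻¹ : Matrix α α B) * e) * (-(e * A) * ε) = p.map κ.j := by
    rw [hp]; simp only [Matrix.mul_assoc]
  have h4 : e * (-(e * A) * ε) = -(e * A) * ε := by
    rw [← Matrix.mul_assoc, Matrix.mul_neg, ← Matrix.mul_assoc, he]
  refine ⟨n, _, _, p, map_j_inj (κ := κ) ?_, h1, h3, h4, ?_, hn.zero_mul _⟩
  · rw [map_j_mul, ← h3, Matrix.mul_assoc, ← Matrix.mul_assoc (-(e * A) * _), h1, h4]
  · simp only [Matrix.mul_assoc, he]

end WitLemmas

theorem ind_iff {I : Type} [Fintype I] {P₀ P₁ T : Matrix I I B} {x : K0 R} :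
    κ.Ind P₀ P₁ T x ↔ ∃ p q : Idem R, x = K0.diff p q ∧
      κ.Wit P₀ P₁ T (p.e.map κ.j) (q.e.map κ.j) :=
  ⟨fun ⟨p, q, hx, W, W', h1, h2, h3⟩ => ⟨p, q, hx, W, ⟨W', h1, h2⟩, h3⟩,
    fun ⟨p, q, hx, W, ⟨W', h1, h2⟩, h3⟩ => ⟨p, q, hx, W, W', h1, h2, h3⟩⟩

theorem Wit.ind {κ : Ctx B R} {I α β : Type} [Fintype I] [Fintype α] [Fintype β]
    {P₀ P₁ T : Matrix I I B} {p : Matrix α α R} {q : Matrix β β R} (hp : p * p = p)
    (hq : q * q = q) (h : κ.Wit P₀ P₁ T (p.map κ.j) (q.map κ.j)) :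
    κ.Ind P₀ P₁ T (K0.ofMat p hp - K0.ofMat q hq) :=
  κ.ind_iff.2 ⟨Idem.ofMat p hp, Idem.ofMat q hq, (K0.diff_eq _ _).symm,
    h.submatrix (Equiv.refl _) (Equiv.refl _) (Fintype.equivFin α).symm (Fintype.equivFin β).symm⟩

theorem Ind.submatrix {κ : Ctx B R} {I K : Type} [Fintype I] [Fintype K] {P₀ P₁ T : Matrix I I B}
    {x : K0 R} (h : κ.Ind P₀ P₁ T x) (ρ : K ≃ I) :
    κ.Ind (P₀.submatrix ρ ρ) (P₁.submatrix ρ ρ) (T.submatrix ρ ρ) x := by
  obtain ⟨p, q, hx, h⟩ := κ.ind_iff.1 h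
  exact κ.ind_iff.2 ⟨p, q, hx, h.submatrix ρ ρ (Equiv.refl _) (Equiv.refl _)⟩

theorem Ind.sum {κ : Ctx B R} {I K : Type} [Fintype I] [Fintype K] {P₀ P₁ T : Matrix I I B}
    {Q₀ Q₁ S : Matrix K K B} {x y : K0 R} (h : κ.Ind P₀ P₁ T x) (h' : κ.Ind Q₀ Q₁ S y) :
    κ.Ind (fromBlocks P₀ 0 0 Q₀) (fromBlocks P₁ 0 0 Q₁) (fromBlocks T 0 0 S) (x + y) := by
  obtain ⟨p, q, hx, h⟩ := κ.ind_iff.1 h
  obtain ⟨r, s, hy, h'⟩ := κ.ind_iff.1 h'
  have h1 := h.sum h'
  rw [← map_j_fromBlocks, ← map_j_fromBlocks] at h1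
  have h2 := h1.ind (idem_fromBlocks p.idem r.idem) (idem_fromBlocks q.idem s.idem)
  rw [K0.ofMat_fromBlocks p.idem r.idem, K0.ofMat_fromBlocks q.idem s.idem] at h2
  simp only [K0.ofMat_idem] at h2
  rw [hx, hy, K0.diff_eq, K0.diff_eq]
  convert h2 using 1
  abel

theorem one11_mul (a b : B) : one11 a * one11 b = one11 (a * b) := by
  ext i k
  simp [one11, Matrix.mul_apply]

theorem Fred1.fred {κ : Ctx B R} {P₀ P₁ T T' : B} (h : κ.Fred1 P₀ P₁ T T') :
    κ.Fred (one11 P₀) (one11 P₁) (one11 T) (one11 T') where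
  idem₀ := by rw [one11_mul, h.idem₀]
  idem₁ := by rw [one11_mul, h.idem₁]
  left := by rw [one11_mul, h.left]
  right := by rw [one11_mul, h.right]
  left' := by rw [one11_mul, h.left']
  right' := by rw [one11_mul, h.right']
  inv₀ := by rw [one11_mul]; exact fun _ _ => h.inv₀
  inv₁ := by rw [one11_mul]; exact fun _ _ => h.inv₁

/-- Existence of the index. -/
theorem Fred.exists_ind {κ : Ctx B R} {I : Type} [Fintype I] [DecidableEq I]
    {P₀ P₁ T T' : Matrix I I B} (h : κ.Fred P₀ P₁ T T') : ∃ x, κ.Ind P₀ P₁ T x := by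
  obtain ⟨m, A, C, u, hu⟩ := κ.approx I (T * T' - P₁) h.inv₁
  rw [← map_j_one] at hu
  have hq := one_mul (1 : Matrix (Fin m) (Fin m) R)
  suffices hs : ∃ (n : ℕ) (p : Matrix (Fin n) (Fin n) R), p * p = p ∧
      κ.Wit P₀ P₁ T (p.map κ.j) ((1 : Matrix (Fin m) (Fin m) R).map κ.j) by
    obtain ⟨n, p, hp, hw⟩ := hs
    exact ⟨_, hw.ind hp hq⟩
  have hε := map_j_idem (κ := κ) hq
  have hn := near_map (κ := κ) (1 : Matrix (Fin m) (Fin m) R)
  generalize (1 : Matrix (Fin m) (Fin m) R).map κ.j = ε at hu hε hn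
  have nu : κ.Near (u : Matrix I I B) 1 := by
    have h1 : κ.Near (T * T' - P₁) 0 := by simpa using h.inv₁.sub (Near.refl P₁)
    rw [hu]
    simpa using ((Near.refl 1).add h1).sub ((hn.zero_mul C).mul_zero A)
  have nu' : κ.Near (↑u⁻¹ : Matrix I I B) 1 := by
    simpa using (nu.mul_left (↑u⁻¹ : Matrix I I B)).symm
  obtain ⟨T1, hT1⟩ : ∃ T1, T1 = fromCols T (-(P₁ * A * ε)) := ⟨_, rfl⟩
  obtain ⟨R1, hR1⟩ : ∃ R1, R1 = fromRows T' (ε * C) * ((↑u⁻¹ : Matrix I I B) * P₁) := ⟨_, rfl⟩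
  have a1 : T1 * R1 = P₁ := by
    have h1 : T * T' + -(P₁ * A * ε) * (ε * C) = P₁ * (u : Matrix I I B) := by
      rw [hu, Matrix.mul_sub, Matrix.mul_add, Matrix.mul_sub, ← Matrix.mul_assoc P₁ T, h.left,
        h.idem₁, Matrix.mul_one, Matrix.neg_mul, Matrix.mul_assoc, ← Matrix.mul_assoc ε, hε,
        Matrix.mul_assoc]
      abel
    rw [hT1, hR1, ← Matrix.mul_assoc, fromCols_mul_fromRows, h1, Matrix.mul_assoc,
      ← Matrix.mul_assoc (u : Matrix I I B), u.mul_inv, Matrix.one_mul, h.idem₁]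
  have a2 : T1 * fromBlocks P₀ 0 0 ε = T1 := by
    simp [hT1, fromCols_mul_fromBlocks, h.right, Matrix.mul_assoc, hε]
  have a3 : fromBlocks P₀ 0 0 ε * R1 = R1 := by
    rw [hR1, ← Matrix.mul_assoc, fromBlocks_mul_fromRows]
    simp [h.left', ← Matrix.mul_assoc, hε]
  have a4 : P₁ * T1 = T1 := by
    simp [hT1, h.left, ← Matrix.mul_assoc, h.idem₁]
  have a5 : R1 * P₁ = R1 := by
    simp only [hR1, Matrix.mul_assoc, h.idem₁]
  have n1 : κ.Near T1 (fromCols T 0) := by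
    rw [hT1]
    exact (Near.refl T).fromCols (by simpa using (hn.mul_zero (P₁ * A)).neg)
  have n2 : κ.Near R1 (fromRows T' 0) := by
    rw [hR1]
    simpa [h.right'] using ((Near.refl T').fromRows (hn.zero_mul C)).mul (nu'.mul_right P₁)
  have hE := idem_fromBlocks h.idem₀ hε
  have he : (fromBlocks P₀ 0 0 ε - R1 * T1) * (fromBlocks P₀ 0 0 ε - R1 * T1) =
      fromBlocks P₀ 0 0 ε - R1 * T1 := by
    rw [Matrix.mul_sub, Matrix.sub_mul, Matrix.sub_mul, hE, Matrix.mul_assoc, a2,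
      ← Matrix.mul_assoc, a3, Matrix.mul_assoc, ← Matrix.mul_assoc T1, a1, a4, sub_self, sub_zero]
  have ne : κ.Near (fromBlocks P₀ 0 0 ε - R1 * T1) 0 := by
    have h1 := n2.mul n1
    rw [fromRows_mul_fromCols, Matrix.mul_zero, Matrix.mul_zero, Matrix.zero_mul] at h1
    have h2 := (h.inv₀.symm.fromBlocks (Near.refl 0) (Near.refl 0) hn).sub h1
    rwa [sub_self] at h2
  obtain ⟨n, X, Y, p, hp, b1, b2, b3, b4, b5⟩ := exists_factor he ne
  refine ⟨n, p, hp, fromRows T1 Y, ⟨fromCols R1 X, ?_, ?_⟩, ?_⟩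
  · rw [fromCols_mul_fromRows, b1, add_sub_cancel]
  · have c1 : T1 * X = 0 := by
      rw [← b3, ← Matrix.mul_assoc, Matrix.mul_sub, a2, ← Matrix.mul_assoc, a1, a4, sub_self,
        Matrix.zero_mul]
    have c2 : Y * R1 = 0 := by
      rw [← b4, Matrix.mul_assoc, Matrix.sub_mul, a3, Matrix.mul_assoc, a1, a5, sub_self,
        Matrix.mul_zero]
    rw [fromRows_mul_fromCols, a1, c1, c2, b2]
  · have h1 := n1.fromRows b5
    rintro (i | i) (k | k)
    exacts [h1 (Sum.inl i) (Sum.inl k), h1 (Sum.inl i) (Sum.inr k), h1 (Sum.inr i) (Sum.inl k),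
      h1 (Sum.inr i) (Sum.inr k)]

/-- Uniqueness of the index. -/
theorem Fred.ind_unique {κ : Ctx B R} {I : Type} [Fintype I] [DecidableEq I]
    {P₀ P₁ T T' : Matrix I I B} (h : κ.Fred P₀ P₁ T T') {x y : K0 R} (hx : κ.Ind P₀ P₁ T x)
    (hy : κ.Ind P₀ P₁ T y) : x = y := by
  obtain ⟨p, q, rfl, h1⟩ := κ.ind_iff.1 hx
  obtain ⟨r, s, rfl, h2⟩ := κ.ind_iff.1 hy
  have h3 := h2.symm h.idem₀ h.idem₁ (map_j_idem r.idem) (map_j_idem s.idem) (near_map _)
    h.right h.left' h.inv₁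
  have h4 := (h1.comp h3 h.idem₀ h.idem₀ (map_j_idem p.idem) (map_j_idem q.idem)
    (map_j_idem s.idem) (map_j_idem r.idem) (near_map _) (near_map _)).near h.inv₀
  rw [← map_j_fromBlocks, ← map_j_fromBlocks] at h4
  have h5 := h4.zero h.idem₀ (idem_fromBlocks s.idem p.idem) (idem_fromBlocks q.idem r.idem)
  rw [K0.ofMat_fromBlocks s.idem p.idem, K0.ofMat_fromBlocks q.idem r.idem] at h5
  simp only [K0.ofMat_idem] at h5
  rw [K0.diff_eq, K0.diff_eq, sub_eq_sub_iff_add_eq_add, add_comm, h5, add_comm]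

/-- Normalised witnesses. -/
theorem Fred.ind_normal {κ : Ctx B R} {I : Type} [Fintype I] [DecidableEq I]
    {P₀ P₁ T T' : Matrix I I B} (h : κ.Fred P₀ P₁ T T') {x : K0 R} (hx : κ.Ind P₀ P₁ T x) :
    ∃ p q : Idem R, x = K0.diff p q ∧
    ∃ (W : Matrix (I ⊕ Fin p.n) (I ⊕ Fin q.n) B) (W' : Matrix (I ⊕ Fin q.n) (I ⊕ Fin p.n) B),
      W' * W = Matrix.fromBlocks P₀ 0 0 (q.e.map κ.j) ∧
      W * W' = Matrix.fromBlocks P₁ 0 0 (p.e.map κ.j) ∧
      κ.Near W (Matrix.fromBlocks T 0 0 0) ∧ κ.Near W' (Matrix.fromBlocks T' 0 0 0) ∧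
      Matrix.fromBlocks P₁ 0 0 (p.e.map κ.j) * W = W ∧
      W * Matrix.fromBlocks P₀ 0 0 (q.e.map κ.j) = W ∧
      Matrix.fromBlocks P₀ 0 0 (q.e.map κ.j) * W' = W' ∧
      W' * Matrix.fromBlocks P₁ 0 0 (p.e.map κ.j) = W' := by
  obtain ⟨p, q, hx, W, W', h1, h2, h3⟩ := hx
  have he := map_j_idem (κ := κ) p.idem
  have hf := map_j_idem (κ := κ) q.idem
  obtain ⟨a1, a2, a3, a4, a5, a6⟩ :=
    normal_aux (idem_fromBlocks h.idem₀ hf) (idem_fromBlocks h.idem₁ he) h1 h2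
  obtain ⟨n1, n2⟩ := normal_wit h.idem₀ h.idem₁ he hf (near_map _) h.right h.left' h.inv₁ h1 h2 h3
  exact ⟨p, q, hx, _, _, a1, a2, n1, n2, a3, a4, a5, a6⟩

/-- Invariance of the index under equivalences intertwining `T` modulo `J`. -/
theorem Ind.equiv {κ : Ctx B R} {I I' : Type} [Fintype I] [DecidableEq I] [Fintype I']
    [DecidableEq I'] {P₀ P₁ T : Matrix I I B} {Q₀ Q₁ S : Matrix I' I' B}
    (X₀ X₁ : Matrix I' I B) (Y₀ Y₁ : Matrix I I' B)
    (hP₀ : P₀ * P₀ = P₀) (hP₁ : P₁ * P₁ = P₁) (hQ₀ : Q₀ * Q₀ = Q₀) (hQ₁ : Q₁ * Q₁ = Q₁)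
    (h₀ : Y₀ * X₀ = P₀) (h₀' : X₀ * Y₀ = Q₀) (h₁ : Y₁ * X₁ = P₁) (h₁' : X₁ * Y₁ = Q₁)
    (hT : κ.Near (X₁ * T * Y₀) S) {x : K0 R} (hx : κ.Ind P₀ P₁ T x) : κ.Ind Q₀ Q₁ S x := by
  obtain ⟨p, q, hx, h⟩ := κ.ind_iff.1 hx
  have he := map_j_idem (κ := κ) p.idem
  have hf := map_j_idem (κ := κ) q.idem
  have w0 : κ.Wit Q₀ P₀ Y₀ (q.e.map κ.j) (q.e.map κ.j) :=
    ⟨_, MIso.sum ⟨X₀, h₀', h₀⟩ (MIso.refl hf),
      (Near.refl _).fromBlocks (Near.refl _) (Near.refl _) (near_map _)⟩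
  have w1 : κ.Wit P₁ Q₁ X₁ (p.e.map κ.j) (p.e.map κ.j) :=
    ⟨_, MIso.sum ⟨Y₁, h₁, h₁'⟩ (MIso.refl he),
      (Near.refl _).fromBlocks (Near.refl _) (Near.refl _) (near_map _)⟩
  exact κ.ind_iff.2 ⟨p, q, hx,
    (w0.comp' (h.comp' w1 hP₀ hQ₁ hf he) hQ₀ hQ₁ hf he).near hT⟩

theorem ind_zero (I : Type) [Fintype I] : κ.Ind (0 : Matrix I I B) 0 0 0 := by
  have hp : (0 : Matrix Empty Empty R) * 0 = 0 := Matrix.mul_zero _
  have h : κ.Wit (0 : Matrix I I B) (0 : Matrix I I B) 0 ((0 : Matrix Empty Empty R).map κ.j)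
      ((0 : Matrix Empty Empty R).map κ.j) :=
    ⟨_, MIso.refl (idem_fromBlocks (Matrix.mul_zero _) (map_j_idem hp)),
      (Near.refl _).fromBlocks (Near.refl _) (Near.refl _) (near_map _)⟩
  simpa using h.ind hp hp

theorem ind1_zero : κ.Ind1 0 0 0 0 := κ.ind_zero Unit

/-- Additivity: the index of a diagonal matrix. -/
theorem Ind1.diagonal {κ : Ctx B R} {I : Type} [Fintype I] [DecidableEq I] {P₀ P₁ T : I → B}
    {x : I → K0 R} (h : ∀ i, κ.Ind1 (P₀ i) (P₁ i) (T i) (x i)) :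
    κ.Ind (Matrix.diagonal P₀) (Matrix.diagonal P₁) (Matrix.diagonal T) (∑ i, x i) := by
  revert h x T P₁ P₀ ‹DecidableEq I›
  refine Fintype.induction_empty_option (P := fun I _ => ∀ [DecidableEq I] {P₀ P₁ T : I → B}
    {x : I → K0 R}, (∀ i, κ.Ind1 (P₀ i) (P₁ i) (T i) (x i)) →
      κ.Ind (Matrix.diagonal P₀) (Matrix.diagonal P₁) (Matrix.diagonal T) (∑ i, x i)) ?_ ?_ ?_ I
  · intro α β _ e ih _ P₀ P₁ T x h
    classical
    let _ : Fintype α := Fintype.ofEquiv β e.symm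
    have h1 := (ih (P₀ := P₀ ∘ e) (P₁ := P₁ ∘ e) (T := T ∘ e) (x := x ∘ e)
      fun i => h (e i)).submatrix e.symm
    simp only [submatrix_diagonal_equiv, Function.comp_def, e.apply_symm_apply] at h1
    rwa [e.sum_comp x] at h1
  · intro _ P₀ P₁ T x _
    rw [Subsingleton.elim (Matrix.diagonal P₀) 0, Subsingleton.elim (Matrix.diagonal P₁) 0,
      Subsingleton.elim (Matrix.diagonal T) 0, Finset.univ_eq_empty, Finset.sum_empty]
    exact κ.ind_zero _
  · intro α _ ih _ P₀ P₁ T x h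
    classical
    have h1 := ((ih fun i => h (some i)).sum (h none)).submatrix (Equiv.optionEquivSumPUnit α)
    have h2 : ∀ P : Option α → B, (fromBlocks (Matrix.diagonal fun i => P (some i)) 0 0
        (one11 (P none))).submatrix (Equiv.optionEquivSumPUnit α) (Equiv.optionEquivSumPUnit α) =
        Matrix.diagonal P := fun P => by
      ext (_ | i) (_ | k) <;> simp [one11, diagonal_apply]
    rw [h2, h2, h2] at h1
    rw [Fintype.sum_option, add_comm]
    exact h1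

/-- Functoriality. -/
theorem Ind1.map {κ : Ctx B R} {B' R' : Type} [Ring B'] [Ring R'] {κ' : Ctx B' R'}
    (Φ : B →+* B') (φ : R →+* R') (hJ : ∀ b ∈ κ.J, Φ b ∈ κ'.J)
    (hj : ∀ r, Φ (κ.j r) = κ'.j (φ r)) {P₀ P₁ T : B} {x : K0 R} (h : κ.Ind1 P₀ P₁ T x) :
    κ'.Ind1 (Φ P₀) (Φ P₁) (Φ T) (K0.map φ x) := by
  obtain ⟨p, q, rfl, W, W', h1, h2, h3⟩ := h
  have key : ∀ (b : B) (r : Idem R), (fromBlocks (one11 b) 0 0 (r.e.map κ.j)).map Φ =
      fromBlocks (one11 (Φ b)) 0 0 ((r.map φ).e.map κ'.j) := fun b r => by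
    ext (i | i) (k | k)
    exacts [rfl, map_zero Φ, map_zero Φ, hj _]
  refine ⟨p.map φ, q.map φ, by simp only [K0.diff_eq, map_sub, K0.map_of], W.map Φ, W'.map Φ,
    ?_, ?_, ?_⟩
  · exact (Matrix.map_mul.symm.trans (congrArg (fun M => M.map Φ) h1)).trans (key _ _)
  · exact (Matrix.map_mul.symm.trans (congrArg (fun M => M.map Φ) h2)).trans (key _ _)
  · intro i k
    have h4 := hJ _ (h3 i k)
    rw [map_sub] at h4
    rcases i with i | i <;> rcases k with k | k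
    · exact h4
    all_goals
      have h5 : Φ (W _ _) - Φ 0 ∈ κ'.J := h4
      rw [map_zero] at h5
      exact h5

end Vale.Agent.P089.Ctx
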