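import Vale.Agent.P089.Model
import Vale.Agent.P089.AbsIndex

/-! Task T5a: the index of `Defs.lean` is the abstract index. See notes/P089/PROOF.md. -/

noncomputable section

namespace Vale.Agent.P089

variable {Γ : Type} [Group Γ] {H : Type} [NormedAddCommGroup H] [InnerProductSpace ℂ H]

theorem prR_comp_inR : (prR : Op (HSum H ℂ) ℂ).comp (inR : Op ℂ (HSum H ℂ)) = 1 := by
  ext; simp [prR, inR]

/-- The model context on `H ⊕ ℂ`. -/
def ctxH (Γ : Type) [Group Γ] (H : Type) [NormedAddCommGroup H] [InnerProductSpace ℂ H]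
    [CompleteSpace H] : Ctx (BAlg Γ (HSum H ℂ)) (CStarRed Γ) :=
  ctx Γ inR prR prR_comp_inR

/-- Extension by zero from `ℓ²(Γ, H)` to `ℓ²(Γ, H ⊕ ℂ)`. -/
def extOp (x : Op (L2 Γ H) (L2 Γ H)) : Op (L2 Γ (HSum H ℂ)) (L2 Γ (HSum H ℂ)) :=
  sandwich (ampl Γ inL) x (ampl Γ prL)

/-- coordinate projections -/
def Bridge.pi (H : Type) [NormedAddCommGroup H] [InnerProductSpace ℂ H] {m : ℕ} :
    Unit ⊕ Fin m → Op (HSum H (Cn m)) (HSum H ℂ)
  | Sum.inl _ => (inL : Op H (HSum H ℂ)).comp prL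
  | Sum.inr i => (inR : Op ℂ (HSum H ℂ)).comp ((prC i).comp prR)

/-- coordinate inclusions -/
def Bridge.io (H : Type) [NormedAddCommGroup H] [InnerProductSpace ℂ H] {m : ℕ} :
    Unit ⊕ Fin m → Op (HSum H ℂ) (HSum H (Cn m))
  | Sum.inl _ => (inL : Op H (HSum H (Cn m))).comp prL
  | Sum.inr i => (inR : Op (Cn m) (HSum H (Cn m))).comp ((inC i).comp prR)

theorem Bridge.sum_io_pi {m : ℕ} :
    ∑ a : Unit ⊕ Fin m, (Bridge.io H a).comp (Bridge.pi H a) = 1 := by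
  refine ContinuousLinearMap.ext fun v => ?_
  rw [Fintype.sum_sum_type, add_apply, sum_apply, sum_apply]
  refine WithLp.ofLp_injective 2 (Prod.ext ?_ ?_)
  · simp [Bridge.io, Bridge.pi, inL, inR, prL, prR, Prod.fst_sum]
  · ext j
    simp [Bridge.io, Bridge.pi, inL, inR, prL, prR, inC, prC, Prod.snd_sum, Pi.single_apply]

theorem Bridge.pi_io_ne {m : ℕ} {a b : Unit ⊕ Fin m} (h : a ≠ b) :
    (Bridge.pi H a).comp (Bridge.io H b) = 0 := by
  refine ContinuousLinearMap.ext fun v => ?_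
  rcases a with a | a <;> rcases b with b | b
  · exact absurd rfl h
  · simp [Bridge.io, Bridge.pi, inR, prL]
  · simp [Bridge.io, Bridge.pi, inL, prR]
  · have : a ≠ b := fun e => h (by rw [e])
    simp [Bridge.io, Bridge.pi, inR, prR, inC, prC, this]

theorem Bridge.pi_io_inl {m : ℕ} (a : Unit) :
    (Bridge.pi H (Sum.inl a : Unit ⊕ Fin m)).comp (Bridge.io H (Sum.inl a))
      = (inL : Op H (HSum H ℂ)).comp prL := by
  refine ContinuousLinearMap.ext fun v => ?_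
  simp [Bridge.io, Bridge.pi, inL, prL]

theorem Bridge.pi_io_inr {m : ℕ} (a : Fin m) :
    (Bridge.pi H (Sum.inr a : Unit ⊕ Fin m)).comp (Bridge.io H (Sum.inr a))
      = (inR : Op ℂ (HSum H ℂ)).comp prR := by
  refine ContinuousLinearMap.ext fun v => ?_
  simp [Bridge.io, Bridge.pi, inR, prR, inC, prC, ← WithLp.toLp_smul]

omit [Group Γ] in
theorem Bridge.ampl_sum {K K' ι : Type} [NormedAddCommGroup K] [InnerProductSpace ℂ K]
    [NormedAddCommGroup K'] [InnerProductSpace ℂ K'] (s : Finset ι) (T : ι → Op K K') :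
    ampl Γ (∑ i ∈ s, T i) = ∑ i ∈ s, ampl Γ (T i) :=
  map_sum (AddMonoidHom.mk' (ampl Γ) ampl_add) T s

omit [Group Γ] in
theorem Bridge.ampl_ampl {K K' K'' : Type} [NormedAddCommGroup K] [InnerProductSpace ℂ K]
    [NormedAddCommGroup K'] [InnerProductSpace ℂ K'] [NormedAddCommGroup K'']
    [InnerProductSpace ℂ K''] (T : Op K' K'') (T' : Op K K') (ξ : L2 Γ K) :
    ampl Γ T (ampl Γ T' ξ) = ampl Γ (T.comp T') ξ := by
  rw [← ampl_comp, ContinuousLinearMap.comp_apply]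

omit [Group Γ] in
theorem Bridge.sum_ampl {m : ℕ} (ξ : L2 Γ (HSum H (Cn m))) :
    ∑ a : Unit ⊕ Fin m, ampl Γ (Bridge.io H a) (ampl Γ (Bridge.pi H a) ξ) = ξ := by
  simp only [Bridge.ampl_ampl]
  rw [← sum_apply, ← Bridge.ampl_sum, Bridge.sum_io_pi, ampl_one, one_apply_eq_self]

/-- matrix entries of an operator -/
def Bridge.ent {m n : ℕ} (X : Op (L2 Γ (HSum H (Cn n))) (L2 Γ (HSum H (Cn m))))
    (a : Unit ⊕ Fin m) (b : Unit ⊕ Fin n) : Op (L2 Γ (HSum H ℂ)) (L2 Γ (HSum H ℂ)) :=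
  (ampl Γ (Bridge.pi H a)).comp (X.comp (ampl Γ (Bridge.io H b)))

omit [Group Γ] in
theorem Bridge.ent_apply {m n : ℕ} (X : Op (L2 Γ (HSum H (Cn n))) (L2 Γ (HSum H (Cn m))))
    (a : Unit ⊕ Fin m) (b : Unit ⊕ Fin n) (ξ) :
    Bridge.ent X a b ξ = ampl Γ (Bridge.pi H a) (X (ampl Γ (Bridge.io H b) ξ)) := rfl

omit [Group Γ] in
theorem Bridge.ent_sub {m n : ℕ} (X Y : Op (L2 Γ (HSum H (Cn n))) (L2 Γ (HSum H (Cn m))))
    (a : Unit ⊕ Fin m) (b : Unit ⊕ Fin n) :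
    Bridge.ent (X - Y) a b = Bridge.ent X a b - Bridge.ent Y a b :=
  ContinuousLinearMap.ext fun ξ => by simp [Bridge.ent_apply]

omit [Group Γ] in
theorem Bridge.ent_comp {l m n : ℕ} (X : Op (L2 Γ (HSum H (Cn m))) (L2 Γ (HSum H (Cn l))))
    (Y : Op (L2 Γ (HSum H (Cn n))) (L2 Γ (HSum H (Cn m))))
    (a : Unit ⊕ Fin l) (c : Unit ⊕ Fin n) :
    Bridge.ent (X.comp Y) a c = ∑ b, Bridge.ent X a b * Bridge.ent Y b c := by
  refine ContinuousLinearMap.ext fun ξ => ?_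
  rw [sum_apply]
  simp only [mul_apply_eq_comp, Bridge.ent_apply]
  rw [← map_sum, ← map_sum, Bridge.sum_ampl, ContinuousLinearMap.comp_apply]

omit [Group Γ] in
theorem Bridge.eq_sum_ent {m n : ℕ} (X : Op (L2 Γ (HSum H (Cn n))) (L2 Γ (HSum H (Cn m)))) :
    X = ∑ a, ∑ b, (ampl Γ (Bridge.io H a)).comp
      ((Bridge.ent X a b).comp (ampl Γ (Bridge.pi H b))) := by
  refine ContinuousLinearMap.ext fun ξ => ?_
  simp only [sum_apply, ContinuousLinearMap.comp_apply, Bridge.ent_apply, ← map_sum,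
    Bridge.sum_ampl]

omit [Group Γ] in
theorem Bridge.ent_ext {m n : ℕ} {X Y : Op (L2 Γ (HSum H (Cn n))) (L2 Γ (HSum H (Cn m)))}
    (h : ∀ a b, Bridge.ent X a b = Bridge.ent Y a b) : X = Y := by
  rw [Bridge.eq_sum_ent X, Bridge.eq_sum_ent Y]
  simp only [h]

theorem Bridge.ampl_mem {K K' : Type} [NormedAddCommGroup K] [InnerProductSpace ℂ K]
    [NormedAddCommGroup K'] [InnerProductSpace ℂ K'] (T : Op K K') : ampl Γ T ∈ bOps Γ K K' :=
  lamT_one (Γ := Γ) T ▸ lamT_mem_bOps 1 T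

theorem Bridge.ent_mem_cpt {m n : ℕ} {X : Op (L2 Γ (HSum H (Cn n))) (L2 Γ (HSum H (Cn m)))}
    (h : X ∈ cptOps Γ _ _) (a b) : Bridge.ent X a b ∈ cptOps Γ _ _ :=
  comp_mem_cptOps_left (Bridge.ampl_mem _) (comp_mem_cptOps_right h (Bridge.ampl_mem _))

theorem Bridge.mem_cpt_of_ent {m n : ℕ} {X : Op (L2 Γ (HSum H (Cn n))) (L2 Γ (HSum H (Cn m)))}
    (h : ∀ a b, Bridge.ent X a b ∈ cptOps Γ _ _) : X ∈ cptOps Γ _ _ := by
  rw [Bridge.eq_sum_ent X]
  exact Finset.sum_induction _ _ (fun _ _ => add_mem_cptOps) zero_mem_cptOps fun a _ =>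
    Finset.sum_induction _ _ (fun _ _ => add_mem_cptOps) zero_mem_cptOps fun b _ =>
      comp_mem_cptOps_left (Bridge.ampl_mem _) (comp_mem_cptOps_right (h a b) (Bridge.ampl_mem _))

omit [Group Γ] in
theorem Bridge.exists_asm {m n : ℕ}
    (W : Unit ⊕ Fin m → Unit ⊕ Fin n → Op (L2 Γ (HSum H ℂ)) (L2 Γ (HSum H ℂ)))
    (h1 : ∀ a b, ampl Γ ((Bridge.pi H a).comp (Bridge.io H a)) * W a b = W a b)
    (h2 : ∀ a b, W a b * ampl Γ ((Bridge.pi H b).comp (Bridge.io H b)) = W a b) :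
    ∃ X : Op (L2 Γ (HSum H (Cn n))) (L2 Γ (HSum H (Cn m))), ∀ a b, Bridge.ent X a b = W a b := by
  refine ⟨∑ a, ∑ b, (ampl Γ (Bridge.io H a)).comp ((W a b).comp (ampl Γ (Bridge.pi H b))),
    fun a b => ContinuousLinearMap.ext fun ξ => ?_⟩
  simp only [Bridge.ent_apply, sum_apply, ContinuousLinearMap.comp_apply, map_sum,
    Bridge.ampl_ampl]
  rw [Finset.sum_eq_single a, Finset.sum_eq_single b]
  · rw [← mul_apply_eq_comp (W a b), h2, ← mul_apply_eq_comp, h1]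
  · intro b' _ hb
    rw [Bridge.pi_io_ne hb, ampl_zero, zero_apply, map_zero, map_zero]
  · simp
  · intro a' _ ha
    simp only [Bridge.pi_io_ne ha.symm, ampl_zero, zero_apply, Finset.sum_const_zero]
  · simp

omit [Group Γ] in
theorem Bridge.ent_dsum {m n : ℕ} (P : Op (L2 Γ H) (L2 Γ H))
    (Q : Op (L2 Γ (Cn n)) (L2 Γ (Cn m))) (a b) (ξ) :
    Bridge.ent (dsum P Q) a b ξ =
      ampl Γ ((Bridge.pi H a).comp inL) (P (ampl Γ (prL.comp (Bridge.io H b)) ξ))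
        + ampl Γ ((Bridge.pi H a).comp inR) (Q (ampl Γ (prR.comp (Bridge.io H b)) ξ)) := by
  simp only [Bridge.ent_apply, dsum, opAdd, sandwich, add_apply, ContinuousLinearMap.comp_apply,
    map_add, Bridge.ampl_ampl]

theorem Bridge.matOp_entry {m : ℕ} (q : Matrix (Fin m) (Fin m) (CStarRed Γ)) (i j : Fin m) (ξ) :
    ampl Γ (prC i) (matOp q (ampl Γ (inC j) ξ)) = (q i j).op ξ := by
  have h0 : ∀ {a b : Fin m}, a ≠ b → (prC a).comp (inC b) = 0 := fun {a b} h => by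
    ext; simp [prC, inC, h]
  have h1 : ∀ a : Fin m, (prC a).comp (inC a) = 1 := fun a => by
    ext; simp [prC, inC]
  rw [matOp, opSum, finsum_eq_sum_of_fintype, sum_apply, map_sum, Finset.sum_eq_single (i, j)]
  · simp only [sandwich, ContinuousLinearMap.comp_apply, Bridge.ampl_ampl, h1, ampl_one,
      one_apply_eq_self]
  · rintro ⟨a, b⟩ _ hab
    simp only [sandwich, ContinuousLinearMap.comp_apply, Bridge.ampl_ampl]
    by_cases ha : i = a
    · have hb : b ≠ j := fun hb => hab (by rw [ha, hb])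
      rw [h0 hb, ampl_zero, zero_apply, map_zero, map_zero]
    · rw [h0 ha, ampl_zero, zero_apply]
  · simp

section

variable {m : ℕ}

theorem Bridge.c1 (a : Unit) :
    (Bridge.pi H (Sum.inl a : Unit ⊕ Fin m)).comp inL = inL := by
  ext1 v; simp [Bridge.pi, inL, prL]

theorem Bridge.c2 (a : Unit) :
    (Bridge.pi H (Sum.inl a : Unit ⊕ Fin m)).comp inR = 0 := by
  ext1 v; simp [Bridge.pi, inR, prL]

theorem Bridge.c3 (a : Fin m) :
    (Bridge.pi H (Sum.inr a : Unit ⊕ Fin m)).comp inL = 0 := by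
  ext1 v; simp [Bridge.pi, inL, prR]

theorem Bridge.c4 (a : Fin m) :
    (Bridge.pi H (Sum.inr a : Unit ⊕ Fin m)).comp inR = (inR : Op ℂ _).comp (prC a) := by
  ext1 v; simp [Bridge.pi, inR, prR]

theorem Bridge.d1 (a : Unit) :
    prL.comp (Bridge.io H (Sum.inl a : Unit ⊕ Fin m)) = prL := by
  ext1 v; simp [Bridge.io, inL, prL]

theorem Bridge.d2 (a : Unit) :
    prR.comp (Bridge.io H (Sum.inl a : Unit ⊕ Fin m)) = 0 := by
  ext1 v; simp [Bridge.io, inL, prR]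

theorem Bridge.d3 (a : Fin m) :
    prL.comp (Bridge.io H (Sum.inr a : Unit ⊕ Fin m)) = 0 := by
  ext1 v; simp [Bridge.io, inR, prL]

theorem Bridge.d4 (a : Fin m) :
    prR.comp (Bridge.io H (Sum.inr a : Unit ⊕ Fin m)) = (inC a).comp prR := by
  ext1 v; simp [Bridge.io, inR, prR]

end

theorem Bridge.ent_dsum_mat [CompleteSpace H] {m : ℕ} {P : Op (L2 Γ H) (L2 Γ H)}
    {A : BAlg Γ (HSum H ℂ)} (h : A.1 = extOp P) (q : Matrix (Fin m) (Fin m) (CStarRed Γ)) (a b) :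
    Bridge.ent (dsum P (matOp q)) a b
      = (Matrix.fromBlocks (Ctx.one11 A) 0 0 (q.map (ctxH Γ H).j) a b).1 := by
  refine ContinuousLinearMap.ext fun ξ => ?_
  rw [Bridge.ent_dsum]
  rcases a with a | a <;> rcases b with b | b
  · rw [Bridge.c1, Bridge.c2, Bridge.d1, ampl_zero, zero_apply, add_zero]
    exact (congrArg (fun x : Op _ _ => x ξ) h).symm
  · rw [Bridge.c2, Bridge.d3, ampl_zero, ampl_zero]
    simp
  · rw [Bridge.c3, Bridge.d2, ampl_zero, ampl_zero]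
    simp
  · rw [Bridge.c3, Bridge.c4, Bridge.d4, ampl_zero, zero_apply, zero_add, ← Bridge.ampl_ampl,
      ← Bridge.ampl_ampl, Bridge.matOp_entry]
    rfl

theorem Bridge.ent_dsum_zero {m n : ℕ} {P : Op (L2 Γ H) (L2 Γ H)}
    {A : BAlg Γ (HSum H ℂ)} (h : A.1 = extOp P) (a : Unit ⊕ Fin m) (b : Unit ⊕ Fin n) :
    Bridge.ent (dsum P opZero) a b = (Matrix.fromBlocks (Ctx.one11 A) 0 0 0 a b).1 := by
  refine ContinuousLinearMap.ext fun ξ => ?_
  rw [Bridge.ent_dsum, opZero, zero_apply, map_zero, add_zero]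
  rcases a with a | a <;> rcases b with b | b
  · rw [Bridge.c1, Bridge.d1]
    exact (congrArg (fun x : Op _ _ => x ξ) h).symm
  · rw [Bridge.d3, ampl_zero]
    simp
  · rw [Bridge.c3, ampl_zero]
    simp
  · rw [Bridge.c3, ampl_zero]
    simp

omit [Group Γ] in
theorem Bridge.E_mul_ent {m n : ℕ} (X : Op (L2 Γ (HSum H (Cn n))) (L2 Γ (HSum H (Cn m))))
    (a : Unit ⊕ Fin m) (b : Unit ⊕ Fin n) :
    ampl Γ ((Bridge.pi H a).comp (Bridge.io H a)) * Bridge.ent X a b = Bridge.ent X a b := by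
  have : ((Bridge.pi H a).comp (Bridge.io H a)).comp (Bridge.pi H a) = Bridge.pi H a := by
    rcases a with a | a
    · rw [Bridge.pi_io_inl]
      ext1 v; simp [Bridge.pi, inL, prL]
    · rw [Bridge.pi_io_inr]
      ext1 v; simp [Bridge.pi, inR, prR]
  refine ContinuousLinearMap.ext fun ξ => ?_
  rw [mul_apply_eq_comp, Bridge.ent_apply, Bridge.ampl_ampl, this]

omit [Group Γ] in
theorem Bridge.ent_mul_E {m n : ℕ} (X : Op (L2 Γ (HSum H (Cn n))) (L2 Γ (HSum H (Cn m))))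
    (a : Unit ⊕ Fin m) (b : Unit ⊕ Fin n) :
    Bridge.ent X a b * ampl Γ ((Bridge.pi H b).comp (Bridge.io H b)) = Bridge.ent X a b := by
  have : (Bridge.io H b).comp ((Bridge.pi H b).comp (Bridge.io H b)) = Bridge.io H b := by
    rcases b with b | b
    · rw [Bridge.pi_io_inl]
      ext1 v; simp [Bridge.io, inL, prL]
    · rw [Bridge.pi_io_inr]
      ext1 v; simp [Bridge.io, inR, prR]
  refine ContinuousLinearMap.ext fun ξ => ?_
  rw [mul_apply_eq_comp, Bridge.ent_apply, Bridge.ent_apply, Bridge.ampl_ampl, this]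

theorem Bridge.coe_mul {α β γ : Type} [Fintype β] (X : Matrix α β (BAlg Γ (HSum H ℂ)))
    (Y : Matrix β γ (BAlg Γ (HSum H ℂ))) (a c) :
    ((X * Y) a c).1 = ∑ b, (X a b).1 * (Y b c).1 := by
  rw [Matrix.mul_apply, AddSubmonoidClass.coe_finsetSum]
  rfl

theorem Bridge.exists_asm' {m n : ℕ} (W : Matrix (Unit ⊕ Fin m) (Unit ⊕ Fin n) (BAlg Γ (HSum H ℂ)))
    {D₁ : Matrix (Unit ⊕ Fin m) (Unit ⊕ Fin m) (BAlg Γ (HSum H ℂ))}
    {D₀ : Matrix (Unit ⊕ Fin n) (Unit ⊕ Fin n) (BAlg Γ (HSum H ℂ))}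
    {X₁ : Op (L2 Γ (HSum H (Cn m))) (L2 Γ (HSum H (Cn m)))}
    {X₀ : Op (L2 Γ (HSum H (Cn n))) (L2 Γ (HSum H (Cn n)))}
    (e₁ : ∀ a b, Bridge.ent X₁ a b = (D₁ a b).1) (e₀ : ∀ a b, Bridge.ent X₀ a b = (D₀ a b).1)
    (h₁ : D₁ * W = W) (h₀ : W * D₀ = W) :
    ∃ X : Op (L2 Γ (HSum H (Cn n))) (L2 Γ (HSum H (Cn m))),
      ∀ a b, Bridge.ent X a b = (W a b).1 := by
  refine Bridge.exists_asm (fun a b => (W a b).1) (fun a b => ?_) (fun a b => ?_)
  · rw [← h₁, Bridge.coe_mul, Finset.mul_sum]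
    simp only [← e₁, ← mul_assoc, Bridge.E_mul_ent]
  · rw [← h₀, Bridge.coe_mul, Finset.sum_mul]
    simp only [← e₀, mul_assoc, Bridge.ent_mul_E]

theorem isIndex_iff_ind1 [CompleteSpace H] (P₀ P₁ : Op (L2 Γ H) (L2 Γ H)) (F : Op H H)
    (A₀ A₁ t t' : BAlg Γ (HSum H ℂ)) (h₀ : A₀.1 = extOp P₀) (h₁ : A₁.1 = extOp P₁)
    (ht : t.1 = extOp (sandwich P₁ (ampl Γ F) P₀)) (ht' : t'.1 = extOp (sandwich P₀ (ampl Γ F) P₁))
    (hF : (ctxH Γ H).Fred1 A₀ A₁ t t') (x : K0 (CStarRed Γ)) :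
    IsIndex P₀ P₁ F x ↔ (ctxH Γ H).Ind1 A₀ A₁ t x := by
  constructor
  · rintro ⟨p, q, rfl, W, W', e₀, e₁, k, k'⟩
    have m : ∀ a b, Bridge.ent W a b ∈ bOps Γ _ _ := fun a b => by
      have := add_mem_bOps (cptOps_subset_bOps (Bridge.ent_mem_cpt k a b))
        (Matrix.fromBlocks (Ctx.one11 t) 0 0 0 a b).2
      rwa [Bridge.ent_sub, Bridge.ent_dsum_zero ht, sub_add_cancel] at this
    have m' : ∀ a b, Bridge.ent W' a b ∈ bOps Γ _ _ := fun a b => by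
      have := add_mem_bOps (cptOps_subset_bOps (Bridge.ent_mem_cpt k' a b))
        (Matrix.fromBlocks (Ctx.one11 t') 0 0 0 a b).2
      rwa [Bridge.ent_sub, Bridge.ent_dsum_zero ht', sub_add_cancel] at this
    refine ⟨p, q, rfl, Matrix.of fun a b => ⟨_, m a b⟩, Matrix.of fun a b => ⟨_, m' a b⟩,
      ?_, ?_, fun a b => ?_⟩
    · refine Matrix.ext fun a c => Subtype.ext ?_
      rw [Bridge.coe_mul, ← Bridge.ent_dsum_mat h₀, ← e₀, Bridge.ent_comp]
      rfl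
    · refine Matrix.ext fun a c => Subtype.ext ?_
      rw [Bridge.coe_mul, ← Bridge.ent_dsum_mat h₁, ← e₁, Bridge.ent_comp]
      rfl
    · refine mem_jIdeal.2 ?_
      have := Bridge.ent_mem_cpt k a b
      rw [Bridge.ent_sub, Bridge.ent_dsum_zero ht] at this
      exact this
  · intro h
    obtain ⟨p, q, rfl, W, W', e₀, e₁, k, k', n₁, n₂, n₃, n₄⟩ := hF.fred.ind_normal h
    obtain ⟨X, hX⟩ := Bridge.exists_asm' W (Bridge.ent_dsum_mat h₁ p.e)
      (Bridge.ent_dsum_mat h₀ q.e) n₁ n₂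
    obtain ⟨X', hX'⟩ := Bridge.exists_asm' W' (Bridge.ent_dsum_mat h₀ q.e)
      (Bridge.ent_dsum_mat h₁ p.e) n₃ n₄
    refine ⟨p, q, rfl, X, X', Bridge.ent_ext fun a c => ?_, Bridge.ent_ext fun a c => ?_,
      Bridge.mem_cpt_of_ent fun a b => ?_, Bridge.mem_cpt_of_ent fun a b => ?_⟩
    · rw [Bridge.ent_comp, Bridge.ent_dsum_mat h₀, ← e₀, Bridge.coe_mul]
      simp only [hX, hX']
    · rw [Bridge.ent_comp, Bridge.ent_dsum_mat h₁, ← e₁, Bridge.coe_mul]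
      simp only [hX, hX']
    · rw [Bridge.ent_sub, Bridge.ent_dsum_zero ht, hX]
      exact mem_jIdeal.1 (k a b)
    · rw [Bridge.ent_sub, Bridge.ent_dsum_zero ht', hX']
      exact mem_jIdeal.1 (k' a b)

end Vale.Agent.P089
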