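import Vale.Agent.P089.GraphDefs

/-! Task D: random linear codes. See notes/P089/PROOF.md, section D. -/

open Classical

namespace Vale.Agent.P089

namespace CodeAux

open Finset

/-- Uniformity of the image under a surjective homomorphism of finite groups. -/
theorem card_preimage {A B : Type} [AddCommGroup A] [AddCommGroup B] [Fintype A] [Fintype B]
    (f : A →+ B) (hf : Function.Surjective f) (S : Finset B) (E : Finset A)
    (hE : ∀ a, a ∈ E ↔ f a ∈ S) :
    E.card * Fintype.card B = S.card * Fintype.card A := by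
  have hE' : E = univ.filter fun a => f a ∈ S := by
    ext a; simp [hE]
  rw [hE']
  have hfib : ∀ b : B, (univ.filter fun a => f a = b).card = (univ.filter fun a => f a = 0).card := by
    intro b
    obtain ⟨a0, rfl⟩ := hf b
    refine Finset.card_bij (fun a _ => a - a0) ?_ ?_ ?_
    · intro a ha
      simp only [mem_filter, mem_univ, true_and] at ha ⊢
      rw [map_sub, ha, sub_self]
    · intro a _ a' _ h
      exact sub_left_injective h
    · intro a ha
      simp only [mem_filter, mem_univ, true_and] at ha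
      refine ⟨a + a0, ?_, by simp⟩
      simp only [mem_filter, mem_univ, true_and]
      rw [map_add, ha, zero_add]
  have key : ∀ S : Finset B, (univ.filter fun a => f a ∈ S).card
      = S.card * (univ.filter fun a => f a = 0).card := by
    intro S
    rw [Finset.card_eq_sum_card_fiberwise (f := fun a => f a) (t := S)
      (fun a ha => by simpa using ha)]
    rw [Finset.sum_congr rfl (g := fun _ => (univ.filter fun a => f a = 0).card)]
    · simp
    · intro b hb
      rw [← hfib b]
      congr 1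
      ext a
      simp only [mem_filter, mem_univ, true_and]
      constructor
      · exact fun h => h.2
      · intro h
        exact ⟨h ▸ hb, h⟩
  have h1 := key univ
  have h2 : (univ.filter fun a => f a ∈ (univ : Finset B)) = univ := by
    ext a; simp
  rw [h2, card_univ, card_univ] at h1
  rw [key S, h1]
  ring

theorem zmod2_cases (t : ZMod 2) : t = 0 ∨ t = 1 := by
  revert t; decide

theorem pow_bound (T : ℕ) (hT : 200 ≤ T) : T * 2 ^ 128 ≤ 2 ^ T := by
  induction T, hT using Nat.le_induction with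
  | base => norm_num
  | succ k hk ih =>
    have : (k + 1) * 2 ^ 128 ≤ 2 * (k * 2 ^ 128) := by
      rw [← mul_assoc]
      exact Nat.mul_le_mul_right _ (by omega)
    calc (k + 1) * 2 ^ 128 ≤ 2 * (k * 2 ^ 128) := this
      _ ≤ 2 * 2 ^ k := Nat.mul_le_mul_left _ ih
      _ = 2 ^ (k + 1) := by ring

variable {τ : Type} [Fintype τ] [DecidableEq τ]

/-- Linear combination of the rows of an array. -/
def comb {n : ℕ} (z : Fin n → ZMod 2) :
    (Fin n → Fin n → τ → ZMod 2) →+ (Fin n → τ → ZMod 2) where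
  toFun M := ∑ k, z k • M k
  map_zero' := by simp
  map_add' M M' := by simp [Finset.sum_add_distrib]

omit [Fintype τ] [DecidableEq τ] in
theorem comb_surj {n : ℕ} (z : Fin n → ZMod 2) (hz : z ≠ 0) :
    Function.Surjective (comb (τ := τ) z) := by
  obtain ⟨k, hk⟩ := Function.ne_iff.1 hz
  have hk1 : z k = 1 := by
    rcases zmod2_cases (z k) with h | h
    · exact absurd h hk
    · exact h
  intro y
  refine ⟨Pi.single k y, ?_⟩
  show ∑ j, z j • (Pi.single k y : Fin n → Fin n → τ → ZMod 2) j = y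
  rw [Finset.sum_eq_single k]
  · simp [hk1]
  · intro j _ hj
    simp [Pi.single_eq_of_ne hj]
  · simp

/-- The pairings of `z` with the rows of an array. -/
def prs {n : ℕ} (z : Fin n → τ → ZMod 2) :
    (Fin n → Fin n → τ → ZMod 2) →+ (Fin n → ZMod 2) where
  toFun M := fun k => pairing z (M k)
  map_zero' := by
    funext k
    simp [pairing]
  map_add' M M' := by
    funext k
    simp [pairing, mul_add, Finset.sum_add_distrib]

theorem prs_surj {n : ℕ} (z : Fin n → τ → ZMod 2) (hz : z ≠ 0) :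
    Function.Surjective (prs z) := by
  obtain ⟨v, hv⟩ := Function.ne_iff.1 hz
  obtain ⟨t, ht⟩ := Function.ne_iff.1 hv
  have h1 : z v t = 1 := by
    rcases zmod2_cases (z v t) with h | h
    · exact absurd h ht
    · exact h
  intro y
  refine ⟨fun k => Pi.single v (Pi.single t (y k)), ?_⟩
  funext k
  show pairing z (Pi.single v (Pi.single t (y k))) = y k
  unfold pairing
  rw [Finset.sum_eq_single v]
  · rw [Finset.sum_eq_single t]
    · simp [h1]
    · intro j _ hj
      simp [Pi.single_eq_of_ne hj]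
    · simp
  · intro j _ hj
    simp [Pi.single_eq_of_ne hj]
  · simp

/-- Number of basis vector entries. -/
noncomputable def wt {n : ℕ} (y : Fin n → τ → ZMod 2) : ℕ :=
  (Finset.univ.filter fun v => ∃ t, y v = Pi.single t 1).card

theorem card_heavy (hτ : 200 ≤ Fintype.card τ) (n k : ℕ) :
    (univ.filter fun y : Fin n → τ → ZMod 2 => k ≤ wt y).card * 2 ^ (128 * k)
      ≤ 2 ^ n * Fintype.card (Fin n → τ → ZMod 2) := by
  let basis : Finset (τ → ZMod 2) := univ.image fun t => Pi.single t 1
  have hb : basis.card ≤ Fintype.card τ := by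
    simpa using Finset.card_image_le (s := (univ : Finset τ))
      (f := fun t => (Pi.single t 1 : τ → ZMod 2))
  let box : Finset (Fin n) → Finset (Fin n → τ → ZMod 2) := fun A =>
    Fintype.piFinset fun v => if v ∈ A then basis else univ
  have hsub : (univ.filter fun y : Fin n → τ → ZMod 2 => k ≤ wt y)
      ⊆ (powersetCard k univ).biUnion box := by
    intro y hy
    simp only [mem_filter, mem_univ, true_and] at hy
    obtain ⟨A, hA, hAk⟩ := Finset.exists_subset_card_eq hy
    refine mem_biUnion.2 ⟨A, mem_powersetCard.2 ⟨subset_univ _, hAk⟩, ?_⟩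
    refine Fintype.mem_piFinset.2 fun v => ?_
    split_ifs with hv
    · have := hA hv
      simp only [mem_filter, mem_univ, true_and] at this
      obtain ⟨t, ht⟩ := this
      exact mem_image.2 ⟨t, mem_univ _, ht.symm⟩
    · exact mem_univ _
  have hbox : ∀ A ∈ powersetCard k (univ : Finset (Fin n)),
      (box A).card * 2 ^ (128 * k) ≤ Fintype.card (Fin n → τ → ZMod 2) := by
    intro A hA
    have hAk := (mem_powersetCard.1 hA).2
    have e1 : (2 : ℕ) ^ (128 * k) = ∏ v : Fin n, if v ∈ A then 2 ^ 128 else 1 := by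
      rw [Finset.prod_ite_mem, univ_inter, prod_const, hAk, ← pow_mul]
    have e2 : Fintype.card (Fin n → τ → ZMod 2) = ∏ _v : Fin n, 2 ^ Fintype.card τ := by
      simp
    rw [e1, e2, Fintype.card_piFinset, ← Finset.prod_mul_distrib]
    refine Finset.prod_le_prod' fun v _ => ?_
    split_ifs
    · exact le_trans (Nat.mul_le_mul_right _ hb) (pow_bound _ hτ)
    · simp
  calc _ ≤ (∑ A ∈ powersetCard k (univ : Finset (Fin n)), (box A).card) * 2 ^ (128 * k) :=
        Nat.mul_le_mul_right _ (le_trans (card_le_card hsub) card_biUnion_le)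
    _ = ∑ A ∈ powersetCard k (univ : Finset (Fin n)), (box A).card * 2 ^ (128 * k) := by
        rw [Finset.sum_mul]
    _ ≤ ∑ _A ∈ powersetCard k (univ : Finset (Fin n)), Fintype.card (Fin n → τ → ZMod 2) :=
        Finset.sum_le_sum hbox
    _ = (powersetCard k (univ : Finset (Fin n))).card * Fintype.card (Fin n → τ → ZMod 2) := by
        simp
    _ ≤ 2 ^ n * Fintype.card (Fin n → τ → ZMod 2) := by
        refine Nat.mul_le_mul_right _ ?_
        calc _ ≤ (powerset (univ : Finset (Fin n))).card :=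
              card_le_card fun A hA => mem_powerset.2 (subset_univ _)
          _ = 2 ^ n := by simp

theorem card_bad1 (hτ : 200 ≤ Fintype.card τ) (n : ℕ) (x : Fin n → τ → ZMod 2) :
    4 * (univ.filter fun M : Fin n → Fin n → τ → ZMod 2 =>
        ∃ t : ZMod 2, ∃ z, z ≠ 0 ∧ n / 32 + 1 ≤ wt (t • x + comb z M)).card
      ≤ Fintype.card (Fin n → Fin n → τ → ZMod 2) := by
  set k := n / 32 + 1 with hk
  set CA := Fintype.card (Fin n → Fin n → τ → ZMod 2) with hCA
  set CW := Fintype.card (Fin n → τ → ZMod 2) with hCW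
  have hWpos : 0 < CW := Fintype.card_pos
  let ev : ZMod 2 × (Fin n → ZMod 2) → Finset (Fin n → Fin n → τ → ZMod 2) := fun q =>
    univ.filter fun M => q.2 ≠ 0 ∧ k ≤ wt (q.1 • x + comb q.2 M)
  have hev : ∀ q, (ev q).card * 2 ^ (128 * k) ≤ 2 ^ n * CA := by
    intro q
    by_cases hq : q.2 = 0
    · have : ev q = ∅ := by
        ext M; simp [ev, hq]
      simp [this]
    · have h1 := card_preimage (comb (τ := τ) q.2) (comb_surj q.2 hq)
        (univ.filter fun y => k ≤ wt (q.1 • x + y)) (ev q) (fun M => by simp [ev, hq])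
      have h2 : (univ.filter fun y : Fin n → τ → ZMod 2 => k ≤ wt (q.1 • x + y)).card
          = (univ.filter fun y : Fin n → τ → ZMod 2 => k ≤ wt y).card := by
        refine Finset.card_bij (fun y _ => q.1 • x + y) ?_ ?_ ?_
        · intro y hy
          simpa using hy
        · intro y _ y' _ h
          exact add_left_cancel h
        · intro y hy
          refine ⟨y - q.1 • x, ?_, by simp⟩
          simpa using hy
      rw [h2, ← hCA, ← hCW] at h1
      have h4 := card_heavy hτ n k
      rw [← hCW] at h4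
      refine Nat.le_of_mul_le_mul_right ?_ hWpos
      calc (ev q).card * 2 ^ (128 * k) * CW = ((ev q).card * CW) * 2 ^ (128 * k) := by ring
        _ = ((univ.filter fun y : Fin n → τ → ZMod 2 => k ≤ wt y).card * 2 ^ (128 * k)) * CA := by
            rw [h1]; ring
        _ ≤ (2 ^ n * CW) * CA := Nat.mul_le_mul_right _ h4
        _ = 2 ^ n * CA * CW := by ring
  have hsub : (univ.filter fun M : Fin n → Fin n → τ → ZMod 2 =>
        ∃ t : ZMod 2, ∃ z, z ≠ 0 ∧ k ≤ wt (t • x + comb z M)) ⊆ univ.biUnion ev := by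
    intro M hM
    simp only [mem_filter, mem_univ, true_and] at hM
    obtain ⟨t, z, hz, hw⟩ := hM
    exact mem_biUnion.2 ⟨(t, z), mem_univ _, by simp [ev, hz, hw]⟩
  have h5 : (univ.filter fun M : Fin n → Fin n → τ → ZMod 2 =>
        ∃ t : ZMod 2, ∃ z, z ≠ 0 ∧ k ≤ wt (t • x + comb z M)).card * 2 ^ (128 * k)
        ≤ 2 ^ (2 * n + 1) * CA := by
    calc _ ≤ (∑ q, (ev q).card) * 2 ^ (128 * k) :=
          Nat.mul_le_mul_right _ (le_trans (card_le_card hsub) card_biUnion_le)
      _ = ∑ q, (ev q).card * 2 ^ (128 * k) := by rw [Finset.sum_mul]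
      _ ≤ ∑ _q : ZMod 2 × (Fin n → ZMod 2), 2 ^ n * CA := Finset.sum_le_sum fun q _ => hev q
      _ = 2 ^ (2 * n + 1) * CA := by
          simp only [sum_const, card_univ, Fintype.card_prod, ZMod.card, Fintype.card_fun,
            Fintype.card_fin, smul_eq_mul]
          ring
  have h6 : 2 ^ (2 * n + 1) * 4 ≤ 2 ^ (128 * k) := by
    have : (2 : ℕ) ^ (2 * n + 1) * 4 = 2 ^ (2 * n + 3) := by ring
    rw [this]
    exact Nat.pow_le_pow_right (by norm_num) (by omega)
  have hp : 0 < 2 ^ (2 * n + 1) := by positivity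
  refine Nat.le_of_mul_le_mul_left ?_ hp
  refine le_trans ?_ h5
  rw [← mul_assoc, mul_comm]
  exact Nat.mul_le_mul_left _ h6

theorem card_bad2 (n p : ℕ) (hn : 2 * n * 2 ^ (p * Fintype.card τ) < 2 ^ n)
    (ball : Fin n → Finset (Fin n)) (hball : ∀ v, (ball v).card ≤ p) :
    2 * (univ.filter fun M : Fin n → Fin n → τ → ZMod 2 =>
        ∃ w, ∃ z : Fin n → τ → ZMod 2, z ≠ 0 ∧ (∀ v, v ∉ ball w → z v = 0) ∧ prs z M = 0).card
      < Fintype.card (Fin n → Fin n → τ → ZMod 2) := by
  set CA := Fintype.card (Fin n → Fin n → τ → ZMod 2) with hCA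
  have hApos : 0 < CA := Fintype.card_pos
  let ev : (Fin n → τ → ZMod 2) → Finset (Fin n → Fin n → τ → ZMod 2) := fun z =>
    univ.filter fun M => z ≠ 0 ∧ prs z M = 0
  have hev : ∀ z, (ev z).card * 2 ^ n ≤ CA := by
    intro z
    by_cases hz : z = 0
    · have : ev z = ∅ := by
        ext M; simp [ev, hz]
      simp [this]
    · have h1 := card_preimage (prs z) (prs_surj z hz) {0} (ev z) (fun M => by simp [ev, hz])
      rw [← hCA] at h1
      simp only [Fintype.card_fun, ZMod.card, Fintype.card_fin, card_singleton, one_mul] at h1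
      exact h1.le
  let box : Fin n → Finset (Fin n → τ → ZMod 2) := fun w =>
    Fintype.piFinset fun v => if v ∈ ball w then univ else {0}
  have hbox : ∀ w, (box w).card ≤ 2 ^ (p * Fintype.card τ) := by
    intro w
    rw [Fintype.card_piFinset]
    have : ∏ v : Fin n, (if v ∈ ball w then (univ : Finset (τ → ZMod 2)) else {0}).card
        = ∏ v : Fin n, if v ∈ ball w then 2 ^ Fintype.card τ else 1 := by
      refine Finset.prod_congr rfl fun v _ => ?_
      split_ifs <;> simp
    rw [this, Finset.prod_ite_mem, univ_inter, prod_const, ← pow_mul, mul_comm]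
    exact Nat.pow_le_pow_right (by norm_num) (Nat.mul_le_mul_right _ (hball w))
  have hsub : (univ.filter fun M : Fin n → Fin n → τ → ZMod 2 =>
        ∃ w, ∃ z : Fin n → τ → ZMod 2, z ≠ 0 ∧ (∀ v, v ∉ ball w → z v = 0) ∧ prs z M = 0)
        ⊆ univ.biUnion fun w => (box w).biUnion ev := by
    intro M hM
    simp only [mem_filter, mem_univ, true_and] at hM
    obtain ⟨w, z, hz, hs, hp⟩ := hM
    refine mem_biUnion.2 ⟨w, mem_univ _, mem_biUnion.2 ⟨z, ?_, by simp [ev, hz, hp]⟩⟩
    refine Fintype.mem_piFinset.2 fun v => ?_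
    split_ifs with hv
    · exact mem_univ _
    · simp [hs v hv]
  have h5 : (univ.filter fun M : Fin n → Fin n → τ → ZMod 2 =>
        ∃ w, ∃ z : Fin n → τ → ZMod 2, z ≠ 0 ∧ (∀ v, v ∉ ball w → z v = 0) ∧ prs z M = 0).card
        * 2 ^ n ≤ n * 2 ^ (p * Fintype.card τ) * CA := by
    calc _ ≤ (∑ w, ∑ z ∈ box w, (ev z).card) * 2 ^ n := by
          refine Nat.mul_le_mul_right _ (le_trans (card_le_card hsub)
            (le_trans card_biUnion_le (Finset.sum_le_sum fun w _ => card_biUnion_le)))
      _ = ∑ w, ∑ z ∈ box w, (ev z).card * 2 ^ n := by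
          rw [Finset.sum_mul]
          exact Finset.sum_congr rfl fun w _ => Finset.sum_mul _ _ _
      _ ≤ ∑ _w : Fin n, 2 ^ (p * Fintype.card τ) * CA := by
          refine Finset.sum_le_sum fun w _ => ?_
          calc _ ≤ ∑ _z ∈ box w, CA := Finset.sum_le_sum fun z _ => hev z
            _ = (box w).card * CA := by simp
            _ ≤ _ := Nat.mul_le_mul_right _ (hbox w)
      _ = n * 2 ^ (p * Fintype.card τ) * CA := by
          simp [mul_assoc]
  have hp : 0 < 2 ^ n := by positivity
  refine Nat.lt_of_mul_lt_mul_right (a := 2 ^ n) ?_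
  calc _ = 2 * (_ * 2 ^ n) := by ring
    _ ≤ 2 * (n * 2 ^ (p * Fintype.card τ) * CA) := Nat.mul_le_mul_left _ h5
    _ = (2 * n * 2 ^ (p * Fintype.card τ)) * CA := by ring
    _ < 2 ^ n * CA := Nat.mul_lt_mul_of_pos_right hn hApos
    _ = CA * 2 ^ n := by ring

/-- The parametrisation of the code. -/
def par {n : ℕ} (x : Fin n → τ → ZMod 2) (M : Fin n → Fin n → τ → ZMod 2) :
    (ZMod 2 × (Fin n → ZMod 2)) →ₗ[ZMod 2] (Fin n → τ → ZMod 2) where
  toFun q := q.1 • x + ∑ k, q.2 k • M k
  map_add' q q' := by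
    simp only [Prod.fst_add, Prod.snd_add, Pi.add_apply, add_smul, Finset.sum_add_distrib]
    abel
  map_smul' a q := by
    simp only [Prod.smul_fst, Prod.smul_snd, Pi.smul_apply, smul_eq_mul, mul_smul, smul_add,
      Finset.smul_sum, RingHom.id_apply]

end CodeAux

open CodeAux in
theorem exists_code {τ : Type} [Fintype τ] [DecidableEq τ] (hτ : 200 ≤ Fintype.card τ) (n p : ℕ)
    (hn : 2 * n * 2 ^ (p * Fintype.card τ) < 2 ^ n) (hn1 : 1 ≤ n) (ξ : Fin n → τ)
    (ball : Fin n → Finset (Fin n)) (hball : ∀ v, (ball v).card ≤ p) :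
    ∃ D : Submodule (ZMod 2) (Fin n → τ → ZMod 2),
      (fun v => Pi.single (ξ v) 1) ∈ D ∧ Nat.card D = 2 ^ (n + 1) ∧
      (∀ y ∈ D, y ≠ (fun v => Pi.single (ξ v) 1) →
        32 * (Finset.univ.filter fun v => ∃ t, y v = Pi.single t 1).card ≤ n) ∧
      ∀ (w : Fin n) (z : Fin n → τ → ZMod 2), (∀ y ∈ D, pairing z y = 0) →
        (∀ v, v ∉ ball w → z v = 0) → z = 0 := by
  set x : Fin n → τ → ZMod 2 := fun v => Pi.single (ξ v) 1 with hx
  have h1 := card_bad1 hτ n x
  have h2 := card_bad2 n p hn ball hball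
  obtain ⟨M, hM1, hM2⟩ : ∃ M : Fin n → Fin n → τ → ZMod 2,
      (¬ ∃ t : ZMod 2, ∃ z, z ≠ 0 ∧ n / 32 + 1 ≤ wt (t • x + comb z M)) ∧
      ¬ ∃ w, ∃ z : Fin n → τ → ZMod 2, z ≠ 0 ∧ (∀ v, v ∉ ball w → z v = 0) ∧ prs z M = 0 := by
    by_contra hcon
    have hsub : (Finset.univ : Finset (Fin n → Fin n → τ → ZMod 2)) ⊆
        (Finset.univ.filter fun M : Fin n → Fin n → τ → ZMod 2 =>
          ∃ t : ZMod 2, ∃ z, z ≠ 0 ∧ n / 32 + 1 ≤ wt (t • x + comb z M)) ∪
        (Finset.univ.filter fun M : Fin n → Fin n → τ → ZMod 2 =>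
          ∃ w, ∃ z : Fin n → τ → ZMod 2, z ≠ 0 ∧ (∀ v, v ∉ ball w → z v = 0) ∧ prs z M = 0) := by
      intro M _
      by_contra hM
      rw [Finset.mem_union, not_or, Finset.mem_filter, Finset.mem_filter] at hM
      exact hcon ⟨M, fun h => hM.1 ⟨Finset.mem_univ _, h⟩, fun h => hM.2 ⟨Finset.mem_univ _, h⟩⟩
    have := le_trans (Finset.card_le_card hsub) (Finset.card_union_le _ _)
    rw [Finset.card_univ] at this
    omega
  have hlight : ∀ (t : ZMod 2) z, z ≠ 0 → 32 * wt (par x M (t, z)) ≤ n := by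
    intro t z hz
    have : ¬ n / 32 + 1 ≤ wt (t • x + comb z M) := fun h => hM1 ⟨t, z, hz, h⟩
    have e : par x M (t, z) = t • x + comb z M := rfl
    rw [e]
    omega
  have hwx : wt x = n := by
    unfold wt
    rw [Finset.filter_true_of_mem fun v _ => ⟨ξ v, rfl⟩]
    simp
  have hw0 : wt (0 : Fin n → τ → ZMod 2) = 0 := by
    unfold wt
    rw [Finset.card_eq_zero, Finset.filter_eq_empty_iff]
    rintro v _ ⟨t, ht⟩
    have := congrFun ht t
    simp at this
  have hx1 : par x M (1, 0) = x := by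
    show (1 : ZMod 2) • x + ∑ k, (0 : Fin n → ZMod 2) k • M k = x
    simp
  have hinj : Function.Injective (par x M) := by
    rw [injective_iff_map_eq_zero]
    rintro ⟨t, z⟩ h
    by_cases hz : z = 0
    · subst hz
      rcases zmod2_cases t with ht | ht
      · rw [ht]; rfl
      · rw [ht, hx1] at h
        rw [h, hw0] at hwx
        omega
    · have h3 := hlight (t + 1) z hz
      have e : ((t + 1, z) : ZMod 2 × (Fin n → ZMod 2)) = (t, z) + (1, 0) := by simp
      rw [e, map_add, h, hx1, zero_add, hwx] at h3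
      omega
  refine ⟨LinearMap.range (par x M), ⟨(1, 0), hx1⟩, ?_, ?_, ?_⟩
  · rw [← Nat.card_congr (LinearEquiv.ofInjective _ hinj).toEquiv]
    simp [pow_succ, mul_comm]
  · rintro y ⟨⟨t, z⟩, rfl⟩ hy
    by_cases hz : z = 0
    · subst hz
      rcases zmod2_cases t with ht | ht
      · have : par x M (t, 0) = 0 := by rw [ht]; exact map_zero _
        show 32 * wt (par x M (t, 0)) ≤ n
        rw [this, hw0]
        omega
      · exact absurd (ht ▸ hx1) hy
    · exact hlight t z hz
  · intro w z hz hs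
    by_contra hz0
    refine hM2 ⟨w, z, hz0, hs, ?_⟩
    funext k
    refine hz (M k) ⟨(0, Pi.single k 1), ?_⟩
    show (0 : ZMod 2) • x + ∑ j, (Pi.single k 1 : Fin n → ZMod 2) j • M j = M k
    rw [Finset.sum_eq_single k]
    · simp
    · intro j _ hj
      simp [Pi.single_eq_of_ne hj]
    · simp

end Vale.Agent.P089
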