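import Vale.Agent.P089.GraphDefs

/-! Rosenfeld's counting lemma and walk counting, used in `Colour.lean`. -/

open Classical

namespace Vale.Agent.P089

namespace ColourAux

open Finset

section Rosenfeld

variable {V L ι : Type} [Fintype V] [Fintype L] [Fintype ι]

/-- Colourings that are default outside `U` and avoid the patterns supported in `U'`. -/
noncomputable def good (d0 : L) (ok : ι → Prop) (S : ι → Finset V) (bad : ι → (V → L) → Prop)
    (U U' : Finset V) : Finset (V → L) :=
  univ.filter fun c => (∀ v, v ∉ U → c v = d0) ∧ ∀ b, ok b → S b ⊆ U' → ¬ bad b c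

theorem rosenfeld (d0 : L) (ok : ι → Prop) (S : ι → Finset V) (bad : ι → (V → L) → Prop)
    (e : ι → ℕ) (β : ℝ) (hβ : 1 ≤ β)
    (hne : ∀ b, ok b → (S b).Nonempty)
    (hdep : ∀ b, ok b → ∀ c c', (∀ v ∈ S b, c v = c' v) → bad b c → bad b c')
    (hD : ∀ b, ok b → ∀ v ∈ S b, ∃ D : Finset V, D ⊆ S b ∧ v ∈ D ∧ e b + 1 ≤ D.card ∧
      ∀ c c', bad b c → bad b c' → (∀ u, u ∉ D → c u = c' u) → ∀ u ∈ D, c u = c' u)
    (hsum : ∀ v, β + ∑ b, (if ok b ∧ v ∈ S b then (β⁻¹) ^ e b else 0) ≤ Fintype.card L) :
    ∃ c, ∀ b, ok b → ¬ bad b c := by
  let C : Finset V → ℝ := fun U => ((good d0 ok S bad U U).card : ℝ)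
  have hβ0 : 0 < β := by linarith
  -- adding several points
  have multi : ∀ n, (∀ U : Finset V, U.card < n → ∀ v, v ∉ U → β * C U ≤ C (insert v U)) →
      ∀ (U W : Finset V), Disjoint U W → (U ∪ W).card ≤ n → β ^ W.card * C U ≤ C (U ∪ W) := by
    intro n ih U W
    induction W using Finset.induction_on with
    | empty => intro _ _; simp
    | insert v W hv ihW =>
      intro hd hc
      have hvU : v ∉ U := fun h => Finset.disjoint_left.1 hd h (mem_insert_self _ _)
      have hd' : Disjoint U W := hd.mono_right (subset_insert _ _)
      have hv' : v ∉ U ∪ W := by simp [hv, hvU]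
      have e1 : U ∪ insert v W = insert v (U ∪ W) := by
        ext u; simp only [mem_union, mem_insert]; tauto
      rw [e1] at hc ⊢
      rw [card_insert_of_notMem hv'] at hc
      have h1 := ihW hd' (by omega)
      have h2 := ih (U ∪ W) (by omega) v hv'
      rw [card_insert_of_notMem hv, pow_succ]
      calc β ^ W.card * β * C U = β * (β ^ W.card * C U) := by ring
        _ ≤ β * C (U ∪ W) := mul_le_mul_of_nonneg_left h1 hβ0.le
        _ ≤ _ := h2
  have step : ∀ n, ∀ U : Finset V, U.card < n → ∀ v, v ∉ U → β * C U ≤ C (insert v U) := by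
    intro n
    induction n with
    | zero => intro U hU; omega
    | succ n ih =>
      intro U hU v hv
      have hm := multi n ih
      let E := good d0 ok S bad (insert v U) U
      have hE : Fintype.card L * (good d0 ok S bad U U).card ≤ E.card := by
        rw [← card_univ, ← card_product]
        refine Finset.card_le_card_of_injOn (fun q => Function.update q.2 v q.1) ?_ ?_
        · rintro ⟨a, c⟩ hq
          simp only [coe_product, Set.mem_prod, mem_coe, mem_univ, true_and, good,
            mem_filter] at hq
          simp only [E, good, mem_coe, mem_filter, mem_univ, true_and]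
          refine ⟨fun u hu => ?_, fun b hb hS hbad => ?_⟩
          · rw [mem_insert, not_or] at hu
            rw [Function.update_of_ne hu.1]
            exact hq.1 u hu.2
          · refine hq.2 b hb hS (hdep b hb _ _ (fun u hu => ?_) hbad)
            have : u ≠ v := fun h => hv (h ▸ hS hu)
            exact Function.update_of_ne this _ _
        · rintro ⟨a, c⟩ hq ⟨a', c'⟩ hq' h
          simp only [coe_product, Set.mem_prod, mem_coe, mem_univ, true_and, good,
            mem_filter] at hq hq'
          have h1 : a = a' := by simpa using congrFun h v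
          have h2 : c = c' := by
            funext u
            by_cases huv : u = v
            · rw [huv, hq.1 v hv, hq'.1 v hv]
            · simpa [Function.update_of_ne huv] using congrFun h u
          rw [h1, h2]
      let Bd : ι → Finset (V → L) := fun b =>
        E.filter fun c => (ok b ∧ v ∈ S b) ∧ S b ⊆ insert v U ∧ bad b c
      have hsub : E ⊆ good d0 ok S bad (insert v U) (insert v U) ∪ univ.biUnion Bd := by
        intro c hc
        rw [mem_union]
        by_cases hg : c ∈ good d0 ok S bad (insert v U) (insert v U)
        · exact Or.inl hg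
        · right
          have hc' := hc
          simp only [E, good, mem_filter, mem_univ, true_and] at hc' hg
          have : ∃ b, ok b ∧ S b ⊆ insert v U ∧ bad b c := by
            by_contra hcon
            exact hg ⟨hc'.1, fun b hb hS hbad => hcon ⟨b, hb, hS, hbad⟩⟩
          obtain ⟨b, hb, hS, hbad⟩ := this
          refine mem_biUnion.2 ⟨b, mem_univ _, mem_filter.2 ⟨hc, ⟨hb, ?_⟩, hS, hbad⟩⟩
          by_contra hvS
          refine hc'.2 b hb (fun u hu => ?_) hbad
          rcases mem_insert.1 (hS hu) with h | h
          · exact absurd (h ▸ hu) hvS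
          · exact h
      have hBd : ∀ b, ((Bd b).card : ℝ)
          ≤ (if ok b ∧ v ∈ S b then (β⁻¹) ^ e b else 0) * C U := by
        intro b
        by_cases hb : (ok b ∧ v ∈ S b) ∧ S b ⊆ insert v U
        · obtain ⟨⟨hb, hvS⟩, hS⟩ := hb
          rw [if_pos ⟨hb, hvS⟩]
          obtain ⟨D, hDS, hvD, hDc, hinj⟩ := hD b hb v hvS
          have h1 : (Bd b).card ≤ (good d0 ok S bad (U \ D) (U \ D)).card := by
            refine Finset.card_le_card_of_injOn (fun c u => if u ∈ D then d0 else c u) ?_ ?_
            · intro c hc
              simp only [Bd, E, good, mem_coe, mem_filter, mem_univ, true_and] at hc ⊢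
              refine ⟨fun u hu => ?_, fun b' hb' hS' hbad' => ?_⟩
              · split_ifs with huD
                · rfl
                · refine hc.1.1 u fun hu' => hu ?_
                  rcases mem_insert.1 hu' with h | h
                  · exact absurd (h ▸ hvD) huD
                  · exact mem_sdiff.2 ⟨h, huD⟩
              · refine hc.1.2 b' hb' (hS'.trans sdiff_subset)
                  (hdep b' hb' _ _ (fun u hu => ?_) hbad')
                exact if_neg (mem_sdiff.1 (hS' hu)).2
            · intro c hc c' hc' h
              simp only [Bd, mem_coe, mem_filter] at hc hc'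
              have hout : ∀ u, u ∉ D → c u = c' u := by
                intro u hu
                simpa [hu] using congrFun h u
              funext u
              by_cases hu : u ∈ D
              · exact hinj c c' hc.2.2.2 hc'.2.2.2 hout u hu
              · exact hout u hu
          have hU' : U \ D ∪ D.erase v = U := by
            ext u
            simp only [mem_union, mem_sdiff, mem_erase]
            constructor
            · rintro (h | h)
              · exact h.1
              · rcases mem_insert.1 (hS (hDS h.2)) with h' | h'
                · exact absurd h' h.1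
                · exact h'
            · intro h
              by_cases huD : u ∈ D
              · exact Or.inr ⟨fun h' => hv (h' ▸ h), huD⟩
              · exact Or.inl ⟨h, huD⟩
          have h2 := hm (U \ D) (D.erase v)
            (Finset.disjoint_left.2 fun u hu hu' => (mem_sdiff.1 hu).2 (mem_of_mem_erase hu'))
            (by rw [hU']; omega)
          rw [hU', card_erase_of_mem hvD] at h2
          have h3 : β ^ e b ≤ β ^ (D.card - 1) := pow_le_pow_right₀ hβ (by omega)
          have h4 : β ^ e b * C (U \ D) ≤ C U :=
            le_trans (mul_le_mul_of_nonneg_right h3 (Nat.cast_nonneg _)) h2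
          have h5 : ((Bd b).card : ℝ) ≤ C (U \ D) := Nat.cast_le.2 h1
          have hp : 0 < β ^ e b := pow_pos hβ0 _
          rw [inv_pow, ← div_eq_inv_mul, le_div_iff₀ hp]
          nlinarith
        · have : Bd b = ∅ := by
            refine filter_eq_empty_iff.2 fun c _ h => hb ⟨h.1, h.2.1⟩
          rw [this, card_empty, Nat.cast_zero]
          refine mul_nonneg ?_ (Nat.cast_nonneg _)
          split_ifs
          · positivity
          · exact le_rfl
      have h6 : E.card ≤ (good d0 ok S bad (insert v U) (insert v U)).card + ∑ b, (Bd b).card :=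
        le_trans (card_le_card hsub) (le_trans (card_union_le _ _)
          (Nat.add_le_add_left card_biUnion_le _))
      have h7 : (Fintype.card L : ℝ) * C U ≤ C (insert v U) + ∑ b, ((Bd b).card : ℝ) := by
        have := le_trans hE h6
        simp only [C]
        exact_mod_cast this
      have h8 : ∑ b, ((Bd b).card : ℝ)
          ≤ (∑ b, (if ok b ∧ v ∈ S b then (β⁻¹) ^ e b else 0)) * C U := by
        rw [Finset.sum_mul]
        exact Finset.sum_le_sum fun b _ => hBd b
      have h9 := mul_le_mul_of_nonneg_right (hsum v) (Nat.cast_nonneg (α := ℝ)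
        (good d0 ok S bad U U).card)
      have hCU : C U = ((good d0 ok S bad U U).card : ℝ) := rfl
      rw [← hCU, add_mul] at h9
      linarith
  have fin := multi (Fintype.card V) (step _) ∅ univ (disjoint_empty_left _) (by simp)
  have h0 : 1 ≤ C ∅ := by
    have : 0 < (good d0 ok S bad ∅ ∅).card := by
      refine card_pos.2 ⟨fun _ => d0, ?_⟩
      simp only [good, mem_filter, mem_univ, true_and]
      refine ⟨fun _ _ => trivial, fun b hb hS => ?_⟩
      exact absurd (subset_empty.1 hS) (hne b hb).ne_empty
    exact Nat.one_le_cast.2 this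
  have h1 : 0 < C (∅ ∪ univ) :=
    lt_of_lt_of_le (mul_pos (pow_pos hβ0 _) (by linarith)) fin
  have h2 : 0 < (good d0 ok S bad (∅ ∪ univ) (∅ ∪ univ)).card := Nat.cast_pos.1 h1
  obtain ⟨c, hc⟩ := card_pos.1 h2
  simp only [good, mem_filter, mem_univ, true_and] at hc
  exact ⟨c, fun b hb => hc.2 b hb (by simp)⟩

end Rosenfeld

section Walks

variable {V : Type} [Fintype V]

/-- Walks of length `l` as finite sequences. -/
def IsWalk (X : SimpleGraph V) (l : ℕ) (p : Fin (l + 1) → V) : Prop :=
  ∀ i : Fin l, X.Adj (p i.castSucc) (p i.succ)

theorem card_walk_at (X : SimpleGraph V) (Δ : ℕ) (hΔ : ∀ v, (nbr X v).card ≤ Δ) (l : ℕ) :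
    ∀ (i : Fin (l + 1)) (v : V),
      (univ.filter fun p => IsWalk X l p ∧ p i = v).card ≤ Δ ^ l := by
  induction l with
  | zero =>
    intro i v
    rw [pow_zero, card_le_one]
    intro p hp q hq
    simp only [mem_filter, mem_univ, true_and] at hp hq
    funext j
    rw [Fin.fin_one_eq_zero j, ← Fin.fin_one_eq_zero i, hp.2, hq.2]
  | succ l ih =>
    intro i v
    refine Fin.cases ?_ (fun j => ?_) i
    · have h := Finset.card_le_mul_card_image_of_maps_to
        (f := fun p : Fin (l + 2) → V => Fin.init p)
        (s := univ.filter fun p => IsWalk X (l + 1) p ∧ p 0 = v)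
        (t := univ.filter fun p => IsWalk X l p ∧ p 0 = v) ?_ Δ ?_
      · rw [pow_succ, mul_comm]
        exact le_trans h (Nat.mul_le_mul_left _ (ih 0 v))
      · intro p hp
        simp only [mem_filter, mem_univ, true_and] at hp ⊢
        refine ⟨fun k => ?_, hp.2⟩
        have := hp.1 k.castSucc
        rw [Fin.succ_castSucc] at this
        exact this
      · intro q _
        refine le_trans (Finset.card_le_card_of_injOn (fun p => p (Fin.last _)) ?_ ?_)
          (hΔ (q (Fin.last _)))
        · intro p hp
          simp only [mem_coe, mem_filter, mem_univ, true_and] at hp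
          simp only [nbr, mem_coe, mem_filter, mem_univ, true_and]
          have := hp.1.1 (Fin.last _)
          rw [Fin.succ_last] at this
          rw [← hp.2]
          exact this
        · intro p hp p' hp' h
          simp only [mem_coe, mem_filter] at hp hp'
          funext k
          refine Fin.lastCases h (fun k => ?_) k
          exact (congrFun hp.2 k).trans (congrFun hp'.2 k).symm
    · have h := Finset.card_le_mul_card_image_of_maps_to
        (f := fun p : Fin (l + 2) → V => Fin.tail p)
        (s := univ.filter fun p => IsWalk X (l + 1) p ∧ p j.succ = v)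
        (t := univ.filter fun p => IsWalk X l p ∧ p j = v) ?_ Δ ?_
      · rw [pow_succ, mul_comm]
        exact le_trans h (Nat.mul_le_mul_left _ (ih j v))
      · intro p hp
        simp only [mem_filter, mem_univ, true_and] at hp ⊢
        refine ⟨fun k => ?_, hp.2⟩
        have := hp.1 k.succ
        rw [← Fin.succ_castSucc] at this
        exact this
      · intro q _
        refine le_trans (Finset.card_le_card_of_injOn (fun p => p 0) ?_ ?_) (hΔ (q 0))
        · intro p hp
          simp only [mem_coe, mem_filter, mem_univ, true_and] at hp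
          simp only [nbr, mem_coe, mem_filter, mem_univ, true_and]
          have := hp.1.1 0
          rw [← hp.2]
          exact this.symm
        · intro p hp p' hp' h
          simp only [mem_coe, mem_filter] at hp hp'
          funext k
          refine Fin.cases h (fun k => ?_) k
          exact (congrFun hp.2 k).trans (congrFun hp'.2 k).symm

theorem card_walk (X : SimpleGraph V) (Δ : ℕ) (hΔ : ∀ v, (nbr X v).card ≤ Δ) (l : ℕ) :
    (univ.filter fun p => IsWalk X l p).card ≤ Fintype.card V * Δ ^ l := by
  have hsub : (univ.filter fun p => IsWalk X l p)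
      ⊆ univ.biUnion fun v => univ.filter fun p => IsWalk X l p ∧ p 0 = v := by
    intro p hp
    simp only [mem_filter, mem_univ, true_and] at hp
    exact mem_biUnion.2 ⟨p 0, mem_univ _, by simp [hp]⟩
  calc _ ≤ ∑ v, (univ.filter fun p => IsWalk X l p ∧ p 0 = v).card :=
        le_trans (card_le_card hsub) card_biUnion_le
    _ ≤ ∑ _v : V, Δ ^ l := Finset.sum_le_sum fun v _ => card_walk_at X Δ hΔ l 0 v
    _ = _ := by simp

theorem card_walk_thru (X : SimpleGraph V) (Δ : ℕ) (hΔ : ∀ v, (nbr X v).card ≤ Δ) (l : ℕ)
    (v : V) :
    (univ.filter fun p => IsWalk X l p ∧ v ∈ univ.image p).card ≤ (2 * Δ) ^ l := by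
  have hsub : (univ.filter fun p => IsWalk X l p ∧ v ∈ univ.image p)
      ⊆ univ.biUnion fun i => univ.filter fun p => IsWalk X l p ∧ p i = v := by
    intro p hp
    simp only [mem_filter, mem_univ, true_and, mem_image] at hp
    obtain ⟨hp, i, hi⟩ := hp
    exact mem_biUnion.2 ⟨i, mem_univ _, by simp [hp, hi]⟩
  calc _ ≤ ∑ i, (univ.filter fun p => IsWalk X l p ∧ p i = v).card :=
        le_trans (card_le_card hsub) card_biUnion_le
    _ ≤ ∑ _i : Fin (l + 1), Δ ^ l := Finset.sum_le_sum fun i _ => card_walk_at X Δ hΔ l i v
    _ = (l + 1) * Δ ^ l := by simp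
    _ ≤ 2 ^ l * Δ ^ l := Nat.mul_le_mul_right _ Nat.lt_two_pow_self
    _ = _ := by rw [mul_pow]

omit [Fintype V] in
/-- Greedy choice of an independent index set. -/
theorem greedy {l : ℕ} (q q' : Fin (l + 1) → V) (hq : Function.Injective q)
    (hq' : Function.Injective q') (hne : ∀ i, q i ≠ q' i) (i0 : Fin (l + 1)) :
    ∃ I : Finset (Fin (l + 1)), i0 ∈ I ∧ l / 3 + 1 ≤ I.card ∧ ∀ i ∈ I, q' i ∉ I.image q := by
  obtain ⟨I, hI, hmax⟩ := Finset.exists_max_image
    (univ.filter fun I : Finset (Fin (l + 1)) => i0 ∈ I ∧ ∀ i ∈ I, q' i ∉ I.image q)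
    Finset.card ⟨{i0}, by simpa using hne i0⟩
  simp only [mem_filter, mem_univ, true_and] at hI hmax
  refine ⟨I, hI.1, ?_, hI.2⟩
  have hsub : (univ : Finset (Fin (l + 1))) ⊆
      I ∪ (univ.filter fun j => q' j ∈ I.image q) ∪ (univ.filter fun j => q j ∈ I.image q') := by
    intro j _
    by_contra hj
    simp only [mem_union, not_or, mem_filter, mem_univ, true_and] at hj
    obtain ⟨⟨h1, h2⟩, h3⟩ := hj
    have := hmax (insert j I) ⟨mem_insert_of_mem hI.1, ?_⟩
    · rw [card_insert_of_notMem h1] at this
      omega
    · intro i hi h
      rw [image_insert, mem_insert] at h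
      rcases mem_insert.1 hi with hi | hi
      · rw [hi] at h
        rcases h with h | h
        · exact hne j h.symm
        · exact h2 h
      · rcases h with h | h
        · exact h3 (h ▸ mem_image_of_mem q' hi)
        · exact hI.2 i hi h
  have h1 : (univ.filter fun j => q' j ∈ I.image q).card ≤ I.card :=
    le_trans (Finset.card_le_card_of_injOn q' (fun j hj => by simpa using hj)
      (hq'.injOn)) card_image_le
  have h2 : (univ.filter fun j => q j ∈ I.image q').card ≤ I.card :=
    le_trans (Finset.card_le_card_of_injOn q (fun j hj => by simpa using hj)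
      (hq.injOn)) card_image_le
  have h3 := le_trans (card_le_card hsub) (le_trans (card_union_le _ _)
    (Nat.add_le_add_right (card_union_le _ _) _))
  rw [card_univ, Fintype.card_fin] at h3
  omega

end Walks

end ColourAux

end Vale.Agent.P089
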