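import Vale.Agent.P089.GraphDefs
import Vale.Agent.P089.ColourAux

/-! Task B: small cancellation colourings. See notes/P089/PROOF.md, section B. -/

namespace Vale.Agent.P089

namespace ColourAux

open Classical Finset

theorem sum_ind_le {α : Type} [Fintype α] (P : α → Prop) (inst : ∀ a, Decidable (P a))
    (f : α → ℝ) (x : ℝ) (hx : 0 ≤ x) (T : Finset α) (hf : ∀ a, f a = x) (h : ∀ a, P a → a ∈ T) :
    ∑ a, (if P a then f a else 0) ≤ T.card * x := by
  calc ∑ a, (if P a then f a else 0) ≤ ∑ a, (if a ∈ T then x else 0) := by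
        refine Finset.sum_le_sum fun a _ => ?_
        by_cases hP : P a
        · rw [if_pos hP, if_pos (h a hP), hf]
        · rw [if_neg hP]
          split_ifs
          · exact hx
          · exact le_rfl
    _ = T.card * x := by
        rw [Finset.sum_ite_mem, univ_inter, sum_const, nsmul_eq_mul]

theorem geom_le (n : ℕ) : ∑ j : Fin n, ((1 : ℝ) / 2) ^ (j.val + 1) ≤ 1 := by
  have : ∑ j : Fin n, ((1 : ℝ) / 2) ^ (j.val + 1) = 1 - (1 / 2) ^ n := by
    induction n with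
    | zero => simp
    | succ n ih =>
      rw [Fin.sum_univ_castSucc]
      simp only [Fin.val_castSucc, Fin.val_last]
      rw [ih]
      ring
  rw [this]
  have : (0 : ℝ) ≤ (1 / 2) ^ n := by positivity
  linarith

theorem one_graph (Δ K : ℕ) : ∃ m : ℕ, 8 ≤ m ∧
    ∀ (V : Type) [Fintype V] (X : SimpleGraph V) (n : ℕ) (ℓ : ℕ → ℕ) (l : ℕ)
      (F : ∀ j : Fin n, Finset (Fin (ℓ j + 1) → Fin m)),
      (∀ j, j + 1 ≤ ℓ j) → (∀ v, (nbr X v).card ≤ Δ) → Fintype.card V ≤ K ^ (10 * l) →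
      (∀ j, (F j).card ≤ (K ^ 10 * Δ) ^ ℓ j) →
      ∃ c : V → Fin m, (∀ u v, X.Adj u v → c u ≠ c v) ∧
        (∀ u v w, X.Adj u v → X.Adj u w → c v = c w → v = w) ∧
        (∀ (j : Fin n) q, IsWalk X (ℓ j) q → Function.Injective q →
          (fun i => c (q i)) ∉ F j) ∧
        ∀ q q', IsWalk X l q → IsWalk X l q' → Function.Injective q → Function.Injective q' →
          (∀ i, q i ≠ q' i) → ¬ ∀ i, c (q i) = c (q' i) := by
  obtain ⟨G, hG⟩ : ∃ G, G = 2 * Δ * (K ^ 10 * Δ) := ⟨_, rfl⟩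
  obtain ⟨C, hC⟩ : ∃ C, C = 2 * G + 1 := ⟨_, rfl⟩
  obtain ⟨m, hm⟩ : ∃ m, m = C ^ 3 + 2 * (Δ + Δ * Δ) + 1 + 2 * C ^ 2 + 8 := ⟨_, rfl⟩
  refine ⟨m, by omega, ?_⟩
  intro V _ X n ℓ l F hℓ hΔ hV hF
  have hC1 : (1 : ℝ) ≤ C := by
    have : 1 ≤ C := by omega
    exact_mod_cast this
  have hβ : (1 : ℝ) ≤ (C : ℝ) ^ 3 := one_le_pow₀ hC1
  let ι2 := Σ j : Fin n, (Fin (ℓ j + 1) → V) × (Fin (ℓ j + 1) → Fin m)
  let ι3 := (Fin (l + 1) → V) × (Fin (l + 1) → V)
  let ok1 : V × V → Prop := fun b =>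
    b.1 ≠ b.2 ∧ (X.Adj b.1 b.2 ∨ ∃ t, X.Adj t b.1 ∧ X.Adj t b.2)
  let ok2 : ι2 → Prop := fun b =>
    IsWalk X (ℓ b.1) b.2.1 ∧ Function.Injective b.2.1 ∧ b.2.2 ∈ F b.1
  let ok3 : ι3 → Prop := fun b =>
    IsWalk X l b.1 ∧ IsWalk X l b.2 ∧ Function.Injective b.1 ∧ Function.Injective b.2 ∧
      ∀ i, b.1 i ≠ b.2 i
  let S1 : V × V → Finset V := fun b => {b.1, b.2}
  let S2 : ι2 → Finset V := fun b => univ.image b.2.1
  let S3 : ι3 → Finset V := fun b => univ.image b.1 ∪ univ.image b.2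
  let bad1 : V × V → (V → Fin m) → Prop := fun b c => c b.1 = c b.2
  let bad2 : ι2 → (V → Fin m) → Prop := fun b c => ∀ i, c (b.2.1 i) = b.2.2 i
  let bad3 : ι3 → (V → Fin m) → Prop := fun b c => ∀ i, c (b.1 i) = c (b.2 i)
  have key := rosenfeld (V := V) (L := Fin m) (ι := (V × V) ⊕ (ι2 ⊕ ι3)) ⟨0, by omega⟩
    (Sum.elim ok1 (Sum.elim ok2 ok3)) (Sum.elim S1 (Sum.elim S2 S3))
    (Sum.elim bad1 (Sum.elim bad2 bad3))
    (Sum.elim (fun _ => 0) (Sum.elim (fun b => ℓ b.1) (fun _ => l / 3))) ((C : ℝ) ^ 3) hβ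
    ?_ ?_ ?_ ?_
  · obtain ⟨c, hc⟩ := key
    refine ⟨c, fun u v h => hc (Sum.inl (u, v)) ⟨h.ne, Or.inl h⟩, fun u v w h h' hcc => ?_,
      fun j q hq hi hmem => ?_, fun q q' h1 h2 h3 h4 h5 => ?_⟩
    · by_contra hne
      exact hc (Sum.inl (v, w)) ⟨hne, Or.inr ⟨u, h, h'⟩⟩ hcc
    · exact hc (Sum.inr (Sum.inl ⟨j, q, fun i => c (q i)⟩)) ⟨hq, hi, hmem⟩ fun _ => rfl
    · exact hc (Sum.inr (Sum.inr (q, q'))) ⟨h1, h2, h3, h4, h5⟩
  · rintro (b | b | b) _
    · exact ⟨b.1, mem_insert_self _ _⟩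
    · exact ⟨b.2.1 0, mem_image_of_mem _ (mem_univ _)⟩
    · exact ⟨b.1 0, mem_union_left _ (mem_image_of_mem _ (mem_univ _))⟩
  · rintro (b | b | b) _ c c' h hb
    · show c' b.1 = c' b.2
      rw [← h b.1 (mem_insert_self _ _), ← h b.2 (mem_insert_of_mem (mem_singleton_self _))]
      exact hb
    · intro i
      rw [← h _ (mem_image_of_mem _ (mem_univ i))]
      exact hb i
    · intro i
      rw [← h _ (mem_union_left _ (mem_image_of_mem _ (mem_univ i))),
        ← h _ (mem_union_right _ (mem_image_of_mem _ (mem_univ i)))]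
      exact hb i
  · rintro (b | b | b) hok v hv
    · refine ⟨{v}, singleton_subset_iff.2 hv, mem_singleton_self _, by simp, ?_⟩
      intro c c' hc hc' hout u hu
      rw [mem_singleton] at hu
      have hc1 : c b.1 = c b.2 := hc
      have hc2 : c' b.1 = c' b.2 := hc'
      have hne : b.1 ≠ b.2 := hok.1
      rcases mem_insert.1 hv with h | h
      · rw [hu, h, hc1, hc2]
        exact hout _ (by rw [mem_singleton, h]; exact hne.symm)
      · rw [mem_singleton] at h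
        rw [hu, h, ← hc1, ← hc2]
        exact hout _ (by rw [mem_singleton, h]; exact hne)
    · refine ⟨univ.image b.2.1, subset_rfl, hv, ?_, ?_⟩
      · rw [card_image_of_injective _ hok.2.1, card_univ, Fintype.card_fin]
        exact le_rfl
      · intro c c' hc hc' _ u hu
        obtain ⟨i, _, rfl⟩ := mem_image.1 hu
        exact (hc i).trans (hc' i).symm
    · obtain ⟨_, _, h3, h4, h5⟩ := hok
      rcases mem_union.1 hv with h | h
      · obtain ⟨i0, _, rfl⟩ := mem_image.1 h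
        obtain ⟨I, hI0, hIc, hI⟩ := greedy b.1 b.2 h3 h4 h5 i0
        refine ⟨I.image b.1, (image_subset_image (subset_univ _)).trans subset_union_left,
          mem_image_of_mem _ hI0, ?_, ?_⟩
        · rw [card_image_of_injective _ h3]
          exact hIc
        · intro c c' hc hc' hout u hu
          obtain ⟨i, hi, rfl⟩ := mem_image.1 hu
          rw [hc i, hc' i]
          exact hout _ (hI i hi)
      · obtain ⟨i0, _, rfl⟩ := mem_image.1 h
        obtain ⟨I, hI0, hIc, hI⟩ := greedy b.2 b.1 h4 h3 (fun i => (h5 i).symm) i0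
        refine ⟨I.image b.2, (image_subset_image (subset_univ _)).trans subset_union_right,
          mem_image_of_mem _ hI0, ?_, ?_⟩
        · rw [card_image_of_injective _ h4]
          exact hIc
        · intro c c' hc hc' hout u hu
          obtain ⟨i, hi, rfl⟩ := mem_image.1 hu
          rw [← hc i, ← hc' i]
          exact hout _ (hI i hi)
  · intro v
    rw [Fintype.sum_sum_type, Fintype.sum_sum_type, Fintype.sum_sigma, Fintype.card_fin]
    have hinv : (0 : ℝ) ≤ ((C : ℝ) ^ 3)⁻¹ := by positivity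
    -- family 1
    let N2 : Finset V := nbr X v ∪ (nbr X v).biUnion (nbr X)
    have hN2 : N2.card ≤ Δ + Δ * Δ := by
      refine le_trans (card_union_le _ _) (Nat.add_le_add (hΔ v) ?_)
      refine le_trans card_biUnion_le ?_
      refine le_trans (Finset.sum_le_sum fun u _ => hΔ u) ?_
      rw [sum_const, smul_eq_mul]
      exact Nat.mul_le_mul_right _ (hΔ v)
    have hN2m : ∀ w, (X.Adj v w ∨ ∃ t, X.Adj t v ∧ X.Adj t w) → w ∈ N2 := by
      rintro w (h | ⟨t, h, h'⟩)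
      · exact mem_union_left _ (by simpa [nbr] using h)
      · exact mem_union_right _ (mem_biUnion.2 ⟨t, by simpa [nbr] using h.symm,
          by simpa [nbr] using h'⟩)
    refine le_trans (add_le_add_right (add_le_add
      (sum_ind_le _ _ _ 1 zero_le_one (({v} ×ˢ N2) ∪ (N2 ×ˢ {v})) (fun _ => pow_zero _) ?_)
      (add_le_add (Finset.sum_le_sum fun (j : Fin n) _ => sum_ind_le _ _ _
          ((((C : ℝ) ^ 3)⁻¹) ^ ℓ j) (pow_nonneg hinv _)
          ((univ.filter fun p => IsWalk X (ℓ j) p ∧ v ∈ univ.image p) ×ˢ F j)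
          (fun _ => rfl) ?_)
        (sum_ind_le _ _ _ ((((C : ℝ) ^ 3)⁻¹) ^ (l / 3)) (pow_nonneg hinv _)
          (((univ.filter fun p => IsWalk X l p ∧ v ∈ univ.image p) ×ˢ
              (univ.filter fun p => IsWalk X l p)) ∪
            ((univ.filter fun p => IsWalk X l p) ×ˢ
              (univ.filter fun p => IsWalk X l p ∧ v ∈ univ.image p)))
          (fun _ => rfl) ?_))) _) ?_
    · rintro ⟨u, w⟩ ⟨hok, hv⟩
      have hok2 : X.Adj u w ∨ ∃ t, X.Adj t u ∧ X.Adj t w := hok.2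
      rcases mem_insert.1 hv with h | h
      · have h' : v = u := h
        subst h'
        exact mem_union_left _ (mem_product.2 ⟨mem_singleton_self _, hN2m _ hok2⟩)
      · have h' : v = w := mem_singleton.1 h
        subst h'
        refine mem_union_right _ (mem_product.2 ⟨hN2m _ ?_, mem_singleton_self _⟩)
        rcases hok2 with h | ⟨t, h, h'⟩
        · exact Or.inl h.symm
        · exact Or.inr ⟨t, h', h⟩
    · rintro ⟨q, w⟩ ⟨hok, hv⟩
      exact mem_product.2 ⟨mem_filter.2 ⟨mem_univ _, hok.1, hv⟩, hok.2.2⟩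
    · rintro ⟨q, q'⟩ ⟨hok, hv⟩
      rcases mem_union.1 hv with h | h
      · exact mem_union_left _ (mem_product.2 ⟨mem_filter.2 ⟨mem_univ _, hok.1, h⟩,
          mem_filter.2 ⟨mem_univ _, hok.2.1⟩⟩)
      · exact mem_union_right _ (mem_product.2 ⟨mem_filter.2 ⟨mem_univ _, hok.1⟩,
          mem_filter.2 ⟨mem_univ _, hok.2.1, h⟩⟩)
    have b1 : (((({v} ×ˢ N2) ∪ (N2 ×ˢ {v}) : Finset (V × V)).card : ℕ) : ℝ) * 1
        ≤ ((2 * (Δ + Δ * Δ) : ℕ) : ℝ) := by
      rw [mul_one, Nat.cast_le]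
      refine le_trans (card_union_le _ _) ?_
      rw [card_product, card_product, card_singleton]
      omega
    have hGC : (G : ℝ) * ((C : ℝ) ^ 3)⁻¹ ≤ 1 / 2 := by
      have h1 : (C : ℝ) = 2 * G + 1 := by rw [hC]; push_cast; ring
      have h2 : (C : ℝ) ≤ (C : ℝ) ^ 3 := le_self_pow₀ hC1 (by norm_num)
      rw [← div_eq_mul_inv, div_le_iff₀ (by positivity)]
      linarith
    have b2 : ∑ j : Fin n, ((((univ.filter fun p => IsWalk X (ℓ j) p ∧ v ∈ univ.image p)
        ×ˢ F j).card : ℕ) : ℝ) * (((C : ℝ) ^ 3)⁻¹) ^ ℓ j ≤ 1 := by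
      refine le_trans (Finset.sum_le_sum fun j _ => ?_) (geom_le n)
      have h1 : ((univ.filter fun p => IsWalk X (ℓ j) p ∧ v ∈ univ.image p) ×ˢ F j).card
          ≤ G ^ ℓ j := by
        rw [card_product, hG, mul_pow (2 * Δ)]
        exact Nat.mul_le_mul (card_walk_thru X Δ hΔ _ v) (hF j)
      have h2 : ((((univ.filter fun p => IsWalk X (ℓ j) p ∧ v ∈ univ.image p)
          ×ˢ F j).card : ℕ) : ℝ) ≤ (G : ℝ) ^ ℓ j := by exact_mod_cast h1
      calc _ ≤ (G : ℝ) ^ ℓ j * (((C : ℝ) ^ 3)⁻¹) ^ ℓ j :=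
            mul_le_mul_of_nonneg_right h2 (pow_nonneg hinv _)
        _ = ((G : ℝ) * ((C : ℝ) ^ 3)⁻¹) ^ ℓ j := by rw [mul_pow]
        _ ≤ (1 / 2) ^ ℓ j := pow_le_pow_left₀ (by positivity) hGC _
        _ ≤ (1 / 2) ^ (j.val + 1) := pow_le_pow_of_le_one (by norm_num) (by norm_num) (hℓ j)
    have b3 : ((((((univ.filter fun p => IsWalk X l p ∧ v ∈ univ.image p) ×ˢ
              (univ.filter fun p => IsWalk X l p)) ∪
            ((univ.filter fun p => IsWalk X l p) ×ˢ
              (univ.filter fun p => IsWalk X l p ∧ v ∈ univ.image p)))).card : ℕ) : ℝ)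
          * (((C : ℝ) ^ 3)⁻¹) ^ (l / 3) ≤ ((2 * C ^ 2 : ℕ) : ℝ) := by
      have hw : (univ.filter fun p => IsWalk X l p).card ≤ (K ^ 10 * Δ) ^ l := by
        refine le_trans (card_walk X Δ hΔ l) ?_
        rw [mul_pow, ← pow_mul]
        exact Nat.mul_le_mul_right _ hV
      have ht := card_walk_thru X Δ hΔ l v
      have hGl : (2 * Δ) ^ l * (K ^ 10 * Δ) ^ l ≤ C ^ 2 * (C ^ 3) ^ (l / 3) := by
        rw [← mul_pow, ← hG, ← pow_mul, ← pow_add]
        exact le_trans (Nat.pow_le_pow_left (by omega) _)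
          (Nat.pow_le_pow_right (by omega) (by omega))
      have h1 : ((((univ.filter fun p => IsWalk X l p ∧ v ∈ univ.image p) ×ˢ
              (univ.filter fun p => IsWalk X l p)) ∪
            ((univ.filter fun p => IsWalk X l p) ×ˢ
              (univ.filter fun p => IsWalk X l p ∧ v ∈ univ.image p)))).card
            ≤ 2 * C ^ 2 * (C ^ 3) ^ (l / 3) := by
        refine le_trans (card_union_le _ _) ?_
        rw [card_product, card_product]
        have h2 := Nat.mul_le_mul ht hw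
        rw [mul_comm (univ.filter fun p => IsWalk X l p).card, mul_assoc]
        omega
      have hp : (0 : ℝ) < ((C : ℝ) ^ 3) ^ (l / 3) := by positivity
      rw [inv_pow, ← div_eq_mul_inv, div_le_iff₀ hp]
      exact_mod_cast h1
    refine le_trans (add_le_add_right (add_le_add b1 (add_le_add b2 b3)) _) ?_
    rw [hm]
    push_cast
    linarith

theorem nbw_inj {V : Type} {X : SimpleGraph V} {γ l : ℕ} (hg : GirthGt X γ) (hl : l ≤ γ)
    {p : ℕ → V} (hp : NBW X l p) : Function.Injective fun i : Fin (l + 1) => p i := by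
  have key : ∀ i j : ℕ, i < j → j ≤ l → p j ≠ p i := by
    intro i j hij hj
    have := hg (j - i) (fun t => p (i + t)) (by omega) (by omega)
      ⟨fun t ht => hp.1 (i + t) (by omega), fun t ht => hp.2 (i + t) (by omega)⟩
    simpa [Nat.add_sub_cancel' hij.le] using this
  intro i j h
  have hi := i.2
  have hj := j.2
  rcases lt_trichotomy i.val j.val with hij | hij | hij
  · exact absurd h.symm (key _ _ hij (by omega))
  · exact Fin.ext hij
  · exact absurd h (key _ _ hij (by omega))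

theorem nbw_walk {V : Type} {X : SimpleGraph V} {l : ℕ} {p : ℕ → V} (hp : NBW X l p) :
    IsWalk X l fun i : Fin (l + 1) => p i :=
  fun i => hp.1 i i.2

theorem strong_choice {T : ℕ → Type} (P : ∀ n, (∀ j, j < n → T j) → T n → Prop)
    (h : ∀ n f, ∃ x, P n f x) : ∃ c : ∀ n, T n, ∀ n, P n (fun j _ => c j) (c n) := by
  choose g hg using h
  refine ⟨(Nat.lt_wfRel.wf).fix g, fun n => ?_⟩
  rw [WellFounded.fix_eq]
  exact hg _ _

end ColourAux

open ColourAux in
theorem exists_colouring (Δ K : ℕ) : ∃ m : ℕ, 8 ≤ m ∧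
    ∀ (ℓ N : ℕ → ℕ) (X : ∀ n, SimpleGraph (Fin (N n))), StrictMono ℓ → 1 ≤ ℓ 0 →
      (∀ n, N n ≤ K ^ (10 * ℓ n)) → (∀ n v, (nbr (X n) v).card ≤ Δ) →
      (∀ n, GirthGt (X n) (ℓ n)) →
      ∃ c : ∀ n, Fin (N n) → Fin m,
        (∀ n u v, (X n).Adj u v → c n u ≠ c n v) ∧
        (∀ n u v w, (X n).Adj u v → (X n).Adj u w → c n v = c n w → v = w) ∧
        ∀ n n' p p', n ≤ n' → NBW (X n) (ℓ n) p → NBW (X n') (ℓ n) p' →
          (∀ i ≤ ℓ n, c n (p i) = c n' (p' i)) →
          (⟨n, p 0⟩ : Σ n, Fin (N n)) = ⟨n', p' 0⟩ := by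
  classical
  obtain ⟨m, hm8, hm⟩ := one_graph Δ K
  refine ⟨m, hm8, fun ℓ N X hℓ h1 hN hΔ hg => ?_⟩
  have hℓ1 : ∀ j, j + 1 ≤ ℓ j := by
    intro j
    induction j with
    | zero => exact h1
    | succ j ih =>
      have : ℓ j < ℓ (j + 1) := hℓ (Nat.lt_succ_self j)
      omega
  obtain ⟨c, hc⟩ := strong_choice (T := fun n => Fin (N n) → Fin m)
    (fun n f c => (∀ u v, (X n).Adj u v → c u ≠ c v) ∧
      (∀ u v w, (X n).Adj u v → (X n).Adj u w → c v = c w → v = w) ∧
      (∀ (j : ℕ) (hj : j < n) q q', IsWalk (X j) (ℓ j) q → IsWalk (X n) (ℓ j) q' →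
        Function.Injective q' → ¬ ∀ i, f j hj (q i) = c (q' i)) ∧
      ∀ q q', IsWalk (X n) (ℓ n) q → IsWalk (X n) (ℓ n) q' → Function.Injective q →
        Function.Injective q' → (∀ i, q i ≠ q' i) → ¬ ∀ i, c (q i) = c (q' i)) (by
    intro n f
    obtain ⟨c, h1, h2, h3, h4⟩ := hm (Fin (N n)) (X n) n ℓ (ℓ n)
      (fun j => (Finset.univ.filter fun q => IsWalk (X j) (ℓ j) q).image
        fun q i => f j j.2 (q i)) hℓ1 (hΔ n) (by simpa using hN n) (by
        intro j
        refine le_trans Finset.card_image_le ?_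
        refine le_trans (le_of_eq ?_) (le_trans (card_walk (X j) Δ (hΔ j) (ℓ j)) ?_)
        · congr
        · rw [mul_pow, ← pow_mul, Fintype.card_fin]
          exact Nat.mul_le_mul_right _ (hN j))
    refine ⟨c, h1, h2, fun j hj q q' hq hq' hi hcc => h3 ⟨j, hj⟩ q' hq' hi ?_, h4⟩
    exact Finset.mem_image.2 ⟨q, Finset.mem_filter.2 ⟨Finset.mem_univ _, hq⟩, funext hcc⟩)
  refine ⟨c, fun n => (hc n).1, fun n => (hc n).2.1, fun n n' p p' hn hp hp' hcc => ?_⟩
  rcases hn.lt_or_eq with hlt | rfl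
  · exact ((hc n').2.2.1 n hlt _ _ (nbw_walk hp) (nbw_walk hp')
      (nbw_inj (hg n') (hℓ.monotone hn) hp') (fun i => hcc i (Nat.lt_succ_iff.1 i.2))).elim
  · by_contra hne
    have h0 : p 0 ≠ p' 0 := fun h => hne (by rw [h])
    have hall : ∀ i, i ≤ ℓ n → p i ≠ p' i := by
      intro i
      induction i with
      | zero => exact fun _ => h0
      | succ i ih =>
        intro hi h
        refine ih (by omega) ((hc n).2.1 (p (i + 1)) _ _ (hp.1 i hi).symm ?_ (hcc i (by omega)))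
        rw [h]
        exact (hp'.1 i hi).symm
    exact (hc n).2.2.2 _ _ (nbw_walk hp) (nbw_walk hp') (nbw_inj (hg n) le_rfl hp)
      (nbw_inj (hg n) le_rfl hp') (fun i => hall i (Nat.lt_succ_iff.1 i.2))
      (fun i => hcc i (Nat.lt_succ_iff.1 i.2))

end Vale.Agent.P089
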