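import Vale.Agent.P089.GraphsA

/-! Task A: bounded degree expanders of logarithmic girth. See notes/P089/PROOF.md, section A. -/

namespace Vale.Agent.P089

namespace Graphs

open Finset
open scoped BigOperators Classical

variable {N r : ℕ}

lemma out_mono (f : Fin N × Fin r → Fin N) {R R' S S' : Finset (Fin N)} (hR : R ⊆ R')
    (hS : S ⊆ S') : out f R S ≤ out f R' S' := by
  refine Finset.card_le_card fun e he => ?_
  simp only [Finset.mem_filter, Finset.mem_product] at he ⊢
  exact ⟨⟨hR he.1.1, he.1.2⟩, hS he.2⟩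

lemma out_insert (f : Fin N × Fin r → Fin N) {A : Finset (Fin N)} {v : Fin N} (hv : v ∉ A)
    (S : Finset (Fin N)) : out f {v} S + out f A S = out f (insert v A) S := by
  unfold out
  rw [← Finset.card_union_of_disjoint, ← Finset.filter_union, ← Finset.union_product,
    Finset.insert_eq]
  refine Finset.disjoint_filter_filter ?_
  rw [Finset.disjoint_product]
  exact Or.inl (Finset.disjoint_singleton_left.2 hv)

/-- pruning. -/
lemma prune (f : Fin N × Fin r → Fin N) (B : Finset (Fin N))
    (h1 : ∀ R : Finset (Fin N), 32 * R.card ≤ N → out f R R ≤ 768 * R.card)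
    (hB : 32 * (4 * B.card + 1) ≤ N) :
    ∃ Z : Finset (Fin N), B ⊆ Z ∧ 32 * Z.card ≤ N ∧ ∀ v ∉ Z, out f {v} Z < 1024 := by
  obtain ⟨A, hA, hmax⟩ := Finset.exists_max_image
    (univ.filter fun A : Finset (Fin N) =>
      A.card ≤ 3 * B.card + 1 ∧ 1024 * A.card ≤ out f A (A ∪ B)) Finset.card
    ⟨∅, by simp⟩
  simp only [Finset.mem_filter, Finset.mem_univ, true_and] at hA hmax
  have hc := Finset.card_union_le A B
  have h2 : A.card ≤ 3 * B.card := by
    have h3 := out_mono f (Finset.subset_union_left (s₁ := A) (s₂ := B)) (subset_refl (A ∪ B))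
    have h4 := h1 (A ∪ B) (by omega)
    omega
  refine ⟨A ∪ B, Finset.subset_union_right, by omega, fun v hv => ?_⟩
  by_contra h
  have hvA : v ∉ A := fun h' => hv (Finset.mem_union_left _ h')
  have h3 := hmax (insert v A) ⟨by rw [Finset.card_insert_of_notMem hvA]; omega, by
    have h4 := out_insert f hvA (A ∪ B)
    have h5 := out_mono f (subset_refl (insert v A))
      (Finset.union_subset_union_left (t := B) (Finset.subset_insert v A))
    rw [Finset.card_insert_of_notMem hvA]
    omega⟩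
  rw [Finset.card_insert_of_notMem hvA] at h3
  omega

/-- the graph on the surviving vertices. -/
def gr {n : ℕ} (f : Fin N × Fin r → Fin N) (φ : Fin n → Fin N) : SimpleGraph (Fin n) :=
  SimpleGraph.fromRel fun a b => ∃ i, f (φ a, i) = φ b

lemma darts_le {n : ℕ} (f : Fin N × Fin r → Fin N) {φ : Fin n → Fin N}
    (hφ : Function.Injective φ) (R : Finset (Fin n)) :
    darts (gr f φ) R R ≤ 2 * out f (R.image φ) (R.image φ) := by
  set P := (R ×ˢ R).filter fun e => ∃ i, f (φ e.1, i) = φ e.2 with hP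
  have h1 : P.card ≤ out f (R.image φ) (R.image φ) := by
    rw [← Finset.card_image_of_injective P (hφ.prodMap hφ)]
    refine le_trans (Finset.card_le_card ?_) (Finset.card_image_le (f := fun e => (e.1, f e)))
    intro x hx
    obtain ⟨e, he, rfl⟩ := Finset.mem_image.1 hx
    simp only [hP, Finset.mem_filter, Finset.mem_product] at he
    obtain ⟨⟨h1, h2⟩, i, hi⟩ := he
    refine Finset.mem_image.2 ⟨(φ e.1, i), ?_, by simp [hi, Prod.map]⟩
    simp only [Finset.mem_filter, Finset.mem_product, Finset.mem_univ, and_true, hi]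
    exact ⟨Finset.mem_image_of_mem _ h1, Finset.mem_image_of_mem _ h2⟩
  have h2 : darts (gr f φ) R R ≤ (P ∪ P.image Prod.swap).card := by
    refine Finset.card_le_card fun e he => ?_
    simp only [Finset.mem_filter, Finset.mem_product, gr, SimpleGraph.fromRel_adj] at he
    rcases he.2.2 with h | h
    · exact Finset.mem_union_left _ (Finset.mem_filter.2 ⟨Finset.mem_product.2 he.1, h⟩)
    · refine Finset.mem_union_right _ (Finset.mem_image.2 ⟨e.swap, ?_, rfl⟩)
      exact Finset.mem_filter.2 ⟨Finset.mem_product.2 ⟨he.1.2, he.1.1⟩, h⟩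
  have h3 := Finset.card_union_le P (P.image Prod.swap)
  have h4 := Finset.card_image_le (s := P) (f := Prod.swap)
  omega

lemma out_le {n : ℕ} (f : Fin N × Fin r → Fin N) (φ : Fin n → Fin N) (R : Finset (Fin n)) :
    out f (R.image φ) ((univ \ R).image φ) ≤ r * darts (gr f φ) R (univ \ R) := by
  have h1 : out f (R.image φ) ((univ \ R).image φ) ≤
      (((R ×ˢ (univ \ R)).filter fun e => (gr f φ).Adj e.1 e.2) ×ˢ (univ : Finset (Fin r))).card := by
    refine le_trans (Finset.card_le_card ?_)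
      (Finset.card_image_le (f := fun x : (Fin n × Fin n) × Fin r => (φ x.1.1, x.2)))
    rintro ⟨v, i⟩ he
    simp only [Finset.mem_filter, Finset.mem_product, Finset.mem_univ, and_true,
      Finset.mem_image] at he
    obtain ⟨⟨a, ha, rfl⟩, b, hb, hab⟩ := he
    refine Finset.mem_image.2 ⟨((a, b), i), ?_, rfl⟩
    simp only [Finset.mem_filter, Finset.mem_product, Finset.mem_univ, and_true, gr,
      SimpleGraph.fromRel_adj]
    refine ⟨⟨ha, hb⟩, ?_, Or.inl ⟨i, hab.symm⟩⟩
    rintro rfl
    exact (Finset.mem_sdiff.1 hb).2 ha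
  rwa [Finset.card_product, Finset.card_univ, Fintype.card_fin, mul_comm] at h1

lemma darts_add {n : ℕ} (X : SimpleGraph (Fin n)) (R : Finset (Fin n)) :
    darts X R R + darts X R (univ \ R) = ∑ a ∈ R, (nbr X a).card := by
  unfold darts
  rw [← Finset.card_union_of_disjoint, ← Finset.filter_union, ← Finset.product_union,
    Finset.union_sdiff_of_subset (subset_univ _), Finset.card_filter, Finset.sum_product]
  · refine Finset.sum_congr rfl fun a _ => ?_
    rw [nbr, Finset.card_filter]
  · refine Finset.disjoint_filter_filter ?_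
    rw [Finset.disjoint_product]
    exact Or.inr Finset.disjoint_sdiff

lemma preconnected_of_expand {n h : ℕ} (X : SimpleGraph (Fin n))
    (hX : ∀ R : Finset (Fin n), 2 * R.card ≤ n → R.card ≤ h * darts X R (Finset.univ \ R)) :
    X.Preconnected := by
  intro u v
  set C := univ.filter fun w => X.Reachable u w with hC
  have hu : u ∈ C := by simp [hC]
  have hcc : C.card + (univ \ C).card = n := by
    rw [Finset.card_sdiff_of_subset (subset_univ _), Finset.card_univ, Fintype.card_fin]
    have := (Finset.card_le_univ C).trans (Fintype.card_fin n).le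
    omega
  by_cases h1 : 2 * C.card ≤ n
  · have h2 := hX C h1
    have h3 : darts X C (univ \ C) = 0 := by
      rw [darts, Finset.card_eq_zero, Finset.filter_eq_empty_iff]
      intro e he hadj
      simp only [hC, Finset.mem_product, Finset.mem_filter, Finset.mem_univ, true_and,
        Finset.mem_sdiff] at he
      exact he.2 (he.1.trans hadj.reachable)
    have := Finset.card_pos.2 ⟨u, hu⟩
    rw [h3] at h2
    omega
  · have h2 := hX (univ \ C) (by omega)
    have h3 : darts X (univ \ C) (univ \ (univ \ C)) = 0 := by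
      rw [darts, Finset.card_eq_zero, Finset.filter_eq_empty_iff]
      intro e he hadj
      simp only [hC, Finset.mem_product, Finset.mem_filter, Finset.mem_univ, true_and,
        Finset.mem_sdiff, not_not] at he
      exact he.1 (he.2.trans hadj.symm.reachable)
    rw [h3, mul_zero, Nat.le_zero, Finset.card_eq_zero] at h2
    by_contra h4
    have : v ∈ univ \ C := by simp [hC, h4]
    rw [h2] at this
    simp at this

lemma mem_nbr {n : ℕ} (f : Fin N × Fin r → Fin N) (φ : Fin n → Fin N) (a b : Fin n) :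
    b ∈ nbr (gr f φ) a ↔ a ≠ b ∧ ((∃ i, f (φ a, i) = φ b) ∨ ∃ i, f (φ b, i) = φ a) := by
  rw [nbr, Finset.mem_filter, gr, SimpleGraph.fromRel_adj]
  simp

lemma deg_le {n : ℕ} (f : Fin N × Fin r → Fin N) {φ : Fin n → Fin N}
    (hφ : Function.Injective φ) (a : Fin n) :
    (nbr (gr f φ) a).card ≤ r + out f univ {φ a} := by
  rw [← Finset.card_image_of_injective _ hφ]
  have h1 : (nbr (gr f φ) a).image φ ⊆ (univ.image fun i => f (φ a, i)) ∪
      (((univ ×ˢ univ).filter fun e => f e ∈ ({φ a} : Finset (Fin N))).image Prod.fst) := by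
    intro x hx
    obtain ⟨b, hb, rfl⟩ := Finset.mem_image.1 hx
    rw [mem_nbr] at hb
    rcases hb.2 with ⟨i, hi⟩ | ⟨i, hi⟩
    · exact Finset.mem_union_left _ (Finset.mem_image.2 ⟨i, mem_univ _, hi⟩)
    · exact Finset.mem_union_right _ (Finset.mem_image.2 ⟨(φ b, i), by simp [hi], rfl⟩)
  refine (Finset.card_le_card h1).trans ((Finset.card_union_le _ _).trans ?_)
  exact add_le_add (Finset.card_image_le.trans (by simp)) Finset.card_image_le

lemma le_deg {n : ℕ} (f : Fin N × Fin r → Fin N) {φ : Fin n → Fin N} {Z : Finset (Fin N)}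
    (hZ : ∀ v, v ∉ Z → ∃ a, φ a = v) (a : Fin n) (h0 : ∀ i, f (φ a, i) ≠ φ a)
    (h1 : Function.Injective fun i => f (φ a, i)) :
    r ≤ (nbr (gr f φ) a).card + out f {φ a} Z := by
  have h2 := Finset.card_filter_add_card_filter_not (s := (univ : Finset (Fin r)))
    (fun i => f (φ a, i) ∈ Z)
  rw [Finset.card_univ, Fintype.card_fin] at h2
  have h3 : (univ.filter fun i => f (φ a, i) ∈ Z).card ≤ out f {φ a} Z := by
    refine Finset.card_le_card_of_injOn (fun i => (φ a, i)) ?_ ?_
    · intro i hi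
      simpa using hi
    · intro i _ j _ h
      exact (Prod.ext_iff.1 h).2
  have h4 : (univ.filter fun i => ¬ f (φ a, i) ∈ Z).card ≤ (nbr (gr f φ) a).card := by
    rw [← Finset.card_image_of_injective _ h1]
    refine le_trans (Finset.card_le_card ?_) (Finset.card_image_le (f := φ))
    intro x hx
    obtain ⟨i, hi, rfl⟩ := Finset.mem_image.1 hx
    obtain ⟨b, hb⟩ := hZ _ (Finset.mem_filter.1 hi).2
    refine Finset.mem_image.2 ⟨b, ?_, hb⟩
    rw [mem_nbr]
    refine ⟨?_, Or.inl ⟨i, hb.symm⟩⟩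
    rintro rfl
    exact h0 i hb.symm
  omega

lemma girth {n γ : ℕ} (f : Fin N × Fin r → Fin N) {φ : Fin n → Fin N}
    (hφ : Function.Injective φ)
    (h : ∀ k ≤ γ, ∀ c : Cfg N r k, Valid f c → ∀ a, c.1 0 ≠ φ a) : GirthGt (gr f φ) γ := by
  intro k p hk0 hkγ hp hclosed
  have hex : ∃ m, 0 < m ∧ ∃ i, i + m ≤ k ∧ p (i + m) = p i := ⟨k, hk0, 0, by simp, by simpa⟩
  obtain ⟨hm0, i, hik, hi⟩ := Nat.find_spec hex
  have hmin := fun m' (hm' : m' < Nat.find hex) => Nat.find_min hex hm'
  have hm1 : Nat.find hex ≠ 1 := by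
    intro h1
    rw [h1] at hi hik
    exact (hp.1 i (by omega)).ne hi.symm
  have hm2 : Nat.find hex ≠ 2 := by
    intro h1
    rw [h1] at hi hik
    exact hp.2 i hik hi
  obtain ⟨j, hj⟩ : ∃ j, Nat.find hex = j + 1 := ⟨Nat.find hex - 1, by omega⟩
  rw [hj] at hi hik hmin hm1 hm2
  have hj2 : 2 ≤ j := by omega
  let v : Fin (j + 1) → Fin n := fun t => p (i + t)
  have hv : Function.Injective v := by
    have key : ∀ t t' : Fin (j + 1), t < t' → v t ≠ v t' := by
      intro t t' htt hvv
      have h1 : (t : ℕ) < t' := htt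
      have h2 := t'.2
      refine hmin (t' - t) (by omega) ⟨by omega, i + t, by omega, ?_⟩
      have : i + t + (t' - t) = i + t' := by omega
      rw [this]; exact hvv.symm
    intro t t' htt
    rcases lt_trichotomy t t' with h1 | h1 | h1
    · exact absurd htt (key _ _ h1)
    · exact h1
    · exact absurd htt.symm (key _ _ h1)
  have hnext : ∀ t : Fin (j + 1), v (t + 1) = p (i + t + 1) := by
    intro t
    simp only [v, Fin.val_add_one]
    split_ifs with h1
    · rw [h1, Fin.val_last, add_zero, add_assoc, hi]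
    · rw [add_assoc]
  have hadj : ∀ t : Fin (j + 1), ∃ (o : Bool) (l : Fin r),
      f (if o then φ (v t) else φ (v (t + 1)), l) = if o then φ (v (t + 1)) else φ (v t) := by
    intro t
    have h1 := hp.1 (i + t) (by have := t.2; omega)
    rw [← hnext] at h1
    simp only [gr, SimpleGraph.fromRel_adj] at h1
    rcases h1.2 with ⟨l, hl⟩ | ⟨l, hl⟩
    · exact ⟨true, l, hl⟩
    · exact ⟨false, l, hl⟩
  choose o l hol using hadj
  have hval : ∀ t, f (dart ((φ ∘ v, o, l) : Cfg N r j) t) = head ((φ ∘ v, o, l) : Cfg N r j) t :=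
    hol
  refine h j (by omega) (φ ∘ v, o, l) ⟨?_, hval⟩ (v 0) rfl
  intro t t' htt
  have h1 : head ((φ ∘ v, o, l) : Cfg N r j) t = head ((φ ∘ v, o, l) : Cfg N r j) t' := by
    rw [← hval, ← hval, htt]
  have h2 := (Prod.ext_iff.1 htt).1
  have hinj := hφ.comp hv
  have h3 : ∀ t t' : Fin (j + 1), t = t' + 1 → t + 1 = t' → False := by
    intro t t' e1 e2
    have e3 := congrArg Fin.val e1
    have e4 := congrArg Fin.val e2
    simp only [Fin.val_add_one, Fin.ext_iff, Fin.val_last] at e3 e4
    split_ifs at e3 e4 <;> omega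
  simp only [head, dart] at h1 h2
  split_ifs at h1 h2
  · exact hinj h2
  · exact (h3 _ _ (hinj h2) (hinj h1)).elim
  · exact (h3 _ _ (hinj h1) (hinj h2)).elim
  · exact hinj h1

end Graphs

open Graphs Finset in
theorem exists_goodGraphs : ∃ d Δ h K : ℕ, 2 ≤ Δ ∧ ∀ γ, 1 ≤ γ →
    ∃ (n : ℕ) (X : SimpleGraph (Fin n)), Δ ^ γ ≤ n ∧ n ≤ K ^ γ ∧ GoodGraph d Δ h γ X := by
  classical
  obtain ⟨r, hr⟩ : ∃ r : ℕ, r = 3072 := ⟨_, rfl⟩
  refine ⟨2048, 3 * r, r, 2560 * (2 * r) ^ 3, by omega, fun γ hγ => ?_⟩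
  obtain ⟨N, hN⟩ : ∃ N, N = (2560 * (2 * r) ^ 3) ^ γ := ⟨_, rfl⟩
  rw [← hN]
  have hN1 : 2560 * (2 * r) ^ (γ + 2) ≤ N := by
    rw [hN, mul_pow 2560, ← pow_mul]
    exact Nat.mul_le_mul (Nat.le_self_pow (by omega) _)
      (Nat.pow_le_pow_right (by omega) (by omega))
  have hN2 : 2 * (3 * r) ^ γ ≤ N := by
    rw [hN]
    calc 2 * (3 * r) ^ γ ≤ 2 ^ γ * (3 * r) ^ γ :=
          Nat.mul_le_mul_right _ (Nat.le_self_pow (by omega) _)
      _ = (2 * (3 * r)) ^ γ := (mul_pow _ _ _).symm
      _ ≤ _ := Nat.pow_le_pow_left (by rw [hr]; norm_num) _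
  have hN3 : 2560 ≤ N :=
    le_trans (Nat.le_mul_of_pos_right _ (pow_pos (by omega) _)) hN1
  have : NeZero N := ⟨by omega⟩
  obtain ⟨f, B, h1, h2, h3, h4, h5⟩ := exists_f hr γ hN1
  obtain ⟨Z, hBZ, hZ, hout⟩ := prune f B h1 (by omega)
  let φ : Fin Zᶜ.card → Fin N := fun a => (Zᶜ.equivFin.symm a : Fin N)
  have hφ : Function.Injective φ := Subtype.val_injective.comp Zᶜ.equivFin.symm.injective
  have hφZ : ∀ a, φ a ∉ Z := fun a => Finset.mem_compl.1 (Zᶜ.equivFin.symm a).2
  have hφB : ∀ a, φ a ∉ B := fun a h => hφZ a (hBZ h)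
  have hsurj : ∀ v, v ∉ Z → ∃ a, φ a = v := fun v hv =>
    ⟨Zᶜ.equivFin ⟨v, Finset.mem_compl.2 hv⟩, by simp [φ]⟩
  have hn : Zᶜ.card + Z.card = N := by
    rw [Finset.card_compl_add_card, Fintype.card_fin]
  have hdeg : ∀ a, 2048 ≤ (nbr (gr f φ) a).card := by
    intro a
    have h6 := le_deg f hsurj a (fun i hi => hφB a (h3 0 (by omega)
      (fun _ => φ a, fun _ => true, fun _ => i)
      ⟨fun t t' _ => Subsingleton.elim (α := Fin 1) t t', fun t => hi⟩)) (fun i j hij => by
        by_contra hne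
        refine hφB a (h3 1 hγ (![φ a, f (φ a, i)], ![true, false], ![i, j]) ⟨?_, ?_⟩)
        · intro t t' htt
          have := (Prod.ext_iff.1 htt).2
          fin_cases t <;> fin_cases t' <;> simp_all [dart]
        · intro t
          fin_cases t
          · rfl
          · exact hij.symm)
    have h7 := hout _ (hφZ a)
    omega
  have hsparse : ∀ R : Finset (Fin Zᶜ.card), 32 * R.card ≤ Zᶜ.card →
      darts (gr f φ) R R + 5 * R.card ≤ 2048 * R.card := by
    intro R hR
    have h6 := darts_le f hφ R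
    have h7 := h1 (R.image φ) (by rw [Finset.card_image_of_injective _ hφ]; omega)
    rw [Finset.card_image_of_injective _ hφ] at h7
    omega
  have hexp : ∀ R : Finset (Fin Zᶜ.card), 2 * R.card ≤ Zᶜ.card →
      R.card ≤ r * darts (gr f φ) R (Finset.univ \ R) := by
    intro R hR
    by_cases h6 : 32 * R.card ≤ Zᶜ.card
    · have h7 := hsparse R h6
      have h8 := darts_add (gr f φ) R
      have h9 : 2048 * R.card ≤ ∑ a ∈ R, (nbr (gr f φ) a).card := by
        rw [mul_comm, ← smul_eq_mul]
        exact Finset.card_nsmul_le_sum _ _ _ fun a _ => hdeg a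
      subst hr
      omega
    · have h7 := h2 (R.image φ) ((univ \ R).image φ)
        (by rw [Finset.card_image_of_injective _ hφ]; omega)
        (by
          rw [Finset.card_image_of_injective _ hφ, Finset.card_sdiff_of_subset (subset_univ _),
            Finset.card_univ, Fintype.card_fin]
          omega)
      have h8 := out_le f φ R
      omega
  refine ⟨Zᶜ.card, gr f φ, by omega, by omega, hdeg, fun a => ?_, ?_, hsparse, hexp,
    preconnected_of_expand _ hexp⟩
  · have h6 := deg_le f hφ a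
    have h7 : out f univ {φ a} ≤ 2 * r := not_lt.1 fun h => hφB a (h4 _ h)
    omega
  · exact girth f hφ fun k hk c hc a h => hφB a (h ▸ h3 k hk c hc)

end Vale.Agent.P089
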