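import Mathlib

/-! Task E1: a spectral gap gives a projection in a closed algebra. -/

namespace Vale.Agent.P089

namespace Gap

variable {E : Type} [NormedAddCommGroup E] [InnerProductSpace ℂ E] [CompleteSpace E]

lemma inner_sa {p : E →L[ℂ] E} (hp : IsSelfAdjoint p) (x y : E) :
    inner ℂ x (p y) = inner ℂ (p x) y :=
  (hp.isSymmetric x y).symm

lemma inner_proj {p : E →L[ℂ] E} (hp : IsSelfAdjoint p) (hp2 : p * p = p) (x : E) :
    inner ℂ x (p x) = ((‖p x‖ ^ 2 : ℝ) : ℂ) := by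
  have h : p x = p (p x) := by
    conv_lhs => rw [← hp2]
    rfl
  conv_lhs => rw [h]
  rw [inner_sa hp, inner_self_eq_norm_sq_to_K]
  simp

lemma norm_le_of_mul {p r : E →L[ℂ] E} (hp : IsSelfAdjoint p) (hp2 : p * p = p) (h : p * r = p)
    (x : E) : ‖p x‖ ≤ ‖r x‖ := by
  have h1 : ∀ y, ‖p y‖ ≤ ‖y‖ := fun y => by
    have h2 : ‖p y‖ ^ 2 ≤ ‖y‖ * ‖p y‖ := by
      have := (Complex.re_le_norm _).trans (norm_inner_le_norm (𝕜 := ℂ) y (p y))
      rwa [inner_proj hp hp2, Complex.ofReal_re] at this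
    nlinarith [norm_nonneg y, norm_nonneg (p y)]
  have h3 : p x = p (r x) := by
    conv_lhs => rw [← h]
    rfl
  rw [h3]
  exact h1 _

end Gap

open Gap in
theorem exists_proj_of_gap {E : Type} [NormedAddCommGroup E] [InnerProductSpace ℂ E]
    [CompleteSpace E] (A : Subalgebra ℂ (E →L[ℂ] E)) (hA : IsClosed (A : Set (E →L[ℂ] E)))
    (D : E →L[ℂ] E) (hD : D ∈ A) (hsa : IsSelfAdjoint D) (q : ℕ → E →L[ℂ] E)
    (hq : ∀ M, IsSelfAdjoint (q M)) (hq2 : ∀ M, q M * q M = q M) (hDq : ∀ M, D * q M = 0)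
    (ε : ℝ) (hε : 0 < ε) (s : Set E) (hs : Dense s)
    (hgap : ∀ ξ ∈ s, ∀ η : ℝ, 0 < η → ∃ M,
      ε * (‖ξ‖ ^ 2 - (inner ℂ ξ (q M ξ)).re - η) ≤ (inner ℂ ξ (D ξ)).re)
    (δ : E) (t : ℝ) (ht : IsLUB (Set.range fun M => (inner ℂ δ (q M δ)).re) t) :
    ∃ P ∈ A, IsSelfAdjoint P ∧ P * P = P ∧ inner ℂ δ (P δ) = (t : ℂ) := by
  let P : E →L[ℂ] E := (D.ker).starProjection
  have hP : IsSelfAdjoint P := isSelfAdjoint_starProjection _
  have hP2 : P * P = P := D.ker.isIdempotentElem_starProjection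
  have hDP : D * P = 0 := ContinuousLinearMap.ext fun x => D.ker.starProjection_apply_mem x
  have hPD : P * D = 0 := by
    have := congrArg star hDP
    rwa [star_mul, hP.star_eq, hsa.star_eq, star_zero] at this
  have hPq : ∀ M, P * q M = q M := fun M => ContinuousLinearMap.ext fun x =>
    Submodule.starProjection_eq_self_iff.2 (DFunLike.congr_fun (hDq M) x)
  have hqP : ∀ M, q M * P = q M := fun M => by
    have := congrArg star (hPq M)
    rwa [star_mul, hP.star_eq, (hq M).star_eq] at this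
  have hre : ∀ M ξ, (inner ℂ ξ (q M ξ)).re = ‖q M ξ‖ ^ 2 := fun M ξ => by
    rw [inner_proj (hq M) (hq2 M), Complex.ofReal_re]
  have key : ∀ f : E → ℝ, Continuous f → (∀ M ξ, ‖q M ξ‖ ≤ f ξ) →
      ∀ ξ, ε * (‖ξ‖ ^ 2 - f ξ ^ 2) ≤ (inner ℂ ξ (D ξ)).re := by
    intro f hf hqf ξ
    have hc : IsClosed {ξ : E | ε * (‖ξ‖ ^ 2 - f ξ ^ 2) ≤ (inner ℂ ξ (D ξ)).re} :=
      isClosed_le (by fun_prop) (by fun_prop)
    refine closure_minimal (fun ξ hξ => ?_) hc (hs ξ)
    change ε * (‖ξ‖ ^ 2 - f ξ ^ 2) ≤ (inner ℂ ξ (D ξ)).re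
    refine le_of_forall_pos_le_add fun θ hθ => ?_
    obtain ⟨M, hM⟩ := hgap ξ hξ (θ / ε) (div_pos hθ hε)
    rw [hre] at hM
    have h1 : ‖q M ξ‖ ^ 2 ≤ f ξ ^ 2 := pow_le_pow_left₀ (norm_nonneg _) (hqf M ξ) 2
    have h2 : ε * (θ / ε) = θ := by field_simp
    nlinarith
  have hg := key (fun ξ => ‖P ξ‖) (by fun_prop) fun M ξ => norm_le_of_mul (hq M) (hq2 M) (hqP M) ξ
  refine ⟨P, ?_, hP, hP2, ?_⟩
  · set a : ℝ := ε / (‖D‖ ^ 2 + ε ^ 2) with ha
    have ha0 : 0 < a := by positivity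
    have ha1 : a * (‖D‖ ^ 2 + ε ^ 2) = ε := by rw [ha]; field_simp
    have ha2 : 0 ≤ 1 - a * ε := by
      have : a * ε * (‖D‖ ^ 2 + ε ^ 2) ≤ 1 * (‖D‖ ^ 2 + ε ^ 2) := by
        rw [mul_right_comm, ha1]; nlinarith [sq_nonneg ‖D‖]
      have := le_of_mul_le_mul_right this (by positivity)
      linarith
    let T : E →L[ℂ] E := 1 - (a : ℂ) • D - P
    have hTP : T * P = 0 := by
      simp only [T, sub_mul, one_mul, smul_mul_assoc, hDP, hP2]; simp
    have hPT : P * T = 0 := by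
      simp only [T, mul_sub, mul_one, mul_smul_comm, hPD, hP2]; simp
    have hT : ‖T‖ ≤ √(1 - a * ε) := by
      refine T.opNorm_le_bound (Real.sqrt_nonneg _) fun ξ => ?_
      set η := ξ - P ξ with hη
      have h1 : P η = 0 := by
        rw [hη, map_sub, sub_eq_zero]
        exact (DFunLike.congr_fun hP2 ξ).symm
      have h2 : T ξ = η - (a : ℂ) • D η := by
        have : D (P ξ) = 0 := DFunLike.congr_fun hDP ξ
        simp only [T, hη, map_sub, this]
        simp
        abel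
      have h3 : ‖η‖ ≤ ‖ξ‖ := by
        have := D.kerᗮ.norm_starProjection_apply_le ξ
        rwa [Submodule.starProjection_orthogonal_val] at this
      have h4 := hg η
      simp only [h1, norm_zero] at h4
      have h5 : ‖D η‖ ^ 2 ≤ ‖D‖ ^ 2 * ‖η‖ ^ 2 := by
        rw [← mul_pow]; exact pow_le_pow_left₀ (norm_nonneg _) (D.le_opNorm η) 2
      have h6 : ‖T ξ‖ ^ 2 ≤ (1 - a * ε) * ‖η‖ ^ 2 := by
        rw [h2, @norm_sub_sq ℂ, inner_smul_right, norm_smul, mul_pow]
        simp only [RCLike.re_to_complex, Complex.re_ofReal_mul, Complex.norm_real,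
          Real.norm_eq_abs, sq_abs]
        have h7 := mul_le_mul_of_nonneg_left h4 ha0.le
        have h8 := mul_le_mul_of_nonneg_left h5 (sq_nonneg a)
        have h9 : a ^ 2 * ‖D‖ ^ 2 ≤ a * ε := by nlinarith [sq_nonneg ε]
        have h10 := mul_le_mul_of_nonneg_right h9 (sq_nonneg ‖η‖)
        nlinarith
      refine (pow_le_pow_iff_left₀ (norm_nonneg _) (by positivity) two_ne_zero).1 ?_
      rw [mul_pow, Real.sq_sqrt ha2]
      exact h6.trans (mul_le_mul_of_nonneg_left (pow_le_pow_left₀ (norm_nonneg _) h3 2) ha2)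
    have hT1 : ‖T‖ < 1 := hT.trans_lt ((Real.sqrt_lt' one_pos).2 (by nlinarith))
    have hpow : ∀ k : ℕ, (T + P) ^ (k + 1) = T ^ (k + 1) + P := by
      intro k
      induction k with
      | zero => simp
      | succ k ih =>
        rw [pow_succ, ih, add_mul, mul_add, mul_add, hPT, hP2, pow_succ T k, mul_assoc _ T P, hTP,
          ← pow_succ, ← pow_succ]
        simp
    have hmem : T + P ∈ A := by
      have : T + P = 1 - (a : ℂ) • D := by simp [T]
      rw [this]
      exact A.sub_mem A.one_mem (A.smul_mem hD _)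
    have hlim : Filter.Tendsto (fun k : ℕ => (T + P) ^ (k + 1)) Filter.atTop (nhds P) := by
      simp only [hpow]
      simpa using ((tendsto_pow_atTop_nhds_zero_of_norm_lt_one hT1).comp
        (Filter.tendsto_add_atTop_nat 1)).add_const P
    exact hA.mem_of_tendsto hlim (Filter.Eventually.of_forall fun k => A.pow_mem hmem _)
  · rw [inner_proj hP hP2]
    congr 1
    have h1 : ∀ M, ‖q M δ‖ ^ 2 ≤ t := fun M => hre M δ ▸ ht.1 ⟨M, rfl⟩
    have ht0 : 0 ≤ t := (sq_nonneg _).trans (h1 0)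
    refine le_antisymm ?_ (ht.2 ?_)
    · have h2 := key (fun ξ => √t + ‖ξ - P δ‖) (by fun_prop) (fun M ξ => by
        have h3 : q M ξ = q M δ + q M (ξ - P δ) := by
          have : q M (P δ) = q M δ := DFunLike.congr_fun (hqP M) δ
          rw [map_sub, this]; abel
        rw [h3]
        refine (norm_add_le _ _).trans (add_le_add (Real.le_sqrt_of_sq_le (h1 M)) ?_)
        exact norm_le_of_mul (r := 1) (hq M) (hq2 M) (mul_one _) _) (P δ)
      have h4 : D (P δ) = 0 := DFunLike.congr_fun hDP δ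
      simp only [h4, inner_zero_right, Complex.zero_re, sub_self, norm_zero, add_zero,
        Real.sq_sqrt ht0] at h2
      by_contra hh
      push Not at hh
      have := mul_pos hε (sub_pos.2 hh)
      linarith
    · rintro _ ⟨M, rfl⟩
      simp only [hre]
      exact pow_le_pow_left₀ (norm_nonneg _) (norm_le_of_mul (hq M) (hq2 M) (hqP M) δ) 2

end Vale.Agent.P089
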