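import Vale.Agent.P089.GrpTransfer

/-! Task E3, part 3: the semidirect product, and local operators. -/

noncomputable section

open Classical Filter

namespace Vale.Agent.P089.E3

/-- A right action by additive maps. -/
structure RAct (G Y : Type) [Group G] [AddCommGroup Y] where
  tr : G → Y →+ Y
  tr_one : ∀ y, tr 1 y = y
  tr_mul : ∀ x g y, tr g (tr x y) = tr (x * g) y

variable {G Y : Type} [Group G] [AddCommGroup Y]

/-- The full semidirect product. -/
structure Big (R : RAct G Y) : Type where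
  a : Y →+ ZMod 2
  g : G

namespace Big

variable {R : RAct G Y}

theorem ext {p q : Big R} (h : p.a = q.a) (h' : p.g = q.g) : p = q := by
  cases p; cases q; congr

instance : Mul (Big R) := ⟨fun p q => ⟨p.a + q.a.comp (R.tr p.g), p.g * q.g⟩⟩
instance : One (Big R) := ⟨⟨0, 1⟩⟩
instance : Inv (Big R) := ⟨fun p => ⟨-(p.a.comp (R.tr p.g⁻¹)), p.g⁻¹⟩⟩

theorem mul_a (p q : Big R) (y : Y) : (p * q).a y = p.a y + q.a (R.tr p.g y) := rfl
theorem mul_g (p q : Big R) : (p * q).g = p.g * q.g := rfl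
theorem one_a (y : Y) : (1 : Big R).a y = 0 := rfl
theorem one_g : (1 : Big R).g = 1 := rfl
theorem inv_a (p : Big R) (y : Y) : (p⁻¹).a y = -p.a (R.tr p.g⁻¹ y) := rfl
theorem inv_g (p : Big R) : (p⁻¹).g = p.g⁻¹ := rfl

instance : Group (Big R) := Group.ofLeftAxioms
  (fun p q r => Big.ext
    (AddMonoidHom.ext fun y => by simp only [mul_a, mul_g, R.tr_mul, add_assoc])
    (by simp only [mul_g, mul_assoc]))
  (fun p => Big.ext
    (AddMonoidHom.ext fun y => by simp only [mul_a, one_a, one_g, R.tr_one, zero_add])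
    (by simp only [mul_g, one_g, one_mul]))
  (fun p => Big.ext
    (AddMonoidHom.ext fun y => by simp only [mul_a, one_a, inv_a, inv_g, neg_add_cancel])
    (by simp only [mul_g, one_g, inv_g, inv_mul_cancel]))

/-- The canonical section. -/
def inr (R : RAct G Y) : G →* Big R where
  toFun g := ⟨0, g⟩
  map_one' := rfl
  map_mul' _ _ := Big.ext (AddMonoidHom.ext fun y => by simp [mul_a]) rfl

end Big

theorem countable_of_fg (Γ : Type) [Group Γ] (h : Group.FG Γ) : Countable Γ := by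
  obtain ⟨S, hS, φ, hφ⟩ := Group.fg_iff_exists_freeGroup_hom_surjective.1 h
  have := hS.to_subtype
  exact hφ.countable

theorem exists_coc (R : RAct G Y) {ι κ : Type} [Finite ι] [Finite κ] (gen : ι → G)
    (hgen : Subgroup.closure (Set.range gen) = ⊤) (e : κ → Y →+ ZMod 2) :
    ∃ (Γ : Type) (_ : Group Γ), Group.FG Γ ∧ Countable Γ ∧ ∃ C : Coc G Y Γ, C.tr = R.tr ∧
      (∀ g, ∃ γ, C.a γ = 0 ∧ C.g γ = g) ∧
      (∀ k h, ∃ γ, (∀ y, C.a γ y = e k (R.tr h y)) ∧ C.g γ = 1) := by
  let s : Set (Big R) := Set.range (fun i => Big.inr R (gen i)) ∪ Set.range fun k => ⟨e k, 1⟩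
  have hs : Finite s := ((Set.finite_range _).union (Set.finite_range _)).to_subtype
  have hfg : Group.FG (Subgroup.closure s) := Group.closure_finite_fg s
  have hin : ∀ g, Big.inr R g ∈ Subgroup.closure s := by
    intro g
    have hg : g ∈ Subgroup.closure (Set.range gen) := hgen ▸ Subgroup.mem_top g
    have : Subgroup.closure (Set.range gen) ≤ (Subgroup.closure s).comap (Big.inr R) := by
      rw [Subgroup.closure_le]
      rintro _ ⟨i, rfl⟩
      exact Subgroup.subset_closure (Or.inl ⟨i, rfl⟩)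
    exact this hg
  refine ⟨Subgroup.closure s, inferInstance, hfg, countable_of_fg _ hfg,
    { tr := R.tr, tr_one := R.tr_one, tr_mul := R.tr_mul, a := fun γ => γ.1.a
      g := { toFun := fun γ => γ.1.g, map_one' := rfl, map_mul' := fun _ _ => rfl }
      a_mul := fun _ _ _ => rfl
      inj := fun γ γ' h h' => Subtype.ext (Big.ext h h') }, rfl,
    fun g => ⟨⟨_, hin g⟩, rfl, rfl⟩, fun k h => ?_⟩
  have hk : (⟨e k, 1⟩ : Big R) ∈ Subgroup.closure s := Subgroup.subset_closure (Or.inr ⟨k, rfl⟩)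
  refine ⟨⟨_, mul_mem (mul_mem (hin h) hk) (hin h⁻¹)⟩, fun y => ?_, ?_⟩
  · simp [Big.mul_a, Big.inr]
  · simp [Big.mul_g, Big.inr]

namespace Coc

variable {Γ : Type} [Group Γ] {C : Coc G Y Γ}

theorem Good.congr {F F' : Y → (G → ℂ) → G → ℂ} (h : C.Good F) (e : ∀ y f x, F y f x = F' y f x) :
    C.Good F' := by
  obtain ⟨p, hp, h⟩ := h
  exact ⟨p, hp, fun y f => (h y f).trans (funext (e y f))⟩

theorem Good.add {F F' : Y → (G → ℂ) → G → ℂ} (h : C.Good F) (h' : C.Good F') :
    C.Good fun y f x => F y f x + F' y f x := by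
  obtain ⟨p, hp, h⟩ := h
  obtain ⟨p', hp', h'⟩ := h'
  exact ⟨p + p', C.alg.add_mem hp hp', fun y f => by ext x; simp [h, h']⟩

theorem Good.sub {F F' : Y → (G → ℂ) → G → ℂ} (h : C.Good F) (h' : C.Good F') :
    C.Good fun y f x => F y f x - F' y f x := by
  obtain ⟨p, hp, h⟩ := h
  obtain ⟨p', hp', h'⟩ := h'
  exact ⟨p - p', C.alg.sub_mem hp hp', fun y f => by ext x; simp [h, h']⟩

theorem Good.comp {F F' : Y → (G → ℂ) → G → ℂ} (h : C.Good F) (h' : C.Good F') :
    C.Good fun y f => F y (F' y f) := by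
  obtain ⟨p, hp, h⟩ := h
  obtain ⟨p', hp', h'⟩ := h'
  exact ⟨p * p', C.alg.mul_mem hp hp', fun y f => by simp [h, h']⟩

theorem Good.const (c : ℂ) : C.Good fun _ f x => c * f x :=
  ⟨algebraMap ℂ _ c, C.alg.algebraMap_mem c, fun y f => by
    ext x; simp [Algebra.algebraMap_eq_smul_one]⟩

theorem Good.sum {ι : Type} (t : Finset ι) {F : ι → Y → (G → ℂ) → G → ℂ}
    (h : ∀ i ∈ t, C.Good (F i)) : C.Good fun y f x => ∑ i ∈ t, F i y f x := by
  induction t using Finset.induction_on with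
  | empty => exact (Good.const 0).congr fun y f x => by simp
  | insert i t hi ih =>
    exact ((h i (Finset.mem_insert_self _ _)).add
      (ih fun j hj => h j (Finset.mem_insert_of_mem hj))).congr fun y f x => by
        rw [Finset.sum_insert hi]

theorem Good.gen (γ : Γ) : C.Good fun y f x => chi (C.a γ (C.tr x y)) * f (x * C.g γ) :=
  ⟨_, Algebra.subset_adjoin ⟨γ, rfl⟩, fun _ _ => rfl⟩

/-- Multiplication by `x ↦ φ (tr x y)` comes from the group algebra. -/
def Loc (C : Coc G Y Γ) (φ : Y → ℂ) : Prop := C.Good fun y f x => φ (C.tr x y) * f x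

theorem Loc.const (c : ℂ) : C.Loc fun _ => c := Good.const c

theorem Loc.congr {φ ψ : Y → ℂ} (h : C.Loc φ) (e : ∀ y, φ y = ψ y) : C.Loc ψ := by
  have : φ = ψ := funext e
  rwa [← this]

theorem Loc.add {φ ψ : Y → ℂ} (h : C.Loc φ) (h' : C.Loc ψ) : C.Loc fun y => φ y + ψ y :=
  (Good.add h h').congr fun _ _ _ => (add_mul _ _ _).symm

theorem Loc.mul {φ ψ : Y → ℂ} (h : C.Loc φ) (h' : C.Loc ψ) : C.Loc fun y => φ y * ψ y :=
  (Good.comp h h').congr fun _ _ _ => (mul_assoc _ _ _).symm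

theorem Loc.sum {ι : Type} (t : Finset ι) {φ : ι → Y → ℂ} (h : ∀ i ∈ t, C.Loc (φ i)) :
    C.Loc fun y => ∑ i ∈ t, φ i y :=
  (Good.sum t h).congr fun _ _ _ => (Finset.sum_mul _ _ _).symm

theorem Loc.prod {ι : Type} (t : Finset ι) {φ : ι → Y → ℂ} (h : ∀ i ∈ t, C.Loc (φ i)) :
    C.Loc fun y => ∏ i ∈ t, φ i y := by
  induction t using Finset.induction_on with
  | empty => exact (Loc.const 1).congr fun y => by simp
  | insert i t hi ih =>
    exact ((h i (Finset.mem_insert_self _ _)).mul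
      (ih fun j hj => h j (Finset.mem_insert_of_mem hj))).congr fun y => by
        rw [Finset.prod_insert hi]

theorem Loc.ind (γ : Γ) (hγ : C.g γ = 1) (c : ZMod 2) :
    C.Loc fun y => if C.a γ y = c then 1 else 0 := by
  have h : C.Loc fun y => chi (C.a γ y) := (Good.gen γ).congr fun y f x => by rw [hγ, mul_one]
  exact ((Loc.const 2⁻¹).mul ((Loc.const 1).add ((Loc.const (chi c)).mul h))).congr
    fun y => (ind_eq _ _).symm

theorem Loc.fin {J : Type} [Fintype J] (e : J → Y → ZMod 2)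
    (he : ∀ j, ∃ γ, (∀ y, C.a γ y = e j y) ∧ C.g γ = 1) (ψ : (J → ZMod 2) → ℂ) :
    C.Loc fun y => ψ fun j => e j y := by
  have h : ∀ j c, C.Loc fun y => if e j y = c then 1 else 0 := fun j c => by
    obtain ⟨γ, h1, h2⟩ := he j
    exact (Loc.ind γ h2 c).congr fun y => by rw [h1]
  refine (Loc.sum Finset.univ fun w _ => (Loc.const (ψ w)).mul
    (Loc.prod Finset.univ fun j _ => h j (w j))).congr fun y => ?_
  rw [Finset.sum_eq_single (fun j => e j y)]
  · simp
  · intro w _ hw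
    obtain ⟨j, hj⟩ := Function.ne_iff.1 hw
    rw [Finset.prod_eq_zero (Finset.mem_univ j) (if_neg (Ne.symm hj)), mul_zero]
  · simp

theorem Good.loc_shift {φ : Y → ℂ} (h : C.Loc φ) (g : G) (hg : ∃ γ, C.a γ = 0 ∧ C.g γ = g) :
    C.Good fun y f x => φ (C.tr x y) * f (x * g) := by
  obtain ⟨γ, h1, rfl⟩ := hg
  exact (Good.comp h (Good.gen γ)).congr fun y f x => by simp [h1, chi_zero]

end Coc

end Vale.Agent.P089.E3
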