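import Vale.Agent.P089.SetupDefs

/-! Task E3, part 4: every codeword on a level zero copy extends to an admissible configuration. -/

noncomputable section

open Classical

namespace Vale.Agent.P089

theorem exists_fix_rank {α β : Type} [Zero β] (rank : α → ℕ) (F : α → (α → β) → β) :
    ∃ y : α → β, ∀ x, y x = F x fun x' => if rank x' < rank x then y x' else 0 := by
  have wf : WellFounded fun x x' : α => rank x < rank x' := (measure rank).wf
  refine ⟨wf.fix fun x r => F x fun x' => if h : rank x' < rank x then r x' h else 0, fun x => ?_⟩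
  rw [WellFounded.fix_eq]
  congr

namespace Setup

variable {G : Type} [Group G] (S : Setup G)

theorem exists_ext (i : S.ι) (g : G) (w : Fin (S.N i) → Ty S.m → ZMod 2) :
    ∃ d ∈ S.D i, ∀ v, S.P i g v → d v = w v := by
  let Z : Submodule (ZMod 2) (Fin (S.N i) → Ty S.m → ZMod 2) :=
    { carrier := {w | ∀ v, S.P i g v → w v = 0}
      add_mem' := fun h h' v hv => by simp [h v hv, h' v hv]
      zero_mem' := fun _ _ => rfl
      smul_mem' := fun c _ h v hv => by simp [h v hv] }
  have htop : S.D i ⊔ Z = ⊤ := by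
    by_contra hne
    obtain ⟨φ, hφ, hle⟩ := Submodule.exists_le_ker_of_lt_top _ (lt_top_iff_ne_top.2 hne)
    let z : Fin (S.N i) → Ty S.m → ZMod 2 := fun v t => φ (Pi.single v (Pi.single t 1))
    have hz : ∀ y, pairing z y = φ y := by
      intro y
      have hy : y = ∑ v, ∑ t, y v t • (Pi.single v (Pi.single t 1) :
          Fin (S.N i) → Ty S.m → ZMod 2) := by
        ext v t
        simp only [Finset.sum_apply, Pi.smul_apply, smul_eq_mul]
        rw [Finset.sum_eq_single v, Finset.sum_eq_single t]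
        · simp
        · intro t' _ ht
          simp [Pi.single_eq_of_ne (Ne.symm ht)]
        · simp
        · intro v' _ hv
          simp [Pi.single_eq_of_ne (Ne.symm hv)]
        · simp
      conv_rhs => rw [hy]
      simp only [pairing, map_sum, map_smul, smul_eq_mul, z, mul_comm]
    have hz0 := S.dual i g z (fun y hy => by
      rw [hz]; exact hle (Submodule.mem_sup_left hy)) (fun v hv => by
      funext t
      refine hle (Submodule.mem_sup_right fun v' hv' => ?_)
      have hne : v' ≠ v := fun h => hv (h ▸ hv')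
      exact Pi.single_eq_of_ne hne _)
    refine hφ (LinearMap.ext fun y => ?_)
    rw [← hz, hz0]
    simp [pairing]
  have hw : w ∈ S.D i ⊔ Z := htop ▸ Submodule.mem_top
  obtain ⟨d, hd, e, he, rfl⟩ := Submodule.mem_sup.1 hw
  exact ⟨d, hd, fun v hv => by simp [he v hv]⟩

/-- A point of a copy. -/
structure Pt : Type where
  i : S.ι
  g : G
  u : Fin (S.N i)

/-- `x` is the exposed point `e`. -/
def Exp (x : G) (e : S.Pt) : Prop := x = e.g * S.ρ e.i e.u ∧ ¬ S.P e.i e.g e.u

theorem Exp.unique {x : G} {e e' : S.Pt} (h : S.Exp x e) (h' : S.Exp x e') : e = e' := by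
  obtain ⟨i, g, u⟩ := e
  obtain ⟨i', g', u'⟩ := e'
  have hx : g * S.ρ i u = g' * S.ρ i' u' := h.1.symm.trans h'.1
  by_cases hk : (i, g) = (i', g')
  · obtain ⟨rfl, rfl⟩ := Prod.mk.inj hk
    obtain rfl := S.inj i (mul_left_cancel hx)
    rfl
  · rcases le_total (S.lev i' g') (S.lev i g) with hl | hl
    · exact absurd (S.meet _ _ _ _ _ _ hx hk hl) h.2
    · exact absurd (S.meet _ _ _ _ _ _ hx.symm (Ne.symm hk) hl) h'.2

theorem exists_adm (i0 : S.ι) (g0 : G) (h0 : S.lev i0 g0 = 0)
    (d0 : Fin (S.N i0) → Ty S.m → ZMod 2) (hd0 : d0 ∈ S.D i0) :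
    ∃ y : S.Conf, S.Adm y ∧ (fun v => y (g0 * S.ρ i0 v)) = d0 := by
  choose ext hext hext' using S.exists_ext
  let E : G → S.Pt → Prop := fun x e => S.Exp x e ∧ (e.i, e.g) ≠ (i0, g0)
  let rank : G → ℕ := fun x =>
    if h : ∃ e, E x e then S.lev h.choose.i h.choose.g + 1 else 0
  let base : G → Ty S.m → ZMod 2 := fun x =>
    if h : ∃ v, x = g0 * S.ρ i0 v then d0 h.choose else 0
  let F : G → (G → Ty S.m → ZMod 2) → Ty S.m → ZMod 2 := fun x w =>
    if h : ∃ e, E x e then
      ext h.choose.i h.choose.g (fun v => if S.P h.choose.i h.choose.g v then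
        w (h.choose.g * S.ρ h.choose.i v) else 0) h.choose.u
    else base x
  obtain ⟨y, hy⟩ := exists_fix_rank rank F
  have hch : ∀ x e (h : E x e), (⟨e, h⟩ : ∃ e, E x e).choose = e := fun x e h =>
    Exp.unique S (⟨e, h⟩ : ∃ e, E x e).choose_spec.1 h.1
  have hrank : ∀ x e, E x e → rank x = S.lev e.i e.g + 1 := fun x e h => by
    simp only [rank]
    rw [dif_pos ⟨e, h⟩, hch x e h]
  have hlt : ∀ i g v, S.P i g v → rank (g * S.ρ i v) < S.lev i g + 1 := by
    intro i g v hv
    by_cases h : ∃ e, E (g * S.ρ i v) e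
    · obtain ⟨e, he⟩ := h
      rw [hrank _ e he]
      refine Nat.succ_lt_succ (lt_of_not_ge fun hl => he.1.2 ?_)
      refine S.meet _ _ _ _ _ _ he.1.1.symm (fun hk => he.1.2 ?_) hl
      obtain ⟨i', g', u'⟩ := e
      obtain ⟨rfl, rfl⟩ := Prod.mk.inj hk
      have huv : v = u' := S.inj _ (mul_left_cancel he.1.1)
      exact huv ▸ hv
    · simp only [rank]
      rw [dif_neg h]
      exact Nat.succ_pos _
  have hyE : ∀ x e, E x e → y x = ext e.i e.g (fun v => if S.P e.i e.g v then
      y (e.g * S.ρ e.i v) else 0) e.u := by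
    intro x e h
    rw [hy x]
    simp only [F]
    rw [dif_pos ⟨e, h⟩, hch x e h]
    congr 1
    funext v
    by_cases hv : S.P e.i e.g v
    · rw [if_pos hv, if_pos hv, if_pos]
      rw [hrank x e h]
      exact hlt _ _ _ hv
    · rw [if_neg hv, if_neg hv]
  have hy0 : (fun v => y (g0 * S.ρ i0 v)) = d0 := by
    funext v
    have hn : ¬ ∃ e, E (g0 * S.ρ i0 v) e := by
      rintro ⟨e, he, hk⟩
      exact he.2 (S.meet _ _ _ _ _ _ he.1.symm hk (h0 ▸ Nat.zero_le _))
    rw [hy]
    simp only [F]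
    rw [dif_neg hn]
    simp only [base]
    have hv : ∃ v', g0 * S.ρ i0 v = g0 * S.ρ i0 v' := ⟨v, rfl⟩
    rw [dif_pos hv, ← S.inj _ (mul_left_cancel hv.choose_spec)]
  refine ⟨y, fun i g => ?_, hy0⟩
  by_cases hk : (i, g) = (i0, g0)
  · obtain ⟨rfl, rfl⟩ := Prod.mk.inj hk
    rw [hy0]
    exact hd0
  · have : (fun v => y (g * S.ρ i v)) =
        ext i g fun v => if S.P i g v then y (g * S.ρ i v) else 0 := by
      funext v
      by_cases hv : S.P i g v
      · rw [hext' _ _ _ _ hv, if_pos hv]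
      · exact hyE _ ⟨i, g, v⟩ ⟨⟨rfl, hv⟩, hk⟩
    rw [this]
    exact hext _ _ _

end Setup

end Vale.Agent.P089
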