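import Vale.Agent.P089.Defs

/-! Basic lemmas on `shift`, `ampl`, `lamT`, `CStarRed`. -/

noncomputable section

namespace Vale.Agent.P089

variable {Γ : Type} [Group Γ] {K K' K'' : Type} [NormedAddCommGroup K] [InnerProductSpace ℂ K]
  [NormedAddCommGroup K'] [InnerProductSpace ℂ K'] [NormedAddCommGroup K'']
  [InnerProductSpace ℂ K'']

@[simp] theorem shift_apply (s : Γ) (ξ : L2 Γ K) (g : Γ) : shift s ξ g = ξ (s⁻¹ * g) := rfl

omit [Group Γ] in
@[simp] theorem ampl_apply (T : Op K K') (ξ : L2 Γ K) (g : Γ) : ampl Γ T ξ g = T (ξ g) := rfl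

@[simp] theorem lamT_apply (s : Γ) (T : Op K K') (ξ : L2 Γ K) (g : Γ) :
    lamT s T ξ g = T (ξ (s⁻¹ * g)) := rfl

omit [Group Γ] in
theorem op_ext {a b : Op (L2 Γ K) (L2 Γ K')} (h : ∀ ξ g, a ξ g = b ξ g) : a = b :=
  ContinuousLinearMap.ext fun ξ => lp.ext (funext (h ξ))

theorem shift_one : (shift (1 : Γ) : Op (L2 Γ K) (L2 Γ K)) = 1 := op_ext fun ξ g => by simp

theorem shift_mul (s t : Γ) : (shift (s * t) : Op (L2 Γ K) (L2 Γ K)) = shift s * shift t :=
  op_ext fun ξ g => by simp [mul_assoc]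

theorem lamT_one (T : Op K K') : lamT (1 : Γ) T = ampl Γ T := op_ext fun ξ g => by simp

theorem lamT_id (s : Γ) : lamT s (1 : Op K K) = shift s := op_ext fun ξ g => by simp

theorem lamT_comp (s t : Γ) (T : Op K' K'') (T' : Op K K') :
    (lamT s T).comp (lamT t T') = lamT (s * t) (T.comp T') :=
  op_ext fun ξ g => by simp [mul_assoc]

omit [Group Γ] in
theorem ampl_comp (T : Op K' K'') (T' : Op K K') :
    (ampl Γ T).comp (ampl Γ T') = ampl Γ (T.comp T') := op_ext fun ξ g => by simp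

omit [Group Γ] in
theorem ampl_one : ampl Γ (1 : Op K K) = 1 := op_ext fun ξ g => by simp

omit [Group Γ] in
theorem ampl_id : ampl Γ (ContinuousLinearMap.id ℂ K) = ContinuousLinearMap.id ℂ _ :=
  op_ext fun ξ g => by simp

omit [Group Γ] in
theorem ampl_add (T T' : Op K K') : ampl Γ (T + T') = ampl Γ T + ampl Γ T' :=
  op_ext fun ξ g => by simp

omit [Group Γ] in
theorem ampl_zero : ampl Γ (0 : Op K K') = 0 := op_ext fun ξ g => by simp

omit [Group Γ] in
theorem ampl_smul (c : ℂ) (T : Op K K') : ampl Γ (c • T) = c • ampl Γ T :=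
  op_ext fun ξ g => by simp

theorem lamT_add (s : Γ) (T T' : Op K K') : lamT s (T + T') = lamT s T + lamT s T' :=
  op_ext fun ξ g => by simp

theorem lamT_zero (s : Γ) : lamT s (0 : Op K K') = 0 := op_ext fun ξ g => by simp

theorem lamT_smul (s : Γ) (c : ℂ) (T : Op K K') : lamT s (c • T) = c • lamT s T :=
  op_ext fun ξ g => by simp

theorem norm_shift_le (s : Γ) : ‖(shift s : Op (L2 Γ K) (L2 Γ K))‖ ≤ 1 :=
  LinearMap.mkContinuous_norm_le _ zero_le_one _

omit [Group Γ] in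
theorem norm_ampl_le (T : Op K K') : ‖ampl Γ T‖ ≤ ‖T‖ := lp.norm_mapCLM_le _ _ _ _

theorem norm_lamT_le (s : Γ) (T : Op K K') : ‖lamT s T‖ ≤ ‖T‖ :=
  (ContinuousLinearMap.opNorm_comp_le _ _).trans <| by
    simpa using mul_le_mul (norm_ampl_le T) (norm_shift_le s) (norm_nonneg _) (norm_nonneg _)

/-- `C*_r(Γ)` as a subalgebra of the bounded operators on `ℓ²(Γ)`. -/
def cstarAlg (Γ : Type) [Group Γ] : Subalgebra ℂ (L2 Γ ℂ →L[ℂ] L2 Γ ℂ) := closedAlg (leftReg Γ)

theorem CStarRed.op_mem (a : CStarRed Γ) : a.op ∈ cstarAlg Γ := Subtype.property a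

/-- An element of `C*_r(Γ)` from an operator. -/
def CStarRed.mk (x : Op (L2 Γ ℂ) (L2 Γ ℂ)) (hx : x ∈ cstarAlg Γ) : CStarRed Γ := Subtype.mk x hx

@[simp] theorem CStarRed.op_mk (x : Op (L2 Γ ℂ) (L2 Γ ℂ)) (hx : x ∈ cstarAlg Γ) :
    (CStarRed.mk x hx).op = x := rfl

theorem CStarRed.ext {a b : CStarRed Γ} (h : a.op = b.op) : a = b := Subtype.ext h

@[simp] theorem CStarRed.op_mul (a b : CStarRed Γ) : (a * b).op = a.op * b.op := rfl
@[simp] theorem CStarRed.op_add (a b : CStarRed Γ) : (a + b).op = a.op + b.op := rfl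
@[simp] theorem CStarRed.op_sub (a b : CStarRed Γ) : (a - b).op = a.op - b.op := rfl
@[simp] theorem CStarRed.op_one : (1 : CStarRed Γ).op = 1 := rfl
@[simp] theorem CStarRed.op_zero : (0 : CStarRed Γ).op = 0 := rfl

/-- The inclusion of `C*_r(Γ)` as a ring homomorphism. -/
def CStarRed.opHom (Γ : Type) [Group Γ] : CStarRed Γ →+* (L2 Γ ℂ →L[ℂ] L2 Γ ℂ) where
  toFun := CStarRed.op
  map_one' := rfl
  map_mul' _ _ := rfl
  map_zero' := rfl
  map_add' _ _ := rfl

theorem isClosed_cstarAlg : IsClosed (cstarAlg Γ : Set (L2 Γ ℂ →L[ℂ] L2 Γ ℂ)) :=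
  Subalgebra.isClosed_topologicalClosure _

theorem shift_mem_cstarAlg (s : Γ) : shift s ∈ cstarAlg Γ :=
  Subalgebra.le_topologicalClosure _ (Algebra.subset_adjoin ⟨s, rfl⟩)

/-- The algebra generated by a multiplicatively closed set containing `1` is its span. -/
theorem adjoin_eq_span_of_mul {A : Type} [Ring A] [Algebra ℂ A] (S : Set A) (h1 : 1 ∈ S)
    (hm : ∀ a ∈ S, ∀ b ∈ S, a * b ∈ S) :
    (Algebra.adjoin ℂ S : Set A) = Submodule.span ℂ S := by
  have h : (Submonoid.closure S : Set A) = S := by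
    apply Set.Subset.antisymm _ Submonoid.subset_closure
    intro x hx
    induction hx using Submonoid.closure_induction with
    | mem x hx => exact hx
    | one => exact h1
    | mul x y _ _ hx hy => exact hm x hx y hy
  rw [← Subalgebra.coe_toSubmodule, Algebra.adjoin_eq_span, h]

/-- Induction principle (density of the group ring) for `C*_r(Γ)`. -/
theorem cstarAlg_eq_closedSpan : (cstarAlg Γ : Set _) = closedSpan (leftReg Γ) := by
  rw [cstarAlg, closedAlg, Subalgebra.topologicalClosure_coe, closedSpan, adjoin_eq_span_of_mul]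
  · exact ⟨1, shift_one⟩
  · rintro _ ⟨s, rfl⟩ _ ⟨t, rfl⟩
    exact ⟨s * t, shift_mul s t⟩

/-- The trace as an additive homomorphism. -/
def CStarRed.traceHom (Γ : Type) [Group Γ] : CStarRed Γ →+ ℂ where
  toFun := CStarRed.trace
  map_zero' := by simp [CStarRed.trace]
  map_add' a b := by simp [CStarRed.trace]

end Vale.Agent.P089
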