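import Vale.Agent.P089.Iso
import Vale.Agent.P089.Gap
import Vale.Agent.P089.OpBasic
import Vale.Agent.P089.GrpCoc
import Vale.Agent.P089.GrpSurj

/-! Task E3: the group `Γ = A ⋊ G` and the projection. See notes/P089/PROOF.md, section E3. -/

noncomputable section

open Classical

namespace Vale.Agent.P089.Setup

open E3

section Aux

variable {G : Type} [Group G] (S : Setup G)

/-- The space of admissible configurations. -/
def Yc : Submodule (ZMod 2) S.Conf where
  carrier := {y | S.Adm y}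
  add_mem' h h' i g := (S.D i).add_mem (h i g) (h' i g)
  zero_mem' i _ := (S.D i).zero_mem
  smul_mem' c _ h i g := (S.D i).smul_mem c (h i g)

/-- Translation of configurations. -/
def ract : RAct G S.Yc where
  tr h :=
    { toFun := fun y => ⟨fun x => y.1 (h * x), fun i g => by
        simpa only [mul_assoc] using y.2 i (h * g)⟩
      map_zero' := rfl
      map_add' := fun _ _ => rfl }
  tr_one y := Subtype.ext (funext fun x => congrArg y.1 (one_mul x))
  tr_mul x g y := Subtype.ext (funext fun z => congrArg y.1 (mul_assoc x g z).symm)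

/-- Evaluation at the identity. -/
def ev (t : Ty S.m) : S.Yc →+ ZMod 2 where
  toFun y := y.1 1 t
  map_zero' := rfl
  map_add' _ _ := rfl

/-- Restriction to a copy. -/
def res (i : S.ι) (g : G) : S.Yc →+ S.D i where
  toFun y := ⟨fun v => y.1 (g * S.ρ i v), y.2 i g⟩
  map_zero' := rfl
  map_add' _ _ := rfl

theorem avg_active (i : S.ι) (u : Fin (S.N i)) :
    Avg (fun y : S.Yc => if S.ActiveCopy y.1 i (S.ρ i u)⁻¹ then 1 else 0)
      ((2 : ℂ) ^ (S.N i + 1))⁻¹ := by
  have hs : Function.Surjective (S.res i (S.ρ i u)⁻¹) := by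
    rintro ⟨d, hd⟩
    obtain ⟨y, hy, e⟩ := S.exists_adm i _ (S.lev_zero i u) d hd
    exact ⟨⟨y, hy⟩, Subtype.ext e⟩
  refine (Avg.surj _ hs fun d => if d = ⟨_, S.xi_mem i⟩ then 1 else 0).congr (fun y => ?_) ?_
  · exact if_congr Subtype.ext_iff rfl rfl
  · rw [← Nat.card_eq_fintype_card, S.card_D]
    simp

theorem avg_projLe (M : ℕ) :
    Avg (fun y : S.Yc => S.projLe y.1 M (Coc.del G) 1)
      ((∑ i ∈ (S.fin_le M).toFinset, ((2 : ℝ) ^ (S.N i + 1))⁻¹ : ℝ) : ℂ) := by
  refine (Avg.sum (S.fin_le M).toFinset fun i _ => Avg.sum Finset.univ fun u _ =>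
    (S.avg_active i u).mul (S.N i : ℂ)⁻¹).congr (fun y => ?_) ?_
  · refine Finset.sum_congr rfl fun i _ => Finset.sum_congr rfl fun u _ => ?_
    rw [Finset.sum_eq_single u]
    · simp [Coc.del]
    · intro v _ hv
      have : S.ρ i u ≠ S.ρ i v := fun h => hv (S.inj i h).symm
      simp [Coc.del, inv_mul_eq_one, this]
    · simp
  · push_cast
    refine Finset.sum_congr rfl fun i _ => ?_
    have : (S.N i : ℂ) ≠ 0 := Nat.cast_ne_zero.2 (S.N_pos i).ne'
    simp only [Finset.sum_const, Finset.card_univ, Fintype.card_fin, nsmul_eq_mul]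
    field_simp

variable {Γ : Type} [Group Γ] (C : Coc G S.Yc Γ) (htr : C.tr = S.ract.tr)
  (hsh : ∀ g, ∃ γ, C.a γ = 0 ∧ C.g γ = g)
  (hev : ∀ t h, ∃ γ, (∀ y, C.a γ y = S.ev t (S.ract.tr h y)) ∧ C.g γ = 1)

include htr hsh hev

theorem good_loc {J : Type} [Fintype J] (h : J → G) (ψ : (J → Ty S.m → ZMod 2) → ℂ) (g : G) :
    C.Good fun y f x => ψ (fun j => y.1 (x * h j)) * f (x * g) := by
  have h1 : C.Loc fun y => ψ fun j => y.1 (h j) :=
    Coc.Loc.fin (J := J × Ty S.m) (fun j (y : S.Yc) => y.1 (h j.1) j.2) (fun j => by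
      obtain ⟨γ, h1, h2⟩ := hev j.2 (h j.1)
      exact ⟨γ, fun y => (h1 y).trans (congrArg (fun x => y.1 x j.2) (mul_one _)), h2⟩)
      fun w => ψ fun j t => w (j, t)
  refine (Coc.Good.loc_shift h1 g (hsh g)).congr fun y f x => ?_
  rw [htr]
  rfl

theorem good_lap : C.Good fun y => S.lap y.1 := by
  refine ((S.good_loc C htr hsh hev (fun _ : Unit => 1) (fun w => S.weight (fun _ => w ()) 1) 1).sub
    (Coc.Good.sum Finset.univ fun (ab : Fin S.m × Fin S.m) _ => S.good_loc C htr hsh hev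
      (fun b : Bool => if b then 1 else S.gen (letter ab.1 ab.2))
      (fun w => if S.Claims (fun _ => w true) 1 ab.1 ab.2 ∧ S.Claims (fun _ => w false) 1 ab.2 ab.1
        then 1 else 0) (S.gen (letter ab.1 ab.2)))).congr fun y f x => ?_
  simp only [mul_one, if_true, Bool.false_eq_true, if_false, ite_mul, one_mul, zero_mul]
  refine congrArg₂ (· - ·) rfl (Finset.sum_congr rfl fun ab _ => ?_)
  exact if_congr Iff.rfl rfl rfl

theorem good_projLe (M : ℕ) : C.Good fun y => S.projLe y.1 M := by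
  refine (Coc.Good.sum (S.fin_le M).toFinset fun i _ => Coc.Good.sum Finset.univ fun u _ =>
    Coc.Good.sum Finset.univ fun v _ => S.good_loc C htr hsh hev
      (fun v => (S.ρ i u)⁻¹ * S.ρ i v)
      (fun w => if w = xiOf (S.X i) (S.c i) then (S.N i : ℂ)⁻¹ else 0)
      ((S.ρ i u)⁻¹ * S.ρ i v)).congr fun y f x => ?_
  simp only [ite_mul, zero_mul, ← mul_assoc]
  refine Finset.sum_congr rfl fun i _ => Finset.sum_congr rfl fun u _ =>
    Finset.sum_congr rfl fun v _ => ?_
  exact if_congr Iff.rfl rfl rfl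

end Aux

theorem exists_projection {G : Type} [Group G] (S : Setup G) :
    ∃ (Γ : Type) (_ : Group Γ), Group.FG Γ ∧ Countable Γ ∧ ∃ p : CStarRed Γ,
      IsSelfAdjoint p.op ∧ p * p = p ∧
      HasSum (fun i : S.ι => ((2 : ℂ) ^ (S.N i + 1))⁻¹) p.trace := by
  obtain ⟨Γ, _, hfg, hc, C, htr, hsh, hev⟩ := exists_coc S.ract S.gen S.gen_top S.ev
  obtain ⟨ε, hε, hgap⟩ := S.gap
  obtain ⟨p, h1, h2, t, ht, h3⟩ := C.transfer (fun y => S.lap y.1) (fun M y => S.projLe y.1 M)
    (S.good_lap C htr hsh hev) (S.good_projLe C htr hsh hev) (fun M y => S.lap_projLe y.1 M)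
    (fun M y => S.projLe_projLe y.1 M) (fun y => S.lap_symm y.1) (fun M y => S.projLe_symm y.1 M)
    ε hε (fun y => hgap y.1 y.2) _ S.avg_projLe
  refine ⟨Γ, inferInstance, hfg, hc, p, h1, h2, ?_⟩
  have hs : HasSum (fun i : S.ι => ((2 : ℝ) ^ (S.N i + 1))⁻¹) t := by
    refine hasSum_of_isLUB_of_nonneg t (fun i => by positivity) ⟨?_, fun c hc => ht.2 ?_⟩
    · rintro _ ⟨s, rfl⟩
      refine le_trans ?_ (ht.1 ⟨s.sup S.N, rfl⟩)
      refine Finset.sum_le_sum_of_subset_of_nonneg (fun i hi => ?_) fun i _ _ => by positivity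
      exact (Set.Finite.mem_toFinset _).2 (Finset.le_sup (f := S.N) hi)
    · rintro _ ⟨M, rfl⟩
      exact hc ⟨_, rfl⟩
  rw [h3]
  simpa using Complex.hasSum_ofReal.2 hs

end Vale.Agent.P089.Setup
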