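import Vale.Agent.P089.Windmill

/-! Task C1: from labelled graphs to the tree action and back. See notes/P089/PROOF.md, C1. -/

namespace Vale.Agent.P089

namespace Mg

open FreeGroup

section tree
variable {β : Type} [DecidableEq β]

/-- length of the longest common initial segment -/
def lcp : List β → List β → ℕ
  | x :: a, y :: b => if x = y then lcp a b + 1 else 0
  | _, _ => 0

@[simp] lemma lcp_nil_left (b : List β) : lcp [] b = 0 := by cases b <;> rfl
@[simp] lemma lcp_nil_right (a : List β) : lcp a [] = 0 := by cases a <;> rfl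
lemma lcp_cons (x y : β) (a b : List β) :
    lcp (x :: a) (y :: b) = if x = y then lcp a b + 1 else 0 := rfl

lemma lcp_comm : ∀ a b : List β, lcp a b = lcp b a
  | [], b => by simp
  | _ :: _, [] => by simp
  | x :: a, y :: b => by rw [lcp_cons, lcp_cons, lcp_comm a b]; simp only [eq_comm]

lemma lcp_min : ∀ a b c : List β, min (lcp a c) (lcp c b) ≤ lcp a b
  | [], b, c => by simp
  | _ :: _, [], c => by simp
  | _ :: _, _ :: _, [] => by simp
  | x :: a, y :: b, z :: c => by
    have := lcp_min a b c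
    simp only [lcp_cons]
    split_ifs with h1 h2 h3 <;> first | omega | exact absurd (h1.trans h2) h3

lemma lcp_self : ∀ a : List β, lcp a a = a.length
  | [] => rfl
  | x :: a => by simp [lcp_cons, lcp_self a]

lemma lcp_le : ∀ a b : List β, lcp a b ≤ a.length
  | [], b => by simp
  | _ :: _, [] => by simp
  | x :: a, y :: b => by
    have := lcp_le a b
    simp only [lcp_cons, List.length_cons]
    split_ifs <;> omega

lemma lcp_take : ∀ (k : ℕ) (a b : List β), lcp (a.take k) b = min k (lcp a b)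
  | 0, a, b => by simp
  | _ + 1, [], b => by simp
  | _ + 1, _ :: _, [] => by simp
  | k + 1, x :: a, y :: b => by
    simp only [List.take_succ_cons, lcp_cons, lcp_take k a b]
    split_ifs <;> omega

lemma eq_append_of_lcp : ∀ a b : List β, lcp a b = a.length → ∃ c, b = a ++ c
  | [], b, _ => ⟨b, rfl⟩
  | _ :: _, [], h => by simp at h
  | x :: a, y :: b, h => by
    rw [lcp_cons] at h
    split_ifs at h with h1
    · obtain ⟨c, hc⟩ := eq_append_of_lcp a b (by simpa using h)
      exact ⟨c, by simp [h1, hc]⟩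

variable {α : Type} [DecidableEq α]

lemma norm_mk_red {w : List (α × Bool)} (h : IsReduced w) : norm (mk w) = w.length := by
  rw [FreeGroup.norm, toWord_mk, h.reduce_eq]

lemma norm_lcp : ∀ a b : List (α × Bool), IsReduced a → IsReduced b →
    norm ((mk a)⁻¹ * mk b) + 2 * lcp a b = a.length + b.length
  | [], b, _, hb => by
    rw [← one_eq_mk]; simp [norm_mk_red hb]
  | x :: a, [], ha, _ => by
    rw [← one_eq_mk, mul_one, norm_inv_eq, norm_mk_red ha]; simp
  | x :: a, y :: b, ha, hb => by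
    rw [lcp_cons]
    split_ifs with h
    · subst h
      have e : (mk (x :: a))⁻¹ * mk (x :: b) = (mk a)⁻¹ * mk b := by
        rw [show x :: a = [x] ++ a from rfl, show x :: b = [x] ++ b from rfl, ← mul_mk, ← mul_mk]
        group
      have := norm_lcp a b (List.IsChain.tail ha) (List.IsChain.tail hb)
      rw [e]; simp only [List.length_cons]; omega
    · have h1 : IsReduced (invRev (x :: a)) := by
        rw [isReduced_iff_reduce_eq, reduce_invRev, ha.reduce_eq]
      have h2 : IsReduced (invRev (x :: a) ++ y :: b) := by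
        refine List.IsChain.append h1 hb ?_
        intro p hp q hq
        simp only [invRev, List.map_cons, List.reverse_cons, List.getLast?_append,
          List.getLast?_singleton, Option.some_or, Option.mem_def, Option.some.injEq,
          List.head?_cons] at hp hq
        subst hp hq
        intro h3
        by_contra h4
        exact h (Prod.ext h3 (by simpa using h4))
      rw [inv_mk, mul_mk, norm_mk_red h2]
      simp

/-- the word metric -/
def dd (a b : FreeGroup α) : ℕ := norm (a⁻¹ * b)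

lemma dd_mul (g a b : FreeGroup α) : dd (g * a) (g * b) = dd a b := by
  unfold dd; congr 1; group

lemma dd_comm (a b : FreeGroup α) : dd a b = dd b a := by
  unfold dd; rw [← norm_inv_eq]; congr 1; group

lemma dd_lcp (a b : FreeGroup α) :
    dd a b + 2 * lcp a.toWord b.toWord = norm a + norm b := by
  have := norm_lcp a.toWord b.toWord isReduced_toWord isReduced_toWord
  rwa [mk_toWord, mk_toWord] at this

lemma dd_one (a : FreeGroup α) : dd 1 a = norm a := by simp [dd]

lemma dd_one' (a : FreeGroup α) : dd a 1 = norm a := by simp [dd]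

lemma take_red (b : FreeGroup α) (k : ℕ) : (mk (b.toWord.take k)).toWord = b.toWord.take k := by
  rw [toWord_mk]
  refine IsReduced.reduce_eq ?_
  have h : IsReduced (b.toWord.take k ++ b.toWord.drop k) := by
    rw [List.take_append_drop]; exact isReduced_toWord
  exact List.IsChain.left_of_append h

lemma exists_init (b : FreeGroup α) (k : ℕ) (hk : k ≤ norm b) : ∃ m : FreeGroup α, norm m = k ∧
    ∀ c : FreeGroup α, lcp m.toWord c.toWord = min k (lcp b.toWord c.toWord) := by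
  refine ⟨mk (b.toWord.take k), ?_, fun c => by rw [take_red, lcp_take]⟩
  rw [FreeGroup.norm, take_red, List.length_take]
  exact min_eq_left hk

lemma dd_thin (a b c x : FreeGroup α) (h : dd a x + dd x b = dd a b) :
    dd a x + dd x c = dd a c ∨ dd c x + dd x b = dd c b := by
  simp only [← dd_mul x⁻¹ a, ← dd_mul x⁻¹ c, ← dd_mul x⁻¹ x, inv_mul_cancel, dd_one, dd_one'] at *
  generalize x⁻¹ * a = a at *
  generalize x⁻¹ * b = b at *
  generalize x⁻¹ * c = c at *
  have h1 := dd_lcp a b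
  have h2 := dd_lcp a c
  have h3 := dd_lcp c b
  have h4 := lcp_min a.toWord b.toWord c.toWord
  omega

lemma dd_median (a b c : FreeGroup α) : ∃ m, dd a m + dd m b = dd a b ∧
    dd b m + dd m c = dd b c ∧ dd a m + dd m c = dd a c := by
  obtain ⟨b, rfl⟩ : ∃ b', b = a * b' := ⟨a⁻¹ * b, by group⟩
  obtain ⟨c, rfl⟩ : ∃ c', c = a * c' := ⟨a⁻¹ * c, by group⟩
  obtain ⟨m, h1, h2⟩ := exists_init b (lcp b.toWord c.toWord) (lcp_le _ _)
  have e : ∀ x, dd a (a * x) = norm x := fun x => by simp [dd]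
  refine ⟨a * m, ?_⟩
  simp only [e, dd_mul, dd_comm b m]
  have h3 := h2 b
  have h4 := h2 c
  have h5 := dd_lcp m b
  have h6 := dd_lcp m c
  have h7 := dd_lcp b c
  have h8 : lcp b.toWord c.toWord ≤ norm b := lcp_le _ _
  have h9 : lcp b.toWord b.toWord = norm b := lcp_self _
  omega

lemma dd_step (a b : FreeGroup α) (h : a ≠ b) : ∃ x, dd a x = 1 ∧ dd a x + dd x b = dd a b := by
  obtain ⟨b, rfl⟩ : ∃ b', b = a * b' := ⟨a⁻¹ * b, by group⟩
  have h0 : norm b ≠ 0 := fun h' => h (by rw [norm_eq_zero.1 h', mul_one])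
  obtain ⟨m, h1, h2⟩ := exists_init b 1 (by omega)
  have e : ∀ x, dd a (a * x) = norm x := fun x => by simp [dd]
  refine ⟨a * m, ?_⟩
  simp only [e, dd_mul]
  have h3 := h2 b
  have h5 := dd_lcp m b
  have h9 : lcp b.toWord b.toWord = norm b := lcp_self _
  omega

lemma dd_init {a x b : FreeGroup α} (h : dd a x + dd x b = dd a b) :
    ∃ c, (a⁻¹ * b).toWord = (a⁻¹ * x).toWord ++ c := by
  refine eq_append_of_lcp _ _ ?_
  have h1 := dd_lcp (a⁻¹ * x) (a⁻¹ * b)
  rw [dd_mul] at h1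
  unfold dd at *
  unfold FreeGroup.norm at *
  omega

end tree

variable {V α ι : Type} [DecidableEq α] (Λ : LabGraph V α ι)

omit [DecidableEq α] in
lemma reads_append {E : V → α × Bool → V → Prop} : ∀ (w w' : List (α × Bool)) (u v : V),
    Reads E u (w ++ w') v ↔ ∃ m, Reads E u w m ∧ Reads E m w' v
  | [], w', u, v => by simp [Reads]
  | s :: w, w', u, v => by
    simp only [List.cons_append, Reads, reads_append w w']
    exact ⟨fun ⟨a, h1, m, h2, h3⟩ => ⟨m, ⟨a, h1, h2⟩, h3⟩,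
      fun ⟨m, ⟨a, h1, h2⟩, h3⟩ => ⟨a, h1, m, h2, h3⟩⟩

omit [DecidableEq α] in
lemma reads_red {w w' : List (α × Bool)} (h : Red w w') {u v : V} (hr : Reads Λ.E u w v) :
    Reads Λ.E u w' v := by
  induction h with
  | refl => exact hr
  | tail _ h ih =>
    cases h with
    | @not L1 L2 x b =>
      obtain ⟨m, h1, m1, h2, m2, h3, h4⟩ := (reads_append _ _ _ _).1 ih
      obtain rfl := Λ.det _ _ _ _ h3 (Λ.symm _ _ _ _ h2)
      exact (reads_append _ _ _ _).2 ⟨_, h1, h4⟩

omit [DecidableEq α] in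
lemma reads_inv : ∀ (w : List (α × Bool)) (u v : V), Reads Λ.E u w v → Reads Λ.E v (invRev w) u
  | [], u, v, h => Eq.symm h
  | s :: w, u, v, ⟨m, h1, h2⟩ => by
    rw [invRev_cons]
    exact (reads_append _ _ _ _).2 ⟨m, reads_inv w m v h2, u, Λ.symm _ _ _ _ h1, rfl⟩

/-- reading a group element -/
def RF (u : V) (g : FreeGroup α) (v : V) : Prop := Reads Λ.E u g.toWord v

variable {Λ}

lemma RF.of_reads {u v : V} {w : List (α × Bool)} (h : Reads Λ.E u w v) : RF Λ u (mk w) v :=
  reads_red Λ reduce.red h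

lemma RF.mul {u v v' : V} {g g' : FreeGroup α} (h : RF Λ u g v) (h' : RF Λ v g' v') :
    RF Λ u (g * g') v' := by
  unfold RF
  rw [toWord_mul]
  exact reads_red Λ reduce.red ((reads_append _ _ _ _).2 ⟨v, h, h'⟩)

lemma RF.inv {u v : V} {g : FreeGroup α} (h : RF Λ u g v) : RF Λ v g⁻¹ u := by
  unfold RF
  rw [toWord_inv]
  exact reads_inv Λ _ _ _ h

lemma toWord_single (s : α × Bool) : (mk [s]).toWord = [s] := rfl

lemma RF_single {u v : V} {s : α × Bool} : RF Λ u (mk [s]) v ↔ Λ.E u s v := by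
  unfold RF
  rw [toWord_single]
  exact ⟨fun ⟨_, h1, h2⟩ => (show _ = v from h2) ▸ h1, fun h => ⟨v, h, rfl⟩⟩

variable (Λ)

/-- the equivalence relation defining lifts of components -/
def rel : Setoid (FreeGroup α × V) where
  r p q := RF Λ p.2 (p.1⁻¹ * q.1) q.2
  iseqv :=
    { refl := fun p => by rw [inv_mul_cancel]; exact rfl
      symm := fun h => by simpa using h.inv
      trans := fun h h' => by simpa [mul_assoc] using h.mul h' }

/-- lifts of components -/
def Yl : Type := Quotient (rel Λ)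

/-- the lift through a point -/
def ym (a : FreeGroup α) (u : V) : Yl Λ := Quotient.mk (rel Λ) (a, u)

variable {Λ}

lemma ym_eq {a b : FreeGroup α} {u v : V} : ym Λ a u = ym Λ b v ↔ RF Λ u (a⁻¹ * b) v :=
  Quotient.eq (r := rel Λ)

lemma ym_surj (y : Yl Λ) : ∃ a u, ym Λ a u = y := by
  obtain ⟨⟨a, u⟩, h⟩ := Quotient.exists_rep y
  exact ⟨a, u, h⟩

instance : MulAction (FreeGroup α) (Yl Λ) where
  smul g := Quotient.map' (fun p => (g * p.1, p.2)) (fun p q h => by
    show RF Λ _ _ _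
    have e : (g * p.1)⁻¹ * (g * q.1) = p.1⁻¹ * q.1 := by group
    rw [e]; exact h)
  one_smul y := by
    obtain ⟨a, u, rfl⟩ := ym_surj y
    exact congrArg (fun x => ym Λ x u) (one_mul a)
  mul_smul g g' y := by
    obtain ⟨a, u, rfl⟩ := ym_surj y
    exact congrArg (fun x => ym Λ x u) (mul_assoc g g' a)

lemma smul_ym (g a : FreeGroup α) (u : V) : g • ym Λ a u = ym Λ (g * a) u := rfl

lemma ym_inj {a : FreeGroup α} {u v : V} (h : ym Λ a u = ym Λ a v) : u = v := by
  rw [ym_eq, inv_mul_cancel] at h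
  exact h

variable (Λ)

/-- the tree action -/
def tr : TreeAct (FreeGroup α) (Yl Λ) where
  d := dd
  d_eq_zero a b := by rw [dd, FreeGroup.norm_eq_zero, inv_mul_eq_one]
  d_comm := dd_comm
  d_tri a b c := by
    have := norm_mul_le (a⁻¹ * b) (b⁻¹ * c)
    simpa [dd, mul_assoc] using this
  d_mul := dd_mul
  thin := dd_thin
  median := dd_median
  step := dd_step
  S y := {a | ∃ u, ym Λ a u = y}
  ell := Quotient.lift (fun p => Λ.ell (Λ.comp p.2))
    (fun _ _ h => congrArg Λ.ell ((Λ.comp_iff _ _).2 ⟨_, h⟩))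
  S_smul := by
    rintro g _ a ⟨u, rfl⟩
    exact ⟨u, rfl⟩
  ell_smul g y := by
    obtain ⟨a, u, rfl⟩ := ym_surj y
    rfl
  ell_pos y := by
    obtain ⟨a, u, rfl⟩ := ym_surj y
    exact Λ.ell_pos _
  S_ne := ym_surj
  convex := by
    rintro _ a b x ⟨u, rfl⟩ ⟨v, hv⟩ h
    obtain ⟨c, hc⟩ := dd_init h
    have h1 := ym_eq.1 hv.symm
    unfold RF at h1
    rw [hc, reads_append] at h1
    obtain ⟨m, h2, -⟩ := h1
    exact ⟨m, (ym_eq.2 h2).symm⟩
  piece := by
    rintro _ _ a b hne ⟨u, rfl⟩ ⟨v, hv⟩ ⟨u', rfl⟩ ⟨v', hv'⟩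
    exact Λ.piece u u' _ v v' isReduced_toWord (fun h => hne (h ▸ rfl)) (ym_eq.1 hv.symm)
      (ym_eq.1 hv'.symm)
  girth := by
    rintro r _ a hr h1 ⟨u, rfl⟩
    exact Λ.girth u _ isReduced_toWord (by simpa [inv_mul_eq_one] using h1) (ym_eq.1 hr.symm)

/-- the kernel -/
abbrev NN : Subgroup (FreeGroup α) := stabGen (FreeGroup α) (Yl Λ)

instance : (NN Λ).Normal := ⟨fun n hn g => by
  induction hn using Subgroup.closure_induction with
  | mem r hr =>
    obtain ⟨y, hy⟩ := hr
    exact Subgroup.subset_closure ⟨g • y, by simp [mul_smul, hy]⟩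
  | one => simp
  | mul x y _ _ hx hy => simpa [mul_assoc] using mul_mem hx hy
  | inv x _ hx => simpa [mul_assoc] using inv_mem hx⟩

/-- the quotient group -/
abbrev GG : Type := FreeGroup α ⧸ NN Λ

variable {Λ}

lemma cls_eq {a b : FreeGroup α} : (a : GG Λ) = b ↔ ∃ n ∈ NN Λ, a = n * b := by
  rw [eq_comm, QuotientGroup.eq]
  constructor
  · intro h
    exact ⟨b * (b⁻¹ * a) * b⁻¹, Subgroup.Normal.conj_mem inferInstance _ h b, by group⟩
  · rintro ⟨n, hn, rfl⟩
    simpa [mul_assoc] using Subgroup.Normal.conj_mem inferInstance _ hn b⁻¹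

lemma cls_of_ym {a b : FreeGroup α} {u : V} (h : ym Λ a u = ym Λ b u) : (a : GG Λ) = b :=
  cls_eq.2 ⟨a * b⁻¹, Subgroup.subset_closure ⟨ym Λ b u, by simp [smul_ym, h]⟩, by group⟩

variable (Λ)

/-- base vertices -/
noncomputable def base (u : V) : V := (⟨u, rfl⟩ : ∃ v, Λ.comp v = Λ.comp u).choose

omit [DecidableEq α] in
lemma base_comp (u : V) : Λ.comp (base Λ u) = Λ.comp u :=
  (⟨u, rfl⟩ : ∃ v, Λ.comp v = Λ.comp u).choose_spec

omit [DecidableEq α] in
lemma base_congr {u v : V} (h : Λ.comp u = Λ.comp v) : base Λ u = base Λ v := by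
  unfold base; simp only [h]

lemma ex_wd (u : V) : ∃ w, RF Λ (base Λ u) w u := by
  obtain ⟨w, hw⟩ := (Λ.comp_iff _ _).1 (base_comp Λ u)
  exact ⟨_, RF.of_reads hw⟩

/-- words from the base vertices -/
noncomputable def wd (u : V) : FreeGroup α := (ex_wd Λ u).choose

lemma ym_wd (a : FreeGroup α) (u : V) : ym Λ (a * wd Λ u) u = ym Λ a (base Λ u) := by
  rw [eq_comm, ym_eq, inv_mul_cancel_left]
  exact (ex_wd Λ u).choose_spec

lemma ym_step {u v : V} {s : α × Bool} (h : Λ.E u s v) (a : FreeGroup α) :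
    ym Λ (a * mk [s]) v = ym Λ a u := by
  rw [eq_comm, ym_eq, inv_mul_cancel_left]
  exact RF_single.2 h

lemma rho_step {u v : V} {s : α × Bool} (h : Λ.E u s v) :
    (wd Λ v : GG Λ) = (wd Λ u : GG Λ) * (mk [s] : FreeGroup α) := by
  rw [← QuotientGroup.mk_mul]
  refine cls_of_ym (u := v) ?_
  have h1 := ym_wd Λ 1 u
  have h2 := ym_wd Λ 1 v
  rw [one_mul] at h1 h2
  rw [ym_step Λ h, h1, h2, base_congr Λ ((Λ.comp_iff u v).2 ⟨[s], v, h, rfl⟩)]

lemma lift_pt {a : FreeGroup α} {g : GG Λ} {u : V} (h : (a : GG Λ) = g * (wd Λ u : GG Λ)) :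
    ∃ n ∈ NN Λ, a = n * (g.out * wd Λ u) :=
  cls_eq.1 (by rw [h, QuotientGroup.mk_mul, QuotientGroup.out_eq'])

lemma dd_single (a : FreeGroup α) (s : α × Bool) : dd a (a * mk [s]) = 1 := by
  rw [dd, inv_mul_cancel_left]; rfl

omit [DecidableEq α] in
lemma mk_not (a : α) (b : Bool) : (mk [(a, !b)] : FreeGroup α) = (mk [(a, b)])⁻¹ := rfl

end Mg

open Mg FreeGroup in
theorem exists_monster {V α ι : Type} [Nonempty α] (Λ : LabGraph V α ι) :
    ∃ (G : Type) (_ : Group G), Nonempty (Monster Λ G) := by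
  classical
  obtain ⟨W⟩ := exists_windOut (tr Λ)
  let lev : ι → GG Λ → ℕ := fun i g =>
    if h : ∃ v, Λ.comp v = i then W.lev (ym Λ g.out h.choose) else 0
  let P : GG Λ → V → Prop := fun g u => g.out * wd Λ u ∈ W.P (ym Λ (g.out * wd Λ u) u)
  let par : GG Λ → α × Bool := fun x =>
    if h : ∃ s, ∃ a : FreeGroup α, (a : GG Λ) = x ∧ W.Par a (a * mk [s]) then h.choose
    else (Classical.arbitrary α, true)
  have hlev : ∀ {a : FreeGroup α} {g : GG Λ} {u : V}, (a : GG Λ) = g * (wd Λ u : GG Λ) →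
      lev (Λ.comp u) g = W.lev (ym Λ a u) := by
    intro a g u h
    obtain ⟨n, hn, rfl⟩ := lift_pt Λ h
    rw [← smul_ym, W.lev_smul n hn, ym_wd]
    exact dif_pos ⟨u, rfl⟩
  have hP : ∀ {a : FreeGroup α} {g : GG Λ} {u : V}, (a : GG Λ) = g * (wd Λ u : GG Λ) →
      (P g u ↔ a ∈ W.P (ym Λ a u)) := by
    intro a g u h
    obtain ⟨n, hn, rfl⟩ := lift_pt Λ h
    refine ⟨fun h => W.P_smul n hn _ _ h, fun h => ?_⟩
    simpa [smul_ym] using W.P_smul n⁻¹ (inv_mem hn) _ _ h
  have hpar : ∀ (a : FreeGroup α) s, W.Par a (a * mk [s]) → s = par a := by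
    intro a s h
    have ex : ∃ s, ∃ a' : FreeGroup α, (a' : GG Λ) = a ∧ W.Par a' (a' * mk [s]) := ⟨s, a, rfl, h⟩
    obtain ⟨a', h1, h2⟩ := ex.choose_spec
    obtain ⟨n, hn, rfl⟩ := cls_eq.1 h1
    have h3 := W.Par_unique _ _ _ (W.Par_mul n hn _ _ h) h2
    rw [← mul_assoc, mul_left_cancel_iff] at h3
    have h4 := congrArg toWord h3
    rw [toWord_single, toWord_single, List.cons.injEq] at h4
    rw [h4.1]
    exact (dif_pos ex).symm
  have hpt : ∀ (g : GG Λ) u, ((g.out * wd Λ u : FreeGroup α) : GG Λ) = g * (wd Λ u : GG Λ) :=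
    fun g u => by rw [QuotientGroup.mk_mul, QuotientGroup.out_eq']
  refine ⟨GG Λ, inferInstance, ⟨
    { gen := fun s => (mk [s] : FreeGroup α)
      gen_inv := fun a b => by rw [mk_not, QuotientGroup.mk_inv]
      gen_top := ?_
      ρ := fun u => wd Λ u
      ρ_step := fun u s v h => rho_step Λ h
      lev := lev
      P := P
      par := par
      inj := ?_
      ball := ?_
      meet := ?_
      lev_zero := fun u => ?_
      dart := ?_
      one_nbr := ?_ }⟩⟩
  · rw [eq_top_iff]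
    rintro x -
    obtain ⟨a, rfl⟩ := QuotientGroup.mk_surjective x
    rw [← mk_toWord (x := a)]
    induction a.toWord with
    | nil => exact one_mem _
    | cons s w ih =>
      rw [show s :: w = [s] ++ w from rfl, ← mul_mk, QuotientGroup.mk_mul]
      exact mul_mem (Subgroup.subset_closure ⟨s, rfl⟩) ih
  · intro u v hc h
    obtain ⟨n, hn, e⟩ := cls_eq.1 h
    have h1 := ym_wd Λ 1 u
    have h2 := ym_wd Λ 1 v
    rw [one_mul] at h1 h2
    rw [base_congr Λ hc, ← h2] at h1
    have h3 := W.inj n hn (ym Λ (wd Λ v) v) (wd Λ v) ⟨v, rfl⟩ ⟨u, e ▸ h1⟩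
    rw [smul_ym, ← e] at h3
    exact ym_inj (h1.trans h3.symm)
  · intro g u₀
    obtain ⟨w, ⟨w₀, hw⟩, h⟩ := W.ball (ym Λ (g.out * wd Λ u₀) u₀)
    refine ⟨w₀, fun u hc hu => ?_⟩
    have e : ym Λ (g.out * wd Λ u) u = ym Λ (g.out * wd Λ u₀) u₀ := by
      rw [ym_wd, ym_wd, base_congr Λ hc]
    obtain ⟨r, hr, h1⟩ := h _ ⟨u, e⟩ (e ▸ hu)
    rw [← e] at hw hr
    exact ⟨_, h1, ym_eq.1 (hw.trans hr.symm)⟩
  · intro g g' u u' h hne hl
    rw [hlev (hpt g u), hlev ((hpt g u).trans h)] at hl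
    refine W.meet _ _ _ (fun e => hne ?_) ⟨u, rfl⟩ ⟨u', rfl⟩ hl
    obtain rfl := ym_inj e
    rw [mul_right_cancel h]
  · rw [hlev (a := 1) (by simp)]
    exact W.lev_zero _ ⟨u, rfl⟩
  · intro x s
    obtain ⟨a, rfl⟩ := QuotientGroup.mk_surjective x
    rcases W.dart a (a * mk [s]) (dd_single a s) with h | h | ⟨y, ⟨u, rfl⟩, ⟨v, hv⟩, h⟩
    · exact Or.inl (hpar a s h)
    · refine Or.inr (Or.inl (hpar (a * mk [s]) _ ?_))
      rwa [mk_not, mul_inv_cancel_right]
    · have h1 : Λ.E u s v := by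
        have := ym_eq.1 hv.symm
        rwa [inv_mul_cancel_left, RF_single] at this
      have h2 : (a : GG Λ) = (a * (wd Λ u : GG Λ)⁻¹) * (wd Λ u : GG Λ) := by group
      have h3 : ((a * mk [s] : FreeGroup α) : GG Λ)
          = (a * (wd Λ u : GG Λ)⁻¹) * (wd Λ v : GG Λ) := by
        rw [rho_step Λ h1, QuotientGroup.mk_mul]; group
      refine Or.inr (Or.inr ⟨_, u, v, h1, h2, ?_⟩)
      rw [hP h2, hP h3, hv]
      exact h
  · intro g u s s' v v' h1 h2 h3 h4 h5
    have e : ∀ {s v}, Λ.E u s v → ((g.out * wd Λ u * mk [s] : FreeGroup α) : GG Λ)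
        = g * (wd Λ v : GG Λ) := fun h => by
      rw [rho_step Λ h, QuotientGroup.mk_mul, hpt, mul_assoc]
    rw [hP (e h2), ym_step Λ h2] at h4
    rw [hP (e h3), ym_step Λ h3] at h5
    have h6 := W.one_nbr _ _ _ _ ⟨u, rfl⟩ ⟨v, ym_step Λ h2 _⟩ ⟨v', ym_step Λ h3 _⟩ h1 h4 h5
      (dd_single _ s) (dd_single _ s')
    have h7 := ym_step Λ h2 (g.out * wd Λ u)
    rw [h6, ← ym_step Λ h3] at h7
    exact ym_inj h7

end Vale.Agent.P089
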