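import Vale.Agent.P089.CoreLab
import Vale.Agent.P089.Graphs
import Vale.Agent.P089.Colour
import Vale.Agent.P089.Code
import Vale.Agent.P089.MonsterGrp
import Vale.Agent.P089.GrpAlg

/-! Assembly of parts A-E: uncountably many traces of projections. -/

noncomputable section

open Classical

namespace Vale.Agent.P089

theorem code_numeric (a n : ℕ) (h : 2 * a + 8 ≤ n) : 2 * n * 2 ^ a < 2 ^ n := by
  obtain ⟨k, rfl⟩ : ∃ k, n = a + (k + 4) := ⟨n - a - 4, by omega⟩
  have h1 : k < 2 ^ k := Nat.lt_two_pow_self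
  have h2 : 2 * (a + (k + 4)) < 2 ^ (k + 4) := by rw [pow_add]; omega
  rw [pow_add 2 a, mul_comm (2 ^ a)]
  exact Nat.mul_lt_mul_of_pos_right h2 (by positivity)

theorem exists_setups : ∃ N : ℕ → ℕ, (∀ n, N n + 2 ≤ N (n + 1)) ∧ ∀ ω : Set ℕ,
    ∃ (G : Type) (_ : Group G) (S : Setup G) (e : S.ι ≃ ω), ∀ i, S.N i = N (e i) := by
  obtain ⟨d, Δ, h, K, hΔ, hA⟩ := exists_goodGraphs
  obtain ⟨m, hm, hB⟩ := exists_colouring Δ K
  set T := Fintype.card (Ty m) with hT
  have hT200 : 200 ≤ T := by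
    have h8 : 2 ^ 8 ≤ 2 ^ m := Nat.pow_le_pow_right (by norm_num) hm
    simp only [hT, Ty, Fintype.card_prod, Fintype.card_fin, Fintype.card_finset]
    nlinarith
  let ℓ : ℕ → ℕ := fun n => Nat.rec (T + 8) (fun _ l => l + K ^ (10 * l) + 2) n
  have hℓs : ∀ n, ℓ (n + 1) = ℓ n + K ^ (10 * ℓ n) + 2 := fun _ => rfl
  have hℓm : StrictMono ℓ := strictMono_nat_of_lt_succ fun n => by rw [hℓs]; omega
  have hℓ0 : ∀ n, T + 8 ≤ ℓ n := fun n => hℓm.monotone (Nat.zero_le n)
  have hℓ1 : ∀ n, 1 ≤ ℓ n := fun n => by have := hℓ0 n; omega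
  choose N X hN1 hN2 hX using fun n => hA (10 * ℓ n) (by have := hℓ1 n; omega)
  have hpow : ∀ k, k < Δ ^ k := fun k => Nat.lt_pow_self (by omega)
  have hNs : ∀ n, N n + 2 ≤ N (n + 1) := by
    intro n
    have h1 := hpow (10 * ℓ (n + 1))
    have h2 := hN1 (n + 1)
    have h3 := hN2 n
    have h4 := hℓs n
    omega
  have hNmono : StrictMono N := strictMono_nat_of_lt_succ fun n => by have := hNs n; omega
  have hbig : ∀ n, (Δ + 1) ^ (4 * ℓ n) * (2 * T + 16) ≤ N n := by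
    intro n
    have h1 : (Δ + 1) ^ (4 * ℓ n) ≤ (Δ ^ 2) ^ (4 * ℓ n) :=
      Nat.pow_le_pow_left (by nlinarith) _
    have h2 : 2 * T + 16 ≤ Δ ^ (2 * ℓ n) := by
      have := hpow (2 * ℓ n); have := hℓ0 n; omega
    calc _ ≤ (Δ ^ 2) ^ (4 * ℓ n) * Δ ^ (2 * ℓ n) := Nat.mul_le_mul h1 h2
      _ = Δ ^ (10 * ℓ n) := by rw [← pow_mul, ← pow_add]; congr 1; ring
      _ ≤ N n := hN1 n
  have hp1 : ∀ n, 1 ≤ (Δ + 1) ^ (4 * ℓ n) := fun n => Nat.one_le_pow _ _ (by omega)
  have hN32 : ∀ n, 32 ≤ N n := fun n => by have := hbig n; have := hp1 n; nlinarith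
  obtain ⟨c, hc1, hc2, hc3⟩ := hB ℓ N X hℓm (hℓ1 0) hN2 (fun n => (hX n).deg_le)
    (fun n k p hk hk' => (hX n).girth k p hk (by omega))
  choose D hD1 hD2 hD3 hD4 using fun n =>
    exists_code (τ := Ty m) hT200 (N n) ((Δ + 1) ^ (4 * ℓ n))
      (code_numeric _ _ (by have := hbig n; have := hp1 n; nlinarith))
      (by have := hN32 n; omega) (tyOf (X n) (c n)) (gball (X n) (4 * ℓ n))
      (card_gball (X n) Δ (hX n).deg_le _)
  refine ⟨N, hNs, fun ω => ?_⟩
  have hp : ∀ (i i' : ω) p p' k, min (ℓ i) (ℓ i') ≤ k → NBW (X i) k p → NBW (X i') k p' →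
      (∀ j ≤ k, c i (p j) = c i' (p' j)) →
      (⟨i, p 0⟩ : Σ i : ω, Fin (N i)) = ⟨i', p' 0⟩ := by
    have key : ∀ (i i' : ω) p p' k, (i : ℕ) ≤ i' → min (ℓ i) (ℓ i') ≤ k → NBW (X i) k p →
        NBW (X i') k p' → (∀ j ≤ k, c i (p j) = c i' (p' j)) →
        (⟨i, p 0⟩ : Σ i : ω, Fin (N i)) = ⟨i', p' 0⟩ := by
      rintro ⟨i, hi⟩ ⟨i', hi'⟩ p p' k hle hk h1 h2 h3
      have hk' : ℓ i ≤ k := by rwa [min_eq_left (hℓm.monotone hle)] at hk
      have := hc3 i i' p p' hle (h1.mono hk') (h2.mono hk') fun j hj => h3 j (hj.trans hk')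
      obtain ⟨rfl, h⟩ := Sigma.mk.inj_iff.1 this
      simp only [Sigma.mk.injEq, true_and]
      exact h
    intro i i' p p' k hk h1 h2 h3
    rcases le_total (i : ℕ) i' with hle | hle
    · exact key i i' p p' k hle hk h1 h2 h3
    · exact (key i' i p' p k hle (by rwa [min_comm]) h2 h1 fun j hj => (h3 j hj).symm).symm
  let Λ := labGraph (ι := ω) (N := fun i => N i) (fun i => X i) (fun i => c i) (fun i => ℓ i)
    (fun i => hℓ1 i) (fun i => (hX i).conn) (fun i => (hX i).girth) (fun i => hc1 i)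
    (fun i => hc2 i) hp
  have : Nonempty (Fin m × Fin m) := ⟨(⟨0, by omega⟩, ⟨0, by omega⟩)⟩
  obtain ⟨G, _, ⟨M⟩⟩ := exists_monster Λ
  have hball : ∀ (i : ω) (g : G), ∃ w : Fin (N i), ∀ u, M.P g ⟨i, u⟩ →
      u ∈ gball (X i) (4 * ℓ i) w := by
    intro i g
    by_cases hex : ∃ u, M.P g ⟨i, u⟩
    · obtain ⟨u₀, hu₀⟩ := hex
      obtain ⟨⟨i', w₀⟩, hw⟩ := M.ball g ⟨i, u₀⟩
      obtain ⟨w, -, hw'⟩ := hw ⟨i, u₀⟩ rfl hu₀
      have : i' = i := reads_comp _ _ w _ _ hw'
      subst this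
      refine ⟨w₀, fun u hu => ?_⟩
      obtain ⟨w, hw1, hw2⟩ := hw ⟨i', u⟩ rfl hu
      exact mem_gball_of_reads (fun i : ω => X i) (fun i => c i) w _ _ _ hw1 hw2
    · exact ⟨⟨0, by have := hN32 i; omega⟩, fun u hu => (hex ⟨u, hu⟩).elim⟩
  refine ⟨G, inferInstance,
    { m := m, d := d, h := h, ι := ω, N := fun i => N i
      N_pos := fun i => by have := hN32 i; omega
      fin_le := fun M => ?_
      X := fun i => X i, c := fun i => c i
      deg_ge := fun i => (hX i).deg_ge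
      sparse := fun i => (hX i).sparse
      d_ge := ?_
      expand := fun i => (hX i).expand
      conn := fun i => (hX i).conn
      c_adj := fun i => hc1 i
      c_nbr := fun i => hc2 i
      gen := M.gen, gen_inv := M.gen_inv, gen_top := M.gen_top
      ρ := fun i v => M.ρ ⟨i, v⟩
      ρ_step := fun i u v huv => M.ρ_step _ _ _ ⟨i, u, v, rfl, rfl, huv, rfl⟩
      lev := M.lev, P := fun i g v => M.P g ⟨i, v⟩, par := M.par
      inj := fun i u v huv => by simpa using M.inj ⟨i, u⟩ ⟨i, v⟩ rfl huv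
      meet := fun i i' g g' u u' h1 h2 h3 => M.meet g g' ⟨i, u⟩ ⟨i', u'⟩ h1 h2 h3
      lev_zero := fun i u => M.lev_zero ⟨i, u⟩
      dart := fun x s => ?_
      one_nbr := fun i g u v v' h1 h2 h3 h4 h5 => by
        simpa using M.one_nbr g ⟨i, u⟩ _ _ ⟨i, v⟩ ⟨i, v'⟩ h1 ⟨i, u, v, rfl, rfl, h2, rfl⟩
          ⟨i, u, v', rfl, rfl, h3, rfl⟩ h4 h5
      exposed := fun i g => ?_
      D := fun i => D i
      xi_mem := fun i => hD1 i
      card_D := fun i => hD2 i
      few := fun i y hy hne => by convert hD3 i y hy hne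
      dual := fun i g z hz hP => ?_ }, Equiv.refl _, fun _ => rfl⟩
  · apply Set.Finite.subset ((Set.finite_Iic M).preimage Subtype.val_injective.injOn)
    intro i hi
    exact (hNmono.id_le i).trans hi
  · have := (hX 0).sparse {⟨0, by have := hN32 0; omega⟩} (by simpa using hN32 0)
    simp only [Finset.card_singleton] at this
    omega
  · rcases M.dart x s with h | h | ⟨g, _, _, ⟨i, u, v, rfl, rfl, h1, h2⟩, h3, h4⟩
    · exact Or.inl h
    · exact Or.inr (Or.inl h)
    · exact Or.inr (Or.inr ⟨i, g, u, v, h1, h2, h3, h4⟩)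
  · by_contra hall
    push Not at hall
    obtain ⟨w, hw⟩ := hball i g
    have h1 : (Finset.univ : Finset (Fin (N i))).card ≤ (gball (X i) (4 * ℓ i) w).card :=
      Finset.card_le_card fun u _ => hw u (hall u)
    have h2 := card_gball (X i) Δ (hX i).deg_le (4 * ℓ i) w
    have h3 := hbig i
    have h4 := hp1 i
    simp only [Finset.card_univ, Fintype.card_fin] at h1
    nlinarith
  · obtain ⟨w, hw⟩ := hball i g
    exact hD4 i w z hz fun v hv => hP v fun h => hv (hw v h)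

theorem injective_subsum (a : ℕ → ℝ) (hpos : ∀ n, 0 < a n) (h4 : ∀ n, 4 * a (n + 1) ≤ a n) :
    Function.Injective fun ω : Set ℕ => ∑' n, ω.indicator a n := by
  have hgeo : ∀ n k, a (k + n) ≤ a n * (1 / 4) ^ k := by
    intro n k
    induction k with
    | zero => simp
    | succ k ih =>
      have := h4 (k + n)
      rw [show k + 1 + n = k + n + 1 by ring, pow_succ]
      nlinarith
  have hg : Summable fun k : ℕ => ((1 : ℝ) / 4) ^ k := summable_geometric_of_lt_one (by norm_num) (by norm_num)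
  have hsa : Summable a :=
    Summable.of_nonneg_of_le (fun n => (hpos n).le) (fun k => by simpa using hgeo 0 k) (hg.mul_left (a 0))
  have key : ∀ ω ω' : Set ℕ, ∀ n, n ∈ ω → n ∉ ω' → (∀ k < n, k ∈ ω ↔ k ∈ ω') →
      ∑' n, ω'.indicator a n < ∑' n, ω.indicator a n := by
    intro ω ω' n h1 h2 h3
    rw [← (hsa.indicator ω).sum_add_tsum_nat_add (n + 1),
      ← (hsa.indicator ω').sum_add_tsum_nat_add (n + 1), Finset.sum_range_succ,
      Finset.sum_range_succ]
    have e1 : ∑ k ∈ Finset.range n, ω'.indicator a k = ∑ k ∈ Finset.range n, ω.indicator a k :=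
      Finset.sum_congr rfl fun k hk => by
        simp only [Set.indicator, h3 k (Finset.mem_range.1 hk)]
    have e2 : 0 ≤ ∑' k, ω.indicator a (k + (n + 1)) :=
      tsum_nonneg fun k => Set.indicator_nonneg (fun _ _ => (hpos _).le) _
    have e3 : ∑' k, ω'.indicator a (k + (n + 1)) ≤ ∑' k : ℕ, a (n + 1) * (1 / 4) ^ k :=
      Summable.tsum_le_tsum (fun k => (Set.indicator_le_self' (fun _ _ => (hpos _).le) _).trans
        (hgeo _ _)) ((summable_nat_add_iff (n + 1)).2 (hsa.indicator ω')) (hg.mul_left _)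
    rw [tsum_mul_left, tsum_geometric_of_lt_one (by norm_num) (by norm_num)] at e3
    rw [e1, Set.indicator_of_mem h1, Set.indicator_of_notMem h2]
    have := h4 n
    have := hpos n
    norm_num at e3
    linarith
  intro ω ω' h
  by_contra hne
  have hex : ∃ n, ¬ (n ∈ ω ↔ n ∈ ω') := by
    by_contra h'
    push Not at h'
    exact hne (Set.ext h')
  have h1 := Nat.find_spec hex
  have h2 : ∀ k < Nat.find hex, k ∈ ω ↔ k ∈ ω' := fun k hk => not_not.1 (Nat.find_min hex hk)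
  by_cases h3 : Nat.find hex ∈ ω
  · exact (key ω ω' _ h3 (fun h => h1 (iff_of_true h3 h)) h2).ne' h
  · exact (key ω' ω _ (by tauto) h3 fun k hk => (h2 k hk).symm).ne h

/-- The real numbers that are traces of projections in reduced `C*`-algebras of finitely
generated groups. -/
def traceSet : Set ℝ :=
  {t | ∃ (Γ : Type) (_ : Group Γ), Group.FG Γ ∧ Countable Γ ∧ ∃ p : CStarRed Γ,
    IsSelfAdjoint p.op ∧ p * p = p ∧ p.trace = t}

theorem not_countable_traceSet : ¬ traceSet.Countable := by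
  obtain ⟨N, hN, hS⟩ := exists_setups
  let a : ℕ → ℝ := fun n => ((2 : ℝ) ^ (N n + 1))⁻¹
  have hinj := injective_subsum a (fun n => by positivity) (fun n => by
    have h : (2 : ℝ) ^ (N n + 1 + 2) ≤ 2 ^ (N (n + 1) + 1) :=
      pow_le_pow_right₀ (by norm_num) (by have := hN n; omega)
    rw [pow_add] at h
    simp only [a]
    rw [← div_eq_mul_inv, div_le_iff₀ (by positivity), inv_mul_eq_div, le_div_iff₀ (by positivity)]
    linarith)
  intro hc
  have hsub : Set.range (fun ω : Set ℕ => ∑' n, ω.indicator a n) ⊆ traceSet := by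
    rintro _ ⟨ω, rfl⟩
    obtain ⟨G, _, S, e, he⟩ := hS ω
    obtain ⟨Γ, _, h1, h2, p, h3, h4, h5⟩ := S.exists_projection
    refine ⟨Γ, inferInstance, h1, h2, p, h3, h4, ?_⟩
    have h6 : HasSum (fun i : ω => ((a i : ℝ) : ℂ)) p.trace := by
      rw [← e.hasSum_iff]
      convert h5 using 2 with i
      simp [a, he]
    rw [← h6.tsum_eq, ← Complex.ofReal_tsum]
    simp only
    rw [← tsum_subtype]
  have := (hc.mono hsub).preimage_of_injOn (f := fun ω : Set ℕ => ∑' n, ω.indicator a n)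
    hinj.injOn
  rw [Set.preimage_range, Set.countable_univ_iff] at this
  obtain ⟨f, hf⟩ := exists_surjective_nat (Set ℕ)
  exact Function.cantor_surjective f hf

theorem exists_not_mem_of_countable (T : Set ℂ) (hT : T.Countable) :
    ∃ t ∈ traceSet, (t : ℂ) ∉ T := by
  by_contra h
  push Not at h
  exact not_countable_traceSet
    ((hT.preimage_of_injOn Complex.ofReal_injective.injOn).mono fun t ht => h t ht)

theorem exists_transcendental_trace : ∃ (Γ : Type) (_ : Group Γ), Group.FG Γ ∧ Countable Γ ∧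
    ∃ p : CStarRed Γ, IsSelfAdjoint p.op ∧ p * p = p ∧ Transcendental ℚ p.trace := by
  obtain ⟨t, ⟨Γ, _, h1, h2, p, h3, hp, ht⟩, hT⟩ :=
    exists_not_mem_of_countable _ (Algebraic.countable ℚ ℂ)
  exact ⟨Γ, inferInstance, h1, h2, p, h3, hp, ht ▸ hT⟩

end Vale.Agent.P089
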