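import Mathlib

/-! Definitions for the small cancellation part (tasks C1, C2). -/

namespace Vale.Agent.P089

/-- A group `F` with a left invariant tree metric `d` and an `F`-family of convex subsets `S y`
satisfying a small cancellation condition. -/
structure TreeAct (F : Type) [Group F] (Y : Type) [MulAction F Y] where
  d : F → F → ℕ
  d_eq_zero : ∀ a b, d a b = 0 ↔ a = b
  d_comm : ∀ a b, d a b = d b a
  d_tri : ∀ a b c, d a c ≤ d a b + d b c
  d_mul : ∀ g a b, d (g * a) (g * b) = d a b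
  thin : ∀ a b c x, d a x + d x b = d a b → d a x + d x c = d a c ∨ d c x + d x b = d c b
  median : ∀ a b c, ∃ m, d a m + d m b = d a b ∧ d b m + d m c = d b c ∧ d a m + d m c = d a c
  step : ∀ a b, a ≠ b → ∃ x, d a x = 1 ∧ d a x + d x b = d a b
  S : Y → Set F
  ell : Y → ℕ
  S_smul : ∀ g y a, a ∈ S y → g * a ∈ S (g • y)
  ell_smul : ∀ (g : F) y, ell (g • y) = ell y
  ell_pos : ∀ y, 1 ≤ ell y
  S_ne : ∀ y, (S y).Nonempty
  convex : ∀ y a b x, a ∈ S y → b ∈ S y → d a x + d x b = d a b → x ∈ S y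
  piece : ∀ y y' a b, y ≠ y' → a ∈ S y → b ∈ S y → a ∈ S y' → b ∈ S y' → d a b < ell y
  girth : ∀ (r : F) y a, r • y = y → r ≠ 1 → a ∈ S y → 10 * ell y ≤ d a (r * a)

/-- The (normal) subgroup generated by all stabilizers. -/
def stabGen (F : Type) [Group F] (Y : Type) [MulAction F Y] : Subgroup F :=
  Subgroup.closure {r | ∃ y : Y, r • y = y}

/-- Output of the windmill construction. -/
structure WindOut {F : Type} [Group F] {Y : Type} [MulAction F Y] (T : TreeAct F Y) where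
  lev : Y → ℕ
  P : Y → Set F
  Par : F → F → Prop
  lev_smul : ∀ n ∈ stabGen F Y, ∀ y, lev (n • y) = lev y
  P_smul : ∀ n ∈ stabGen F Y, ∀ y a, a ∈ P y → n * a ∈ P (n • y)
  Par_mul : ∀ n ∈ stabGen F Y, ∀ a b, Par a b → Par (n * a) (n * b)
  Par_unique : ∀ a b b', Par a b → Par a b' → b = b'
  inj : ∀ n ∈ stabGen F Y, ∀ y a, a ∈ T.S y → n * a ∈ T.S y → n • y = y
  ball : ∀ y, ∃ w ∈ T.S y, ∀ a ∈ T.S y, a ∈ P y → ∃ r : F, r • y = y ∧ T.d w (r * a) ≤ 4 * T.ell y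
  meet : ∀ y y' a, y ≠ y' → a ∈ T.S y → a ∈ T.S y' → lev y' ≤ lev y → a ∈ P y
  lev_zero : ∀ y, 1 ∈ T.S y → lev y = 0
  dart : ∀ a b, T.d a b = 1 →
    Par a b ∨ Par b a ∨ ∃ y, a ∈ T.S y ∧ b ∈ T.S y ∧ (a ∉ P y ∨ b ∉ P y)
  one_nbr : ∀ y a b b', a ∈ T.S y → b ∈ T.S y → b' ∈ T.S y → a ∉ P y → b ∈ P y → b' ∈ P y →
    T.d a b = 1 → T.d a b' = 1 → b = b'

/-- Reading a word along a labelled relation. -/
def Reads {V β : Type} (E : V → β → V → Prop) : V → List β → V → Prop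
  | u, [], v => u = v
  | u, s :: w, v => ∃ u', E u s u' ∧ Reads E u' w v

/-- A folded labelled graph with components indexed by `ι`, satisfying a graphical small
cancellation condition. -/
structure LabGraph (V α ι : Type) where
  E : V → α × Bool → V → Prop
  comp : V → ι
  ell : ι → ℕ
  symm : ∀ u a b v, E u (a, b) v → E v (a, !b) u
  det : ∀ u s v v', E u s v → E u s v' → v = v'
  comp_iff : ∀ u v, comp u = comp v ↔ ∃ w, Reads E u w v
  ell_pos : ∀ i, 1 ≤ ell i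
  girth : ∀ u w, FreeGroup.IsReduced w → w ≠ [] → Reads E u w u → 10 * ell (comp u) ≤ w.length
  piece : ∀ u u' w v v', FreeGroup.IsReduced w → u ≠ u' → Reads E u w v → Reads E u' w v' →
    w.length < ell (comp u)

/-- The quotient group with the embedded copies `v ↦ g * ρ v` of the components. -/
structure Monster {V α ι : Type} (Λ : LabGraph V α ι) (G : Type) [Group G] where
  gen : α × Bool → G
  gen_inv : ∀ a b, gen (a, !b) = (gen (a, b))⁻¹
  gen_top : Subgroup.closure (Set.range gen) = ⊤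
  ρ : V → G
  ρ_step : ∀ u s v, Λ.E u s v → ρ v = ρ u * gen s
  lev : ι → G → ℕ
  P : G → V → Prop
  par : G → α × Bool
  inj : ∀ u v, Λ.comp u = Λ.comp v → ρ u = ρ v → u = v
  ball : ∀ g u₀, ∃ w₀, ∀ u, Λ.comp u = Λ.comp u₀ → P g u →
    ∃ w, w.length ≤ 4 * Λ.ell (Λ.comp u₀) ∧ Reads Λ.E w₀ w u
  meet : ∀ g g' u u', g * ρ u = g' * ρ u' → (Λ.comp u, g) ≠ (Λ.comp u', g') →
    lev (Λ.comp u') g' ≤ lev (Λ.comp u) g → P g u
  lev_zero : ∀ u, lev (Λ.comp u) (ρ u)⁻¹ = 0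
  dart : ∀ x s, s = par x ∨ (s.1, !s.2) = par (x * gen s) ∨
    ∃ g u v, Λ.E u s v ∧ x = g * ρ u ∧ (¬ P g u ∨ ¬ P g v)
  one_nbr : ∀ g u s s' v v', ¬ P g u → Λ.E u s v → Λ.E u s' v' → P g v → P g v' → v = v'

end Vale.Agent.P089
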