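import Vale.Agent.P089.GraphDefs
import Vale.Agent.P089.WindDefs

/-! From coloured graphs to labelled graphs. -/

noncomputable section

open Classical

namespace Vale.Agent.P089

theorem letter_symm {m : ℕ} {a b : Fin m} (h : a ≠ b) :
    letter b a = ((letter a b).1, !(letter a b).2) := by
  unfold letter
  rcases lt_or_gt_of_ne h with h | h
  · simp [h, not_lt.2 h.le]
  · simp [h, not_lt.2 h.le]

theorem letter_inj_core {m : ℕ} {a b a' b' : Fin m} (_h : a ≠ b) (_h' : a' ≠ b')
    (e : letter a b = letter a' b') : a = a' ∧ b = b' := by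
  unfold letter at e
  split_ifs at e with h1 h2 h2 <;> simp_all

section

variable {ι : Type} {N : ι → ℕ} (X : ∀ i, SimpleGraph (Fin (N i))) {m : ℕ}
  (c : ∀ i, Fin (N i) → Fin m)

/-- The labelled edge relation on the disjoint union. -/
def EdgeRel (u : Σ i, Fin (N i)) (s : (Fin m × Fin m) × Bool) (v : Σ i, Fin (N i)) : Prop :=
  ∃ (i : ι) (a b : Fin (N i)), u = ⟨i, a⟩ ∧ v = ⟨i, b⟩ ∧ (X i).Adj a b ∧ s = letter (c i a) (c i b)

theorem edgeRel_mk {i : ι} {a : Fin (N i)} {s} {v : Σ i, Fin (N i)} :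
    EdgeRel X c ⟨i, a⟩ s v ↔ ∃ b, v = ⟨i, b⟩ ∧ (X i).Adj a b ∧ s = letter (c i a) (c i b) := by
  constructor
  · rintro ⟨i', a', b, h1, h2, h3, h4⟩
    cases h1
    exact ⟨b, h2, h3, h4⟩
  · rintro ⟨b, h2, h3, h4⟩
    exact ⟨i, a, b, rfl, h2, h3, h4⟩

theorem exists_walk_of_reads (hc : ∀ i u v, (X i).Adj u v → c i u ≠ c i v) {i : ι}
    (w : List ((Fin m × Fin m) × Bool)) :
    ∀ (a : Fin (N i)) (v : Σ i, Fin (N i)), Reads (EdgeRel X c) ⟨i, a⟩ w v →
      FreeGroup.IsReduced w → ∃ p : ℕ → Fin (N i), p 0 = a ∧ v = ⟨i, p w.length⟩ ∧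
        NBW (X i) w.length p ∧
        ∀ k (hk : k < w.length), w[k] = letter (c i (p k)) (c i (p (k + 1))) := by
  induction w with
  | nil =>
    intro a v h _
    exact ⟨fun _ => a, rfl, h.symm, ⟨by simp, by simp⟩, by simp⟩
  | cons s w ih =>
    rintro a v ⟨u', h1, h2⟩ hred
    obtain ⟨b, rfl, hab, rfl⟩ := (edgeRel_mk X c).1 h1
    have hred' : FreeGroup.IsReduced w := List.IsChain.tail hred
    obtain ⟨p, hp0, hv, ⟨hp1, hp2⟩, hp3⟩ := ih b v h2 hred'
    refine ⟨fun k => Nat.casesOn k a p, rfl, hv, ⟨?_, ?_⟩, ?_⟩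
    · intro k hk
      cases k with
      | zero => simpa [hp0] using hab
      | succ k => exact hp1 k (by simpa using hk)
    · intro k hk
      cases k with
      | zero =>
        intro h
        have h' : p 1 = a := h
        cases w with
        | nil => simp at hk
        | cons s' w =>
          have h3 := hp3 0 (by simp)
          simp only [List.getElem_cons_zero, hp0, zero_add, h'] at h3
          rw [letter_symm (hc i a b hab)] at h3
          have := (FreeGroup.isReduced_cons_cons.1 hred).1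
          rw [h3] at this
          simp at this
      | succ k => exact hp2 k (by simpa using hk)
    · intro k hk
      cases k with
      | zero => simp [hp0]
      | succ k => simpa using hp3 k (by simpa using hk)

theorem reads_comp (w : List ((Fin m × Fin m) × Bool)) :
    ∀ u v : Σ i, Fin (N i), Reads (EdgeRel X c) u w v → u.1 = v.1 := by
  induction w with
  | nil => intro u v h; rw [show u = v from h]
  | cons s w ih =>
    rintro u v ⟨u', ⟨i, a, b, rfl, rfl, -, -⟩, h2⟩
    exact ih ⟨i, b⟩ _ h2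

theorem reads_of_walk {i : ι} {a b : Fin (N i)} (p : (X i).Walk a b) :
    ∃ w, Reads (EdgeRel X c) ⟨i, a⟩ w ⟨i, b⟩ := by
  induction p with
  | nil => exact ⟨[], rfl⟩
  | cons h _ ih =>
    obtain ⟨w, hw⟩ := ih
    exact ⟨_ :: w, _, ⟨i, _, _, rfl, rfl, h, rfl⟩, hw⟩

theorem NBW.mono {V : Type} {X : SimpleGraph V} {k k' : ℕ} {p : ℕ → V} (h : NBW X k p)
    (hk : k' ≤ k) : NBW X k' p :=
  ⟨fun i hi => h.1 i (by omega), fun i hi => h.2 i (by omega)⟩

/-- The labelled graph of a family of coloured graphs. -/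
def labGraph (ℓ : ι → ℕ) (hℓ : ∀ i, 1 ≤ ℓ i) (hconn : ∀ i, (X i).Preconnected)
    (hg : ∀ i, GirthGt (X i) (10 * ℓ i))
    (hc : ∀ i u v, (X i).Adj u v → c i u ≠ c i v)
    (hc2 : ∀ i u v w, (X i).Adj u v → (X i).Adj u w → c i v = c i w → v = w)
    (hp : ∀ i i' p p' k, min (ℓ i) (ℓ i') ≤ k → NBW (X i) k p → NBW (X i') k p' →
      (∀ j ≤ k, c i (p j) = c i' (p' j)) → (⟨i, p 0⟩ : Σ i, Fin (N i)) = ⟨i', p' 0⟩) :
    LabGraph (Σ i, Fin (N i)) (Fin m × Fin m) ι where
  E := EdgeRel X c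
  comp := Sigma.fst
  ell := ℓ
  symm := by
    rintro u a b v ⟨i, x, y, rfl, rfl, h, e⟩
    refine ⟨i, y, x, rfl, rfl, h.symm, ?_⟩
    rw [letter_symm (hc i x y h), ← e]
  det := by
    rintro ⟨i, a⟩ s v v' h h'
    obtain ⟨b, rfl, hab, rfl⟩ := (edgeRel_mk X c).1 h
    obtain ⟨b', rfl, hab', e⟩ := (edgeRel_mk X c).1 h'
    rw [hc2 i a b b' hab hab' (letter_inj_core (hc i a b hab) (hc i a b' hab') e).2]
  comp_iff := by
    rintro ⟨i, a⟩ ⟨i', b⟩
    constructor
    · intro h
      cases (show i = i' from h)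
      obtain ⟨p⟩ := hconn i a b
      exact reads_of_walk X c p
    · rintro ⟨w, hw⟩
      exact reads_comp X c w _ _ hw
  ell_pos := hℓ
  girth := by
    rintro ⟨i, a⟩ w hred hne h
    obtain ⟨p, hp0, hv, hp, -⟩ := exists_walk_of_reads X c hc w a _ h hred
    by_contra hlt
    have h1 : a = p w.length := by simpa using hv
    exact hg i w.length p (List.length_pos_iff.2 hne) (by simp at hlt; omega) hp
      (by rw [← h1, hp0])
  piece := by
    rintro ⟨i, a⟩ ⟨i', a'⟩ w v v' hred hne h h'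
    obtain ⟨p, hp0, -, hp1, hp3⟩ := exists_walk_of_reads X c hc w a _ h hred
    obtain ⟨p', hp0', -, hp1', hp3'⟩ := exists_walk_of_reads X c hc w a' _ h' hred
    by_contra hlt
    have hle : ℓ i ≤ w.length := by simpa using hlt
    apply hne
    rw [← hp0, ← hp0']
    apply hp i i' p p' w.length ((min_le_left _ _).trans hle) hp1 hp1'
    have key : ∀ k, k < w.length →
        c i (p k) = c i' (p' k) ∧ c i (p (k + 1)) = c i' (p' (k + 1)) := fun k hk =>
      letter_inj_core (hc i _ _ (hp1.1 k hk)) (hc i' _ _ (hp1'.1 k hk))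
        ((hp3 k hk).symm.trans (hp3' k hk))
    intro j hj
    cases j with
    | zero => exact (key 0 (by have := hℓ i; omega)).1
    | succ j => exact (key j (by omega)).2

end

/-- Ball of radius `k` in a finite graph. -/
def gball {n : ℕ} (X : SimpleGraph (Fin n)) : ℕ → Fin n → Finset (Fin n)
  | 0, a => {a}
  | k + 1, a => insert a ((nbr X a).biUnion (gball X k))

theorem card_gball {n : ℕ} (X : SimpleGraph (Fin n)) (Δ : ℕ) (h : ∀ v, (nbr X v).card ≤ Δ) :
    ∀ k a, (gball X k a).card ≤ (Δ + 1) ^ k := by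
  intro k
  induction k with
  | zero => simp [gball]
  | succ k ih =>
    intro a
    have h1 : ((nbr X a).biUnion (gball X k)).card ≤ Δ * (Δ + 1) ^ k :=
      (Finset.card_biUnion_le_card_mul _ _ _ fun b _ => ih b).trans
        (Nat.mul_le_mul_right _ (h a))
    have h2 : 1 ≤ (Δ + 1) ^ k := Nat.one_le_pow _ _ (by omega)
    calc (gball X (k + 1) a).card ≤ Δ * (Δ + 1) ^ k + 1 :=
          (Finset.card_insert_le _ _).trans (by omega)
      _ ≤ (Δ + 1) ^ (k + 1) := by rw [pow_succ]; nlinarith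

theorem mem_gball_of_reads {ι : Type} {N : ι → ℕ} (X : ∀ i, SimpleGraph (Fin (N i))) {m : ℕ}
    (c : ∀ i, Fin (N i) → Fin m) {i : ι} (w : List ((Fin m × Fin m) × Bool)) :
    ∀ (k : ℕ) (a b : Fin (N i)), w.length ≤ k → Reads (EdgeRel X c) ⟨i, a⟩ w ⟨i, b⟩ →
      b ∈ gball (X i) k a := by
  induction w with
  | nil =>
    intro k a b _ h
    have : a = b := by simpa [Reads] using h
    subst this
    cases k <;> simp [gball]
  | cons s w ih =>
    rintro k a b hk ⟨u', h1, h2⟩
    obtain ⟨b', rfl, hab, -⟩ := (edgeRel_mk X c).1 h1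
    cases k with
    | zero => simp at hk
    | succ k =>
      simp only [gball, Finset.mem_insert, Finset.mem_biUnion]
      exact Or.inr ⟨b', by simp [nbr, hab], ih k b' b (by simpa using hk) h2⟩

end Vale.Agent.P089
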