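import Vale.Agent.P089.KoszulDefs

/-! The finitely presented cover and the cube of local homomorphisms. -/

noncomputable section

open Classical

namespace Vale.Agent.P089

/-- Relators of a finite multiplication table. -/
def tableRels {n : ℕ} (τ : Set (Fin n × Fin n × Fin n)) : Set (FreeGroup (Fin n)) :=
  {r | ∃ a ∈ τ, r = FreeGroup.of a.1 * FreeGroup.of a.2.1 * (FreeGroup.of a.2.2)⁻¹}

/-- The group presented by a finite multiplication table. -/
abbrev Hat {n : ℕ} (τ : Set (Fin n × Fin n × Fin n)) : Type := PresentedGroup (tableRels τ)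

instance {n : ℕ} (τ : Set (Fin n × Fin n × Fin n)) : Countable (Hat τ) :=
  (PresentedGroup.mk_surjective _).countable

theorem exists_hat {Γ : Type} [Group Γ] (S : Finset Γ) :
    ∃ (n : ℕ) (τ : Set (Fin n × Fin n × Fin n)) (hat : Γ → Hat τ) (α : Hat τ →* Γ),
      LocHom S hat ∧ ∀ s ∈ S, α (hat s) = s := by
  let e := S.equivFin
  let τ : Set (Fin S.card × Fin S.card × Fin S.card) :=
    {a | (e.symm a.1 : Γ) * e.symm a.2.1 = e.symm a.2.2}
  have h : ∀ r ∈ tableRels τ, FreeGroup.lift (fun a => (e.symm a : Γ)) r = 1 := by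
    rintro _ ⟨a, ha, rfl⟩
    have ha' : (e.symm a.1 : Γ) * e.symm a.2.1 = e.symm a.2.2 := ha
    simp [ha']
  refine ⟨S.card, τ, fun s => if hs : s ∈ S then PresentedGroup.of (e ⟨s, hs⟩) else 1,
    PresentedGroup.toGroup h, ?_, ?_⟩
  · intro s t hs ht hst
    simp only [dif_pos hs, dif_pos ht, dif_pos hst]
    have := PresentedGroup.one_of_mem (rels := tableRels τ)
      ⟨(e ⟨s, hs⟩, e ⟨t, ht⟩, e ⟨s * t, hst⟩), by simp [τ], rfl⟩
    simp only [map_mul, map_inv, mul_inv_eq_one] at this
    exact this.symm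
  · intro s hs
    simp [dif_pos hs]

theorem exists_conj {Γ Γ' : Type} [Group Γ] [Group Γ'] (F : Subgroup Γ) (β : F →* Γ')
    (hβ : Function.Injective β) :
    ∃ (Λ : Type) (_ : Group Λ) (i : Γ × Γ' →* Λ) (t : Λ), Function.Injective i ∧
      ∀ s : F, t * i (s, 1) = i (1, β s) * t := by
  let a : F →* Γ × Γ' := (MonoidHom.inl Γ Γ').comp F.subtype
  let b : F →* Γ × Γ' := (MonoidHom.inr Γ Γ').comp β
  have ha : Function.Injective a := fun x y h => Subtype.ext (congrArg Prod.fst h)
  have hb : Function.Injective b := fun x y h => hβ (congrArg Prod.snd h)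
  let φ : a.range ≃* b.range := (MonoidHom.ofInjective ha).symm.trans (MonoidHom.ofInjective hb)
  refine ⟨HNNExtension _ _ _ φ, inferInstance, HNNExtension.of, HNNExtension.t,
    HNNExtension.of_injective φ, fun s => ?_⟩
  have := HNNExtension.t_mul_of (φ := φ) (MonoidHom.ofInjective ha s)
  simpa [φ, MonoidHom.ofInjective_apply, a, b] using this

theorem LocHom.map_one {Γ Λ : Type} [Group Γ] [Group Λ] {S : Finset Γ} {θ : Γ → Λ}
    (h : LocHom S θ) (h1 : 1 ∈ S) : θ 1 = 1 := by
  have := h 1 1 h1 h1 (by simpa using h1)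
  simpa using this

theorem exists_cube {Γ Γ' : Type} [Group Γ] [Group Γ'] {k : ℕ} (F : Fin (k + 1) → Subgroup Γ)
    (S : Finset Γ) (h1 : 1 ∈ S) (hF : ∀ j, ∀ s ∈ F j, s ∈ S) (hat : Γ → Γ') (α : Γ' →* Γ)
    (hhat : LocHom S hat) (hα : ∀ s ∈ S, α (hat s) = s) :
    ∃ (Λ : Type) (_ : Group Λ) (θ : (Fin (k + 1) → Bool) → Γ → Λ)
      (w : Fin (k + 1) → (Fin (k + 1) → Bool) → Λ), CubeData F S θ w ∧
      (∃ φ : Γ →* Λ, Function.Injective φ ∧ ∀ s ∈ S, θ (fun _ => false) s = φ s) ∧
      ∀ e, e ≠ (fun _ => false) →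
        ∃ φ : Γ' →* Λ, Function.Injective φ ∧ ∀ s ∈ S, θ e s = φ (hat s) := by
  let β : ∀ j, F j →* Γ' := fun j =>
    { toFun := fun s => hat s
      map_one' := hhat.map_one h1
      map_mul' := fun s t => hhat s t (hF j s s.2) (hF j t t.2) (hF j _ (s * t).2) }
  have hβ : ∀ j, Function.Injective (β j) := fun j s t h => by
    have := congrArg α h
    simp only [β, MonoidHom.coe_mk, OneHom.coe_mk, hα _ (hF j s s.2), hα _ (hF j t t.2)] at this
    exact Subtype.ext this
  choose Λ inst i t hi ht using fun j => exists_conj (F j) (β j) (hβ j)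
  let θ : (Fin (k + 1) → Bool) → Γ → ∀ j, Λ j := fun e s j =>
    if e j then i j (1, hat s) else i j (s, 1)
  let w : Fin (k + 1) → (Fin (k + 1) → Bool) → ∀ j, Λ j := fun j e =>
    Pi.mulSingle j (if e j then (t j)⁻¹ else t j)
  refine ⟨∀ j, Λ j, inferInstance, θ, w, ⟨?_, ?_, ?_, ?_⟩, ?_, ?_⟩
  · intro e s s' hs hs' hss'
    funext j
    simp only [θ, Pi.mul_apply]
    split_ifs
    · rw [← map_mul, hhat s s' hs hs' hss']; simp
    · rw [← map_mul]; simp
  · intro j e s hs
    funext l
    have h := ht j ⟨s, hs⟩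
    simp only [β, MonoidHom.coe_mk, OneHom.coe_mk] at h
    by_cases hl : l = j
    · subst hl
      cases he : e l
      · simp [θ, w, flip, he, h]
      · simp only [θ, w, flip, he, Pi.mul_apply, Function.update_self, Pi.mulSingle_eq_same]
        simp only [Bool.not_true, Bool.false_eq_true, if_false, if_true]
        rw [mul_inv_eq_iff_eq_mul, mul_assoc, ← h, inv_mul_cancel_left]
    · simp [θ, w, flip, hl]
  · intro j e
    funext l
    by_cases hl : l = j
    · subst hl
      cases he : e l <;> simp [w, flip, he]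
    · simp [w, hl]
  · intro j j' e hjj' s hs
    funext l
    by_cases hl : l = j
    · subst hl
      cases he : e l <;> simp [θ, w, flip, hjj', he, mul_assoc]
    · by_cases hl' : l = j'
      · subst hl'
        cases he : e l <;> simp [θ, w, flip, hl, he, mul_assoc]
      · cases he : e l <;> simp [θ, w, flip, hl, hl', he]
  · refine ⟨MonoidHom.pi fun j => (i j).comp (MonoidHom.inl _ _), fun x y h => ?_, fun s _ => ?_⟩
    · exact congrArg Prod.fst (hi 0 (congrFun h 0))
    · funext j; simp [θ]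
  · intro e he
    obtain ⟨j₀, hj₀⟩ : ∃ j, e j = true := by
      by_contra h
      exact he (funext fun j => by simpa using fun h' => h ⟨j, h'⟩)
    refine ⟨MonoidHom.pi fun j => if e j then (i j).comp (MonoidHom.inr _ _) else
      (i j).comp ((MonoidHom.inl _ _).comp α), fun x y h => ?_, fun s hs => ?_⟩
    · have := congrFun h j₀
      simp only [MonoidHom.pi_apply, hj₀, if_true] at this
      exact congrArg Prod.snd (hi j₀ this)
    · funext j
      simp only [θ, MonoidHom.pi_apply]
      split_ifs <;> simp [hα s hs]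

theorem sum_cubeSign (k : ℕ) : ∑ e : Fin (k + 1) → Bool, cubeSign e = 0 := by
  have := Finset.prod_univ_sum (fun _ : Fin (k + 1) => (Finset.univ : Finset Bool))
    (fun _ b => if b then (-1 : ℤ) else 1)
  simp only [Fintype.piFinset_univ] at this
  unfold cubeSign
  rw [← this]
  simp

theorem cubeSign_zero (k : ℕ) : cubeSign (fun _ : Fin k => false) = 1 := by simp [cubeSign]

end Vale.Agent.P089
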