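import Vale.Agent.P089.Rep
import Vale.Agent.P089.Cube
import Vale.Agent.P089.Core

/-! Countability of the traces of assembly indices, and the final theorem. -/

open scoped ZeroAtInfty

noncomputable section

open Classical

namespace Vale.Agent.P089

section

variable {Γ X H : Type} [Group Γ] [TopologicalSpace X] [MulAction Γ X] [ContinuousConstSMul Γ X]
  [T2Space X] [LocallyCompactSpace X] [ProperlyDiscontinuousSMul Γ X]
  [NormedAddCommGroup H] [InnerProductSpace ℂ H] [CompleteSpace H]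

theorem existsUnique_hasIndex (z : CycleOn Γ X H) : ∃! x, z.HasIndex x := by
  obtain ⟨k, f, F, S, hf, hS⟩ := exists_sliceData z.c z.cutoff
  have h := ((locRep z Γ).fred1 isAct_act hS (θ := id) fun _ _ _ _ _ => rfl).fred
  rw [hf] at h
  obtain ⟨x, hx⟩ := h.exists_ind
  exact ⟨x, (hasIndex_iff z hf hS x).2 hx,
    fun y hy => h.ind_unique ((hasIndex_iff z hf hS y).1 hy) hx⟩

/-- The countable set of all traces of `K₀`-classes of groups presented by finite tables. -/
def tableTraces : Set ℂ :=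
  ⋃ n : ℕ, ⋃ τ : Set (Fin n × Fin n × Fin n), Set.range (trK0 (Hat τ))

theorem countable_tableTraces : tableTraces.Countable :=
  Set.countable_iUnion fun _ => Set.countable_iUnion fun _ => countable_range_trK0 _

theorem trace_mem_tableTraces (z : CycleOn Γ X H) {x : K0 (CStarRed Γ)} (hx : z.HasIndex x) :
    trK0 Γ x ∈ tableTraces := by
  obtain ⟨k, f, F, S, hf, hS⟩ := exists_sliceData z.c z.cutoff
  obtain ⟨n, τ, hat, α, hhat, hα⟩ := exists_hat S
  obtain ⟨Λ, _, θ, w, hcube, ⟨φ₀, hφ₀, hθ₀⟩, hθ⟩ :=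
    exists_cube F S hS.one_mem hS.sub hat α hhat hα
  rw [hasIndex_iff z hf hS, ← hf] at hx
  obtain ⟨x', hx'⟩ := ((locRep z (Hat τ)).fred1 isAct_act hS hhat).fred.exists_ind
  have key : ∀ e, ∃ y, trK0 Λ y = (if e = fun _ => false then trK0 Γ x else trK0 _ x') ∧
      (ctxH Λ H).Ind1 ((locRep z Λ).P₀ S (θ e) (f none)) ((locRep z Λ).P₁ S (θ e) (f none))
        ((locRep z Λ).T S (θ e) (f none)) y := by
    intro e
    split_ifs with he
    · subst he
      exact exists_ind1_map z S _ φ₀ hφ₀ hθ₀ hx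
    · obtain ⟨φ, hφ, h⟩ := hθ e he
      exact exists_ind1_map z S _ φ hφ h hx'
  choose y hy1 hy2 using key
  have h0 := congrArg (trK0 Λ) ((locRep z Λ).koszul isAct_act hS hcube y hy2)
  simp only [map_sum, map_zsmul, hy1, map_zero] at h0
  have h1 : ∀ e : Fin (k + 1) → Bool,
      cubeSign e • (if e = fun _ => false then trK0 Γ x else trK0 _ x') =
        cubeSign e • trK0 _ x' + if e = fun _ => false then trK0 Γ x - trK0 _ x' else 0 := by
    intro e
    split_ifs with he
    · simp [he, cubeSign_zero]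
    · simp
  simp only [h1, Finset.sum_add_distrib, ← Finset.sum_smul, sum_cubeSign, zero_smul, zero_add,
    Finset.sum_ite_eq', Finset.mem_univ, if_true, sub_eq_zero] at h0
  rw [h0]
  exact Set.mem_iUnion.2 ⟨n, Set.mem_iUnion.2 ⟨τ, x', rfl⟩⟩

end

theorem existsUnique_isAssembly {Γ : Type} [Group Γ] (z : KCycle Γ) : ∃! x, IsAssembly z x :=
  @existsUnique_hasIndex Γ z.X z.H _ z.top z.action z.cont z.t2 z.lc z.proper z.normed z.hilbert
    z.complete z.cyc

theorem trace_mem_of_isAssembly {Γ : Type} [Group Γ] (z : KCycle Γ) {x : K0 (CStarRed Γ)}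
    (hx : IsAssembly z x) : trK0 Γ x ∈ tableTraces :=
  @trace_mem_tableTraces Γ z.X z.H _ z.top z.action z.cont z.t2 z.lc z.proper z.normed z.hilbert
    z.complete z.cyc x hx

theorem baumConnes_fails : ∃ (Γ : Type) (_ : Group Γ), Group.FG Γ ∧ Countable Γ ∧
    (∀ z : KCycle Γ, ∃! x, IsAssembly z x) ∧ ∃ x, ∀ z : KCycle Γ, ¬ IsAssembly z x := by
  obtain ⟨t, ⟨Γ, _, h1, h2, p, -, hp, ht⟩, hT⟩ :=
    exists_not_mem_of_countable _ countable_tableTraces
  refine ⟨Γ, inferInstance, h1, h2, existsUnique_isAssembly, K0.of ⟨1, Matrix.of fun _ _ => p, ?_⟩,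
    fun z hz => hT ?_⟩
  · ext i j
    simp [Matrix.mul_apply, hp]
  · have := trace_mem_of_isAssembly z hz
    rw [show trK0 Γ (K0.of _) = _ from K0.tr_of _ _ _] at this
    simp only [Finset.univ_unique, Finset.sum_singleton, Matrix.of_apply] at this
    exact ht ▸ this

end Vale.Agent.P089
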