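import Mathlib

/-! Definitions for the graph part (tasks A, B, D, E). -/

noncomputable section

open Classical

namespace Vale.Agent.P089

/-- `p 0, …, p k` is a non-backtracking walk. -/
def NBW {V : Type} (X : SimpleGraph V) (k : ℕ) (p : ℕ → V) : Prop :=
  (∀ i, i < k → X.Adj (p i) (p (i + 1))) ∧ ∀ i, i + 2 ≤ k → p (i + 2) ≠ p i

/-- No closed non-backtracking walk of positive length `≤ γ`. -/
def GirthGt {V : Type} (X : SimpleGraph V) (γ : ℕ) : Prop :=
  ∀ k p, 0 < k → k ≤ γ → NBW X k p → p k ≠ p 0

/-- The neighbours of `v`. -/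
def nbr {V : Type} [Fintype V] (X : SimpleGraph V) (v : V) : Finset V :=
  Finset.univ.filter (X.Adj v)

/-- Number of ordered adjacent pairs from `R` to `S`. -/
def darts {V : Type} (X : SimpleGraph V) (R S : Finset V) : ℕ :=
  ((R ×ˢ S).filter fun e => X.Adj e.1 e.2).card

/-- Bounded degree, large girth, sparse small sets, expansion. -/
structure GoodGraph (d Δ h γ : ℕ) {n : ℕ} (X : SimpleGraph (Fin n)) : Prop where
  deg_ge : ∀ v, d ≤ (nbr X v).card
  deg_le : ∀ v, (nbr X v).card ≤ Δ
  girth : GirthGt X γ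
  sparse : ∀ R : Finset (Fin n), 32 * R.card ≤ n → darts X R R + 5 * R.card ≤ d * R.card
  expand : ∀ R : Finset (Fin n), 2 * R.card ≤ n → R.card ≤ h * darts X R (Finset.univ \ R)
  conn : X.Preconnected

/-- The letter attached to a dart from colour `a` to colour `b`. -/
def letter {m : ℕ} (a b : Fin m) : (Fin m × Fin m) × Bool :=
  if a < b then ((a, b), true) else ((b, a), false)

/-- Types: own colour and set of colours of the neighbours. -/
abbrev Ty (m : ℕ) : Type := Fin m × Finset (Fin m)

/-- The standard pairing over `ZMod 2`. -/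
def pairing {V τ : Type} [Fintype V] [Fintype τ] (z y : V → τ → ZMod 2) : ZMod 2 :=
  ∑ v, ∑ t, z v t * y v t

end Vale.Agent.P089
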