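import Vale.Agent.P089.GraphDefs

/-! Task A, probabilistic part: first moment computations for random functions. -/

namespace Vale.Agent.P089.Graphs

open Finset
open scoped BigOperators Classical

variable {N r : ℕ}

/-- number of darts from `R` into `S`. -/
def out (f : Fin N × Fin r → Fin N) (R S : Finset (Fin N)) : ℕ :=
  ((R ×ˢ univ).filter fun e => f e ∈ S).card

lemma expect_prod {E V : Type} [Fintype E] [DecidableEq E] [Fintype V] [Nonempty V] (g : E → V → ℝ) :
    𝔼 f : E → V, ∏ e, g e (f e) = ∏ e, 𝔼 v, g e v := by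
  simp only [Fintype.expect_eq_sum_div_card, Finset.prod_div_distrib]
  rw [Finset.prod_univ_sum, Fintype.piFinset_univ]
  simp

lemma expect_pow_out [NeZero N] (t : ℝ) (R S : Finset (Fin N)) :
    𝔼 f : Fin N × Fin r → Fin N, t ^ out f R S = (1 + (t - 1) * S.card / N) ^ (r * R.card) := by
  have h1 : ∀ f : Fin N × Fin r → Fin N, t ^ out f R S =
      ∏ e : Fin N × Fin r, (if e ∈ R ×ˢ univ then (if f e ∈ S then t else 1) else 1) := by
    intro f
    rw [Finset.prod_ite_mem, Finset.univ_inter, ← Finset.prod_filter, Finset.prod_const, out]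
  simp_rw [h1]
  rw [expect_prod (fun e v => if e ∈ R ×ˢ univ then (if v ∈ S then t else 1) else 1)]
  have hN : (N : ℝ) ≠ 0 := by exact_mod_cast NeZero.ne N
  have h2 : ∀ e : Fin N × Fin r,
      𝔼 v : Fin N, (if e ∈ R ×ˢ univ then (if v ∈ S then t else 1) else 1)
        = if e ∈ R ×ˢ univ then 1 + (t - 1) * S.card / N else 1 := by
    intro e
    split_ifs with h
    · have : ∀ v : Fin N, (if v ∈ S then t else 1) = 1 + if v ∈ S then t - 1 else 0 := by
        intro v; split_ifs <;> ring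
      simp_rw [this]
      rw [Fintype.expect_eq_sum_div_card, Finset.sum_add_distrib, Finset.sum_ite_mem]
      simp
      field_simp
    · simp
  simp_rw [h2]
  rw [Finset.prod_ite_mem, Finset.univ_inter, Finset.prod_const, Finset.card_product,
    Finset.card_univ, Fintype.card_fin, mul_comm R.card]

lemma expect_forced {E V ι : Type} [Fintype E] [DecidableEq E] [Fintype V] [Nonempty V] [Fintype ι]
    (δ : ι → E) (hδ : Function.Injective δ) (hd : ι → V) :
    𝔼 f : E → V, (if ∀ t, f (δ t) = hd t then (1 : ℝ) else 0)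
      = (1 / Fintype.card V) ^ Fintype.card ι := by
  have h1 : ∀ f : E → V, (if ∀ t, f (δ t) = hd t then (1 : ℝ) else 0) =
      ∏ e, (if ∀ t, δ t = e → f e = hd t then (1 : ℝ) else 0) := by
    intro f
    split_ifs with h
    · exact (Finset.prod_eq_one fun e _ => if_pos fun t ht => ht ▸ h t).symm
    · obtain ⟨t, ht⟩ := not_forall.1 h
      exact (Finset.prod_eq_zero (mem_univ (δ t)) (if_neg fun h' => ht (h' t rfl))).symm
  simp_rw [h1]
  rw [expect_prod (fun e v => if ∀ t, δ t = e → v = hd t then (1 : ℝ) else 0)]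
  have h2 : ∀ e : E, 𝔼 v : V, (if ∀ t, δ t = e → v = hd t then (1 : ℝ) else 0)
      = if e ∈ univ.image δ then 1 / (Fintype.card V : ℝ) else 1 := by
    intro e
    split_ifs with h
    · obtain ⟨t, -, rfl⟩ := Finset.mem_image.1 h
      have : ∀ v : V, (∀ t', δ t' = δ t → v = hd t') ↔ v = hd t :=
        fun v => ⟨fun h => h t rfl, fun h t' ht' => by rw [hδ ht']; exact h⟩
      simp_rw [this]
      rw [Fintype.expect_eq_sum_div_card]
      simp
    · have : ∀ v : V, ∀ t', δ t' = e → v = hd t' :=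
        fun v t' ht' => absurd (Finset.mem_image.2 ⟨t', mem_univ _, ht'⟩) h
      rw [Finset.expect_congr rfl fun v _ => if_pos (this v)]
      exact Fintype.expect_const _
  simp_rw [h2]
  rw [Finset.prod_ite_mem, Finset.univ_inter, Finset.prod_const,
    Finset.card_image_of_injective _ hδ, Finset.card_univ]

/-- cyclic configurations of darts. -/
abbrev Cfg (N r k : ℕ) : Type :=
  (Fin (k + 1) → Fin N) × (Fin (k + 1) → Bool) × (Fin (k + 1) → Fin r)

def dart {k : ℕ} (c : Cfg N r k) (t : Fin (k + 1)) : Fin N × Fin r :=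
  (if c.2.1 t then c.1 t else c.1 (t + 1), c.2.2 t)

def head {k : ℕ} (c : Cfg N r k) (t : Fin (k + 1)) : Fin N :=
  if c.2.1 t then c.1 (t + 1) else c.1 t

def Valid {k : ℕ} (f : Fin N × Fin r → Fin N) (c : Cfg N r k) : Prop :=
  Function.Injective (dart c) ∧ ∀ t, f (dart c t) = head c t

lemma expect_valid [NeZero N] (k : ℕ) :
    𝔼 f : Fin N × Fin r → Fin N, ∑ c : Cfg N r k, (if Valid f c then (1 : ℝ) else 0)
      ≤ (2 * r) ^ (k + 1) := by
  rw [Finset.expect_sum_comm]
  have hN : (0 : ℝ) < N := by exact_mod_cast NeZero.pos N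
  have h1 : ∀ c : Cfg N r k, 𝔼 f : Fin N × Fin r → Fin N, (if Valid f c then (1 : ℝ) else 0)
      ≤ (1 / N) ^ (k + 1) := by
    intro c
    by_cases h : Function.Injective (dart c)
    · have := expect_forced (dart c) h (head c)
      simp only [Fintype.card_fin] at this
      refine le_of_eq_of_le (Finset.expect_congr rfl fun f _ => ?_) this.le
      by_cases h' : ∀ t, f (dart c t) = head c t
      · rw [if_pos h', if_pos ⟨h, h'⟩]
      · rw [if_neg h', if_neg fun h2 => h' h2.2]
    · simp only [Valid, h, false_and, if_false, Finset.expect_const_zero]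
      positivity
  refine (Finset.sum_le_sum fun c _ => h1 c).trans (le_of_eq ?_)
  simp only [Finset.sum_const, Finset.card_univ, Fintype.card_prod, Fintype.card_fun,
    Fintype.card_fin, Fintype.card_bool, nsmul_eq_mul]
  push_cast
  rw [← mul_pow, ← mul_pow, ← mul_pow]
  congr 1
  field_simp

lemma choose_le (N k : ℕ) (hk : 0 < k) : (N.choose k : ℝ) ≤ (3 * (N / k)) ^ k := by
  have hk' : (0 : ℝ) < k := by exact_mod_cast hk
  have h1 : (N.choose k : ℝ) ≤ (N : ℝ) ^ k / k.factorial := Nat.choose_le_pow_div k N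
  have h2 := Real.pow_div_factorial_le_exp (k : ℝ) hk'.le k
  have h3 : Real.exp k ≤ 3 ^ k := by
    rw [← Real.exp_one_pow]
    exact pow_le_pow_left₀ (Real.exp_pos _).le (Real.exp_one_lt_d9.le.trans (by norm_num)) k
  calc (N.choose k : ℝ) ≤ (N : ℝ) ^ k / k.factorial := h1
    _ = (k : ℝ) ^ k / k.factorial * (N / k) ^ k := by rw [div_pow]; field_simp
    _ ≤ 3 ^ k * (N / k) ^ k := mul_le_mul_of_nonneg_right (h2.trans h3) (by positivity)
    _ = _ := by rw [mul_pow]

/-- weight for the sparsity of small sets. -/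
noncomputable def w1 (f : Fin N × Fin r → Fin N) (R : Finset (Fin N)) : ℝ :=
  if 0 < R.card ∧ 32 * R.card ≤ N then
    ((N : ℝ) / R.card) ^ out f R R / ((N : ℝ) / R.card) ^ (768 * R.card) else 0

lemma w1_nonneg (f : Fin N × Fin r → Fin N) (R : Finset (Fin N)) : 0 ≤ w1 f R := by
  unfold w1; split_ifs <;> positivity

lemma expect_w1 [NeZero N] (hr : r = 3072) :
    𝔼 f : Fin N × Fin r → Fin N, ∑ R : Finset (Fin N), w1 f R ≤ 1 / 5 := by
  have hN : (0 : ℝ) < N := by exact_mod_cast NeZero.pos N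
  rw [Finset.expect_sum_comm]
  let b : ℕ → ℝ := fun k => if 0 < k ∧ 32 * k ≤ N then (16 * (k / N)) ^ (768 * k) else 0
  have h1 : ∀ R : Finset (Fin N), 𝔼 f : Fin N × Fin r → Fin N, w1 f R ≤ b R.card := by
    intro R
    simp only [w1, b]
    split_ifs with h
    · have hk : (0 : ℝ) < R.card := by exact_mod_cast h.1
      rw [← Finset.expect_div, expect_pow_out, div_le_iff₀ (by positivity), ← mul_pow]
      have h2 : 16 * ((R.card : ℝ) / N) * (N / R.card) = 2 ^ 4 := by field_simp; norm_num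
      rw [h2, ← pow_mul]
      have h3 : 4 * (768 * R.card) = r * R.card := by rw [hr]; ring
      rw [h3]
      have h4 : ((N : ℝ) / R.card - 1) * R.card / N = 1 - R.card / N := by field_simp
      have h5 : (R.card : ℝ) / N ≤ 1 := by
        rw [div_le_one hN]; exact_mod_cast (by omega : R.card ≤ N)
      have h6 : 0 ≤ (R.card : ℝ) / N := by positivity
      refine pow_le_pow_left₀ (by linarith) (by linarith) _
    · simp
  refine (Finset.sum_le_sum fun R _ => h1 R).trans ?_
  rw [← Finset.powerset_univ, Finset.sum_powerset_apply_card b]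
  have h2 : ∀ k ∈ range ((univ : Finset (Fin N)).card + 1),
      (univ : Finset (Fin N)).card.choose k • b k ≤ (1 / 10 : ℝ) ^ k - if k = 0 then 1 else 0 := by
    intro k _
    simp only [b, Finset.card_univ, Fintype.card_fin, nsmul_eq_mul]
    by_cases h : 0 < k ∧ 32 * k ≤ N
    · rw [if_pos h, if_neg h.1.ne', sub_zero]
      have hk : (0 : ℝ) < k := by exact_mod_cast h.1
      refine (mul_le_mul_of_nonneg_right (choose_le N k h.1) (by positivity)).trans ?_
      rw [pow_mul, ← mul_pow]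
      refine pow_le_pow_left₀ (by positivity) ?_ k
      have h3 : 16 * ((k : ℝ) / N) ≤ 1 / 2 := by
        rw [← mul_div_assoc, div_le_iff₀ hN]
        have : ((32 * k : ℕ) : ℝ) ≤ N := by exact_mod_cast h.2
        push_cast at this
        linarith
      have h4 : (16 * ((k : ℝ) / N)) ^ 767 ≤ (1 / 2) ^ 767 :=
        pow_le_pow_left₀ (by positivity) h3 _
      have h5 : ((1 : ℝ) / 2) ^ 767 ≤ (1 / 2) ^ 10 :=
        pow_le_pow_of_le_one (by norm_num) (by norm_num) (by norm_num)
      calc 3 * ((N : ℝ) / k) * (16 * (k / N)) ^ 768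
          = 3 * ((N : ℝ) / k) * (16 * (k / N)) * (16 * (k / N)) ^ 767 := by
            rw [pow_succ' _ 767, mul_assoc (3 * ((N : ℝ) / k))]
        _ = 48 * (16 * ((k : ℝ) / N)) ^ 767 := by congr 1; field_simp; norm_num
        _ ≤ 48 * (1 / 2) ^ 10 := mul_le_mul_of_nonneg_left (h4.trans h5) (by norm_num)
        _ ≤ 1 / 10 := by norm_num
    · rw [if_neg h, mul_zero]
      split_ifs with h0
      · simp [h0]
      · rw [sub_zero]; positivity
  refine (Finset.sum_le_sum h2).trans ?_
  rw [Finset.sum_sub_distrib, Finset.sum_ite_eq', if_pos (by simp)]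
  have h3 := Summable.sum_le_tsum (range ((univ : Finset (Fin N)).card + 1))
    (fun k _ => by positivity) (summable_geometric_of_lt_one (r := (1 / 10 : ℝ))
      (by norm_num) (by norm_num))
  rw [tsum_geometric_of_lt_one (by norm_num) (by norm_num)] at h3
  norm_num at h3 ⊢
  linarith

/-- weight for the expansion of large sets. -/
noncomputable def w2 (f : Fin N × Fin r → Fin N) (p : Finset (Fin N) × Finset (Fin N)) : ℝ :=
  if N ≤ 64 * p.1.card ∧ N ≤ 4 * p.2.card then 2 ^ N * (1 / 2) ^ out f p.1 p.2 else 0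

lemma w2_nonneg (f : Fin N × Fin r → Fin N) (p : Finset (Fin N) × Finset (Fin N)) :
    0 ≤ w2 f p := by
  unfold w2; split_ifs <;> positivity

lemma expect_w2 [NeZero N] (hr : r = 3072) :
    𝔼 f : Fin N × Fin r → Fin N, ∑ p, w2 f p ≤ 1 / 5 := by
  have hN : (0 : ℝ) < N := by exact_mod_cast NeZero.pos N
  rw [Finset.expect_sum_comm]
  have h1 : ∀ p, 𝔼 f : Fin N × Fin r → Fin N, w2 f p ≤ 2 ^ N * ((7 / 8) ^ 48) ^ N := by
    intro p
    simp only [w2]
    split_ifs with h
    · rw [← Finset.mul_expect, expect_pow_out]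
      refine mul_le_mul_of_nonneg_left ?_ (by positivity)
      have h2 : (p.2.card : ℝ) ≤ N := by
        exact_mod_cast (card_le_univ p.2).trans (Fintype.card_fin N).le
      have h3 : (N : ℝ) ≤ 4 * p.2.card := by exact_mod_cast h.2
      have h4 : (p.2.card : ℝ) / N ≤ 1 := by rwa [div_le_one hN]
      have h5 : 1 / 4 ≤ (p.2.card : ℝ) / N := by rw [le_div_iff₀ hN]; linarith
      rw [mul_div_assoc, ← pow_mul]
      calc _ ≤ (7 / 8 : ℝ) ^ (r * p.1.card) := pow_le_pow_left₀ (by linarith) (by linarith) _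
        _ ≤ _ := pow_le_pow_of_le_one (by norm_num) (by norm_num) (by have := h.1; subst hr; omega)
    · simp only [Finset.expect_const_zero]; positivity
  refine (Finset.sum_le_sum fun p _ => h1 p).trans ?_
  simp only [Finset.sum_const, Finset.card_univ, Fintype.card_prod, Fintype.card_finset,
    Fintype.card_fin, nsmul_eq_mul]
  push_cast
  rw [← mul_pow, ← mul_pow, ← mul_pow]
  calc _ ≤ (1 / 5 : ℝ) ^ N := pow_le_pow_left₀ (by positivity) (by norm_num) _
    _ ≤ (1 / 5) ^ 1 := pow_le_pow_of_le_one (by norm_num) (by norm_num) (NeZero.pos N)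
    _ = _ := pow_one _

lemma expect_w3 [NeZero N] :
    𝔼 f : Fin N × Fin r → Fin N, ∑ v : Fin N, (2 : ℝ) ^ out f univ {v} / 2 ^ (2 * r)
      ≤ N * (3 / 4) ^ r := by
  have hN : (0 : ℝ) < N := by exact_mod_cast NeZero.pos N
  rw [Finset.expect_sum_comm]
  have h1 : ∀ v : Fin N, 𝔼 f : Fin N × Fin r → Fin N, (2 : ℝ) ^ out f univ {v} / 2 ^ (2 * r)
      ≤ (3 / 4) ^ r := by
    intro v
    rw [← Finset.expect_div, expect_pow_out, div_le_iff₀ (by positivity), pow_mul 2 2 r, ← mul_pow,
      mul_comm r, pow_mul]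
    refine pow_le_pow_left₀ (by norm_num; positivity) ?_ r
    simp only [Finset.card_singleton, Finset.card_univ, Fintype.card_fin]
    have h2 : 1 + ((2 : ℝ) - 1) * ((1 : ℕ) : ℝ) / N ≤ Real.exp (1 / N) := by
      have := Real.add_one_le_exp (1 / N : ℝ)
      norm_num at this ⊢
      linarith
    calc _ ≤ Real.exp (1 / N) ^ N := pow_le_pow_left₀ (by norm_num; positivity) h2 _
      _ = Real.exp 1 := by rw [← Real.exp_nat_mul]; congr 1; field_simp
      _ ≤ _ := Real.exp_one_lt_d9.le.trans (by norm_num)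
  refine (Finset.sum_le_sum fun v _ => h1 v).trans (le_of_eq ?_)
  simp

theorem exists_f [NeZero N] (hr : r = 3072) (γ : ℕ) (hN : 2560 * (2 * r) ^ (γ + 2) ≤ N) :
    ∃ (f : Fin N × Fin r → Fin N) (B : Finset (Fin N)),
      (∀ R : Finset (Fin N), 32 * R.card ≤ N → out f R R ≤ 768 * R.card) ∧
      (∀ R S : Finset (Fin N), N ≤ 64 * R.card → N ≤ 4 * S.card → N ≤ out f R S) ∧
      (∀ k ≤ γ, ∀ c : Cfg N r k, Valid f c → c.1 0 ∈ B) ∧
      (∀ v, 2 * r < out f univ {v} → v ∈ B) ∧ 256 * B.card < N := by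
  have hN0 : (0 : ℝ) < N := by exact_mod_cast NeZero.pos N
  let a : (Fin N × Fin r → Fin N) → ℝ := fun f =>
    ∑ k ∈ range (γ + 1), ∑ c : Cfg N r k, (if Valid f c then (1 : ℝ) else 0)
  let b : (Fin N × Fin r → Fin N) → ℝ := fun f =>
    ∑ v : Fin N, (2 : ℝ) ^ out f univ {v} / 2 ^ (2 * r)
  have ha : 𝔼 f, a f ≤ (2 * r : ℝ) ^ (γ + 2) := by
    simp only [a]
    rw [Finset.expect_sum_comm]
    refine (Finset.sum_le_sum fun k _ => expect_valid k).trans ?_
    have hr2 : (2 : ℝ) ≤ 2 * r := by rw [hr]; norm_num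
    have key : ∀ n : ℕ, ∑ k ∈ range n, (2 * r : ℝ) ^ (k + 1) ≤ (2 * r) ^ (n + 1) := by
      intro n
      induction n with
      | zero => simp
      | succ n ih =>
        rw [Finset.sum_range_succ, pow_succ _ (n + 1)]
        have : (0 : ℝ) ≤ (2 * r) ^ (n + 1) := by positivity
        nlinarith
    exact key (γ + 1)
  have hE : 𝔼 f : Fin N × Fin r → Fin N,
      ((∑ R, w1 f R) + (∑ p, w2 f p) + 256 / N * (a f + b f)) < 1 := by
    rw [Finset.expect_add_distrib, Finset.expect_add_distrib, ← Finset.mul_expect,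
      Finset.expect_add_distrib]
    have h1 := expect_w1 (N := N) hr
    have h2 := expect_w2 (N := N) hr
    have h3 := expect_w3 (N := N) (r := r)
    have h4 : ((3 : ℝ) / 4) ^ r ≤ (3 / 4) ^ 30 :=
      pow_le_pow_of_le_one (by norm_num) (by norm_num) (by omega)
    have h5 : ((3 : ℝ) / 4) ^ 30 ≤ 1 / 2560 := by norm_num
    have h6 : (2560 * (2 * r) ^ (γ + 2) : ℝ) ≤ N := by exact_mod_cast hN
    have h7 : 256 / (N : ℝ) * (𝔼 f, a f + 𝔼 f, b f) ≤ 1 / 5 := by
      rw [div_mul_eq_mul_div, div_le_iff₀ hN0]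
      have h8 : (N : ℝ) * (3 / 4) ^ r ≤ N * (1 / 2560) :=
        mul_le_mul_of_nonneg_left (h4.trans h5) hN0.le
      change 𝔼 f, b f ≤ _ at h3
      linarith
    linarith
  obtain ⟨f, -, hf⟩ := Finset.exists_lt_of_expect_lt Finset.univ_nonempty hE
  have ha0 : 0 ≤ a f := Finset.sum_nonneg fun _ _ => Finset.sum_nonneg fun _ _ => by positivity
  have hb0 : 0 ≤ b f := Finset.sum_nonneg fun _ _ => by positivity
  have h10 : 0 ≤ ∑ R, w1 f R := Finset.sum_nonneg fun _ _ => w1_nonneg _ _
  have h20 : 0 ≤ ∑ p, w2 f p := Finset.sum_nonneg fun _ _ => w2_nonneg _ _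
  have h30 : 0 ≤ 256 / N * (a f + b f) := by positivity
  let B1 : Finset (Fin N) := (range (γ + 1)).biUnion fun k =>
    (univ.filter fun c : Cfg N r k => Valid f c).image fun c => c.1 0
  let B3 : Finset (Fin N) := univ.filter fun v => 2 * r < out f univ {v}
  refine ⟨f, B1 ∪ B3, fun R hR => ?_, fun R S hR hS => ?_, fun k hk c hc => ?_, fun v hv => ?_, ?_⟩
  · rcases Nat.eq_zero_or_pos R.card with h0 | h0
    · rw [Finset.card_eq_zero] at h0; simp [h0, out]
    have h1 : w1 f R < 1 :=
      lt_of_le_of_lt (Finset.single_le_sum (fun R _ => w1_nonneg f R) (mem_univ R)) (by linarith)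
    have hk : (0 : ℝ) < R.card := by exact_mod_cast h0
    rw [w1, if_pos ⟨h0, hR⟩, div_lt_one (by positivity)] at h1
    have h2 : (1 : ℝ) ≤ N / R.card := by
      rw [le_div_iff₀ hk, one_mul]; exact_mod_cast (by omega : R.card ≤ N)
    by_contra h
    exact absurd (pow_le_pow_right₀ h2 (not_le.1 h).le) (not_le.2 h1)
  · have h1 : w2 f (R, S) < 1 :=
      lt_of_le_of_lt (Finset.single_le_sum (fun p _ => w2_nonneg f p) (mem_univ (R, S)))
        (by linarith)
    rw [w2, if_pos ⟨hR, hS⟩, one_div, inv_pow, ← div_eq_mul_inv, div_lt_one (by positivity)] at h1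
    by_contra h
    exact absurd (pow_le_pow_right₀ (by norm_num : (1 : ℝ) ≤ 2) (not_le.1 h).le) (not_le.2 h1)
  · refine Finset.mem_union_left _ (Finset.mem_biUnion.2 ⟨k, Finset.mem_range.2 (by omega), ?_⟩)
    exact Finset.mem_image_of_mem _ (Finset.mem_filter.2 ⟨mem_univ _, hc⟩)
  · exact Finset.mem_union_right _ (Finset.mem_filter.2 ⟨mem_univ _, hv⟩)
  · have h1 : (B1.card : ℝ) ≤ a f := by
      have h2 : B1.card ≤ ∑ k ∈ range (γ + 1),
          (univ.filter fun c : Cfg N r k => Valid f c).card :=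
        Finset.card_biUnion_le.trans (Finset.sum_le_sum fun k _ => Finset.card_image_le)
      simp only [a, Finset.sum_boole]
      exact_mod_cast h2
    have h2 : (B3.card : ℝ) ≤ b f := by
      calc (B3.card : ℝ) = ∑ _v ∈ B3, (1 : ℝ) := by simp
        _ ≤ ∑ v ∈ B3, (2 : ℝ) ^ out f univ {v} / 2 ^ (2 * r) := Finset.sum_le_sum fun v hv => by
            rw [one_le_div (by positivity)]
            exact pow_le_pow_right₀ (by norm_num) (Finset.mem_filter.1 hv).2.le
        _ ≤ b f := Finset.sum_le_sum_of_subset_of_nonneg (subset_univ _) fun _ _ _ => by positivity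
    have h3 : ((B1 ∪ B3).card : ℝ) ≤ B1.card + B3.card := by
      exact_mod_cast Finset.card_union_le _ _
    have h4 : 256 / N * (a f + b f) < 1 := by linarith
    rw [div_mul_eq_mul_div, div_lt_one hN0] at h4
    have h5 : (256 * (B1 ∪ B3).card : ℝ) < N := by linarith
    exact_mod_cast h5

end Vale.Agent.P089.Graphs
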