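import Mathlib

/-! Task E3, part 1: averages over large finite subgroups of a `ZMod 2`-vector space. -/

noncomputable section

open Classical Filter

namespace Vale.Agent.P089.E3

variable {Y : Type} [AddCommGroup Y] [Module (ZMod 2) Y]

/-- The finite subgroup spanned by a finite set. -/
def Sp (s : Finset Y) : Type := Submodule.span (ZMod 2) (s : Set Y)

instance Sp.grp (s : Finset Y) : AddCommGroup (Sp s) :=
  inferInstanceAs (AddCommGroup (Submodule.span (ZMod 2) (s : Set Y)))

instance Sp.finite (s : Finset Y) : Finite (Sp s) := by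
  have : Module.Finite (ZMod 2) (Submodule.span (ZMod 2) (s : Set Y)) :=
    Module.Finite.span_of_finite _ s.finite_toSet
  exact Module.finite_of_finite (ZMod 2) (M := Submodule.span (ZMod 2) (s : Set Y))

instance Sp.fintype (s : Finset Y) : Fintype (Sp s) := Fintype.ofFinite _

/-- The underlying element. -/
def Sp.val {s : Finset Y} (y : Sp s) : Y := Subtype.val y

theorem Sp.val_add {s : Finset Y} (y y' : Sp s) : (y + y').val = y.val + y'.val := rfl

/-- An element of `s` as an element of the span. -/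
def Sp.of {s : Finset Y} (y : Y) (hy : y ∈ s) : Sp s := Subtype.mk y (Submodule.subset_span hy)

theorem Sp.val_of {s : Finset Y} (y : Y) (hy : y ∈ s) : (Sp.of y hy).val = y := rfl

/-- The average of `φ` over the span of `s`. -/
def avg (s : Finset Y) (φ : Y → ℂ) : ℂ := (Fintype.card (Sp s) : ℂ)⁻¹ * ∑ y : Sp s, φ y.val

/-- The averages over all large finite subgroups are `c`. -/
def Avg (φ : Y → ℂ) (c : ℂ) : Prop := ∀ᶠ s in (atTop : Filter (Finset Y)), avg s φ = c

theorem card_ne (s : Finset Y) : (Fintype.card (Sp s) : ℂ) ≠ 0 :=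
  Nat.cast_ne_zero.2 Fintype.card_ne_zero

theorem Avg.const (c : ℂ) : Avg (fun _ : Y => c) c := by
  refine Eventually.of_forall fun s => ?_
  simp only [avg, Finset.sum_const, Finset.card_univ, nsmul_eq_mul]
  rw [← mul_assoc, inv_mul_cancel₀ (card_ne s), one_mul]

theorem Avg.add {φ ψ : Y → ℂ} {c d : ℂ} (h : Avg φ c) (h' : Avg ψ d) :
    Avg (fun y => φ y + ψ y) (c + d) := by
  filter_upwards [h, h'] with s hs hs'
  rw [← hs, ← hs']
  simp only [avg, Finset.sum_add_distrib, mul_add]

theorem Avg.mul {φ : Y → ℂ} {c : ℂ} (k : ℂ) (h : Avg φ c) : Avg (fun y => k * φ y) (k * c) := by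
  filter_upwards [h] with s hs
  rw [← hs]
  simp only [avg, ← Finset.mul_sum]
  ring

theorem Avg.congr {φ ψ : Y → ℂ} {c d : ℂ} (h : Avg φ c) (h1 : ∀ y, φ y = ψ y) (h2 : c = d) :
    Avg ψ d := by
  have : φ = ψ := funext h1
  rwa [← this, ← h2]

theorem Avg.sum {ι : Type} (t : Finset ι) {φ : ι → Y → ℂ} {c : ι → ℂ}
    (h : ∀ i ∈ t, Avg (φ i) (c i)) : Avg (fun y => ∑ i ∈ t, φ i y) (∑ i ∈ t, c i) := by
  induction t using Finset.induction_on with
  | empty => simpa using Avg.const 0
  | insert i t hi ih =>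
    simp only [Finset.sum_insert hi]
    exact (h i (Finset.mem_insert_self _ _)).add
      (ih fun j hj => h j (Finset.mem_insert_of_mem hj))

theorem Avg.unique {φ : Y → ℂ} {c d : ℂ} (h : Avg φ c) (h' : Avg φ d) : c = d := by
  obtain ⟨s, hs, hs'⟩ := (h.and h').exists
  rw [← hs, hs']

theorem Avg.re_le {φ ψ : Y → ℂ} {c d : ℂ} (h : Avg φ c) (h' : Avg ψ d)
    (hle : ∀ y, (φ y).re ≤ (ψ y).re) : c.re ≤ d.re := by
  obtain ⟨s, hs, hs'⟩ := (h.and h').exists
  rw [← hs, ← hs']
  have e : ((Fintype.card (Sp s) : ℂ))⁻¹ = (((Fintype.card (Sp s) : ℝ)⁻¹ : ℝ) : ℂ) := by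
    push_cast; rfl
  simp only [avg, e, Complex.re_ofReal_mul, Complex.re_sum]
  exact mul_le_mul_of_nonneg_left (Finset.sum_le_sum fun y _ => hle _) (by positivity)

theorem Avg.surj {H : Type} [AddCommGroup H] [Fintype H] (r : Y →+ H)
    (hr : Function.Surjective r) (ψ : H → ℂ) :
    Avg (fun y => ψ (r y)) ((Fintype.card H : ℂ)⁻¹ * ∑ h, ψ h) := by
  choose σ hσ using hr
  filter_upwards [eventually_ge_atTop (Finset.univ.image σ)] with s hs
  have hmem : ∀ h, σ h ∈ s := fun h => hs (Finset.mem_image_of_mem _ (Finset.mem_univ h))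
  have h1 : ∀ h, ∑ y : Sp s, ψ (r y.val) = ∑ y : Sp s, ψ (r y.val + h) := by
    intro h
    rw [← Equiv.sum_comp (Equiv.addRight (Sp.of (σ h) (hmem h)))]
    refine Finset.sum_congr rfl fun y _ => ?_
    rw [Equiv.coe_addRight, Sp.val_add, Sp.val_of, map_add, hσ]
  have h2 : (Fintype.card H : ℂ) * ∑ y : Sp s, ψ (r y.val) =
      (Fintype.card (Sp s) : ℂ) * ∑ h, ψ h := by
    calc (Fintype.card H : ℂ) * ∑ y : Sp s, ψ (r y.val)
        = ∑ h : H, ∑ y : Sp s, ψ (r y.val + h) := by
          rw [← Finset.sum_congr rfl fun h _ => h1 h]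
          simp
      _ = ∑ y : Sp s, ∑ h : H, ψ (r y.val + h) := Finset.sum_comm
      _ = ∑ y : Sp s, ∑ h : H, ψ h :=
          Finset.sum_congr rfl fun y _ => Equiv.sum_comp (Equiv.addLeft (r y.val)) ψ
      _ = _ := by simp
  have hH : (Fintype.card H : ℂ) ≠ 0 := Nat.cast_ne_zero.2 Fintype.card_ne_zero
  have hs' := card_ne s
  rw [avg]
  field_simp
  linear_combination h2

/-- The sign character. -/
def chi (b : ZMod 2) : ℂ := if b = 0 then 1 else -1

theorem zmod2_cases (b : ZMod 2) : b = 0 ∨ b = 1 := by revert b; decide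

theorem chi_zero : chi 0 = 1 := by simp [chi]

theorem chi_one : chi 1 = -1 := by simp [chi]

theorem chi_add (b c : ZMod 2) : chi (b + c) = chi b * chi c := by
  have h11 : (1 + 1 : ZMod 2) = 0 := by decide
  rcases zmod2_cases b with rfl | rfl <;> rcases zmod2_cases c with rfl | rfl <;>
    simp [h11, chi_zero, chi_one]

theorem conj_chi (b : ZMod 2) : starRingEnd ℂ (chi b) = chi b := by
  rcases zmod2_cases b with rfl | rfl <;> simp [chi_zero, chi_one]

theorem chi_mul_self (b : ZMod 2) : chi b * chi b = 1 := by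
  rcases zmod2_cases b with rfl | rfl <;> simp [chi_zero, chi_one]

theorem ind_eq (b c : ZMod 2) : (if b = c then (1 : ℂ) else 0) = 2⁻¹ * (1 + chi c * chi b) := by
  rcases zmod2_cases b with rfl | rfl <;> rcases zmod2_cases c with rfl | rfl <;>
    simp [chi_zero, chi_one] <;> norm_num

theorem Avg.chi (r : Y →+ ZMod 2) (hr : r ≠ 0) : Avg (fun y => chi (r y)) 0 := by
  have hs : Function.Surjective r := by
    intro b
    rcases zmod2_cases b with rfl | rfl
    · exact ⟨0, map_zero r⟩
    · by_contra h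
      push Not at h
      exact hr (AddMonoidHom.ext fun y => (zmod2_cases (r y)).resolve_right (h y))
  refine (Avg.surj r hs E3.chi).congr (fun _ => rfl) ?_
  have : ∑ h : ZMod 2, E3.chi h = E3.chi 0 + E3.chi 1 := Fin.sum_univ_two (fun b : Fin 2 => E3.chi b)
  rw [this, chi_zero, chi_one]
  simp

end Vale.Agent.P089.E3
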