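import Vale.Agent.P089.GrpAvg
import Vale.Agent.P089.Gap
import Vale.Agent.P089.OpBasic

/-! Task E3, part 2: Plancherel transfer from the fibre representations to `ℓ²(Γ)`. -/

noncomputable section

open Classical Filter

namespace Vale.Agent.P089.E3

/-- A group `Γ` embedded in the semidirect product of the dual of `Y` by `G`. -/
structure Coc (G Y Γ : Type) [Group G] [AddCommGroup Y] [Group Γ] where
  tr : G → Y →+ Y
  tr_one : ∀ y, tr 1 y = y
  tr_mul : ∀ x g y, tr g (tr x y) = tr (x * g) y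
  a : Γ → Y →+ ZMod 2
  g : Γ →* G
  a_mul : ∀ γ γ' y, a (γ * γ') y = a γ y + a γ' (tr (g γ) y)
  inj : ∀ γ γ', a γ = a γ' → g γ = g γ' → γ = γ'

namespace Coc

variable {G Y Γ : Type} [Group G] [AddCommGroup Y] [Group Γ] (C : Coc G Y Γ)

theorem a_one (y : Y) : C.a 1 y = 0 := by
  have := C.a_mul 1 1 y
  rw [one_mul, map_one, C.tr_one] at this
  exact left_eq_add.1 this

/-- The fibre representation. -/
def pi (γ : Γ) (y : Y) : Module.End ℂ (G → ℂ) where
  toFun f x := chi (C.a γ (C.tr x y)) * f (x * C.g γ)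
  map_add' f f' := by ext x; simp [mul_add]
  map_smul' c f := by ext x; simp only [Pi.smul_apply, smul_eq_mul, RingHom.id_apply]; ring

theorem pi_apply (γ : Γ) (y : Y) (f : G → ℂ) (x : G) :
    C.pi γ y f x = chi (C.a γ (C.tr x y)) * f (x * C.g γ) := rfl

theorem pi_pi (γ γ' : Γ) (y : Y) (f : G → ℂ) : C.pi γ y (C.pi γ' y f) = C.pi (γ * γ') y f := by
  ext x
  simp only [pi_apply, C.a_mul, chi_add, C.tr_mul, map_mul, mul_assoc]

theorem pi_one (y : Y) (f : G → ℂ) : C.pi 1 y f = f := by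
  ext x
  simp [pi_apply, C.a_one, chi_zero]

/-- Pairs of an operator on `ℓ²(Γ)` and a family of fibre operators. -/
abbrev PT (G Y Γ : Type) : Type := (L2 Γ ℂ →L[ℂ] L2 Γ ℂ) × (Y → Module.End ℂ (G → ℂ))

/-- Pairs of a vector and a family of fibre vectors. -/
abbrev VT (G Y Γ : Type) : Type := L2 Γ ℂ × (Y → G → ℂ)

/-- The group algebra in both pictures. -/
def alg : Subalgebra ℂ (PT G Y Γ) :=
  Algebra.adjoin ℂ (Set.range fun γ : Γ => ((shift γ, C.pi γ) : PT G Y Γ))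

/-- The point mass at `1`. -/
def del (G : Type) [Group G] : G → ℂ := fun x => if x = 1 then 1 else 0

/-- The basis vectors. -/
def bas (γ : Γ) : L2 Γ ℂ := lp.single 2 γ 1

/-- The finitely supported vectors in both pictures. -/
def vec : Submodule ℂ (VT G Y Γ) :=
  Submodule.span ℂ (Set.range fun γ : Γ => ((bas γ, fun y => C.pi γ y (del G)) : VT G Y Γ))

/-- Action of pairs on pairs. -/
def act (p : PT G Y Γ) : VT G Y Γ →ₗ[ℂ] VT G Y Γ where
  toFun v := (p.1 v.1, fun y => p.2 y (v.2 y))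
  map_add' v w := by ext <;> simp
  map_smul' c v := by ext <;> simp

omit [Group Γ] in
theorem bas_apply (γ γ' : Γ) : bas γ γ' = if γ' = γ then 1 else 0 := by
  simp [bas, lp.single_apply, Pi.single_apply]

theorem shift_bas (γ γ' : Γ) : shift γ (bas γ') = bas (γ * γ') := by
  refine lp.ext (funext fun x => ?_)
  rw [shift_apply, bas_apply, bas_apply]
  simp only [inv_mul_eq_iff_eq_mul]

theorem gen_mem (γ : Γ) : ((bas γ, fun y => C.pi γ y (del G)) : VT G Y Γ) ∈ C.vec :=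
  Submodule.subset_span ⟨γ, rfl⟩

theorem act_mem {p : PT G Y Γ} (hp : p ∈ C.alg) : ∀ v ∈ C.vec, act p v ∈ C.vec := by
  induction hp using Algebra.adjoin_induction with
  | mem p hp =>
    obtain ⟨γ, rfl⟩ := hp
    intro v hv
    induction hv using Submodule.span_induction with
    | mem v hv =>
      obtain ⟨γ', rfl⟩ := hv
      have := C.gen_mem (γ * γ')
      simp only [← shift_bas, ← pi_pi] at this
      exact this
    | zero => simp
    | add v w _ _ hv hw => rw [map_add]; exact C.vec.add_mem hv hw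
    | smul c v _ hv => rw [map_smul]; exact C.vec.smul_mem c hv
  | algebraMap c =>
    intro v hv
    have : act (algebraMap ℂ (PT G Y Γ) c) v = c • v := by
      ext <;> simp [act, Algebra.algebraMap_eq_smul_one]
    rw [this]
    exact C.vec.smul_mem c hv
  | add p q _ _ hp hq =>
    intro v hv
    have : act (p + q) v = act p v + act q v := by ext <;> simp [act]
    rw [this]
    exact C.vec.add_mem (hp v hv) (hq v hv)
  | mul p q _ _ hp hq =>
    intro v hv
    have : act (p * q) v = act p (act q v) := by ext <;> simp [act]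
    rw [this]
    exact hp _ (hq v hv)

theorem fst_mem {p : PT G Y Γ} (hp : p ∈ C.alg) : p.1 ∈ cstarAlg Γ := by
  induction hp using Algebra.adjoin_induction with
  | mem p hp =>
    obtain ⟨γ, rfl⟩ := hp
    exact shift_mem_cstarAlg γ
  | algebraMap c => exact (cstarAlg Γ).algebraMap_mem c
  | add p q _ _ hp hq => exact (cstarAlg Γ).add_mem hp hq
  | mul p q _ _ hp hq => exact (cstarAlg Γ).mul_mem hp hq

theorem supp {v : VT G Y Γ} (hv : v ∈ C.vec) : ∃ T : Finset G, ∀ y x, x ∉ T → v.2 y x = 0 := by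
  induction hv using Submodule.span_induction with
  | mem v hv =>
    obtain ⟨γ, rfl⟩ := hv
    refine ⟨{(C.g γ)⁻¹}, fun y x hx => ?_⟩
    have : x * C.g γ ≠ 1 := fun h => hx (Finset.mem_singleton.2 (eq_inv_of_mul_eq_one_left h))
    simp [pi_apply, del, this]
  | zero => exact ⟨∅, fun _ _ _ => rfl⟩
  | add v w _ _ hv hw =>
    obtain ⟨T, hT⟩ := hv
    obtain ⟨T', hT'⟩ := hw
    refine ⟨T ∪ T', fun y x hx => ?_⟩
    rw [Finset.mem_union, not_or] at hx
    simp [hT y x hx.1, hT' y x hx.2]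
  | smul c v _ hv =>
    obtain ⟨T, hT⟩ := hv
    exact ⟨T, fun y x hx => by simp [hT y x hx]⟩

omit [Group Γ] in
theorem inner_bas (γ : Γ) (ξ : L2 Γ ℂ) : inner ℂ (bas γ) ξ = ξ γ := by
  rw [bas]
  refine (lp.inner_single_left (𝕜 := ℂ) γ (1 : ℂ) ξ).trans ?_
  simp

variable [Module (ZMod 2) Y]

theorem planch_gen (γ γ' : Γ) (T : Finset G) (hT : (C.g γ)⁻¹ ∈ T) :
    Avg (fun y => ∑ x ∈ T, starRingEnd ℂ (C.pi γ y (del G) x) * C.pi γ' y (del G) x)
      (inner ℂ (bas γ) (bas γ')) := by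
  have hsum : ∀ y, ∑ x ∈ T, starRingEnd ℂ (C.pi γ y (del G) x) * C.pi γ' y (del G) x =
      if C.g γ = C.g γ' then chi ((C.a γ + C.a γ').comp (C.tr (C.g γ)⁻¹) y) else 0 := by
    intro y
    rw [Finset.sum_eq_single_of_mem _ hT]
    · simp only [pi_apply, del, inv_mul_cancel, if_true, mul_one, conj_chi, inv_mul_eq_one,
        AddMonoidHom.comp_apply, AddMonoidHom.add_apply, chi_add]
      split_ifs <;> simp
    · intro x _ hx
      have : x * C.g γ ≠ 1 := fun h => hx (eq_inv_of_mul_eq_one_left h)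
      simp [pi_apply, del, this]
  simp only [hsum]
  rw [inner_bas, bas_apply]
  by_cases h : γ = γ'
  · subst h
    simp only [if_true, AddMonoidHom.comp_apply, AddMonoidHom.add_apply, chi_add, chi_mul_self]
    exact Avg.const 1
  · rw [if_neg h]
    by_cases hg : C.g γ = C.g γ'
    · simp only [hg, if_true]
      refine Avg.chi _ fun h0 => h (C.inj _ _ (AddMonoidHom.ext fun y => ?_) hg)
      have := DFunLike.congr_fun h0 (C.tr (C.g γ') y)
      simp only [AddMonoidHom.comp_apply, C.tr_mul, mul_inv_cancel, C.tr_one,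
        AddMonoidHom.add_apply, AddMonoidHom.zero_apply] at this
      revert this
      generalize C.a γ y = b
      generalize C.a γ' y = c
      revert b c
      decide
    · simp only [hg, if_false]
      exact Avg.const 0

theorem planch0 {v w : VT G Y Γ} (hv : v ∈ C.vec) (hw : w ∈ C.vec) :
    ∀ᶠ T in (atTop : Filter (Finset G)),
      Avg (fun y => ∑ x ∈ T, starRingEnd ℂ (v.2 y x) * w.2 y x) (inner ℂ v.1 w.1) := by
  induction hv, hw using Submodule.span_induction₂ with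
  | mem_mem v w hv hw =>
    obtain ⟨γ, rfl⟩ := hv
    obtain ⟨γ', rfl⟩ := hw
    filter_upwards [eventually_ge_atTop {(C.g γ)⁻¹}] with T hT
    exact C.planch_gen γ γ' T (hT (Finset.mem_singleton_self _))
  | zero_left w _ => exact Eventually.of_forall fun T => by simpa using Avg.const 0
  | zero_right v _ => exact Eventually.of_forall fun T => by simpa using Avg.const 0
  | add_left v v' w _ _ _ h h' =>
    filter_upwards [h, h'] with T h h'
    refine (h.add h').congr (fun y => ?_) ?_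
    · simp [add_mul, Finset.sum_add_distrib]
    · simp
  | add_right v w w' _ _ _ h h' =>
    filter_upwards [h, h'] with T h h'
    refine (h.add h').congr (fun y => ?_) ?_
    · simp [mul_add, Finset.sum_add_distrib]
    · simp
  | smul_left c v w _ _ h =>
    filter_upwards [h] with T h
    refine (h.mul (starRingEnd ℂ c)).congr (fun y => ?_) ?_
    · simp [Finset.mul_sum, mul_assoc]
    · simp [mul_comm]
  | smul_right c v w _ _ h =>
    filter_upwards [h] with T h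
    refine (h.mul c).congr (fun y => ?_) ?_
    · simp [Finset.mul_sum, mul_left_comm]
    · simp

theorem planch {v w : VT G Y Γ} (hv : v ∈ C.vec) (hw : w ∈ C.vec) (T : Finset G)
    (hT : ∀ y x, x ∉ T → starRingEnd ℂ (v.2 y x) * w.2 y x = 0) :
    Avg (fun y => ∑ x ∈ T, starRingEnd ℂ (v.2 y x) * w.2 y x) (inner ℂ v.1 w.1) := by
  obtain ⟨T', h1, h2⟩ := ((C.planch0 hv hw).and (eventually_ge_atTop T)).exists
  exact h1.congr (fun y => (Finset.sum_subset h2 fun x _ hx => hT y x hx).symm) rfl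

omit [Module (ZMod 2) Y] in
theorem dense : Dense {ξ : L2 Γ ℂ | ∃ Φ, (ξ, Φ) ∈ C.vec} := by
  intro ξ
  refine mem_closure_of_tendsto (lp.hasSum_single (p := 2) (by norm_num) ξ)
    (Eventually.of_forall fun s => ?_)
  have := C.vec.sum_mem (t := s) fun γ _ => C.vec.smul_mem (ξ γ) (C.gen_mem γ)
  refine ⟨(∑ γ ∈ s, ξ γ • ((bas γ, fun y => C.pi γ y (del G)) : VT G Y Γ)).2, ?_⟩
  convert this using 1
  refine Prod.ext ?_ rfl
  rw [Prod.fst_sum]
  refine Finset.sum_congr rfl fun γ _ => ?_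
  simp only [bas, Prod.smul_mk]
  rw [← lp.single_smul]
  simp

theorem fst_eq_zero {p : PT G Y Γ} (hp : p ∈ C.alg) (h : ∀ y f, p.2 y f = 0) : p.1 = 0 := by
  have : ∀ ξ, p.1 ξ = 0 := by
    intro ξ
    refine Dense.induction C.dense (P := fun ξ => p.1 ξ = 0) ?_ ?_ ξ
    · rintro ξ ⟨Φ, hΦ⟩
      have h1 := C.planch (C.act_mem hp _ hΦ) (C.act_mem hp _ hΦ) ∅ (fun y x _ => by simp [act, h])
      have h2 := h1.unique (by simpa using Avg.const 0)
      exact inner_self_eq_zero.1 h2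
    · exact isClosed_eq p.1.continuous continuous_const
  exact ContinuousLinearMap.ext this

theorem selfAdj {p : PT G Y Γ} (hp : p ∈ C.alg)
    (h : ∀ y (T : Finset G) (f f' : G → ℂ), (∀ x, x ∉ T → f x = 0) → (∀ x, x ∉ T → f' x = 0) →
      ∑ x ∈ T, starRingEnd ℂ (f' x) * p.2 y f x = ∑ x ∈ T, starRingEnd ℂ (p.2 y f' x) * f x) :
    IsSelfAdjoint p.1 := by
  rw [ContinuousLinearMap.isSelfAdjoint_iff_isSymmetric]
  intro ξ' ξ
  change inner ℂ (p.1 ξ') ξ = inner ℂ ξ' (p.1 ξ)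
  refine Dense.induction C.dense (P := fun ξ' => inner ℂ (p.1 ξ') ξ = inner ℂ ξ' (p.1 ξ))
    ?_ (isClosed_eq (by fun_prop) (by fun_prop)) ξ'
  rintro ξ' ⟨Φ', hΦ'⟩
  refine Dense.induction C.dense (P := fun ξ => inner ℂ (p.1 ξ') ξ = inner ℂ ξ' (p.1 ξ))
    ?_ (isClosed_eq (by fun_prop) (by fun_prop)) ξ
  · rintro ξ ⟨Φ, hΦ⟩
    obtain ⟨T, hT⟩ := C.supp hΦ
    obtain ⟨T', hT'⟩ := C.supp hΦ'
    have e1 : ∀ y x, x ∉ T ∪ T' → Φ y x = 0 := fun y x hx =>
      hT y x fun h => hx (Finset.mem_union_left _ h)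
    have e2 : ∀ y x, x ∉ T ∪ T' → Φ' y x = 0 := fun y x hx =>
      hT' y x fun h => hx (Finset.mem_union_right _ h)
    have h1 := C.planch hΦ' (C.act_mem hp _ hΦ) (T ∪ T') (fun y x hx => by simp [e2 y x hx])
    have h2 := C.planch (C.act_mem hp _ hΦ') hΦ (T ∪ T') (fun y x hx => by simp [e1 y x hx])
    exact h2.unique (h1.congr (fun y => h y _ _ _ (e1 y) (e2 y)) rfl)

theorem trace_avg {p : PT G Y Γ} (hp : p ∈ C.alg) :
    Avg (fun y => p.2 y (del G) 1) (inner ℂ (bas (1 : Γ)) (p.1 (bas 1))) := by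
  have h0 := C.gen_mem 1
  simp only [pi_one] at h0
  have h1 := C.planch h0 (C.act_mem hp _ h0) {1} (fun y x hx => by
    have : x ≠ 1 := fun h => hx (Finset.mem_singleton.2 h)
    simp [del, this])
  refine h1.congr (fun y => ?_) rfl
  simp [act, del]

/-- A family of fibre operators comes from the group algebra. -/
def Good (F : Y → (G → ℂ) → G → ℂ) : Prop := ∃ p ∈ C.alg, ∀ y f, p.2 y f = F y f

theorem transfer (L : Y → (G → ℂ) → G → ℂ) (Q : ℕ → Y → (G → ℂ) → G → ℂ) (hL : C.Good L)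
    (hQ : ∀ M, C.Good (Q M)) (hLQ : ∀ M y f, L y (Q M y f) = 0)
    (hQQ : ∀ M y f, Q M y (Q M y f) = Q M y f)
    (hLs : ∀ y (T : Finset G) (f f' : G → ℂ), (∀ x, x ∉ T → f x = 0) → (∀ x, x ∉ T → f' x = 0) →
      ∑ x ∈ T, starRingEnd ℂ (f' x) * L y f x = ∑ x ∈ T, starRingEnd ℂ (L y f' x) * f x)
    (hQs : ∀ M y (T : Finset G) (f f' : G → ℂ), (∀ x, x ∉ T → f x = 0) →
      (∀ x, x ∉ T → f' x = 0) →
      ∑ x ∈ T, starRingEnd ℂ (f' x) * Q M y f x = ∑ x ∈ T, starRingEnd ℂ (Q M y f' x) * f x)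
    (ε : ℝ) (hε : 0 < ε)
    (hgap : ∀ y (M : ℕ) (T : Finset G) (f : G → ℂ), (∀ x, x ∉ T → f x = 0) →
      ε * (∑ x ∈ T, ‖f x‖ ^ 2 - (∑ x ∈ T, starRingEnd ℂ (f x) * Q M y f x).re -
        T.card * (∑ x ∈ T, ‖f x‖ ^ 2) / (M + 1)) ≤
      (∑ x ∈ T, starRingEnd ℂ (f x) * L y f x).re)
    (b : ℕ → ℝ) (hb : ∀ M, Avg (fun y => Q M y (del G) 1) (b M)) :
    ∃ p : CStarRed Γ, IsSelfAdjoint p.op ∧ p * p = p ∧
      ∃ t : ℝ, IsLUB (Set.range b) t ∧ p.trace = t := by
  obtain ⟨D, hD, hDL⟩ := hL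
  choose q hq hqQ using hQ
  have hqsa : ∀ M, IsSelfAdjoint (q M).1 := fun M =>
    C.selfAdj (hq M) fun y T f f' h h' => by simp only [hqQ]; exact hQs M y T f f' h h'
  have hqq : ∀ M, (q M).1 * (q M).1 = (q M).1 := fun M => by
    have := C.fst_eq_zero (C.alg.sub_mem (C.alg.mul_mem (hq M) (hq M)) (hq M))
      (fun y f => by simp [hqQ, hQQ])
    exact sub_eq_zero.1 this
  have hDq : ∀ M, D.1 * (q M).1 = 0 := fun M =>
    C.fst_eq_zero (C.alg.mul_mem hD (hq M)) (fun y f => by simp [hqQ, hDL, hLQ])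
  have hbq : ∀ M, (inner ℂ (bas (1 : Γ)) ((q M).1 (bas 1))).re = b M := fun M => by
    have h1 := C.trace_avg (hq M)
    simp only [hqQ] at h1
    rw [h1.unique (hb M), Complex.ofReal_re]
  have hbdd : BddAbove (Set.range b) := by
    refine ⟨‖bas (1 : Γ)‖ * (1 * ‖bas (1 : Γ)‖), ?_⟩
    rintro _ ⟨M, rfl⟩
    rw [← hbq]
    refine (Complex.re_le_norm _).trans ((norm_inner_le_norm _ _).trans ?_)
    refine mul_le_mul_of_nonneg_left (((q M).1.le_opNorm _).trans ?_) (norm_nonneg _)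
    exact mul_le_mul_of_nonneg_right (IsStarProjection.norm_le _ ⟨hqq M, hqsa M⟩) (norm_nonneg _)
  have ht := isLUB_csSup (Set.range_nonempty b) hbdd
  have hg : ∀ ξ ∈ {ξ : L2 Γ ℂ | ∃ Φ, (ξ, Φ) ∈ C.vec}, ∀ η : ℝ, 0 < η → ∃ M,
      ε * (‖ξ‖ ^ 2 - (inner ℂ ξ ((q M).1 ξ)).re - η) ≤ (inner ℂ ξ (D.1 ξ)).re := by
    rintro ξ ⟨Φ, hΦ⟩ η hη
    obtain ⟨T, hT⟩ : ∃ T : Finset G, ∀ y x, x ∉ T → Φ y x = 0 := C.supp hΦ
    obtain ⟨M, hM⟩ := exists_nat_ge (T.card * ‖ξ‖ ^ 2 / η)
    refine ⟨M, ?_⟩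
    have a0 := C.planch hΦ hΦ T (fun y x hx => by simp [hT y x hx])
    have a1 := C.planch hΦ (C.act_mem (hq M) _ hΦ) T (fun y x hx => by simp [hT y x hx])
    have a2 := C.planch hΦ (C.act_mem hD _ hΦ) T (fun y x hx => by simp [hT y x hx])
    have a3 := ((a0.mul ((ε * (1 - T.card / (M + 1)) : ℝ) : ℂ)).add (a1.mul ((-ε : ℝ) : ℂ))).re_le
      a2 (fun y => by
        have := hgap y M T (Φ y) (hT y)
        have e : (∑ x ∈ T, starRingEnd ℂ (Φ y x) * Φ y x).re = ∑ x ∈ T, ‖Φ y x‖ ^ 2 := by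
          rw [Complex.re_sum]
          refine Finset.sum_congr rfl fun x _ => ?_
          rw [Complex.conj_mul']
          norm_cast
        simp only [Complex.add_re, Complex.re_ofReal_mul, act, LinearMap.coe_mk, AddHom.coe_mk,
          hqQ, hDL, e]
        refine le_trans (le_of_eq ?_) this
        ring)
    have e : (inner ℂ ξ ξ).re = ‖ξ‖ ^ 2 := inner_self_eq_norm_sq (𝕜 := ℂ) ξ
    simp only [Complex.add_re, Complex.re_ofReal_mul, act, LinearMap.coe_mk, AddHom.coe_mk,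
      e] at a3
    refine le_trans ?_ a3
    have hM1 : (0 : ℝ) < M + 1 := by positivity
    have h4 : T.card * ‖ξ‖ ^ 2 / (M + 1) ≤ η := by
      rw [div_le_iff₀ hη] at hM
      rw [div_le_iff₀ hM1]
      nlinarith
    have h5 : ε * (1 - T.card / (M + 1)) * ‖ξ‖ ^ 2 =
        ε * ‖ξ‖ ^ 2 - ε * (T.card * ‖ξ‖ ^ 2 / (M + 1)) := by ring
    rw [h5]
    nlinarith
  obtain ⟨P, hP, h1, h2, h3⟩ := exists_proj_of_gap (cstarAlg Γ) isClosed_cstarAlg D.1
    (C.fst_mem hD)
    (C.selfAdj hD fun y T f f' h h' => by simp only [hDL]; exact hLs y T f f' h h')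
    (fun M => (q M).1) hqsa hqq hDq ε hε _ C.dense hg (bas 1) (sSup (Set.range b))
    (by simp only [hbq]; exact ht)
  refine ⟨CStarRed.mk P hP, h1, CStarRed.ext h2, _, ht, ?_⟩
  rw [← h3, inner_bas]
  rfl

end Coc

end Vale.Agent.P089.E3
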