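import Vale.Agent.P089.OpBasic

/-! Closed span induction and the trace functional. -/

noncomputable section

namespace Vale.Agent.P089

namespace TraceAux

theorem span_ind {E E' : Type} [NormedAddCommGroup E] [InnerProductSpace ℂ E]
    [NormedAddCommGroup E'] [InnerProductSpace ℂ E'] {S : Set (Op E E')} {p : Op E E' → Prop}
    (hc : IsClosed {x | p x}) (hS : ∀ x ∈ S, p x) (h0 : p 0)
    (hadd : ∀ x y, p x → p y → p (x + y)) (hsmul : ∀ (c : ℂ) x, p x → p (c • x)) :
    ∀ x ∈ closedSpan S, p x := by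
  intro x hx
  refine closure_minimal (t := {x | p x}) (fun y hy => ?_) hc hx
  induction hy using Submodule.span_induction with
  | mem y hy => exact hS y hy
  | zero => exact h0
  | add y z _ _ h1 h2 => exact hadd y z h1 h2
  | smul c y _ h1 => exact hsmul c y h1

open Classical in
/-- the trace as a continuous functional on all operators -/
def trL (Γ : Type) [Group Γ] : Op (L2 Γ ℂ) (L2 Γ ℂ) →L[ℂ] ℂ :=
  (lp.evalCLM ℂ (fun _ : Γ => ℂ) 2 1).comp
    (ContinuousLinearMap.apply ℂ (L2 Γ ℂ) (lp.single 2 1 1))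

theorem trace_eq {Γ : Type} [Group Γ] (a : CStarRed Γ) : a.trace = trL Γ a.op := rfl

open Classical in
theorem trL_shift {Γ : Type} [Group Γ] (s : Γ) : trL Γ (shift s) = if s = 1 then 1 else 0 := by
  change (lp.single 2 (1 : Γ) (1 : ℂ) : L2 Γ ℂ) (s⁻¹ * 1) = _
  split_ifs with h
  · subst h; simp
  · exact lp.single_apply_ne (E := fun _ : Γ => ℂ) 2 (1 : Γ) (1 : ℂ) (by simpa using h)

theorem op_mem_span {Γ : Type} [Group Γ] (a : CStarRed Γ) : a.op ∈ closedSpan (leftReg Γ) := by
  rw [← cstarAlg_eq_closedSpan]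
  exact a.op_mem

end TraceAux

end Vale.Agent.P089
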