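import Vale.Agent.P089.Model
import Vale.Agent.P089.TraceAux

/-! Task T2b: induction along injective group homomorphisms. See notes/P089/PROOF.md. -/

noncomputable section

namespace Vale.Agent.P089

namespace Induce

section Slices

variable {Q Γ Λ : Type} {K K' K'' : Type} [NormedAddCommGroup K] [InnerProductSpace ℂ K]
  [NormedAddCommGroup K'] [InnerProductSpace ℂ K'] [NormedAddCommGroup K'']
  [InnerProductSpace ℂ K''] (e : Q × Γ ≃ Λ)

theorem two_pos' : 0 < (2 : ENNReal).toReal := by norm_num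

/-- restriction to one fibre -/
def slice (ξ : L2 Λ K) (q : Q) : L2 Γ K :=
  ⟨fun s => ξ (e (q, s)), memℓp_gen (((lp.memℓp ξ).summable two_pos').comp_injective
    (e.injective.comp (Prod.mk_right_injective q)))⟩

omit [InnerProductSpace ℂ K] in
theorem hasSum_slice (ξ : L2 Λ K) : HasSum (fun q => ‖slice e ξ q‖ ^ (2 : ENNReal).toReal)
    (‖ξ‖ ^ (2 : ENNReal).toReal) :=
  HasSum.prod_fiberwise (e.hasSum_iff.2 (lp.hasSum_norm two_pos' ξ))
    fun q => lp.hasSum_norm two_pos' (slice e ξ q)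

/-- gluing of a square summable family -/
def glue (η : Q → L2 Γ K) (h : Summable fun q => ‖η q‖ ^ (2 : ENNReal).toReal) : L2 Λ K :=
  ⟨fun g => η (e.symm g).1 (e.symm g).2, memℓp_gen (e.symm.summable_iff
    (f := fun z : Q × Γ => ‖η z.1 z.2‖ ^ (2 : ENNReal).toReal).2
    ((summable_prod_of_nonneg fun _ => Real.rpow_nonneg (norm_nonneg _) _).2
      ⟨fun q => (lp.memℓp (η q)).summable two_pos', by
        simpa only [← lp.norm_rpow_eq_tsum two_pos'] using h⟩))⟩

omit [InnerProductSpace ℂ K] in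
theorem slice_glue (η : Q → L2 Γ K) (h) (q : Q) : slice e (glue e η h) q = η q := by
  refine lp.ext (funext fun s => ?_)
  change η (e.symm (e (q, s))).1 (e.symm (e (q, s))).2 = _
  rw [e.symm_apply_apply]

theorem le_aux (x : Op (L2 Γ K) (L2 Γ K')) (ξ : L2 Λ K) (q : Q) :
    ‖x (slice e ξ q)‖ ^ (2 : ENNReal).toReal
      ≤ ‖x‖ ^ (2 : ENNReal).toReal * ‖slice e ξ q‖ ^ (2 : ENNReal).toReal := by
  rw [← Real.mul_rpow (norm_nonneg _) (norm_nonneg _)]
  exact Real.rpow_le_rpow (norm_nonneg _) (x.le_opNorm _) two_pos'.le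

theorem summable_aux (x : Op (L2 Γ K) (L2 Γ K')) (ξ : L2 Λ K) :
    Summable fun q => ‖x (slice e ξ q)‖ ^ (2 : ENNReal).toReal :=
  Summable.of_nonneg_of_le (fun _ => Real.rpow_nonneg (norm_nonneg _) _) (le_aux e x ξ)
    ((hasSum_slice e ξ).summable.mul_left _)

theorem norm_glue_le (x : Op (L2 Γ K) (L2 Γ K')) (ξ : L2 Λ K) :
    ‖glue e (fun q => x (slice e ξ q)) (summable_aux e x ξ)‖ ≤ ‖x‖ * ‖ξ‖ := by
  have h1 := hasSum_slice e (glue e (fun q => x (slice e ξ q)) (summable_aux e x ξ))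
  simp only [slice_glue] at h1
  have h2 := hasSum_le (le_aux e x ξ) h1 ((hasSum_slice e ξ).mul_left _)
  rw [← Real.mul_rpow (norm_nonneg _) (norm_nonneg _)] at h2
  exact (Real.rpow_le_rpow_iff (norm_nonneg _) (by positivity) two_pos').1 h2

/-- the induced operator -/
def ind (x : Op (L2 Γ K) (L2 Γ K')) : Op (L2 Λ K) (L2 Λ K') :=
  LinearMap.mkContinuous
    { toFun := fun ξ => glue e (fun q => x (slice e ξ q)) (summable_aux e x ξ)
      map_add' := fun ξ ξ' => lp.ext (funext fun g => by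
        change x (slice e ξ (e.symm g).1 + slice e ξ' (e.symm g).1) (e.symm g).2 = _
        rw [map_add]
        rfl)
      map_smul' := fun c ξ => lp.ext (funext fun g => by
        change x (c • slice e ξ (e.symm g).1) (e.symm g).2 = _
        rw [map_smul]
        rfl) } ‖x‖ (norm_glue_le e x)

theorem ind_apply (x : Op (L2 Γ K) (L2 Γ K')) (ξ : L2 Λ K) (g : Λ) :
    ind e x ξ g = x (slice e ξ (e.symm g).1) (e.symm g).2 := rfl

theorem slice_ind (x : Op (L2 Γ K) (L2 Γ K')) (ξ : L2 Λ K) (q : Q) :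
    slice e (ind e x ξ) q = x (slice e ξ q) :=
  slice_glue e (fun q => x (slice e ξ q)) (summable_aux e x ξ) q

theorem norm_ind_le (x : Op (L2 Γ K) (L2 Γ K')) : ‖ind e x‖ ≤ ‖x‖ :=
  LinearMap.mkContinuous_norm_le _ (norm_nonneg _) _

theorem ind_comp (x : Op (L2 Γ K') (L2 Γ K'')) (y : Op (L2 Γ K) (L2 Γ K')) :
    ind e (x.comp y) = (ind e x).comp (ind e y) := op_ext fun ξ g => by
  rw [ContinuousLinearMap.comp_apply, ind_apply, ind_apply, slice_ind]
  rfl

theorem ind_add (x y : Op (L2 Γ K) (L2 Γ K')) : ind e (x + y) = ind e x + ind e y :=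
  op_ext fun _ _ => rfl

theorem ind_smul (c : ℂ) (x : Op (L2 Γ K) (L2 Γ K')) : ind e (c • x) = c • ind e x :=
  op_ext fun _ _ => rfl

theorem ind_zero : ind e (0 : Op (L2 Γ K) (L2 Γ K')) = 0 := op_ext fun _ _ => rfl

theorem ind_ampl (T : Op K K') : ind e (ampl Γ T) = ampl Λ T := op_ext fun ξ g => by
  change T (ξ (e (e.symm g))) = T (ξ g)
  rw [e.apply_symm_apply]

theorem ind_one : ind e (1 : Op (L2 Γ K) (L2 Γ K)) = 1 := by
  rw [← ampl_one, ind_ampl, ampl_one]

theorem continuous_ind : Continuous (ind e : Op (L2 Γ K) (L2 Γ K') → Op (L2 Λ K) (L2 Λ K')) :=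
  AddMonoidHomClass.continuous_of_bound
    (AddMonoidHom.mk' (ind e : Op (L2 Γ K) (L2 Γ K') → Op (L2 Λ K) (L2 Λ K')) (ind_add e)) 1
    fun x => by rw [one_mul]; exact norm_ind_le e x

theorem ind_mem {S : Set (Op (L2 Γ K) (L2 Γ K'))} {S' : Set (Op (L2 Λ K) (L2 Λ K'))}
    (h : ∀ x ∈ S, ind e x ∈ S') : ∀ x ∈ closedSpan S, ind e x ∈ closedSpan S' := by
  refine TraceAux.span_ind (isClosed_closure.preimage (continuous_ind e))
    (fun x hx => subset_closure (Submodule.subset_span (h x hx))) ?_ ?_ ?_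
  · rw [ind_zero]
    exact (Submodule.span ℂ S').topologicalClosure.zero_mem
  · intro x y hx hy
    rw [ind_add]
    exact (Submodule.span ℂ S').topologicalClosure.add_mem hx hy
  · intro c x hx
    rw [ind_smul]
    exact (Submodule.span ℂ S').topologicalClosure.smul_mem c hx

variable [Group Γ] [Group Λ] {φ : Γ →* Λ}

theorem ind_lamT (he : ∀ q s t, e (q, s * t) = φ s * e (q, t)) (s : Γ) (T : Op K K') :
    ind e (lamT s T) = lamT (φ s) T := op_ext fun ξ g => by
  change T (ξ (e ((e.symm g).1, s⁻¹ * (e.symm g).2))) = T (ξ ((φ s)⁻¹ * g))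
  rw [he, map_inv, Prod.mk.eta, e.apply_symm_apply]

theorem ind_shift (he : ∀ q s t, e (q, s * t) = φ s * e (q, t)) (s : Γ) :
    ind e (shift s : Op (L2 Γ K) (L2 Γ K)) = shift (φ s) := by
  rw [← lamT_id, ind_lamT e he, lamT_id]

end Slices

theorem exists_equiv {Γ Λ : Type} [Group Γ] [Group Λ] (φ : Γ →* Λ) (hφ : Function.Injective φ) :
    ∃ e : (Λ ⧸ φ.range) × Γ ≃ Λ, ∀ q s t, e (q, s * t) = φ s * e (q, t) := by
  refine ⟨Equiv.ofBijective (fun z => φ z.2 * z.1.out⁻¹) ⟨?_, fun g => ?_⟩, fun q s t => ?_⟩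
  · rintro ⟨q, s⟩ ⟨q', s'⟩ h
    simp only at h
    have h1 : q = q' := by
      rw [← q.out_eq', ← q'.out_eq']
      refine QuotientGroup.eq.2 ⟨s⁻¹ * s', ?_⟩
      rw [map_mul, map_inv, inv_mul_eq_iff_eq_mul, ← mul_assoc, h, inv_mul_cancel_right]
    subst h1
    rw [hφ (mul_right_cancel h)]
  · obtain ⟨⟨_, s, rfl⟩, hs⟩ := QuotientGroup.mk_out_eq_mul φ.range g⁻¹
    refine ⟨(QuotientGroup.mk g⁻¹, s), ?_⟩
    simp only
    rw [hs]
    simp
  · change φ (s * t) * q.out⁻¹ = φ s * (φ t * q.out⁻¹)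
    rw [map_mul, mul_assoc]

end Induce

variable {Γ Λ : Type} [Group Γ] [Group Λ] {K : Type} [NormedAddCommGroup K]
  [InnerProductSpace ℂ K]

open Induce TraceAux in
theorem exists_induce (φ : Γ →* Λ) (hφ : Function.Injective φ) (ι₀ : Op ℂ K) (ρ₀ : Op K ℂ)
    (h : ρ₀.comp ι₀ = 1) :
    ∃ (Φ : BAlg Γ K →+* BAlg Λ K) (ψ : CStarRed Γ →+* CStarRed Λ),
      (∀ s, Φ (lamB Γ K s) = lamB Λ K (φ s)) ∧ (∀ T, Φ (amplB Γ K T) = amplB Λ K T) ∧
      (∀ x ∈ jIdeal Γ K, Φ x ∈ jIdeal Λ K) ∧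
      (∀ a, Φ (cornerHom Γ ι₀ ρ₀ h a) = cornerHom Λ ι₀ ρ₀ h (ψ a)) ∧
      ∀ a, (ψ a).trace = a.trace := by
  obtain ⟨e, he⟩ := exists_equiv φ hφ
  have hB : ∀ x ∈ bOps Γ K K, ind e x ∈ bOps Λ K K := by
    refine ind_mem e ?_
    rintro _ ⟨s, T, rfl⟩
    exact ⟨φ s, T, ind_lamT e he s T⟩
  have hC : ∀ x ∈ cptOps Γ K K, ind e x ∈ cptOps Λ K K := by
    refine ind_mem e ?_
    rintro _ ⟨s, T, hT, rfl⟩
    exact ⟨φ s, T, hT, ind_lamT e he s T⟩
  have hA : ∀ a : CStarRed Γ, ind e a.op ∈ cstarAlg Λ := by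
    intro a
    have : ind e a.op ∈ closedSpan (leftReg Λ) := by
      refine ind_mem e ?_ _ (op_mem_span a)
      rintro _ ⟨s, rfl⟩
      exact ⟨φ s, (ind_shift e he s).symm⟩
    rwa [← cstarAlg_eq_closedSpan] at this
  refine ⟨{ toFun := fun x => ⟨ind e x.1, hB _ x.2⟩
            map_one' := Subtype.ext (ind_one e)
            map_mul' := fun x y => Subtype.ext (ind_comp e x.1 y.1)
            map_zero' := Subtype.ext (ind_zero e)
            map_add' := fun x y => Subtype.ext (ind_add e x.1 y.1) },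
    { toFun := fun a => CStarRed.mk (ind e a.op) (hA a)
      map_one' := CStarRed.ext (ind_one e)
      map_mul' := fun x y => CStarRed.ext (ind_comp e x.op y.op)
      map_zero' := CStarRed.ext (ind_zero e)
      map_add' := fun x y => CStarRed.ext (ind_add e x.op y.op) },
    fun s => Subtype.ext (ind_shift e he s), fun T => Subtype.ext (ind_ampl e T),
    fun x hx => mem_jIdeal.2 (hC _ (mem_jIdeal.1 hx)), fun a => Subtype.ext ?_, fun a => ?_⟩
  · change ind e ((ampl Γ ι₀).comp (a.op.comp (ampl Γ ρ₀)))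
      = (ampl Λ ι₀).comp ((ind e a.op).comp (ampl Λ ρ₀))
    rw [ind_comp, ind_comp, ind_ampl, ind_ampl]
  · change trL Λ (ind e a.op) = trL Γ a.op
    refine span_ind (p := fun x => trL Λ (ind e x) = trL Γ x)
      (isClosed_eq ((trL Λ).continuous.comp (continuous_ind e)) (trL Γ).continuous)
      ?_ ?_ ?_ ?_ _ (op_mem_span a)
    · rintro _ ⟨s, rfl⟩
      change trL Λ (ind e (shift s)) = trL Γ (shift s)
      rw [ind_shift e he, trL_shift, trL_shift]
      by_cases hs : s = 1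
      · rw [if_pos hs, if_pos ((map_eq_one_iff φ hφ).2 hs)]
      · rw [if_neg hs, if_neg fun h' => hs ((map_eq_one_iff φ hφ).1 h')]
    · rw [ind_zero, map_zero, map_zero]
    · intro x y hx hy
      rw [ind_add, map_add, map_add, hx, hy]
    · intro c x hx
      rw [ind_smul, map_smul, map_smul, hx]

end Vale.Agent.P089
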