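import Vale.Agent.P089.IsoAux2

/-! Task E2: the isoperimetric inequality. -/

noncomputable section

open Classical

namespace Vale.Agent.P089

namespace Setup

variable {G : Type} [Group G] {S : Setup G}

theorem exposed_unique {i i' : S.ι} {g g' : G} {u : Fin (S.N i)} {u' : Fin (S.N i')}
    (he : g * S.ρ i u = g' * S.ρ i' u') (h : ¬ S.P i g u) (h' : ¬ S.P i' g' u') :
    (i, g) = (i', g') := by
  by_contra hne
  rcases le_total (S.lev i' g') (S.lev i g) with hl | hl
  · exact h (S.meet i i' g g' u u' he hne hl)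
  · exact h' (S.meet i' i g' g u' u he.symm (Ne.symm hne) hl)

variable (S)

/-- The copy in which `x` is exposed, if any. -/
def ex (x : G) : Option (S.ι × G) :=
  if h : ∃ k : S.ι × G, ∃ u, x = k.2 * S.ρ k.1 u ∧ ¬ S.P k.1 k.2 u then some h.choose else none

variable {S}

theorem ex_eq {i : S.ι} {g : G} {u : Fin (S.N i)} (h : ¬ S.P i g u) :
    S.ex (g * S.ρ i u) = some (i, g) := by
  have hex : ∃ k : S.ι × G, ∃ u', g * S.ρ i u = k.2 * S.ρ k.1 u' ∧ ¬ S.P k.1 k.2 u' :=
    ⟨(i, g), u, rfl, h⟩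
  unfold ex
  rw [dif_pos hex]
  obtain ⟨u', hu', h1⟩ := hex.choose_spec
  exact congrArg some (exposed_unique hu' h h1).symm

theorem of_ex_eq_some {x : G} {i : S.ι} {g : G} (h : S.ex x = some (i, g)) :
    ∃ u, x = g * S.ρ i u ∧ ¬ S.P i g u := by
  unfold ex at h
  split_ifs at h with hex
  have h1 := hex.choose_spec
  rw [Option.some.inj h] at h1
  exact h1

theorem sum_fiber_ex {M : Type} [AddCommMonoid M] {i : S.ι} {g : G} {R F : Finset G}
    (hF : ∀ x, x ∈ F ↔ x ∈ R ∧ S.ex x = some (i, g)) (φ : G → M) :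
    ∑ x ∈ F, φ x =
      ∑ u ∈ Finset.univ.filter (fun u => ¬ S.P i g u ∧ g * S.ρ i u ∈ R), φ (g * S.ρ i u) := by
  symm
  refine Finset.sum_bij (fun u _ => g * S.ρ i u) ?_ ?_ ?_ ?_
  · intro u hu
    exact (hF _).2 ⟨(Finset.mem_filter.1 hu).2.2, ex_eq (Finset.mem_filter.1 hu).2.1⟩
  · intro u _ v _ huv
    exact S.inj i (mul_left_cancel huv)
  · intro x hx
    obtain ⟨hR, hx⟩ := (hF _).1 hx
    obtain ⟨u, rfl, hu⟩ := of_ex_eq_some hx
    exact ⟨u, Finset.mem_filter.2 ⟨Finset.mem_univ _, hu, hR⟩, rfl⟩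
  · intro u _
    rfl

theorem card_det_src (Det : G → (Fin S.m × Fin S.m) × Bool → Prop)
    (hf : ∀ x s s', Det x s → Det x s' → s = s') (R : Finset G)
    [DecidablePred fun p : G × ((Fin S.m × Fin S.m) × Bool) => Det p.1 p.2] :
    ((R ×ˢ Finset.univ).filter fun p : G × ((Fin S.m × Fin S.m) × Bool) => Det p.1 p.2).card ≤
      R.card := by
  refine Finset.card_le_card_of_injOn Prod.fst ?_ ?_
  · intro p hp
    simp only [Finset.coe_filter, Finset.mem_product, Set.mem_ofPred_eq] at hp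
    exact hp.1.1
  · rintro ⟨x, s⟩ hp ⟨x', s'⟩ hp' h
    simp only [Finset.coe_filter, Finset.mem_product, Set.mem_ofPred_eq] at hp hp'
    dsimp only at h
    subst h
    rw [hf _ _ _ hp.2 hp'.2]

theorem card_det_tgt (Det : G → (Fin S.m × Fin S.m) × Bool → Prop)
    (hf : ∀ x s s', Det x s → Det x s' → s = s') (R : Finset G)
    [DecidablePred fun p : G × ((Fin S.m × Fin S.m) × Bool) =>
      p.1 * S.gen p.2 ∈ R ∧ Det (p.1 * S.gen p.2) (p.2.1, !p.2.2)] :
    ((R ×ˢ Finset.univ).filter fun p : G × ((Fin S.m × Fin S.m) × Bool) =>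
      p.1 * S.gen p.2 ∈ R ∧ Det (p.1 * S.gen p.2) (p.2.1, !p.2.2)).card ≤ R.card := by
  refine Finset.card_le_card_of_injOn (fun p => p.1 * S.gen p.2) ?_ ?_
  · intro p hp
    simp only [Finset.coe_filter, Finset.mem_product, Set.mem_ofPred_eq] at hp
    exact hp.2.1
  · rintro ⟨x, s⟩ hp ⟨x', s'⟩ hp' h
    simp only [Finset.coe_filter, Finset.mem_product, Set.mem_ofPred_eq] at hp hp'
    dsimp only at h
    have h1 := hp.2.2
    rw [h] at h1
    have h2 := hf _ _ _ h1 hp'.2.2
    have h3 : s = s' := by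
      obtain ⟨h4, h5⟩ := Prod.mk.inj h2
      exact Prod.ext h4 (Bool.not_inj h5)
    subst h3
    rw [mul_right_cancel h]

variable (S)

/-- Darts from an exposed vertex to a non exposed vertex of the same copy. -/
def Mix (x : G) (s : (Fin S.m × Fin S.m) × Bool) : Prop :=
  ∃ i g u v, (S.X i).Adj u v ∧ s = letter (S.c i u) (S.c i v) ∧ x = g * S.ρ i u ∧
    ¬ S.P i g u ∧ S.P i g v

/-- Darts between exposed vertices of the same copy, ending in `R`. -/
def Inn (R : Finset G) (x : G) (s : (Fin S.m × Fin S.m) × Bool) : Prop :=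
  ∃ i g u v, (S.X i).Adj u v ∧ s = letter (S.c i u) (S.c i v) ∧ x = g * S.ρ i u ∧
    ¬ S.P i g u ∧ ¬ S.P i g v ∧ g * S.ρ i v ∈ R

variable {S}

theorem Mix.unique (x : G) (s s' : (Fin S.m × Fin S.m) × Bool) (h : S.Mix x s)
    (h' : S.Mix x s') : s = s' := by
  obtain ⟨i, g, u, v, huv, rfl, rfl, hu, hv⟩ := h
  obtain ⟨i', g', u', v', huv', rfl, he, hu', hv'⟩ := h'
  obtain ⟨rfl, rfl⟩ := Prod.mk.inj (exposed_unique he hu hu')
  obtain rfl := S.inj i (mul_left_cancel he)
  rw [S.one_nbr i g u v v' hu huv huv' hv hv']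

theorem inn_bound {y : S.Conf} (hy : S.Adm y) (R : Finset G)
    (hval : ∀ x ∈ R, ∃ t, S.HasTy y x t) (hac : ∀ x ∈ R, S.ac y x = none) :
    ((R ×ˢ Finset.univ).filter fun p : G × ((Fin S.m × Fin S.m) × Bool) =>
      S.Inn R p.1 p.2).card + 5 * R.card ≤ S.d * R.card := by
  have e1 : (((R ×ˢ Finset.univ).filter fun p : G × ((Fin S.m × Fin S.m) × Bool) =>
      S.Inn R p.1 p.2).card : ℝ) + 5 * R.card =
      ∑ x ∈ R, (((Finset.univ.filter fun s => S.Inn R x s).card : ℝ) + 5) := by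
    rw [Finset.sum_add_distrib, Finset.sum_const, nsmul_eq_mul, mul_comm, Finset.card_filter,
      Finset.sum_product]
    simp only [Finset.card_filter]
    push_cast
    rfl
  have e2 : (S.d : ℝ) * R.card = ∑ x ∈ R, (S.d : ℝ) := by
    rw [Finset.sum_const, nsmul_eq_mul, mul_comm]
  have key : ∑ x ∈ R, (((Finset.univ.filter fun s => S.Inn R x s).card : ℝ) + 5) ≤
      ∑ x ∈ R, (S.d : ℝ) := by
    refine sum_le_of_fiber R S.ex _ _ ?_
    rintro (_ | ⟨i, g⟩) F hF
    · refine Finset.sum_le_sum fun x hx => ?_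
      have hx' := ((hF _).1 hx).2
      rw [Finset.filter_false_of_mem]
      · have := S.d_ge
        simp only [Finset.card_empty, Nat.cast_zero, zero_add]
        exact_mod_cast this
      · rintro s - ⟨i, g, u, v, -, -, rfl, hu, -⟩
        rw [ex_eq hu] at hx'
        exact absurd hx' (by simp)
    · rw [sum_fiber_ex hF, sum_fiber_ex hF]
      set Rk := Finset.univ.filter (fun u => ¬ S.P i g u ∧ g * S.ρ i u ∈ R) with hRk
      have h32 : 32 * Rk.card ≤ S.N i := by
        rcases Rk.eq_empty_or_nonempty with h0 | ⟨u0, hu0⟩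
        · simp [h0]
        have hna : (fun v => y (g * S.ρ i v)) ≠ xiOf (S.X i) (S.c i) := by
          intro ha
          have h1 := ActiveCopy.ac_eq (y := y) ha u0
          rw [hac _ (Finset.mem_filter.1 hu0).2.2] at h1
          exact absurd h1 (by simp)
        refine le_trans (Nat.mul_le_mul_left _ (Finset.card_le_card fun u hu => ?_))
          (S.few i _ (hy i g) hna)
        obtain ⟨t, ht⟩ := hval _ (Finset.mem_filter.1 hu).2.2
        exact Finset.mem_filter.2 ⟨Finset.mem_univ _, t, ht.1⟩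
      have h1 := S.sparse i Rk h32
      rw [darts_eq_sum] at h1
      have h2 : ∀ u ∈ Rk, (Finset.univ.filter fun s => S.Inn R (g * S.ρ i u) s).card ≤
          (Rk.filter fun v => (S.X i).Adj u v).card := by
        intro u hu
        refine le_trans (Finset.card_le_card (t := (Rk.filter fun v => (S.X i).Adj u v).image
          fun v => letter (S.c i u) (S.c i v)) ?_) Finset.card_image_le
        intro s hs
        obtain ⟨i', g', u', v', huv, rfl, he, hu', hv', hR⟩ := (Finset.mem_filter.1 hs).2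
        obtain ⟨rfl, rfl⟩ := Prod.mk.inj (exposed_unique he (Finset.mem_filter.1 hu).2.1 hu')
        obtain rfl := S.inj i (mul_left_cancel he)
        exact Finset.mem_image.2 ⟨v', Finset.mem_filter.2
          ⟨Finset.mem_filter.2 ⟨Finset.mem_univ _, hv', hR⟩, huv⟩, rfl⟩
      have h3 := Finset.sum_le_sum h2
      rw [Finset.sum_add_distrib, Finset.sum_const, Finset.sum_const, nsmul_eq_mul, nsmul_eq_mul,
        ← Nat.cast_sum]
      have h4 : ∑ u ∈ Rk, (Finset.univ.filter fun s => S.Inn R (g * S.ρ i u) s).card +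
          Rk.card * 5 ≤ Rk.card * S.d := by nlinarith
      exact_mod_cast h4
  rw [← e1, ← e2] at key
  exact_mod_cast key

theorem pairs_bound {y : S.Conf} (hy : S.Adm y) (R : Finset G)
    (hval : ∀ x ∈ R, ∃ t, S.HasTy y x t) (hac : ∀ x ∈ R, S.ac y x = none) :
    ((R ×ˢ Finset.univ).filter fun p : G × ((Fin S.m × Fin S.m) × Bool) =>
      p.1 * S.gen p.2 ∈ R).card + R.card ≤ S.d * R.card := by
  have h1 := card_det_src (S := S) (fun x s => s = S.par x) (fun x s s' h h' => h.trans h'.symm) R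
  have h2 := card_det_tgt (S := S) (fun x s => s = S.par x) (fun x s s' h h' => h.trans h'.symm) R
  have h3 := card_det_src (S := S) S.Mix Mix.unique R
  have h4 := card_det_tgt (S := S) S.Mix Mix.unique R
  have h5 := inn_bound hy R hval hac
  set U := R ×ˢ (Finset.univ : Finset ((Fin S.m × Fin S.m) × Bool))
  have hsub : (U.filter fun p => p.1 * S.gen p.2 ∈ R) ⊆
      ((((U.filter fun p => p.2 = S.par p.1) ∪
        U.filter fun p => p.1 * S.gen p.2 ∈ R ∧ (p.2.1, !p.2.2) = S.par (p.1 * S.gen p.2)) ∪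
        U.filter fun p => S.Mix p.1 p.2) ∪
        U.filter fun p => p.1 * S.gen p.2 ∈ R ∧ S.Mix (p.1 * S.gen p.2) (p.2.1, !p.2.2)) ∪
        U.filter fun p => S.Inn R p.1 p.2 := by
    rintro ⟨x, s⟩ hp
    obtain ⟨hU, hR⟩ := Finset.mem_filter.1 hp
    simp only [Finset.mem_union, Finset.mem_filter, hU, true_and]
    dsimp only at hR
    rcases S.dart x s with h | h | ⟨i, g, u, v, huv, rfl, rfl, h⟩
    · exact Or.inl (Or.inl (Or.inl (Or.inl h)))
    · exact Or.inl (Or.inl (Or.inl (Or.inr ⟨hR, h⟩)))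
    · have ht := tgt_adj g huv
      simp only [tgt] at ht
      by_cases hu : S.P i g u
      · have hv : ¬ S.P i g v := by tauto
        refine Or.inl (Or.inr ⟨hR, i, g, v, u, huv.symm, ?_, ht, hv, hu⟩)
        exact (letter_swap (S.c_adj i u v huv)).symm
      · by_cases hv : S.P i g v
        · exact Or.inl (Or.inl (Or.inr ⟨i, g, u, v, huv, rfl, rfl, hu, hv⟩))
        · exact Or.inr ⟨i, g, u, v, huv, rfl, rfl, hu, hv, ht ▸ hR⟩
  have h6 := Finset.card_le_card hsub
  refine le_trans (Nat.add_le_add_right (h6.trans ((Finset.card_union_le _ _).trans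
    (Nat.add_le_add_right ((Finset.card_union_le _ _).trans (Nat.add_le_add_right
    ((Finset.card_union_le _ _).trans (Nat.add_le_add_right (Finset.card_union_le _ _) _)) _))
    _))) _) ?_
  omega

variable (S)

/-- Boundary weight of a vertex: invalid, or number of claims that are not active. -/
def wt (y : S.Conf) (x : G) : ℝ :=
  (if ∃ t, S.HasTy y x t then 0 else 1) + ∑ ab : Fin S.m × Fin S.m,
    if S.Claims y x ab.1 ab.2 ∧ ¬ S.ActiveDart y x ab.1 ab.2 then 1 else 0

/-- Boundary of `R` at `x`. -/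
def bd (y : S.Conf) (R : Finset G) (x : G) : ℝ :=
  S.wt y x + ∑ ab : Fin S.m × Fin S.m,
    if S.ActiveDart y x ab.1 ab.2 ∧ S.tgt x ab ∉ R then (1 : ℝ) else 0

theorem wt_nonneg (y : S.Conf) (x : G) : 0 ≤ S.wt y x := by
  unfold wt
  refine add_nonneg (by split_ifs <;> norm_num) (Finset.sum_nonneg fun _ _ => ?_)
  split_ifs <;> norm_num

theorem bd_nonneg (y : S.Conf) (R : Finset G) (x : G) : 0 ≤ S.bd y R x := by
  unfold bd
  refine add_nonneg (S.wt_nonneg y x) (Finset.sum_nonneg fun _ _ => ?_)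
  split_ifs <;> norm_num

variable {S}

theorem card_claims {y : S.Conf} {x : G} (h : ∃ t, S.HasTy y x t) :
    S.d ≤ (Finset.univ.filter fun ab : Fin S.m × Fin S.m => S.Claims y x ab.1 ab.2).card := by
  obtain ⟨⟨a, A⟩, ht⟩ := h
  refine ht.2.2.trans (Finset.card_le_card_of_injOn (fun b => (a, b)) ?_ ?_)
  · intro b hb
    simp only [Finset.coe_filter, Finset.mem_univ, true_and, Set.mem_ofPred_eq]
    exact ⟨A, ht, hb⟩
  · intro b _ b' _ h
    exact (Prod.mk.inj h).2

theorem iso_rest {y : S.Conf} (hy : S.Adm y) {R R0 : Finset G}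
    (hF : ∀ x, x ∈ R0 ↔ x ∈ R ∧ S.ac y x = none) :
    ∑ _x ∈ R0, (1 : ℝ) ≤ ∑ x ∈ R0, S.bd y R x := by
  set Rv := R0.filter (fun x => ∃ t, S.HasTy y x t) with hRv
  rw [← Finset.sum_filter_add_sum_filter_not R0 (fun x => ∃ t, S.HasTy y x t),
    ← Finset.sum_filter_add_sum_filter_not R0 (fun x => ∃ t, S.HasTy y x t)]
  refine add_le_add ?_ (Finset.sum_le_sum fun x hx => ?_)
  · have h1 := pairs_bound hy Rv (fun x hx => (Finset.mem_filter.1 hx).2)
      (fun x hx => ((hF _).1 (Finset.mem_filter.1 hx).1).2)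
    rw [Finset.card_filter, Finset.sum_product] at h1
    simp only [← Finset.card_filter] at h1
    have h2 : ∀ x ∈ Rv, (S.d : ℝ) ≤
        ((Finset.univ.filter fun s => x * S.gen s ∈ Rv).card : ℝ) + S.bd y R x := by
      intro x hx
      have hxv := (Finset.mem_filter.1 hx).2
      have hx0 := ((hF _).1 (Finset.mem_filter.1 hx).1).2
      have h3 : (S.d : ℝ) ≤ ∑ ab : Fin S.m × Fin S.m,
          if S.Claims y x ab.1 ab.2 then (1 : ℝ) else 0 := by
        have := card_claims hxv
        rw [Finset.card_filter] at this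
        exact_mod_cast this
      have h4 : (Finset.univ.filter fun ab : Fin S.m × Fin S.m =>
          S.ActiveDart y x ab.1 ab.2 ∧ S.tgt x ab ∈ R).card ≤
          (Finset.univ.filter fun s => x * S.gen s ∈ Rv).card := by
        refine Finset.card_le_card_of_injOn (fun ab => letter ab.1 ab.2) ?_ ?_
        · rintro ⟨a, b⟩ hab
          simp only [Finset.coe_filter, Finset.mem_univ, true_and, Set.mem_ofPred_eq] at hab ⊢
          refine Finset.mem_filter.2 ⟨(hF _).2 ⟨hab.2, ?_⟩, ?_⟩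
          · exact (ac_tgt hab.1).trans hx0
          · obtain ⟨A, hA, -⟩ := hab.1.2
            exact ⟨_, hA⟩
        · intro ab _ ab' _ h
          exact Prod.ext (letter_inj h).1 (letter_inj h).2
      have h5 : (∑ ab : Fin S.m × Fin S.m,
          if S.ActiveDart y x ab.1 ab.2 ∧ S.tgt x ab ∈ R then (1 : ℝ) else 0) ≤
          (Finset.univ.filter fun s => x * S.gen s ∈ Rv).card := by
        rw [Finset.card_filter] at h4
        exact_mod_cast h4
      have h6 : (∑ ab : Fin S.m × Fin S.m, if S.Claims y x ab.1 ab.2 then (1 : ℝ) else 0) ≤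
          (∑ ab : Fin S.m × Fin S.m,
            if S.ActiveDart y x ab.1 ab.2 ∧ S.tgt x ab ∈ R then (1 : ℝ) else 0) + S.bd y R x := by
        unfold bd wt
        rw [if_pos hxv, zero_add, ← Finset.sum_add_distrib, ← Finset.sum_add_distrib]
        refine Finset.sum_le_sum fun ab _ => ?_
        by_cases hc : S.Claims y x ab.1 ab.2 <;> by_cases ha : S.ActiveDart y x ab.1 ab.2 <;>
          by_cases ht : S.tgt x ab ∈ R <;> simp [hc, ha, ht]
      linarith
    have h7 := Finset.sum_le_sum h2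
    rw [Finset.sum_add_distrib, Finset.sum_const, nsmul_eq_mul, ← Nat.cast_sum] at h7
    rw [Finset.sum_const, nsmul_eq_mul, mul_one]
    have h8 : ((∑ x ∈ Rv, (Finset.univ.filter fun s => x * S.gen s ∈ Rv).card : ℕ) : ℝ) +
        Rv.card ≤ S.d * Rv.card := by exact_mod_cast h1
    linarith
  · have hx' := (Finset.mem_filter.1 hx).2
    unfold bd wt
    rw [if_neg hx', add_assoc]
    refine le_add_of_nonneg_right (add_nonneg (Finset.sum_nonneg fun _ _ => ?_)
      (Finset.sum_nonneg fun _ _ => ?_)) <;> split_ifs <;> norm_num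

theorem iso_copy {y : S.Conf} {i : S.ι} {g : G} (h : S.ActiveCopy y i g) {R F : Finset G}
    (hF : ∀ x, x ∈ F ↔ x ∈ R ∧ S.ac y x = some (i, g))
    (hR : 2 * (Finset.univ.filter fun u => g * S.ρ i u ∈ R).card ≤ S.N i) :
    ∑ _x ∈ F, (1 : ℝ) ≤ ∑ x ∈ F, S.h * S.bd y R x := by
  rw [sum_fiber_ac h hF, sum_fiber_ac h hF]
  set Rk := Finset.univ.filter fun u => g * S.ρ i u ∈ R with hRk
  have h1 := S.expand i Rk hR
  rw [darts_eq_sum] at h1
  have h2 : ∀ u ∈ Rk, (((Finset.univ \ Rk).filter fun v => (S.X i).Adj u v).card : ℝ) ≤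
      S.bd y R (g * S.ρ i u) := by
    intro u _
    have h3 : ((Finset.univ \ Rk).filter fun v => (S.X i).Adj u v).card ≤
        (Finset.univ.filter fun ab : Fin S.m × Fin S.m =>
          S.ActiveDart y (g * S.ρ i u) ab.1 ab.2 ∧ S.tgt (g * S.ρ i u) ab ∉ R).card := by
      refine Finset.card_le_card_of_injOn (fun v => (S.c i u, S.c i v)) ?_ ?_
      · intro v hv
        simp only [Finset.coe_filter, Finset.mem_univ, true_and, Set.mem_ofPred_eq,
          Finset.mem_sdiff, hRk, Finset.mem_filter] at hv ⊢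
        exact ⟨h.active_of_adj hv.2, by rw [tgt_adj g hv.2]; exact hv.1⟩
      · intro v hv w hw hvw
        simp only [Finset.coe_filter, Set.mem_ofPred_eq] at hv hw
        exact S.c_nbr i u v w hv.2 hw.2 (Prod.mk.inj hvw).2
    have h4 : (((Finset.univ \ Rk).filter fun v => (S.X i).Adj u v).card : ℝ) ≤
        ∑ ab : Fin S.m × Fin S.m, if S.ActiveDart y (g * S.ρ i u) ab.1 ab.2 ∧
          S.tgt (g * S.ρ i u) ab ∉ R then (1 : ℝ) else 0 := by
      rw [Finset.sum_boole]
      exact_mod_cast h3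
    unfold bd
    linarith [S.wt_nonneg y (g * S.ρ i u)]
  have h5 := Finset.sum_le_sum h2
  rw [← Nat.cast_sum] at h5
  rw [Finset.sum_const, nsmul_eq_mul, mul_one, ← Finset.mul_sum]
  have h6 : (Rk.card : ℝ) ≤ S.h * ((∑ u ∈ Rk,
      ((Finset.univ \ Rk).filter fun v => (S.X i).Adj u v).card : ℕ) : ℝ) := by exact_mod_cast h1
  exact h6.trans (mul_le_mul_of_nonneg_left h5 (by positivity))

theorem iso {y : S.Conf} (hy : S.Adm y) (R : Finset G)
    (hR : ∀ i g, S.ActiveCopy y i g →
      2 * (Finset.univ.filter fun u => g * S.ρ i u ∈ R).card ≤ S.N i) :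
    (R.card : ℝ) ≤ (S.h + 1) * ∑ x ∈ R, S.bd y R x := by
  have e1 : (R.card : ℝ) = ∑ _x ∈ R, (1 : ℝ) := by simp
  rw [e1, Finset.mul_sum]
  have hh : (0 : ℝ) ≤ S.h := by positivity
  refine sum_le_of_fiber R (S.ac y) _ _ ?_
  rintro (_ | ⟨i, g⟩) F hF
  · refine (iso_rest hy hF).trans (Finset.sum_le_sum fun x _ => ?_)
    nlinarith [S.bd_nonneg y R x]
  · by_cases h : S.ActiveCopy y i g
    · refine (iso_copy h hF (hR i g h)).trans (Finset.sum_le_sum fun x _ => ?_)
      nlinarith [S.bd_nonneg y R x]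
    · rw [Finset.eq_empty_of_forall_notMem fun x hx => h (of_ac_eq_some ((hF x).1 hx).2).1]
      simp

end Setup

end Vale.Agent.P089
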