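import Vale.Agent.P089.SetupDefs
import Vale.Agent.P089.IsoAux3

/-! Task E2: fibrewise identities and the uniform spectral gap. See notes/P089/PROOF.md, E2. -/

noncomputable section

open Classical

namespace Vale.Agent.P089.Setup

variable {G : Type} [Group G] (S : Setup G)

theorem lap_eq (y : S.Conf) (f : G → ℂ) (x : G) : S.lap y f x =
    (S.wt y x : ℂ) * f x + ∑ ab : Fin S.m × Fin S.m,
      if S.ActiveDart y x ab.1 ab.2 then f x - f (S.tgt x ab) else 0 := by
  unfold lap weight wt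
  push_cast
  rw [add_mul, add_mul, add_sub_assoc, add_assoc, Finset.sum_mul, Finset.sum_mul,
    ← Finset.sum_sub_distrib, ← Finset.sum_add_distrib]
  congr 1
  · split_ifs <;> simp
  · refine Finset.sum_congr rfl fun ab _ => ?_
    by_cases ha : S.ActiveDart y x ab.1 ab.2
    · simp [ha, ha.1, tgt]
    · by_cases hc : S.Claims y x ab.1 ab.2 <;> simp [ha, hc]

theorem wt_eq_zero {y : S.Conf} {x : G} {k : S.ι × G} (h : S.ac y x = some k) : S.wt y x = 0 := by
  obtain ⟨i, g⟩ := k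
  obtain ⟨h1, u, rfl⟩ := of_ac_eq_some h
  unfold wt
  rw [if_pos ⟨_, h1.hasTy u⟩, zero_add]
  exact Finset.sum_eq_zero fun ab _ => if_neg fun h2 => h2.2 (h1.of_claims h2.1).1

theorem lap_projLe (y : S.Conf) (M : ℕ) (f : G → ℂ) : S.lap y (S.projLe y M f) = 0 := by
  funext x
  rw [lap_eq, Pi.zero_apply, Finset.sum_eq_zero, add_zero]
  · rcases hx : S.ac y x with _ | k
    · rw [projLe_none hx, mul_zero]
    · rw [S.wt_eq_zero hx]; simp
  · intro ab _
    split_ifs with ha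
    · rw [projLe_congr (ac_tgt ha), sub_self]
    · rfl

theorem projLe_projLe (y : S.Conf) (M : ℕ) (f : G → ℂ) :
    S.projLe y M (S.projLe y M f) = S.projLe y M f := by
  funext x
  rcases hx : S.ac y x with _ | ⟨i, g⟩
  · rw [projLe_none hx, projLe_none hx]
  · obtain ⟨h1, u, rfl⟩ := of_ac_eq_some hx
    have hN : (S.N i : ℂ) ≠ 0 := by exact_mod_cast (S.N_pos i).ne'
    simp only [h1.projLe_eq]
    split_ifs
    · rw [Finset.sum_const, Finset.card_univ, Fintype.card_fin, nsmul_eq_mul,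
        inv_mul_cancel_left₀ hN]
    · rfl

theorem sum_dart_symm' {M : Type} [AddCommMonoid M] (y : S.Conf) (T : Finset G) (φ : G → G → M)
    (h1 : ∀ x x', x' ∉ T → φ x x' = 0) (h2 : ∀ x x', x ∉ T → φ x x' = 0) :
    ∑ x ∈ T, ∑ ab : Fin S.m × Fin S.m,
        (if S.ActiveDart y x ab.1 ab.2 then φ x (S.tgt x ab) else 0) =
      ∑ x ∈ T, ∑ ab : Fin S.m × Fin S.m,
        (if S.ActiveDart y x ab.1 ab.2 then φ (S.tgt x ab) x else 0) := by
  have := S.sum_dart_symm y T φ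
  convert this using 3 with x _ ab _ x _ ab _
  · by_cases ht : S.tgt x ab ∈ T
    · simp [ht]
    · simp [ht, h1 _ _ ht]
  · by_cases ht : S.tgt x ab ∈ T
    · simp [ht]
    · simp [ht, h2 _ _ ht]

theorem lap_symm (y : S.Conf) (T : Finset G) (f f' : G → ℂ) (hf : ∀ x, x ∉ T → f x = 0)
    (hf' : ∀ x, x ∉ T → f' x = 0) :
    ∑ x ∈ T, starRingEnd ℂ (f' x) * S.lap y f x = ∑ x ∈ T, starRingEnd ℂ (S.lap y f' x) * f x := by
  have key := S.sum_dart_symm' y T (fun x x' => starRingEnd ℂ (f' x) * f x')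
    (fun x x' h => by rw [hf _ h, mul_zero]) (fun x x' h => by rw [hf' _ h]; simp)
  have e1 : ∀ x, starRingEnd ℂ (f' x) * S.lap y f x =
      ((S.wt y x : ℂ) * (starRingEnd ℂ (f' x) * f x) + ∑ ab : Fin S.m × Fin S.m,
        if S.ActiveDart y x ab.1 ab.2 then starRingEnd ℂ (f' x) * f x else 0) -
      ∑ ab : Fin S.m × Fin S.m,
        if S.ActiveDart y x ab.1 ab.2 then starRingEnd ℂ (f' x) * f (S.tgt x ab) else 0 := by
    intro x
    rw [lap_eq, mul_add, add_sub_assoc, ← Finset.sum_sub_distrib, Finset.mul_sum]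
    congr 1
    · ring
    · refine Finset.sum_congr rfl fun ab _ => ?_
      split_ifs
      · ring
      · simp
  have e2 : ∀ x, starRingEnd ℂ (S.lap y f' x) * f x =
      ((S.wt y x : ℂ) * (starRingEnd ℂ (f' x) * f x) + ∑ ab : Fin S.m × Fin S.m,
        if S.ActiveDart y x ab.1 ab.2 then starRingEnd ℂ (f' x) * f x else 0) -
      ∑ ab : Fin S.m × Fin S.m,
        if S.ActiveDart y x ab.1 ab.2 then starRingEnd ℂ (f' (S.tgt x ab)) * f x else 0 := by
    intro x
    rw [lap_eq, map_add, add_mul, add_sub_assoc, ← Finset.sum_sub_distrib, map_sum,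
      Finset.sum_mul]
    congr 1
    · rw [map_mul, Complex.conj_ofReal]; ring
    · refine Finset.sum_congr rfl fun ab _ => ?_
      split_ifs
      · rw [map_sub]; ring
      · simp
  simp only [e1, e2, Finset.sum_sub_distrib, key]

/-- The kernel of the projection. -/
def ker (y : S.Conf) (M : ℕ) (x x' : G) : ℝ :=
  ∑ i ∈ (S.fin_le M).toFinset, ∑ u, ∑ v,
    if S.ActiveCopy y i (x * (S.ρ i u)⁻¹) ∧ x * (S.ρ i u)⁻¹ * S.ρ i v = x' then (S.N i : ℝ)⁻¹
    else 0

theorem ker_symm (y : S.Conf) (M : ℕ) (x x' : G) : S.ker y M x x' = S.ker y M x' x := by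
  unfold ker
  refine Finset.sum_congr rfl fun i _ => ?_
  rw [Finset.sum_comm]
  refine Finset.sum_congr rfl fun u _ => Finset.sum_congr rfl fun v _ => ?_
  refine if_congr ?_ rfl rfl
  constructor
  · rintro ⟨h, rfl⟩
    simpa using h
  · rintro ⟨h, rfl⟩
    simpa using h

theorem projLe_eq_ker (y : S.Conf) (M : ℕ) (T : Finset G) (f : G → ℂ)
    (hf : ∀ x, x ∉ T → f x = 0) (x : G) :
    S.projLe y M f x = ∑ x' ∈ T, (S.ker y M x x' : ℂ) * f x' := by
  unfold projLe proj ker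
  push_cast
  simp only [Finset.sum_mul]
  rw [Finset.sum_comm]
  refine Finset.sum_congr rfl fun i _ => ?_
  rw [Finset.sum_comm (s := T)]
  refine Finset.sum_congr rfl fun u _ => ?_
  rw [Finset.sum_comm (s := T)]
  refine Finset.sum_congr rfl fun v _ => ?_
  rw [Finset.sum_eq_single (x * (S.ρ i u)⁻¹ * S.ρ i v)]
  · by_cases ha : S.ActiveCopy y i (x * (S.ρ i u)⁻¹) <;> simp [ha]
  · intro x' _ hx'
    rw [if_neg fun h => hx' h.2.symm]
    simp
  · intro h
    rw [hf _ h]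
    simp

theorem projLe_symm (y : S.Conf) (M : ℕ) (T : Finset G) (f f' : G → ℂ)
    (hf : ∀ x, x ∉ T → f x = 0) (hf' : ∀ x, x ∉ T → f' x = 0) :
    ∑ x ∈ T, starRingEnd ℂ (f' x) * S.projLe y M f x =
      ∑ x ∈ T, starRingEnd ℂ (S.projLe y M f' x) * f x := by
  simp only [S.projLe_eq_ker y M T f hf, S.projLe_eq_ker y M T f' hf', map_sum, map_mul,
    Complex.conj_ofReal, Finset.mul_sum, Finset.sum_mul]
  rw [Finset.sum_comm]
  refine Finset.sum_congr rfl fun x _ => Finset.sum_congr rfl fun x' _ => ?_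
  rw [S.ker_symm y M x' x]
  ring

/-- The energy. -/
def energy (y : S.Conf) (T : Finset G) (f : G → ℂ) : ℝ :=
  ∑ x ∈ T, (S.wt y x * ‖f x‖ ^ 2 + ∑ ab : Fin S.m × Fin S.m,
    if S.ActiveDart y x ab.1 ab.2 then ‖f x - f (S.tgt x ab)‖ ^ 2 else 0)

theorem energy_le (y : S.Conf) (T : Finset G) (f : G → ℂ) (hf : ∀ x, x ∉ T → f x = 0) :
    S.energy y T f ≤ 2 * (∑ x ∈ T, starRingEnd ℂ (f x) * S.lap y f x).re := by
  have h1 := S.sum_dart_symm y T (fun _ x' => ‖f x'‖ ^ 2)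
  have h2 : ∑ x ∈ T, ∑ ab : Fin S.m × Fin S.m,
      (if S.ActiveDart y x ab.1 ab.2 then ‖f (S.tgt x ab)‖ ^ 2 else 0) ≤
      ∑ x ∈ T, ∑ ab : Fin S.m × Fin S.m,
        (if S.ActiveDart y x ab.1 ab.2 then ‖f x‖ ^ 2 else 0) := by
    calc _ = ∑ x ∈ T, ∑ ab : Fin S.m × Fin S.m,
          (if S.ActiveDart y x ab.1 ab.2 ∧ S.tgt x ab ∈ T then ‖f (S.tgt x ab)‖ ^ 2 else 0) := by
          refine Finset.sum_congr rfl fun x _ => Finset.sum_congr rfl fun ab _ => ?_
          by_cases ht : S.tgt x ab ∈ T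
          · simp [ht]
          · simp [ht, hf _ ht]
      _ = _ := h1
      _ ≤ _ := by
          refine Finset.sum_le_sum fun x _ => Finset.sum_le_sum fun ab _ => ?_
          by_cases ht : S.tgt x ab ∈ T <;> by_cases ha : S.ActiveDart y x ab.1 ab.2 <;>
            simp [ht, ha]
  have h3 : ∀ x, S.wt y x * ‖f x‖ ^ 2 + (∑ ab : Fin S.m × Fin S.m,
      if S.ActiveDart y x ab.1 ab.2 then ‖f x - f (S.tgt x ab)‖ ^ 2 else 0) +
      (∑ ab : Fin S.m × Fin S.m, (if S.ActiveDart y x ab.1 ab.2 then ‖f x‖ ^ 2 else 0)) ≤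
      2 * (starRingEnd ℂ (f x) * S.lap y f x).re + ∑ ab : Fin S.m × Fin S.m,
        (if S.ActiveDart y x ab.1 ab.2 then ‖f (S.tgt x ab)‖ ^ 2 else 0) := by
    intro x
    rw [lap_eq, mul_add, Complex.add_re, Finset.mul_sum, Complex.re_sum, mul_add, Finset.mul_sum,
      add_assoc, add_assoc, ← Finset.sum_add_distrib, ← Finset.sum_add_distrib]
    refine add_le_add ?_ (Finset.sum_le_sum fun ab _ => ?_)
    · have : (starRingEnd ℂ (f x) * ((S.wt y x : ℂ) * f x)).re = S.wt y x * ‖f x‖ ^ 2 := by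
        rw [norm_sq_eq]; simp; ring
      rw [this]
      nlinarith [mul_nonneg (S.wt_nonneg y x) (sq_nonneg ‖f x‖)]
    · split_ifs
      · simp only [norm_sq_eq, Complex.sub_re, Complex.sub_im, Complex.mul_re, Complex.conj_re,
          Complex.conj_im]
        nlinarith
      · simp
  have h4 := Finset.sum_le_sum fun x (_ : x ∈ T) => h3 x
  rw [Finset.sum_add_distrib, Finset.sum_add_distrib (s := T) (f := fun x => 2 * _),
    ← Finset.mul_sum, ← Complex.re_sum] at h4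
  unfold energy
  linarith

/-- The Cheeger constant. -/
def cst : ℝ := 2 * (S.h + 1) * (2 * (S.h + 1) * Fintype.card (Fin S.m × Fin S.m) + 1)

theorem cst_pos : 0 < S.cst := by unfold cst; positivity

theorem part_le {y : S.Conf} (hy : S.Adm y) (T : Finset G) (F : G → ℂ)
    (hF : ∀ x, x ∉ T → F x = 0) (L : ℂ → ℝ) (hL : ∀ z w, |L z - L w| ≤ ‖z - w‖) (hL0 : L 0 = 0)
    (hhalf : ∀ i g, S.ActiveCopy y i g →
      2 * (Finset.univ.filter fun v => 0 < L (F (g * S.ρ i v))).card ≤ S.N i) :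
    ∑ x ∈ T, max (L (F x)) 0 ^ 2 ≤ S.cst * S.energy y T F := by
  set u : G → ℝ := fun x => max (L (F x)) 0 with hu
  have hu1 : ∀ z w, (max (L z) 0 - max (L w) 0) ^ 2 ≤ ‖z - w‖ ^ 2 := by
    intro z w
    rw [← sq_abs]
    exact pow_le_pow_left₀ (abs_nonneg _) ((abs_max_sub_max_le_abs _ _ _).trans (hL z w)) 2
  have hu2 : ∀ z, max (L z) 0 ^ 2 ≤ ‖z‖ ^ 2 := by
    intro z
    simpa [hL0] using hu1 z 0
  let T0 := T.filter fun x => 0 < L (F x)
  have hs : ∀ x, x ∉ T0 → u x = 0 := by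
    intro x hx
    by_cases hT : x ∈ T
    · exact max_eq_right (not_lt.1 fun h => hx (Finset.mem_filter.2 ⟨hT, h⟩))
    · simp [hu, hF x hT, hL0]
  have h1 := cheeger (fun x (ab : Fin S.m × Fin S.m) => S.ActiveDart y x ab.1 ab.2) S.tgt
    (S.wt y) (S.wt_nonneg y) (S.h + 1) (by positivity) T0 (by
      intro R hR
      have := iso hy R (fun i g h => le_trans (Nat.mul_le_mul_left _ (Finset.card_le_card
        fun v hv => Finset.mem_filter.2 ⟨Finset.mem_univ _,
          (Finset.mem_filter.1 (hR (Finset.mem_filter.1 hv).2)).2⟩)) (hhalf i g h))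
      unfold bd at this
      convert this) u hs
  have e1 : ∑ x ∈ T0, u x ^ 2 = ∑ x ∈ T, u x ^ 2 :=
    Finset.sum_subset (Finset.filter_subset _ _) fun x _ hx => by simp [hs x hx]
  rw [e1] at h1
  refine h1.trans (mul_le_mul_of_nonneg_left ?_ S.cst_pos.le)
  unfold energy
  refine le_trans (Finset.sum_le_sum fun x _ => ?_)
    (Finset.sum_le_sum_of_subset_of_nonneg (Finset.filter_subset _ _) fun x _ _ => ?_)
  · refine add_le_add (mul_le_mul_of_nonneg_left (hu2 _) (S.wt_nonneg y x))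
      (Finset.sum_le_sum fun ab _ => ?_)
    split_ifs
    · exact hu1 _ _
    · exact le_rfl
  · refine add_nonneg (mul_nonneg (S.wt_nonneg y x) (sq_nonneg _))
      (Finset.sum_nonneg fun ab _ => ?_)
    split_ifs
    · exact sq_nonneg _
    · exact le_rfl

theorem sq_eq_max (a : ℝ) : a ^ 2 = max a 0 ^ 2 + max (-a) 0 ^ 2 := by
  rcases le_total a 0 with h | h
  · rw [max_eq_right h, max_eq_left (by linarith)]; ring
  · rw [max_eq_left h, max_eq_right (by linarith)]; ring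

theorem norm_le_energy {y : S.Conf} (hy : S.Adm y) (T : Finset G) (F : G → ℂ)
    (hF : ∀ x, x ∉ T → F x = 0)
    (hhalf : ∀ i g, S.ActiveCopy y i g →
      (2 * (Finset.univ.filter fun v => 0 < (F (g * S.ρ i v)).re).card ≤ S.N i ∧
        2 * (Finset.univ.filter fun v => 0 < -(F (g * S.ρ i v)).re).card ≤ S.N i) ∧
      (2 * (Finset.univ.filter fun v => 0 < (F (g * S.ρ i v)).im).card ≤ S.N i ∧
        2 * (Finset.univ.filter fun v => 0 < -(F (g * S.ρ i v)).im).card ≤ S.N i)) :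
    ∑ x ∈ T, ‖F x‖ ^ 2 ≤ 4 * S.cst * S.energy y T F := by
  have h1 := S.part_le hy T F hF (fun z => z.re)
    (fun z w => by simpa using Complex.abs_re_le_norm (z - w)) rfl fun i g h => (hhalf i g h).1.1
  have h2 := S.part_le hy T F hF (fun z => -z.re)
    (fun z w => by
      rw [neg_sub_neg, abs_sub_comm]
      simpa using Complex.abs_re_le_norm (z - w)) (by simp) fun i g h => (hhalf i g h).1.2
  have h3 := S.part_le hy T F hF (fun z => z.im)
    (fun z w => by simpa using Complex.abs_im_le_norm (z - w)) rfl fun i g h => (hhalf i g h).2.1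
  have h4 := S.part_le hy T F hF (fun z => -z.im)
    (fun z w => by
      rw [neg_sub_neg, abs_sub_comm]
      simpa using Complex.abs_im_le_norm (z - w)) (by simp) fun i g h => (hhalf i g h).2.2
  have e : ∑ x ∈ T, ‖F x‖ ^ 2 = ∑ x ∈ T, max (F x).re 0 ^ 2 + ∑ x ∈ T, max (-(F x).re) 0 ^ 2 +
      (∑ x ∈ T, max (F x).im 0 ^ 2 + ∑ x ∈ T, max (-(F x).im) 0 ^ 2) := by
    simp only [← Finset.sum_add_distrib]
    refine Finset.sum_congr rfl fun x _ => ?_
    rw [norm_sq_eq, sq_eq_max (F x).re, sq_eq_max (F x).im]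
  rw [e]
  linarith

theorem exists_saturation (y : S.Conf) (T : Finset G) : ∃ T' : Finset G, ∀ x, x ∈ T' ↔
    x ∈ T ∨ ∃ x0 ∈ T, ∃ k, S.ac y x0 = some k ∧ S.ac y x = some k := by
  refine ⟨T ∪ T.biUnion fun x0 => (S.ac y x0).elim ∅
    fun k => Finset.univ.image fun u => k.2 * S.ρ k.1 u, fun x => ?_⟩
  rw [Finset.mem_union, Finset.mem_biUnion]
  refine or_congr Iff.rfl (exists_congr fun x0 => and_congr Iff.rfl ?_)
  rcases hx : S.ac y x0 with _ | ⟨i, g⟩
  · simp
  · simp only [Option.elim_some, Finset.mem_image, Finset.mem_univ, true_and, Option.some.injEq,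
      exists_eq_left']
    constructor
    · rintro ⟨u, rfl⟩
      exact (of_ac_eq_some hx).1.ac_eq u
    · intro h
      obtain ⟨-, u, rfl⟩ := of_ac_eq_some h
      exact ⟨u, rfl⟩

theorem copy_ineq {N M n : ℕ} (hN : 0 < N) (F : Fin N → ℂ) (c : ℂ)
    (hn : (Finset.univ.filter fun v => F v ≠ 0).card ≤ n) :
    ∑ u, (‖F u‖ ^ 2 -
      (starRingEnd ℂ (F u) * if N ≤ M then (N : ℂ)⁻¹ * ∑ v, F v else 0).re -
        n * ‖F u‖ ^ 2 / (M + 1)) ≤ ∑ u, ‖F u - c‖ ^ 2 := by
  have h1 := sum_normsq_sub_ge hN F c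
  have h2 := normsq_sum_le F n hn
  have hN' : (0 : ℝ) < N := by exact_mod_cast hN
  have h0 : 0 ≤ n * ∑ u, ‖F u‖ ^ 2 :=
    mul_nonneg (by positivity) (Finset.sum_nonneg fun _ _ => sq_nonneg _)
  rw [Finset.sum_sub_distrib, Finset.sum_sub_distrib, ← Finset.sum_div, ← Finset.mul_sum,
    ← Complex.re_sum, ← Finset.sum_mul, ← map_sum]
  split_ifs with hM
  · have e : (starRingEnd ℂ (∑ v, F v) * ((N : ℂ)⁻¹ * ∑ v, F v)).re = ‖∑ v, F v‖ ^ 2 / N := by
      rw [mul_left_comm, Complex.conj_mul', ← Complex.ofReal_natCast, ← Complex.ofReal_inv,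
        ← Complex.ofReal_pow, ← Complex.ofReal_mul, Complex.ofReal_re]
      ring
    rw [e]
    have : 0 ≤ (n * ∑ u, ‖F u‖ ^ 2) / (M + 1) := by positivity
    linarith
  · have h3 : (M : ℝ) + 1 ≤ N := by exact_mod_cast not_le.1 hM
    have h4 : ‖∑ v, F v‖ ^ 2 / N ≤ (n * ∑ u, ‖F u‖ ^ 2) / (M + 1) :=
      div_le_div₀ h0 h2 (by positivity) h3
    simp only [mul_zero, Complex.zero_re, sub_zero]
    linarith

theorem gap : ∃ ε : ℝ, 0 < ε ∧ ∀ y : S.Conf, S.Adm y → ∀ (M : ℕ) (T : Finset G) (f : G → ℂ),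
    (∀ x, x ∉ T → f x = 0) →
    ε * (∑ x ∈ T, ‖f x‖ ^ 2 - (∑ x ∈ T, starRingEnd ℂ (f x) * S.projLe y M f x).re -
        T.card * (∑ x ∈ T, ‖f x‖ ^ 2) / (M + 1)) ≤
      (∑ x ∈ T, starRingEnd ℂ (f x) * S.lap y f x).re := by
  have hC := S.cst_pos
  refine ⟨(8 * S.cst)⁻¹, by positivity, fun y hy M T f hf => ?_⟩
  obtain ⟨T', hT'⟩ := S.exists_saturation y T
  have hTT : T ⊆ T' := fun x hx => (hT' x).2 (Or.inl hx)
  have hf' : ∀ x, x ∉ T' → f x = 0 := fun x hx => hf x fun h => hx (hTT h)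
  choose m1 hm1 using fun k : S.ι × G => exists_median fun v => (f (k.2 * S.ρ k.1 v)).re
  choose m2 hm2 using fun k : S.ι × G => exists_median fun v => (f (k.2 * S.ρ k.1 v)).im
  let c : G → ℂ := fun x => (S.ac y x).elim 0 fun k => ⟨m1 k, m2 k⟩
  have hc : ∀ i g, S.ActiveCopy y i g → ∀ u, c (g * S.ρ i u) = ⟨m1 (i, g), m2 (i, g)⟩ := by
    intro i g h u
    simp only [c, h.ac_eq u, Option.elim_some]
  have hc0 : ∀ x, S.ac y x = none → c x = 0 := by
    intro x hx
    simp only [c, hx, Option.elim_none]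
  have hmed : ∀ (N : ℕ) (μ : ℝ), 0 < N →
      2 * (Finset.univ.filter fun _ : Fin N => μ < 0).card ≤ N →
      2 * (Finset.univ.filter fun _ : Fin N => 0 < μ).card ≤ N → μ = 0 := by
    intro N μ hN h1 h2
    rcases lt_trichotomy μ 0 with h | h | h
    · simp [h] at h1; omega
    · exact h
    · simp [h] at h2; omega
  have hF : ∀ x, x ∉ T' → f x - c x = 0 := by
    intro x hx
    rw [hf' x hx]
    rcases hax : S.ac y x with _ | ⟨i, g⟩
    · rw [hc0 x hax, sub_zero]
    · obtain ⟨h, u, rfl⟩ := of_ac_eq_some hax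
      have hz : ∀ v, f (g * S.ρ i v) = 0 := fun v => hf _ fun hv =>
        hx ((hT' _).2 (Or.inr ⟨_, hv, _, h.ac_eq v, hax⟩))
      have h1 := hm1 (i, g)
      have h2 := hm2 (i, g)
      simp only [hz, Complex.zero_re, Complex.zero_im] at h1 h2
      rw [hc i g h, hmed _ _ (S.N_pos i) h1.1 h1.2, hmed _ _ (S.N_pos i) h2.1 h2.2]
      simp [Complex.ext_iff]
  have h1 := S.norm_le_energy hy T' (fun x => f x - c x) hF (by
    intro i g h
    simp only [hc i g h, Complex.sub_re, Complex.sub_im, sub_pos, neg_sub]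
    exact ⟨hm1 (i, g), hm2 (i, g)⟩)
  have e1 : S.energy y T' (fun x => f x - c x) = S.energy y T' f := by
    unfold energy
    refine Finset.sum_congr rfl fun x _ => ?_
    congr 1
    · rcases hax : S.ac y x with _ | k
      · simp only [hc0 x hax, sub_zero]
      · simp only [S.wt_eq_zero hax, zero_mul]
    · refine Finset.sum_congr rfl fun ab _ => ?_
      split_ifs with ha
      · have : c (S.tgt x ab) = c x := by simp only [c, ac_tgt (a := ab.1) (b := ab.2) ha]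
        simp only [this, sub_sub_sub_cancel_right]
      · rfl
  have h2 := S.energy_le y T' f hf'
  have h3 : ∑ x ∈ T', (‖f x‖ ^ 2 - (starRingEnd ℂ (f x) * S.projLe y M f x).re -
      T.card * ‖f x‖ ^ 2 / (M + 1)) ≤ ∑ x ∈ T', ‖f x - c x‖ ^ 2 := by
    refine sum_le_of_fiber T' (S.ac y) _ _ ?_
    rintro (_ | ⟨i, g⟩) F hFi
    · refine Finset.sum_le_sum fun x hx => ?_
      have hx' := ((hFi x).1 hx).2
      rw [projLe_none hx', hc0 x hx']
      have : 0 ≤ T.card * ‖f x‖ ^ 2 / (M + 1) := by positivity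
      simp only [mul_zero, Complex.zero_re, sub_zero]
      linarith
    · rcases F.eq_empty_or_nonempty with rfl | ⟨x1, hx1⟩
      · simp
      obtain ⟨hx1T, hx1a⟩ := (hFi x1).1 hx1
      have h := (of_ac_eq_some hx1a).1
      have hall : ∀ u, g * S.ρ i u ∈ T' := by
        intro u
        rcases (hT' x1).1 hx1T with h0 | ⟨x0, hx0, k, hk, hk'⟩
        · exact (hT' _).2 (Or.inr ⟨x1, h0, _, hx1a, h.ac_eq u⟩)
        · exact (hT' _).2 (Or.inr ⟨x0, hx0, k, hk, by rw [← hk', hx1a, h.ac_eq u]⟩)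
      rw [sum_fiber_ac h hFi, sum_fiber_ac h hFi, Finset.filter_true_of_mem fun u _ => hall u]
      simp only [h.projLe_eq, hc i g h]
      refine copy_ineq (S.N_pos i) (fun v => f (g * S.ρ i v)) _ ?_
      refine Finset.card_le_card_of_injOn (fun v => g * S.ρ i v) ?_ ?_
      · intro v hv
        simp only [Finset.coe_filter, Finset.mem_univ, true_and, Set.mem_ofPred_eq] at hv
        by_contra hT
        exact hv (hf _ hT)
      · intro u _ v _ huv
        exact S.inj i (mul_left_cancel huv)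
  have e2 : ∑ x ∈ T, ‖f x‖ ^ 2 = ∑ x ∈ T', ‖f x‖ ^ 2 :=
    Finset.sum_subset hTT fun x _ hx => by simp [hf x hx]
  have e3 : ∑ x ∈ T, starRingEnd ℂ (f x) * S.projLe y M f x =
      ∑ x ∈ T', starRingEnd ℂ (f x) * S.projLe y M f x :=
    Finset.sum_subset hTT fun x _ hx => by simp [hf x hx]
  have e4 : ∑ x ∈ T, starRingEnd ℂ (f x) * S.lap y f x =
      ∑ x ∈ T', starRingEnd ℂ (f x) * S.lap y f x :=
    Finset.sum_subset hTT fun x _ hx => by simp [hf x hx]
  rw [Finset.sum_sub_distrib, Finset.sum_sub_distrib, ← Finset.sum_div, ← Finset.mul_sum,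
    ← Complex.re_sum] at h3
  rw [e2, e3, e4, inv_mul_le_iff₀ (by positivity)]
  rw [e1] at h1
  nlinarith

end Vale.Agent.P089.Setup
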