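import Mathlib

/-! Abstract lemmas for task E2: co-area, Cheeger, medians. -/

noncomputable section

open Classical

namespace Vale.Agent.P089

theorem sum_le_of_fiber {V κ : Type} (R : Finset V) (φ : V → κ) (a b : V → ℝ)
    (h : ∀ k (F : Finset V), (∀ x, x ∈ F ↔ x ∈ R ∧ φ x = k) → ∑ x ∈ F, a x ≤ ∑ x ∈ F, b x) :
    ∑ x ∈ R, a x ≤ ∑ x ∈ R, b x := by
  rw [← Finset.sum_fiberwise_of_maps_to (t := R.image φ) (g := φ)
      (fun x hx => Finset.mem_image_of_mem φ hx) a,
    ← Finset.sum_fiberwise_of_maps_to (t := R.image φ) (g := φ)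
      (fun x hx => Finset.mem_image_of_mem φ hx) b]
  exact Finset.sum_le_sum fun k _ => h k _ fun x => Finset.mem_filter

theorem coarea {V J : Type} [Fintype J] (act : V → J → Prop) (tgt : V → J → V) (w : V → ℝ)
    (H : ℝ) (hH : 0 ≤ H) (T : Finset V)
    (hiso : ∀ R ⊆ T, (R.card : ℝ) ≤
      H * ∑ x ∈ R, (w x + ∑ j, if act x j ∧ tgt x j ∉ R then (1 : ℝ) else 0))
    (g : V → ℝ) (hg : ∀ x, 0 ≤ g x) (hs : ∀ x, x ∉ T → g x = 0) :
    ∑ x ∈ T, g x ≤
      H * ∑ x ∈ T, (w x * g x + ∑ j, if act x j then max (g x - g (tgt x j)) 0 else 0) := by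
  induction T using Finset.strongInduction generalizing g with
  | H T ih =>
    rcases T.eq_empty_or_nonempty with rfl | hne
    · simp
    obtain ⟨x0, hx0, hmin⟩ := T.exists_min_image g hne
    set μ := g x0 with hμ
    have hμ0 : 0 ≤ μ := hg x0
    let g' : V → ℝ := fun x => if x ∈ T then g x - μ else 0
    have hg' : ∀ x, 0 ≤ g' x := by
      intro x
      by_cases hx : x ∈ T
      · simp only [g', hx, if_true]; linarith [hmin x hx]
      · simp [g', hx]
    have hg0 : g' x0 = 0 := by simp [g', hx0, hμ]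
    have h1 := ih (T.erase x0) (Finset.erase_ssubset hx0)
      (fun R hR => hiso R (hR.trans (Finset.erase_subset _ _))) g' hg' (by
        intro x hx
        by_cases hxT : x ∈ T
        · have : x = x0 := by
            by_contra hne
            exact hx (Finset.mem_erase.2 ⟨hne, hxT⟩)
          rw [this, hg0]
        · simp [g', hxT])
    rw [Finset.sum_erase _ hg0, Finset.sum_erase] at h1
    swap
    · rw [hg0, mul_zero, zero_add]
      refine Finset.sum_eq_zero fun j _ => ?_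
      split_ifs
      · exact max_eq_right (by linarith [hg' (tgt x0 j)])
      · rfl
    have h2 := hiso T subset_rfl
    have e1 : ∑ x ∈ T, g x = μ * T.card + ∑ x ∈ T, g' x := by
      rw [mul_comm, ← nsmul_eq_mul, ← Finset.sum_const, ← Finset.sum_add_distrib]
      refine Finset.sum_congr rfl fun x hx => ?_
      simp [g', hx]
    have e2 : μ * ∑ x ∈ T, (w x + ∑ j, if act x j ∧ tgt x j ∉ T then (1 : ℝ) else 0) +
        ∑ x ∈ T, (w x * g' x + ∑ j, if act x j then max (g' x - g' (tgt x j)) 0 else 0) ≤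
        ∑ x ∈ T, (w x * g x + ∑ j, if act x j then max (g x - g (tgt x j)) 0 else 0) := by
      rw [Finset.mul_sum, ← Finset.sum_add_distrib]
      refine Finset.sum_le_sum fun x hx => ?_
      have e3 : g x = μ + g' x := by simp [g', hx]
      have e4 : μ * (∑ j, if act x j ∧ tgt x j ∉ T then (1 : ℝ) else 0) +
          (∑ j, if act x j then max (g' x - g' (tgt x j)) 0 else 0) ≤
          ∑ j, if act x j then max (g x - g (tgt x j)) 0 else 0 := by
        rw [Finset.mul_sum, ← Finset.sum_add_distrib]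
        refine Finset.sum_le_sum fun j _ => ?_
        by_cases ha : act x j
        · by_cases ht : tgt x j ∈ T
          · have : g x - g (tgt x j) = g' x - g' (tgt x j) := by simp [g', hx, ht]
            simp [ha, ht, this]
          · have h5 : g' (tgt x j) = 0 := by simp [g', ht]
            simp only [ha, ht, not_false_eq_true, and_self, if_true, h5, hs _ ht, sub_zero,
              mul_one]
            rw [max_eq_left (hg' x), max_eq_left (hg x), e3]
        · simp [ha]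
      rw [mul_add]
      have : w x * g x = μ * w x + w x * g' x := by rw [e3]; ring
      linarith
    have h3 := mul_le_mul_of_nonneg_left h2 hμ0
    have h4 := mul_le_mul_of_nonneg_left e2 hH
    rw [e1]
    nlinarith

theorem max_sq_sub_le (a b K : ℝ) (hK : 0 < K) :
    max (a ^ 2 - b ^ 2) 0 ≤ K * (a - b) ^ 2 + a ^ 2 / K := by
  have h0 : 0 ≤ K * (a - b) ^ 2 + a ^ 2 / K := by positivity
  refine max_le ?_ h0
  have h1 : 0 ≤ (K * (a - b) - a) ^ 2 / K := by positivity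
  have h2 : (K * (a - b) - a) ^ 2 / K = K * (a - b) ^ 2 - 2 * (a - b) * a + a ^ 2 / K := by
    field_simp
    ring
  nlinarith [sq_nonneg (a - b)]

theorem cheeger {V J : Type} [Fintype J] (act : V → J → Prop) (tgt : V → J → V) (w : V → ℝ)
    (hw : ∀ x, 0 ≤ w x) (H : ℝ) (hH : 0 ≤ H) (T : Finset V)
    (hiso : ∀ R ⊆ T, (R.card : ℝ) ≤
      H * ∑ x ∈ R, (w x + ∑ j, if act x j ∧ tgt x j ∉ R then (1 : ℝ) else 0))
    (u : V → ℝ) (hs : ∀ x, x ∉ T → u x = 0) :
    ∑ x ∈ T, u x ^ 2 ≤ 2 * H * (2 * H * Fintype.card J + 1) *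
      ∑ x ∈ T, (w x * u x ^ 2 + ∑ j, if act x j then (u x - u (tgt x j)) ^ 2 else 0) := by
  set K : ℝ := 2 * H * Fintype.card J + 1 with hKdef
  have hJ : (0 : ℝ) ≤ Fintype.card J := by positivity
  have hK1 : 1 ≤ K := by rw [hKdef]; nlinarith [mul_nonneg hH hJ]
  have hK : 0 < K := by linarith
  have h1 := coarea act tgt w H hH T hiso (fun x => u x ^ 2) (fun x => sq_nonneg _)
    (fun x hx => by simp [hs x hx])
  have h2 : ∑ x ∈ T, (w x * u x ^ 2 +
      ∑ j, if act x j then max (u x ^ 2 - u (tgt x j) ^ 2) 0 else 0) ≤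
      K * ∑ x ∈ T, (w x * u x ^ 2 + ∑ j, if act x j then (u x - u (tgt x j)) ^ 2 else 0) +
        Fintype.card J / K * ∑ x ∈ T, u x ^ 2 := by
    rw [Finset.mul_sum, Finset.mul_sum, ← Finset.sum_add_distrib]
    refine Finset.sum_le_sum fun x _ => ?_
    have h3 : (∑ j, if act x j then max (u x ^ 2 - u (tgt x j) ^ 2) 0 else 0) ≤
        ∑ j, (K * (if act x j then (u x - u (tgt x j)) ^ 2 else 0) + u x ^ 2 / K) := by
      refine Finset.sum_le_sum fun j _ => ?_
      split_ifs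
      · exact max_sq_sub_le _ _ _ hK
      · positivity
    rw [Finset.sum_add_distrib, ← Finset.mul_sum, Finset.sum_const, Finset.card_univ,
      nsmul_eq_mul] at h3
    have h4 : w x * u x ^ 2 ≤ K * (w x * u x ^ 2) :=
      le_mul_of_one_le_left (mul_nonneg (hw x) (sq_nonneg _)) hK1
    have h5 : (Fintype.card J : ℝ) / K * u x ^ 2 = Fintype.card J * (u x ^ 2 / K) := by ring
    rw [mul_add, h5]
    linarith
  have h6 : H * (Fintype.card J / K) ≤ 1 / 2 := by
    rw [← mul_div_assoc, div_le_iff₀ hK, hKdef]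
    linarith
  have h7 : 0 ≤ ∑ x ∈ T, u x ^ 2 := Finset.sum_nonneg fun x _ => sq_nonneg _
  have h8 := mul_le_mul_of_nonneg_left h2 hH
  have h9 := mul_le_mul_of_nonneg_right h6 h7
  nlinarith

theorem exists_median {N : ℕ} (f : Fin N → ℝ) :
    ∃ μ : ℝ, 2 * (Finset.univ.filter fun v => μ < f v).card ≤ N ∧
      2 * (Finset.univ.filter fun v => f v < μ).card ≤ N := by
  rcases Nat.eq_zero_or_pos N with rfl | hN
  · exact ⟨0, by simp, by simp⟩
  have hne : (Finset.univ : Finset (Fin N)).Nonempty := ⟨⟨0, hN⟩, Finset.mem_univ _⟩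
  obtain ⟨vm, -, hvm⟩ := Finset.univ.exists_max_image f hne
  have hA : (Finset.univ.filter fun v : Fin N =>
      2 * (Finset.univ.filter fun w => f v < f w).card ≤ N).Nonempty := by
    refine ⟨vm, Finset.mem_filter.2 ⟨Finset.mem_univ _, ?_⟩⟩
    rw [Finset.filter_false_of_mem fun w hw => not_lt.2 (hvm w hw)]
    simp
  obtain ⟨v0, hv0, hmin⟩ := Finset.exists_min_image _ f hA
  refine ⟨f v0, (Finset.mem_filter.1 hv0).2, ?_⟩
  by_contra hcon
  push Not at hcon
  have hB : (Finset.univ.filter fun v => f v < f v0).Nonempty := by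
    rw [← Finset.card_pos]; omega
  obtain ⟨v1, hv1, hmax⟩ := Finset.exists_max_image _ f hB
  have hlt := (Finset.mem_filter.1 hv1).2
  have hsub : (Finset.univ.filter fun w => f v1 < f w) ⊆
      Finset.univ.filter fun w => ¬ f w < f v0 := by
    intro w hw
    refine Finset.mem_filter.2 ⟨Finset.mem_univ _, fun h => ?_⟩
    have := hmax w (Finset.mem_filter.2 ⟨Finset.mem_univ _, h⟩)
    exact absurd (Finset.mem_filter.1 hw).2 (not_lt.2 this)
  have hc := Finset.card_filter_add_card_filter_not (s := (Finset.univ : Finset (Fin N)))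
    (fun w => f w < f v0)
  have hc2 := Finset.card_le_card hsub
  rw [Finset.card_univ, Fintype.card_fin] at hc
  have := hmin v1 (Finset.mem_filter.2 ⟨Finset.mem_univ _, by omega⟩)
  linarith

theorem sum_sq_sub_ge {N : ℕ} (hN : 0 < N) (a : Fin N → ℝ) (c : ℝ) :
    ∑ v, a v ^ 2 - (∑ v, a v) ^ 2 / N ≤ ∑ v, (a v - c) ^ 2 := by
  have hN' : (0 : ℝ) < N := by exact_mod_cast hN
  have e1 : ∑ v, (a v - c) ^ 2 = ∑ v, a v ^ 2 - 2 * c * ∑ v, a v + N * c ^ 2 := by
    rw [Finset.mul_sum, ← Finset.sum_sub_distrib]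
    have : (N : ℝ) * c ^ 2 = ∑ _v : Fin N, c ^ 2 := by simp
    rw [this, ← Finset.sum_add_distrib]
    exact Finset.sum_congr rfl fun v _ => by ring
  have h1 : 0 ≤ (N * c - ∑ v, a v) ^ 2 / N := by positivity
  have h2 : (N * c - ∑ v, a v) ^ 2 / N =
      N * c ^ 2 - 2 * c * ∑ v, a v + (∑ v, a v) ^ 2 / N := by
    field_simp
    ring
  rw [e1]
  linarith

theorem norm_sq_eq (z : ℂ) : ‖z‖ ^ 2 = z.re ^ 2 + z.im ^ 2 := by
  rw [Complex.sq_norm, Complex.normSq_apply]; ring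

theorem sum_normsq_sub_ge {N : ℕ} (hN : 0 < N) (F : Fin N → ℂ) (c : ℂ) :
    ∑ v, ‖F v‖ ^ 2 - ‖∑ v, F v‖ ^ 2 / N ≤ ∑ v, ‖F v - c‖ ^ 2 := by
  have h1 := sum_sq_sub_ge hN (fun v => (F v).re) c.re
  have h2 := sum_sq_sub_ge hN (fun v => (F v).im) c.im
  simp only [norm_sq_eq, Finset.sum_add_distrib, Complex.sub_re, Complex.sub_im, Complex.re_sum,
    Complex.im_sum, add_div]
  linarith

theorem normsq_sum_le {N : ℕ} (F : Fin N → ℂ) (n : ℕ)
    (hn : (Finset.univ.filter fun v => F v ≠ 0).card ≤ n) :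
    ‖∑ v, F v‖ ^ 2 ≤ n * ∑ v, ‖F v‖ ^ 2 := by
  set A := Finset.univ.filter fun v => F v ≠ 0
  have e1 : ∑ v, F v = ∑ v ∈ A, F v := (Finset.sum_filter_ne_zero _).symm
  have h1 : ‖∑ v, F v‖ ≤ ∑ v ∈ A, ‖F v‖ := e1 ▸ norm_sum_le _ _
  have h2 : (∑ v ∈ A, ‖F v‖) ^ 2 ≤ A.card * ∑ v ∈ A, ‖F v‖ ^ 2 := sq_sum_le_card_mul_sum_sq
  have h3 : ∑ v ∈ A, ‖F v‖ ^ 2 ≤ ∑ v, ‖F v‖ ^ 2 :=
    Finset.sum_le_sum_of_subset_of_nonneg (Finset.subset_univ _) fun _ _ _ => sq_nonneg _
  have h4 : (A.card : ℝ) ≤ n := by exact_mod_cast hn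
  have h5 : 0 ≤ ∑ v ∈ A, ‖F v‖ ^ 2 := Finset.sum_nonneg fun _ _ => sq_nonneg _
  calc ‖∑ v, F v‖ ^ 2 ≤ (∑ v ∈ A, ‖F v‖) ^ 2 := pow_le_pow_left₀ (norm_nonneg _) h1 2
    _ ≤ A.card * ∑ v ∈ A, ‖F v‖ ^ 2 := h2
    _ ≤ n * ∑ v, ‖F v‖ ^ 2 := mul_le_mul h4 h3 h5 (by positivity)

end Vale.Agent.P089
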