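import Vale.Agent.P089.SetupDefs
import Vale.Agent.P089.IsoAux1

/-! Task E2: structure of active darts and active copies. -/

noncomputable section

open Classical

namespace Vale.Agent.P089

theorem letter_swap {m : ℕ} {a b : Fin m} (h : a ≠ b) :
    letter b a = ((letter a b).1, !(letter a b).2) := by
  unfold letter
  rcases lt_or_gt_of_ne h with h1 | h1
  · simp [h1, not_lt.2 h1.le]
  · simp [h1, not_lt.2 h1.le]

theorem letter_inj {m : ℕ} {a b a' b' : Fin m} (h : letter a b = letter a' b') :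
    a = a' ∧ b = b' := by
  unfold letter at h
  split_ifs at h <;> simp_all

theorem mem_nbr {V : Type} [Fintype V] {X : SimpleGraph V} {u v : V} :
    v ∈ nbr X u ↔ X.Adj u v := by simp [nbr]

theorem darts_eq_sum {V : Type} (X : SimpleGraph V) (R R' : Finset V) :
    darts X R R' = ∑ u ∈ R, (R'.filter fun v => X.Adj u v).card := by
  unfold darts
  rw [Finset.card_filter, Finset.sum_product]
  exact Finset.sum_congr rfl fun u _ => (Finset.card_filter _ _).symm

namespace Setup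

variable {G : Type} [Group G] (S : Setup G)

/-- The endpoint of a dart. -/
def tgt (x : G) (ab : Fin S.m × Fin S.m) : G := x * S.gen (letter ab.1 ab.2)

theorem gen_mul_flip (s : (Fin S.m × Fin S.m) × Bool) : S.gen s * S.gen (s.1, !s.2) = 1 := by
  rw [S.gen_inv s.1 s.2]; simp

variable {S}

theorem HasTy.unique {y : S.Conf} {x : G} {t t' : Ty S.m} (h : S.HasTy y x t)
    (h' : S.HasTy y x t') : t = t' := by
  have := h.1.symm.trans h'.1
  by_contra hne
  have h2 := congrFun this t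
  rw [Pi.single_eq_same, Pi.single_eq_of_ne hne] at h2
  exact one_ne_zero h2

theorem Claims.ne {y : S.Conf} {x : G} {a b : Fin S.m} (h : S.Claims y x a b) : a ≠ b := by
  obtain ⟨A, hA, hb⟩ := h
  rintro rfl
  exact hA.2.1 hb

theorem tgt_tgt {x : G} {a b : Fin S.m} (h : a ≠ b) : S.tgt (S.tgt x (a, b)) (b, a) = x := by
  simp only [tgt]
  rw [letter_swap h, mul_assoc, gen_mul_flip, mul_one]

theorem ActiveDart.symm {y : S.Conf} {x : G} {a b : Fin S.m} (h : S.ActiveDart y x a b) :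
    S.ActiveDart y (S.tgt x (a, b)) b a := by
  refine ⟨h.2, ?_⟩
  have := tgt_tgt (S := S) (x := x) h.1.ne
  simp only [tgt] at this ⊢
  rw [this]
  exact h.1

theorem ActiveCopy.hasTy {y : S.Conf} {i : S.ι} {g : G} (h : S.ActiveCopy y i g)
    (u : Fin (S.N i)) : S.HasTy y (g * S.ρ i u) (tyOf (S.X i) (S.c i) u) := by
  refine ⟨congrFun h u, ?_, ?_⟩
  · simp only [tyOf, Finset.mem_image, mem_nbr, not_exists, not_and]
    intro v hv
    exact (S.c_adj i u v hv).symm
  · simp only [tyOf]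
    rw [Finset.card_image_of_injOn]
    · exact S.deg_ge i u
    · intro v hv w hw hvw
      exact S.c_nbr i u v w (mem_nbr.1 hv) (mem_nbr.1 hw) hvw

theorem ActiveCopy.claims_iff {y : S.Conf} {i : S.ι} {g : G} (h : S.ActiveCopy y i g)
    (u : Fin (S.N i)) (a b : Fin S.m) : S.Claims y (g * S.ρ i u) a b ↔
      a = S.c i u ∧ ∃ v, (S.X i).Adj u v ∧ b = S.c i v := by
  constructor
  · rintro ⟨A, hA, hb⟩
    have := hA.unique (h.hasTy u)
    simp only [tyOf, Prod.mk.injEq] at this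
    obtain ⟨h1, h2⟩ := this
    rw [h2, Finset.mem_image] at hb
    obtain ⟨v, hv, rfl⟩ := hb
    exact ⟨h1, v, mem_nbr.1 hv, rfl⟩
  · rintro ⟨rfl, v, hv, rfl⟩
    exact ⟨_, h.hasTy u, Finset.mem_image_of_mem _ (mem_nbr.2 hv)⟩

theorem tgt_adj {i : S.ι} (g : G) {u v : Fin (S.N i)} (h : (S.X i).Adj u v) :
    S.tgt (g * S.ρ i u) (S.c i u, S.c i v) = g * S.ρ i v := by
  simp only [tgt]
  rw [S.ρ_step i u v h, mul_assoc]

theorem ActiveCopy.active_of_adj {y : S.Conf} {i : S.ι} {g : G} (h : S.ActiveCopy y i g)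
    {u v : Fin (S.N i)} (huv : (S.X i).Adj u v) :
    S.ActiveDart y (g * S.ρ i u) (S.c i u) (S.c i v) := by
  refine ⟨(h.claims_iff u _ _).2 ⟨rfl, v, huv, rfl⟩, ?_⟩
  have := tgt_adj g huv
  simp only [tgt] at this
  rw [this]
  exact (h.claims_iff v _ _).2 ⟨rfl, u, huv.symm, rfl⟩

theorem ActiveCopy.of_claims {y : S.Conf} {i : S.ι} {g : G} (h : S.ActiveCopy y i g)
    {u : Fin (S.N i)} {a b : Fin S.m} (hc : S.Claims y (g * S.ρ i u) a b) :
    S.ActiveDart y (g * S.ρ i u) a b ∧ ∃ v, S.tgt (g * S.ρ i u) (a, b) = g * S.ρ i v := by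
  obtain ⟨rfl, v, hv, rfl⟩ := (h.claims_iff u a b).1 hc
  exact ⟨h.active_of_adj hv, v, tgt_adj g hv⟩

theorem ActiveCopy.cover {y : S.Conf} {i i' : S.ι} {g g' : G} (h : S.ActiveCopy y i g)
    (h' : S.ActiveCopy y i' g') {u : Fin (S.N i)} {u' : Fin (S.N i')}
    (he : g * S.ρ i u = g' * S.ρ i' u') (v : Fin (S.N i)) :
    ∃ v', g * S.ρ i v = g' * S.ρ i' v' := by
  obtain ⟨p⟩ := S.conn i u v
  induction p generalizing u' with
  | nil => exact ⟨u', he⟩
  | @cons a b c hab p ih =>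
    have h1 := (h.active_of_adj hab).1
    have h2 := tgt_adj g hab
    rw [he] at h1 h2
    obtain ⟨w, hw⟩ := (h'.of_claims h1).2
    exact ih (h2.symm.trans hw)

theorem ActiveCopy.unique {y : S.Conf} {i i' : S.ι} {g g' : G} (h : S.ActiveCopy y i g)
    (h' : S.ActiveCopy y i' g') {u : Fin (S.N i)} {u' : Fin (S.N i')}
    (he : g * S.ρ i u = g' * S.ρ i' u') : (i, g) = (i', g') := by
  by_contra hne
  rcases le_total (S.lev i' g') (S.lev i g) with hl | hl
  · obtain ⟨v, hv⟩ := S.exposed i g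
    obtain ⟨v', hv'⟩ := h.cover h' he v
    exact hv (S.meet i i' g g' v v' hv' hne hl)
  · obtain ⟨v, hv⟩ := S.exposed i' g'
    obtain ⟨v', hv'⟩ := h'.cover h he.symm v
    exact hv (S.meet i' i g' g v v' hv' (Ne.symm hne) hl)

variable (S)

/-- The active copy containing `x`, if any. -/
def ac (y : S.Conf) (x : G) : Option (S.ι × G) :=
  if h : ∃ k : S.ι × G, S.ActiveCopy y k.1 k.2 ∧ ∃ u, x = k.2 * S.ρ k.1 u then some h.choose
  else none

variable {S}

theorem ActiveCopy.ac_eq {y : S.Conf} {i : S.ι} {g : G} (h : S.ActiveCopy y i g)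
    (u : Fin (S.N i)) : S.ac y (g * S.ρ i u) = some (i, g) := by
  have hex : ∃ k : S.ι × G, S.ActiveCopy y k.1 k.2 ∧ ∃ u', g * S.ρ i u = k.2 * S.ρ k.1 u' :=
    ⟨(i, g), h, u, rfl⟩
  unfold ac
  rw [dif_pos hex]
  obtain ⟨h1, u', hu'⟩ := hex.choose_spec
  exact congrArg some (h.unique h1 hu').symm

theorem of_ac_eq_some {y : S.Conf} {x : G} {i : S.ι} {g : G} (h : S.ac y x = some (i, g)) :
    S.ActiveCopy y i g ∧ ∃ u, x = g * S.ρ i u := by
  unfold ac at h
  split_ifs at h with hex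
  have h1 := hex.choose_spec
  rw [Option.some.inj h] at h1
  exact h1

theorem ac_tgt {y : S.Conf} {x : G} {a b : Fin S.m} (h : S.ActiveDart y x a b) :
    S.ac y (S.tgt x (a, b)) = S.ac y x := by
  have key : ∀ {x : G} {a b : Fin S.m} {k : S.ι × G}, S.ActiveDart y x a b → S.ac y x = some k →
      S.ac y (S.tgt x (a, b)) = some k := by
    rintro x a b ⟨i, g⟩ h hk
    obtain ⟨h1, u, rfl⟩ := of_ac_eq_some hk
    obtain ⟨v, hv⟩ := (h1.of_claims h.1).2
    rw [hv, h1.ac_eq]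
  rcases hx : S.ac y x with _ | k
  · rcases ht : S.ac y (S.tgt x (a, b)) with _ | k
    · rfl
    · have := key h.symm ht
      rw [tgt_tgt h.1.ne, hx] at this
      exact this.symm
  · exact key h hx

theorem sum_fiber_ac {M : Type} [AddCommMonoid M] {y : S.Conf} {i : S.ι} {g : G}
    (h : S.ActiveCopy y i g) {R F : Finset G} (hF : ∀ x, x ∈ F ↔ x ∈ R ∧ S.ac y x = some (i, g))
    (φ : G → M) :
    ∑ x ∈ F, φ x =
      ∑ u ∈ Finset.univ.filter (fun u => g * S.ρ i u ∈ R), φ (g * S.ρ i u) := by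
  symm
  refine Finset.sum_bij (fun u _ => g * S.ρ i u) ?_ ?_ ?_ ?_
  · intro u hu
    exact (hF _).2 ⟨(Finset.mem_filter.1 hu).2, h.ac_eq u⟩
  · intro u _ v _ huv
    exact S.inj i (mul_left_cancel huv)
  · intro x hx
    obtain ⟨hR, hx⟩ := (hF _).1 hx
    obtain ⟨-, u, rfl⟩ := of_ac_eq_some hx
    exact ⟨u, Finset.mem_filter.2 ⟨Finset.mem_univ _, hR⟩, rfl⟩
  · intro u _
    rfl

theorem projLe_none {y : S.Conf} {x : G} (h : S.ac y x = none) (M : ℕ) (f : G → ℂ) :
    S.projLe y M f x = 0 := by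
  refine Finset.sum_eq_zero fun i _ => Finset.sum_eq_zero fun u _ =>
    Finset.sum_eq_zero fun v _ => if_neg fun ha => ?_
  have := ha.ac_eq u
  rw [inv_mul_cancel_right, h] at this
  exact absurd this (by simp)

theorem ActiveCopy.projLe_eq {y : S.Conf} {i : S.ι} {g : G} (h : S.ActiveCopy y i g)
    (u : Fin (S.N i)) (M : ℕ) (f : G → ℂ) :
    S.projLe y M f (g * S.ρ i u) =
      if S.N i ≤ M then (S.N i : ℂ)⁻¹ * ∑ v, f (g * S.ρ i v) else 0 := by
  have h0 : ∀ j, j ≠ i → S.proj y j f (g * S.ρ i u) = 0 := by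
    intro j hj
    refine Finset.sum_eq_zero fun u' _ => Finset.sum_eq_zero fun v _ => if_neg fun ha => ?_
    have := ha.unique h (u := u') (u' := u) (by rw [inv_mul_cancel_right])
    exact hj (Prod.mk.inj this).1
  have h1 : S.proj y i f (g * S.ρ i u) = (S.N i : ℂ)⁻¹ * ∑ v, f (g * S.ρ i v) := by
    unfold proj
    rw [Finset.sum_eq_single u]
    · simp only [mul_inv_cancel_right, h, if_true, Finset.mul_sum]
    · intro u' _ hu'
      refine Finset.sum_eq_zero fun v _ => if_neg fun ha => hu' ?_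
      have := ha.unique h (u := u') (u' := u) (by rw [inv_mul_cancel_right])
      have h2 := (Prod.mk.inj this).2
      rw [mul_assoc, mul_eq_left, mul_inv_eq_one] at h2
      exact (S.inj i h2).symm
    · simp
  unfold projLe
  split_ifs with hM
  · rw [Finset.sum_eq_single i (fun j _ hj => h0 j hj), h1]
    intro hi
    exact absurd (by simpa using hM) hi
  · refine Finset.sum_eq_zero fun j hj => h0 j ?_
    rintro rfl
    exact hM (by simpa using hj)

theorem projLe_congr {y : S.Conf} {x x' : G} (h : S.ac y x = S.ac y x') (M : ℕ) (f : G → ℂ) :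
    S.projLe y M f x = S.projLe y M f x' := by
  rcases hx : S.ac y x with _ | ⟨i, g⟩
  · rw [projLe_none hx, projLe_none (h ▸ hx)]
  · obtain ⟨h1, u, rfl⟩ := of_ac_eq_some hx
    obtain ⟨-, u', rfl⟩ := of_ac_eq_some (h ▸ hx)
    rw [h1.projLe_eq, h1.projLe_eq]

variable (S)

/-- Reversal of darts inside a finite set. -/
theorem sum_dart_symm {M : Type} [AddCommMonoid M] (y : S.Conf) (T : Finset G) (φ : G → G → M) :
    ∑ x ∈ T, ∑ ab : Fin S.m × Fin S.m,
        (if S.ActiveDart y x ab.1 ab.2 ∧ S.tgt x ab ∈ T then φ x (S.tgt x ab) else 0) =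
      ∑ x ∈ T, ∑ ab : Fin S.m × Fin S.m,
        (if S.ActiveDart y x ab.1 ab.2 ∧ S.tgt x ab ∈ T then φ (S.tgt x ab) x else 0) := by
  rw [← Finset.sum_product', ← Finset.sum_product', ← Finset.sum_filter, ← Finset.sum_filter]
  have hmem : ∀ p ∈ (T ×ˢ (Finset.univ : Finset (Fin S.m × Fin S.m))).filter
      (fun p => S.ActiveDart y p.1 p.2.1 p.2.2 ∧ S.tgt p.1 p.2 ∈ T),
      (S.tgt p.1 p.2, p.2.2, p.2.1) ∈ (T ×ˢ (Finset.univ : Finset (Fin S.m × Fin S.m))).filter
      (fun p => S.ActiveDart y p.1 p.2.1 p.2.2 ∧ S.tgt p.1 p.2 ∈ T) := by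
    rintro ⟨x, a, b⟩ hp
    simp only [Finset.mem_filter, Finset.mem_product, Finset.mem_univ, and_true] at hp ⊢
    refine ⟨hp.2.2, hp.2.1.symm, ?_⟩
    rw [tgt_tgt hp.2.1.1.ne]
    exact hp.1
  have hinv : ∀ p ∈ (T ×ˢ (Finset.univ : Finset (Fin S.m × Fin S.m))).filter
      (fun p => S.ActiveDart y p.1 p.2.1 p.2.2 ∧ S.tgt p.1 p.2 ∈ T),
      S.tgt (S.tgt p.1 p.2) (p.2.2, p.2.1) = p.1 := by
    rintro ⟨x, a, b⟩ hp
    simp only [Finset.mem_filter, Finset.mem_product, Finset.mem_univ, and_true] at hp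
    exact tgt_tgt hp.2.1.1.ne
  refine Finset.sum_bij' (fun p _ => (S.tgt p.1 p.2, p.2.2, p.2.1))
    (fun p _ => (S.tgt p.1 p.2, p.2.2, p.2.1)) hmem hmem ?_ ?_ ?_
  · intro p hp
    simp only [hinv p hp]
  · intro p hp
    simp only [hinv p hp]
  · intro p hp
    simp only [hinv p hp]

end Setup

end Vale.Agent.P089
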