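import Vale.Agent.P089.Defs

/-! Basic API for the algebraic `K₀` of `Defs.lean`. -/

noncomputable section

namespace Vale.Agent.P089

variable {R R' : Type} [Ring R] [Ring R']

theorem blockMat_map {m n : ℕ} (φ : R →+* R') (a : Matrix (Fin m) (Fin m) R)
    (b : Matrix (Fin n) (Fin n) R) : (blockMat a b).map φ = blockMat (a.map φ) (b.map φ) := by
  ext i j
  obtain ⟨i, rfl⟩ := finSumFinEquiv.surjective i
  obtain ⟨j, rfl⟩ := finSumFinEquiv.surjective j
  rcases i with i | i <;> rcases j with j | j <;>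
    simp [blockMat, -finSumFinEquiv_apply_left, -finSumFinEquiv_apply_right]

theorem blockMat_submatrix {m n : ℕ} {α β : Type} (a : Matrix α α R) (b : Matrix β β R)
    (σ : Fin m ≃ α) (τ : Fin n ≃ β) : blockMat (a.submatrix σ σ) (b.submatrix τ τ) =
      (Matrix.fromBlocks a 0 0 b).submatrix (finSumFinEquiv.symm.trans (Equiv.sumCongr σ τ))
        (finSumFinEquiv.symm.trans (Equiv.sumCongr σ τ)) := by
  ext i j
  obtain ⟨i, rfl⟩ := finSumFinEquiv.surjective i
  obtain ⟨j, rfl⟩ := finSumFinEquiv.surjective j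
  rcases i with i | i <;> rcases j with j | j <;>
    simp [blockMat, -finSumFinEquiv_apply_left, -finSumFinEquiv_apply_right]

/-- The class `[p]`. -/
def K0.of (p : Idem R) : K0 R := QuotientAddGroup.mk (FreeAbelianGroup.of p)

theorem K0.diff_eq (p q : Idem R) : K0.diff p q = K0.of p - K0.of q := by
  simp [K0.diff, K0.of, QuotientAddGroup.mk_sub]

theorem K0.of_eqv {p q : Idem R} (h : p.Eqv q) : K0.of p = K0.of q := by
  rw [K0.of, K0.of, QuotientAddGroup.eq_iff_sub_mem]
  exact AddSubgroup.subset_closure (Or.inl ⟨p, q, h, rfl⟩)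

theorem K0.of_sum (p q : Idem R) : K0.of (p.sum q) = K0.of p + K0.of q := by
  rw [K0.of, K0.of, K0.of, ← QuotientAddGroup.mk_add, QuotientAddGroup.eq_iff_sub_mem]
  exact AddSubgroup.subset_closure (Or.inr ⟨p, q, rfl⟩)

/-- An additive invariant of idempotents descends to `K₀`. -/
def K0.lift {A : Type} [AddCommGroup A] (f : Idem R → A) (h1 : ∀ p q, p.Eqv q → f p = f q)
    (h2 : ∀ p q, f (p.sum q) = f p + f q) : K0 R →+ A :=
  QuotientAddGroup.lift _ (FreeAbelianGroup.lift f) (by
    rw [AddSubgroup.closure_le]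
    rintro z (⟨p, q, h, rfl⟩ | ⟨p, q, rfl⟩)
    · simp [h1 p q h]
    · simp [h2 p q])

@[simp] theorem K0.lift_of {A : Type} [AddCommGroup A] (f : Idem R → A) (h1) (h2) (p : Idem R) :
    K0.lift f h1 h2 (K0.of p) = f p := by
  simp [K0.lift, K0.of]

theorem K0.hom_ext {A : Type} [AddCommGroup A] {f g : K0 R →+ A}
    (h : ∀ p, f (K0.of p) = g (K0.of p)) : f = g := by
  apply QuotientAddGroup.addMonoidHom_ext
  apply FreeAbelianGroup.lift_ext
  intro p
  exact h p

/-- An idempotent matrix indexed by any finite type, as an `Idem`. -/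
def Idem.ofMat {α : Type} [Fintype α] (e : Matrix α α R) (he : e * e = e) : Idem R where
  n := Fintype.card α
  e := e.submatrix (Fintype.equivFin α).symm (Fintype.equivFin α).symm
  idem := by rw [Matrix.submatrix_mul_equiv, he]

/-- The class in `K₀` of an idempotent matrix indexed by any finite type. -/
def K0.ofMat {α : Type} [Fintype α] (e : Matrix α α R) (he : e * e = e) : K0 R :=
  K0.of (Idem.ofMat e he)

theorem K0.ofMat_eqv {α β : Type} [Fintype α] [Fintype β] {e : Matrix α α R} {f : Matrix β β R}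
    (he : e * e = e) (hf : f * f = f) (x : Matrix α β R) (y : Matrix β α R) (h1 : x * y = e)
    (h2 : y * x = f) : K0.ofMat e he = K0.ofMat f hf := by
  apply K0.of_eqv
  refine ⟨x.submatrix (Fintype.equivFin α).symm (Fintype.equivFin β).symm,
    y.submatrix (Fintype.equivFin β).symm (Fintype.equivFin α).symm, ?_, ?_⟩
  · exact (Matrix.submatrix_mul_equiv _ _ _ _ _).trans (by rw [h1]; rfl)
  · exact (Matrix.submatrix_mul_equiv _ _ _ _ _).trans (by rw [h2]; rfl)

theorem K0.ofMat_submatrix {α β : Type} [Fintype α] [Fintype β] {e : Matrix α α R}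
    (he : e * e = e) (σ : β ≃ α) (h : e.submatrix σ σ * e.submatrix σ σ = e.submatrix σ σ) :
    K0.ofMat (e.submatrix σ σ) h = K0.ofMat e he := by
  refine K0.ofMat_eqv h he (e.submatrix σ id) (e.submatrix id σ) ?_ ?_
  · rw [show e.submatrix σ id * e.submatrix id σ = (e * e).submatrix σ σ from
      Matrix.submatrix_mul_equiv e e σ (Equiv.refl α) σ, he]
  · rw [Matrix.submatrix_mul_equiv, he]; rfl

theorem K0.ofMat_idem (p : Idem R) : K0.ofMat p.e p.idem = K0.of p := by
  apply K0.of_eqv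
  refine ⟨p.e.submatrix (Fintype.equivFin (Fin p.n)).symm id,
    p.e.submatrix id (Fintype.equivFin (Fin p.n)).symm, ?_, ?_⟩
  · exact (Matrix.submatrix_mul_equiv p.e p.e _ (Equiv.refl _) _).trans (by rw [p.idem]; rfl)
  · exact (Matrix.submatrix_mul_equiv _ _ _ _ _).trans (by rw [p.idem]; rfl)

theorem K0.ofMat_fromBlocks {α β : Type} [Fintype α] [Fintype β] {e : Matrix α α R}
    {f : Matrix β β R} (he : e * e = e) (hf : f * f = f)
    (h : Matrix.fromBlocks e 0 0 f * Matrix.fromBlocks e 0 0 f = Matrix.fromBlocks e 0 0 f) :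
    K0.ofMat (Matrix.fromBlocks e 0 0 f) h = K0.ofMat e he + K0.ofMat f hf := by
  rw [K0.ofMat, K0.ofMat, K0.ofMat, ← K0.of_sum, ← K0.ofMat_idem ((Idem.ofMat e he).sum _)]
  let σ : Fin (Fintype.card α + Fintype.card β) ≃ α ⊕ β :=
    finSumFinEquiv.symm.trans
      (Equiv.sumCongr (Fintype.equivFin α).symm (Fintype.equivFin β).symm)
  have key : ((Idem.ofMat e he).sum (Idem.ofMat f hf)).e =
      (Matrix.fromBlocks e 0 0 f).submatrix σ σ :=
    blockMat_submatrix e f _ _
  have h' : (Matrix.fromBlocks e 0 0 f).submatrix σ σ * (Matrix.fromBlocks e 0 0 f).submatrix σ σ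
      = (Matrix.fromBlocks e 0 0 f).submatrix σ σ := by
    rw [Matrix.submatrix_mul_equiv, h]
  rw [← K0.ofMat, ← K0.ofMat_submatrix h σ h']
  congr 1
  exact key.symm

theorem K0.ofMat_zero {α : Type} [Fintype α] (h : (0 : Matrix α α R) * 0 = 0) :
    K0.ofMat (0 : Matrix α α R) h = 0 := by
  have h2 : Matrix.fromBlocks (0 : Matrix α α R) 0 0 (0 : Matrix α α R) *
      Matrix.fromBlocks (0 : Matrix α α R) 0 0 (0 : Matrix α α R) = Matrix.fromBlocks 0 0 0 0 := by
    simp
  have h3 := K0.ofMat_fromBlocks h h h2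
  have h4 : K0.ofMat _ h2 = K0.ofMat (0 : Matrix α α R) h :=
    K0.ofMat_eqv _ _ 0 0 (by simp) (by simp)
  rw [h4] at h3
  simpa using h3

/-- Image of an idempotent matrix under a ring homomorphism. -/
def Idem.map (φ : R →+* R') (p : Idem R) : Idem R' where
  n := p.n
  e := p.e.map φ
  idem := by rw [← Matrix.map_mul, p.idem]

/-- Functoriality of `K₀`. -/
def K0.map (φ : R →+* R') : K0 R →+ K0 R' :=
  K0.lift (fun p => K0.of (p.map φ))
    (by
      rintro p q ⟨x, y, h1, h2⟩
      refine K0.of_eqv ⟨x.map φ, y.map φ, ?_, ?_⟩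
      · show _ = p.e.map φ
        rw [← h1]; exact (Matrix.map_mul).symm
      · show _ = q.e.map φ
        rw [← h2]; exact (Matrix.map_mul).symm)
    (by
      intro p q
      rw [← K0.of_sum]
      congr 1
      simp only [Idem.map, Idem.sum, Idem.mk.injEq, heq_eq_eq, true_and]
      exact blockMat_map φ _ _)

@[simp] theorem K0.map_of (φ : R →+* R') (p : Idem R) : K0.map φ (K0.of p) = K0.of (p.map φ) :=
  K0.lift_of _ _ _ _

/-- The homomorphism `K₀(R) → ℂ` induced by a trace. -/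
def K0.tr (τ : R →+ ℂ) (hτ : ∀ a b, τ (a * b) = τ (b * a)) : K0 R →+ ℂ :=
  K0.lift (fun p => ∑ i, τ (p.e i i))
    (by
      rintro p q ⟨x, y, h1, h2⟩
      simp only [← h1, ← h2, Matrix.mul_apply, map_sum]
      rw [Finset.sum_comm]
      simp only [hτ (x _ _)])
    (by
      intro p q
      show ∑ i : Fin (p.n + q.n), τ (blockMat p.e q.e i i) = _
      rw [← finSumFinEquiv.sum_comp]
      simp [blockMat, -finSumFinEquiv_apply_left, -finSumFinEquiv_apply_right])

@[simp] theorem K0.tr_of (τ : R →+ ℂ) (hτ : ∀ a b, τ (a * b) = τ (b * a)) (p : Idem R) :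
    K0.tr τ hτ (K0.of p) = ∑ i, τ (p.e i i) :=
  K0.lift_of _ _ _ _

theorem K0.tr_map (τ : R →+ ℂ) (hτ : ∀ a b, τ (a * b) = τ (b * a)) (τ' : R' →+ ℂ)
    (hτ' : ∀ a b, τ' (a * b) = τ' (b * a)) (φ : R →+* R') (h : ∀ a, τ' (φ a) = τ a) (x : K0 R) :
    K0.tr τ' hτ' (K0.map φ x) = K0.tr τ hτ x := by
  have : (K0.tr τ' hτ').comp (K0.map φ) = K0.tr τ hτ := by
    apply K0.hom_ext
    intro p
    simp [Idem.map, h]
  exact DFunLike.congr_fun this x

end Vale.Agent.P089
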