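import Vale.Agent.P089.KoszulDefs
import Vale.Agent.P089.AbsIndex

/-! Task T4: the Koszul argument. See notes/P089/PROOF.md, section T4. -/

noncomputable section

namespace Vale.Agent.P089.LocRep

variable {B R : Type} [Ring B] [Ring R] {κ : Ctx B R} {Γ 𝒜 : Type} [Group Γ]
  [NonUnitalCommRing 𝒜] {a : Γ → 𝒜 → 𝒜} {Λ : Type} [Group Λ] (ρ : LocRep κ a Λ)

/-- The element `λ_g ⊗ π(f) U_s`. -/
def el (g : Λ) (f : 𝒜) (s : Γ) : B := ρ.L g * ρ.σ f s

theorem el_mul (g g' : Λ) (f f' : 𝒜) (s s' : Γ) :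
    ρ.el g f s * ρ.el g' f' s' = ρ.el (g * g') (f * a s f') (s * s') := by
  rw [el, el, el, map_mul, ← ρ.σ_mul, mul_assoc, ← mul_assoc (ρ.σ f s), ← ρ.L_σ]
  simp only [mul_assoc]

theorem el_add (g : Λ) (f f' : 𝒜) (s : Γ) : ρ.el g (f + f') s = ρ.el g f s + ρ.el g f' s := by
  rw [el, ρ.σ_add, mul_add]; rfl

theorem el_zero (g : Λ) (s : Γ) : ρ.el g 0 s = 0 := by
  simpa using ρ.el_add g 0 0 s

theorem el_sum {ι : Type} (g : Λ) (I : Finset ι) (f : ι → 𝒜) (s : Γ) :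
    ρ.el g (∑ i ∈ I, f i) s = ∑ i ∈ I, ρ.el g (f i) s :=
  map_sum (AddMonoidHom.mk' (fun f => ρ.el g f s) fun _ _ => ρ.el_add _ _ _ _) f I

theorem L_el_L (g g' g'' : Λ) (f : 𝒜) (s : Γ) :
    ρ.L g * ρ.el g' f s * ρ.L g'' = ρ.el (g * g' * g'') f s := by
  rw [el, el, map_mul, map_mul, mul_assoc, mul_assoc, ← ρ.L_σ]
  simp only [mul_assoc]

theorem br_eq (S : Finset Γ) (θ : Γ → Λ) (f g : 𝒜) :
    ρ.br S θ f g = ∑ s ∈ S, ρ.el (θ s) (f * a s g) s := rfl

theorem act_zero (ha : IsAct a) (s : Γ) : a s 0 = 0 := by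
  simpa using ha.map_add s 0 0

omit [Group Γ] in
theorem reindex {S : Finset Γ} {φ : Γ → B} (m : Γ ≃ Γ) (h1 : ∀ u, u ∉ S → φ u = 0)
    (h2 : ∀ t, t ∉ S → φ (m t) = 0) : ∑ t ∈ S, φ (m t) = ∑ u ∈ S, φ u := by
  refine Finset.sum_bij_ne_zero (fun t _ _ => m t) (fun t _ h => by_contra fun hn => h (h1 _ hn))
    (fun _ _ _ _ _ _ h => m.injective h) (fun u _ h => ?_) fun _ _ _ => rfl
  obtain ⟨t, rfl⟩ := m.surjective u
  exact ⟨t, by_contra fun hn => h (h2 _ hn), h, rfl⟩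

theorem br_mul (ha : IsAct a) {S : Finset Γ} {θ : Γ → Λ} (hθ : LocHom S θ) {f g f' g' : 𝒜}
    (h1 : ∀ s, s ∉ S → f * a s g' = 0) (h2 : ∀ s, s ∉ S → f' * a s g' = 0) :
    ρ.br S θ f g * ρ.br S θ f' g' = ρ.br S θ (f * ∑ s ∈ S, a s (g * f')) g' := by
  rw [br_eq, br_eq, br_eq, Finset.sum_mul_sum]
  simp only [el_mul, Finset.mul_sum, Finset.sum_mul, el_sum]
  refine Eq.trans (Finset.sum_congr rfl fun s hs => ?_) Finset.sum_comm
  have z : ∀ u, u ∉ S → f * a s (g * f') * a u g' = 0 := fun u hu => by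
    rw [mul_right_comm, h1 u hu, zero_mul]
  rw [← reindex (Equiv.mulLeft s) (φ := fun u => ρ.el (θ u) (f * a s (g * f') * a u g') u)
    (fun u hu => by rw [z u hu, el_zero]) fun t ht => by
      rw [Equiv.coe_mulLeft, ha.mul, mul_assoc, ← ha.map_mul, mul_assoc, h2 t ht, mul_zero,
        act_zero ha, mul_zero, el_zero]]
  refine Finset.sum_congr rfl fun t ht => ?_
  have e : f * a s g * a s (f' * a t g') = f * a s (g * f') * a (s * t) g' := by
    simp only [ha.map_mul, ha.mul, mul_assoc]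
  rw [e, Equiv.coe_mulLeft]
  by_cases h : s * t ∈ S
  · rw [hθ s t hs ht h]
  · rw [z _ h, el_zero, el_zero]

theorem br_comm {x : B} (h1 : ∀ g, x * ρ.L g = ρ.L g * x) (h2 : ∀ f s, x * ρ.σ f s = ρ.σ f s * x)
    (S : Finset Γ) (θ : Γ → Λ) (f g : 𝒜) : x * ρ.br S θ f g = ρ.br S θ f g * x := by
  rw [br, Finset.mul_sum, Finset.sum_mul]
  exact Finset.sum_congr rfl fun s _ => by rw [← mul_assoc, h1, mul_assoc, h2, mul_assoc]

theorem F_br (S : Finset Γ) (θ : Γ → Λ) (f g : 𝒜) :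
    ρ.F * ρ.br S θ f g - ρ.br S θ f g * ρ.F ∈ κ.J := by
  rw [br, Finset.mul_sum, Finset.sum_mul, ← Finset.sum_sub_distrib]
  refine sum_mem fun s _ => ?_
  rw [← mul_assoc, ρ.F_L, mul_assoc, mul_assoc, ← mul_sub]
  exact κ.J.mul_mem_left _ _ (ρ.F_σ _ _)

theorem br_F_sq (S : Finset Γ) (θ : Γ → Λ) (f g : 𝒜) :
    ρ.br S θ f g * (ρ.F * ρ.F) - ρ.br S θ f g ∈ κ.J := by
  rw [br, Finset.sum_mul, ← Finset.sum_sub_distrib]
  refine sum_mem fun s _ => ?_
  rw [mul_assoc, ← mul_sub]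
  exact κ.J.mul_mem_left _ _ (ρ.F_sq _ _)

section Slice

variable {k : ℕ} {f : Option (Fin k) → 𝒜} {F : Fin k → Subgroup Γ} {S : Finset Γ}

theorem br_cut (ha : IsAct a) (hS : SliceData a f F S) {θ : Γ → Λ} (hθ : LocHom S θ)
    (i i' : Option (Fin k)) :
    ρ.br S θ (f i) (f none) * ρ.br S θ (f none) (f i') = ρ.br S θ (f i) (f i') := by
  rw [ρ.br_mul ha hθ (hS.vanish _ _) (hS.vanish _ _), hS.cut]

theorem half (p G G' : B) (hp : p * p = p) (c : G * p = p * G) (c' : G' * p = p * G')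
    (g : G * G = G) (g' : G' * G' = G') (h : ρ.F * G' = G * ρ.F) (j1 : ρ.F * p - p * ρ.F ∈ κ.J)
    (j2 : p * (ρ.F * ρ.F) - p ∈ κ.J) :
    p * G * ρ.F * (p * G') * (p * G' * ρ.F * (p * G)) - p * G ∈ κ.J := by
  have e : p * G * ρ.F * (p * G') * (p * G' * ρ.F * (p * G)) - p * G =
      p * G * (ρ.F * p - p * ρ.F) * (G' * ρ.F * (p * G)) +
        G * (p * (ρ.F * ρ.F) - p) * (p * G) := by
    have a1 : p * G' * (p * G') = p * G' := by
      rw [mul_assoc, ← mul_assoc G', c', ← mul_assoc, ← mul_assoc, hp, mul_assoc, g']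
    have a2 : p * G * p = G * p := by rw [← c, mul_assoc, hp]
    have a3 : G * p * (p * G) = p * G := by
      rw [mul_assoc, ← mul_assoc p, hp, ← mul_assoc, c, mul_assoc, g]
    have a4 : p * G * (p * ρ.F) * (G' * ρ.F * (p * G)) = G * (p * (ρ.F * ρ.F)) * (p * G) := by
      have a5 : G * p * G = G * p := by rw [mul_assoc, ← c, ← mul_assoc, g]
      calc _ = p * G * p * (ρ.F * G') * (ρ.F * (p * G)) := by simp only [mul_assoc]
        _ = _ := by rw [a2, h, ← mul_assoc (G * p), a5]; simp only [mul_assoc]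
    rw [mul_sub, sub_mul, mul_sub, sub_mul, a3, a4, mul_assoc (p * G * ρ.F),
      ← mul_assoc (p * G'), ← mul_assoc (p * G'), a1]
    simp only [mul_assoc]
    abel
  rw [e]
  exact add_mem (κ.J.mul_mem_right _ _ (κ.J.mul_mem_left _ _ j1))
    (κ.J.mul_mem_right _ _ (κ.J.mul_mem_left _ _ j2))

end Slice

theorem fred1 (ha : IsAct a) {k : ℕ} {f : Option (Fin k) → 𝒜} {F : Fin k → Subgroup Γ}
    {S : Finset Γ} (hS : SliceData a f F S) {θ : Γ → Λ} (hθ : LocHom S θ) :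
    κ.Fred1 (ρ.P₀ S θ (f none)) (ρ.P₁ S θ (f none)) (ρ.T S θ (f none)) (ρ.T' S θ (f none)) := by
  have hp := ρ.br_cut ha hS hθ none none
  have c0 := ρ.br_comm ρ.G₀_L ρ.G₀_σ S θ (f none) (f none)
  have c1 := ρ.br_comm ρ.G₁_L ρ.G₁_σ S θ (f none) (f none)
  have i0 : ρ.P₀ S θ (f none) * ρ.P₀ S θ (f none) = ρ.P₀ S θ (f none) := by
    rw [P₀, mul_assoc, ← mul_assoc ρ.G₀, c0, ← mul_assoc, ← mul_assoc, hp, mul_assoc, ρ.G₀_sq]
  have i1 : ρ.P₁ S θ (f none) * ρ.P₁ S θ (f none) = ρ.P₁ S θ (f none) := by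
    rw [P₁, mul_assoc, ← mul_assoc ρ.G₁, c1, ← mul_assoc, ← mul_assoc, hp, mul_assoc, ρ.G₁_sq]
  exact ⟨i0, i1, by rw [T, ← mul_assoc, ← mul_assoc, i1], by rw [T, mul_assoc, i0],
    by rw [T', ← mul_assoc, ← mul_assoc, i0], by rw [T', mul_assoc, i1],
    ρ.half _ _ _ hp c0 c1 ρ.G₀_sq ρ.G₁_sq ρ.F_G₁ (ρ.F_br _ _ _ _) (ρ.br_F_sq _ _ _ _),
    ρ.half _ _ _ hp c1 c0 ρ.G₁_sq ρ.G₀_sq ρ.F_G₀ (ρ.F_br _ _ _ _) (ρ.br_F_sq _ _ _ _)⟩

theorem flip_flip {k : ℕ} (j : Fin k) (e : Fin k → Bool) : flip j (flip j e) = e := by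
  simp [flip]

theorem flip_comm {k : ℕ} (j j' : Fin k) (e : Fin k → Bool) :
    flip j (flip j' e) = flip j' (flip j e) := by
  by_cases h : j = j'
  · rw [h]
  · simp only [flip, Function.update_of_ne h, Function.update_of_ne (Ne.symm h)]
    exact Function.update_comm (Ne.symm h) _ _ _

/-- The Koszul sign restricted to a set of coordinates. -/
def sg {k : ℕ} (I : Finset (Fin k)) (e : Fin k → Bool) : ℤ := ∏ i ∈ I, if e i then -1 else 1

theorem sg_sq {k : ℕ} (I : Finset (Fin k)) (e : Fin k → Bool) : sg I e * sg I e = 1 := by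
  rw [sg, ← Finset.prod_mul_distrib]
  exact Finset.prod_eq_one fun i _ => by split_ifs <;> simp

theorem sg_flip {k : ℕ} (I : Finset (Fin k)) (j : Fin k) (e : Fin k → Bool) :
    sg I (flip j e) = if j ∈ I then -sg I e else sg I e := by
  have h : ∀ I : Finset (Fin k), j ∉ I → sg I (flip j e) = sg I e := fun I h =>
    Finset.prod_congr rfl fun i hi => by
      rw [flip, Function.update_of_ne (by rintro rfl; exact h hi)]
  split_ifs with hj
  · have := h (I.erase j) (by simp)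
    simp only [sg] at this ⊢
    rw [← Finset.mul_prod_erase _ _ hj, ← Finset.mul_prod_erase _ _ hj, this]
    cases h : e j <;> simp [flip, h]
  · exact h I hj

section Cube

variable {k : ℕ} {f : Option (Fin k) → 𝒜} {F : Fin k → Subgroup Γ} {S : Finset Γ}
  {θ : (Fin k → Bool) → Γ → Λ} {w : Fin k → (Fin k → Bool) → Λ}

/-- The edge operators of the cube. -/
def edge (f : Option (Fin k) → 𝒜) (S : Finset Γ) (θ : (Fin k → Bool) → Γ → Λ)
    (w : Fin k → (Fin k → Bool) → Λ) (j : Fin k) (e : Fin k → Bool) : B :=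
  ρ.br S (θ (flip j e)) (f none) (f (some j)) * ρ.L (w j e) * ρ.br S (θ e) (f (some j)) (f none)

theorem edge_mul (ha : IsAct a) (hS : SliceData a f F S) (hθ : CubeData F S θ w) (j j' e) :
    ρ.edge f S θ w j (flip j' e) * ρ.edge f S θ w j' e =
      ρ.br S (θ (flip j (flip j' e))) (f none) (f (some j)) *
        (∑ t ∈ S, ρ.el (w j (flip j' e) * θ (flip j' e) t * w j' e)
          (f (some j) * a t (f (some j'))) t) * ρ.br S (θ e) (f (some j')) (f none) := by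
  simp only [← L_el_L, ← Finset.sum_mul, ← Finset.mul_sum, ← br_eq, edge]
  rw [← ρ.br_cut ha hS (hθ.hom _) (some j) (some j')]
  simp only [mul_assoc]

theorem edge_sq (ha : IsAct a) (hS : SliceData a f F S) (hθ : CubeData F S θ w) (e) :
    ∑ j, ρ.edge f S θ w j (flip j e) * ρ.edge f S θ w j e = ρ.br S (θ e) (f none) (f none) := by
  conv_rhs => congr; rfl; rfl; rfl; rw [← hS.part]
  rw [br_eq]
  simp only [Finset.sum_mul (s := Finset.univ), el_sum]
  rw [Finset.sum_comm]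
  refine Finset.sum_congr rfl fun j _ => ?_
  have m : ∑ t ∈ S, ρ.el (w j (flip j e) * θ (flip j e) t * w j e)
      (f (some j) * a t (f (some j))) t = ρ.br S (θ e) (f (some j)) (f (some j)) := by
    rw [br_eq]
    refine Finset.sum_congr rfl fun t _ => ?_
    by_cases h : t ∈ F j
    · rw [mul_assoc, hθ.intertw j e t h, ← mul_assoc, hθ.inv, one_mul]
    · rw [hS.slice j t h, el_zero, el_zero]
  rw [ρ.edge_mul ha hS hθ, flip_flip, m, ρ.br_mul ha (hθ.hom e) (hS.vanish _ _) (hS.vanish _ _),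
    ρ.br_mul ha (hθ.hom e) _ (hS.vanish _ _), br_eq]
  intro s hs
  rw [mul_right_comm, hS.vanish _ _ s hs, zero_mul]

theorem tri (ha : IsAct a) (hS : SliceData a f F S) {θ₁ θ₂ : Γ → Λ} (h₁ : LocHom S θ₁)
    (h₂ : LocHom S θ₂) (ω : Λ) {t : Γ} (ht : t ∈ S) (i i' : Option (Fin k)) :
    ρ.br S θ₁ (f none) (f i) * ρ.el (θ₁ t * ω * θ₂ t) (f i * a t (f i')) t *
      ρ.br S θ₂ (f i') (f none) =
    ρ.br S θ₁ (f none) (f i') * ρ.el ω (f i' * a t⁻¹ (f i)) t⁻¹ * ρ.br S θ₂ (f i) (f none) := by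
  let X : Γ → Γ → 𝒜 := fun s v => f none * a s (f i') * a s (f i' * a t⁻¹ (f i)) *
    a (s * t⁻¹) (f i * a v (f none))
  have v1 : ∀ s u x y, u ∉ S → a s (f x) * a (s * u) (f y) = 0 := fun s u x y hu => by
    rw [ha.mul, ← ha.map_mul, hS.vanish _ _ u hu, act_zero ha]
  have z1 : ∀ s v, s ∉ S → X s v = 0 := fun s v h => by
    simp only [X, hS.vanish _ _ s h, zero_mul]
  have z2 : ∀ s v, v ∉ S → X s v = 0 := fun s v h => by
    simp only [X, hS.vanish _ _ v h, act_zero ha, mul_zero]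
  have z3 : ∀ s v, s ∉ S → X (s * t) v = 0 := fun s v h => by
    simp only [X, mul_inv_cancel_right, ha.map_mul]
    rw [← mul_assoc, mul_right_comm _ _ (a s (f i)), mul_right_comm _ _ (a s (f i)),
      hS.vanish _ _ s h]
    simp
  have z4 : ∀ s v, v ∉ S → X s (t * v) = 0 := fun s v h => by
    simp only [X, ha.map_mul, ← ha.mul, mul_assoc s, inv_mul_cancel_left]
    rw [← mul_assoc, mul_right_comm _ (a (s * t⁻¹) (f i)), mul_right_comm _ _ (a (s * v) _),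
      mul_assoc (f none), v1 _ _ _ _ h]
    simp
  simp only [br_eq, Finset.sum_mul, Finset.mul_sum, el_mul]
  symm
  rw [← reindex (Equiv.mulLeft t) (φ := fun v => ∑ s ∈ S,
      ρ.el (θ₁ s * ω * θ₂ v) (X s v) (s * t⁻¹ * v))
    (fun v h => Finset.sum_eq_zero fun s _ => by rw [z2 s v h, el_zero])
    fun v h => Finset.sum_eq_zero fun s _ => by rw [Equiv.coe_mulLeft, z4 s v h, el_zero]]
  refine Finset.sum_congr rfl fun v hv => ?_
  rw [Equiv.coe_mulLeft, ← reindex (Equiv.mulRight t) (φ := fun s =>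
      ρ.el (θ₁ s * ω * θ₂ (t * v)) (X s (t * v)) (s * t⁻¹ * (t * v)))
    (fun s h => by rw [z1 s _ h, el_zero])
    fun s h => by rw [Equiv.coe_mulRight, z3 s _ h, el_zero]]
  refine Finset.sum_congr rfl fun s hs => ?_
  have e : f none * a s (f i) * a s (f i * a t (f i')) * a (s * t) (f i' * a v (f none)) =
      X (s * t) (t * v) := by
    simp only [X, ha.map_mul, ← ha.mul, mul_inv_cancel_right]
    rw [mul_assoc s t v]
    ac_rfl
  rw [e, Equiv.coe_mulRight, mul_inv_cancel_right, mul_assoc s]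
  by_cases p : s * t ∈ S
  swap
  · rw [z1 _ _ p, el_zero, el_zero]
  by_cases q : t * v ∈ S
  swap
  · rw [z2 _ _ q, el_zero, el_zero]
  rw [h₁ s t hs ht p, h₂ t v ht hv q]
  simp only [mul_assoc]

theorem edge_comm (ha : IsAct a) (hS : SliceData a f F S) (hθ : CubeData F S θ w) {j j'}
    (h : j ≠ j') (e) : ρ.edge f S θ w j (flip j' e) * ρ.edge f S θ w j' e =
      ρ.edge f S θ w j' (flip j e) * ρ.edge f S θ w j e := by
  rw [ρ.edge_mul ha hS hθ, ρ.edge_mul ha hS hθ, flip_comm j' j, Finset.mul_sum, Finset.sum_mul,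
    Finset.mul_sum, Finset.sum_mul]
  refine Finset.sum_bij' (fun t _ => t⁻¹) (fun t _ => t⁻¹) (fun t ht => hS.inv_mem t ht)
    (fun t ht => hS.inv_mem t ht) (by simp) (by simp) fun t ht => ?_
  have h1 : θ (flip j e) 1 = 1 := by
    simpa using hθ.hom (flip j e) 1 1 hS.one_mem hS.one_mem (by simpa using hS.one_mem)
  have h2 : θ (flip j e) t⁻¹ = (θ (flip j e) t)⁻¹ := by
    rw [eq_inv_iff_mul_eq_one, ← hθ.hom _ _ _ (hS.inv_mem t ht) ht (by simpa using hS.one_mem)]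
    simpa using h1
  rw [hθ.comm j j' e h t ht, h2, ← ρ.tri ha hS (hθ.hom _) (hθ.hom _) _ ht]
  simp only [mul_assoc]

/-- The Koszul differential. -/
def Dm (u : Fin k → (Fin k → Bool) → B) : Matrix (Fin k → Bool) (Fin k → Bool) B :=
  Matrix.of fun e' e => ∑ j, if e' = flip j e then sg (Finset.Iio j) e • u j e else 0

theorem Dm_sq {u : Fin k → (Fin k → Bool) → B} {p : (Fin k → Bool) → B}
    (h1 : ∀ e, ∑ j, u j (flip j e) * u j e = p e)
    (h2 : ∀ j j', j ≠ j' → ∀ e, u j (flip j' e) * u j' e = u j' (flip j e) * u j e) :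
    Dm u * Dm u = Matrix.diagonal p := by
  ext e'' e
  let g : Fin k × Fin k → B := fun x => if e'' = flip x.1 (flip x.2 e) then
    (sg (Finset.Iio x.1) (flip x.2 e) * sg (Finset.Iio x.2) e) • (u x.1 (flip x.2 e) * u x.2 e)
    else 0
  have e1 : (Dm u * Dm u) e'' e = ∑ x ∈ Finset.univ ×ˢ Finset.univ, g x := by
    simp only [Dm, Matrix.mul_apply, Matrix.of_apply, Finset.mul_sum, mul_ite, mul_zero]
    rw [Finset.sum_comm, Finset.sum_product, Finset.sum_comm (f := fun x y => g (x, y))]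
    refine Finset.sum_congr rfl fun j' _ => ?_
    simp only [Finset.sum_ite_eq', Finset.mem_univ, if_true, Finset.sum_mul, ite_mul, zero_mul,
      smul_mul_smul_comm, g]
  rw [e1, ← Finset.diag_union_offDiag, Finset.sum_union (Finset.disjoint_diag_offDiag _),
    Finset.sum_diag, Finset.sum_involution (s := Finset.univ.offDiag) (fun x _ => x.swap), add_zero,
    Matrix.diagonal_apply]
  · simp only [g, flip_flip, sg_flip, Finset.notMem_Iio_self, if_false, sg_sq, one_smul]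
    split_ifs with h
    · rw [h1, h]
    · simp
  · rintro ⟨j, j'⟩ hx
    have h : j ≠ j' := (Finset.mem_offDiag.mp hx).2.2
    simp only [g, Prod.swap, flip_comm j' j, h2 j' j h.symm, sg_flip, Finset.mem_Iio]
    rcases lt_or_gt_of_ne h with l | l <;> by_cases q : e'' = flip j (flip j' e) <;>
      simp [q, l, l.not_gt, mul_comm]
  · rintro ⟨j, j'⟩ hx _ h
    exact (Finset.mem_offDiag.mp hx).2.2 (congrArg Prod.snd h)
  · rintro ⟨j, j'⟩ hx
    simpa [eq_comm] using hx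
  · simp

theorem Dm_comm {u : Fin k → (Fin k → Bool) → B} {x y : (Fin k → Bool) → B}
    (h : ∀ j e, x (flip j e) * u j e = u j e * y e) :
    Matrix.diagonal x * Dm u = Dm u * Matrix.diagonal y := by
  ext e' e
  simp only [Matrix.diagonal_mul, Matrix.mul_diagonal, Dm, Matrix.of_apply, Finset.mul_sum,
    Finset.sum_mul]
  refine Finset.sum_congr rfl fun j _ => ?_
  split_ifs with h'
  · rw [h', mul_smul_comm, smul_mul_assoc, h]
  · simp

theorem near_mul {I : Type} [Fintype I] {x y : Matrix I I B} (h : κ.Near x y) (A C : Matrix I I B) :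
    κ.Near (A * x * C) (A * y * C) := fun i j => by
  rw [← Matrix.sub_apply, ← sub_mul, ← mul_sub, Matrix.mul_apply]
  refine sum_mem fun l _ => κ.J.mul_mem_right _ _ ?_
  rw [Matrix.mul_apply]
  exact sum_mem fun m _ => κ.J.mul_mem_left _ _ (h m l)

/-- The part of a diagonal matrix of given parity. -/
def dg (s : ℤ) (y : (Fin k → Bool) → B) : Matrix (Fin k → Bool) (Fin k → Bool) B :=
  Matrix.diagonal fun e => if cubeSign e = s then y e else 0

theorem dg_mul (s : ℤ) {y y' z : (Fin k → Bool) → B} (h : ∀ e, y e * y' e = z e) :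
    dg s y * dg s y' = dg s z := by
  simp only [dg, Matrix.diagonal_mul_diagonal, ite_zero_mul_ite_zero, and_self, h]

theorem dg_near (s : ℤ) {y y' : (Fin k → Bool) → B} (h : ∀ e, y e - y' e ∈ κ.J) :
    κ.Near (dg s y) (dg s y') := fun e e' => by
  simp only [dg, Matrix.diagonal_apply]
  split_ifs <;> simp [h]

theorem mul_dg (s : ℤ) {y y' z : (Fin k → Bool) → B} (h : ∀ e, y e * y' e = z e) :
    Matrix.diagonal y * dg s y' = dg s z := by
  simp only [dg, Matrix.diagonal_mul_diagonal, mul_ite, mul_zero, h]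

theorem swap_ind {I : Type} [Fintype I] [DecidableEq I] {D p A₀ A₁ C₀ C₁ T S Fb : Matrix I I B}
    (hD : D * D = p) (a0 : A₀ * A₀ = A₀) (a1 : A₁ * A₁ = A₁) (c0 : C₀ * C₀ = C₀)
    (c1 : C₁ * C₁ = C₁) (k0 : C₀ * D = D * A₀) (k1 : C₁ * D = D * A₁) (l0 : A₀ * D = D * C₀)
    (l1 : A₁ * D = D * C₁) (pa0 : p * A₀ = A₀) (pa1 : p * A₁ = A₁) (pc0 : p * C₀ = C₀)
    (pc1 : p * C₁ = C₁) (hT : T = A₁ * (Fb * A₀)) (hS : S = C₁ * (Fb * C₀))
    (hN : κ.Near (D * Fb) (Fb * D)) {x : K0 R} (hx : κ.Ind A₀ A₁ T x) : κ.Ind C₀ C₁ S x := by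
  have sq : ∀ {A C : Matrix I I B}, C * D = D * A → A * A = A → p * A = A →
      D * C * (D * A) = A := fun h i q => by
    rw [mul_assoc, ← mul_assoc _ D, h, mul_assoc, i, ← mul_assoc, hD, q]
  refine Ctx.Ind.equiv (D * A₀) (D * A₁) (D * C₀) (D * C₁) a0 a1 c0 c1 (sq k0 a0 pa0)
    (sq l0 c0 pc0) (sq k1 a1 pa1) (sq l1 c1 pc1) ?_ hx
  have e1 : D * A₁ * T * (D * C₀) = C₁ * (D * Fb) * (D * C₀) := by
    rw [hT, mul_assoc D, ← mul_assoc A₁, a1, ← mul_assoc D, ← k1, mul_assoc, mul_assoc _ A₀,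
      ← mul_assoc A₀, l0, mul_assoc D, c0]
    simp only [mul_assoc]
  have e2 : S = C₁ * (Fb * D) * (D * C₀) := by
    rw [hS, mul_assoc, mul_assoc, ← mul_assoc D, hD, pc0]
  rw [e1, e2]
  exact near_mul hN _ _

theorem cube_abs {D : Matrix (Fin k → Bool) (Fin k → Bool) B} {p P₀ P₁ T T' : (Fin k → Bool) → B}
    {Fb : B} (fr : ∀ e, κ.Fred1 (P₀ e) (P₁ e) (T e) (T' e)) (hD : D * D = Matrix.diagonal p)
    (k0 : ∀ s, dg (-s) P₀ * D = D * dg s P₀) (k1 : ∀ s, dg (-s) P₁ * D = D * dg s P₁)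
    (p0 : ∀ e, p e * P₀ e = P₀ e) (p1 : ∀ e, p e * P₁ e = P₁ e)
    (hT : ∀ e, P₁ e * (Fb * P₀ e) = T e)
    (hN : κ.Near (D * Matrix.diagonal fun _ => Fb) (Matrix.diagonal (fun _ => Fb) * D))
    (x : (Fin k → Bool) → K0 R) (hx : ∀ e, κ.Ind1 (P₀ e) (P₁ e) (T e) (x e)) :
    ∑ e, cubeSign e • x e = 0 := by
  have hI : ∀ s, κ.Ind (dg s P₀) (dg s P₁) (dg s T) (∑ e, if cubeSign e = s then x e else 0) :=
    fun s => Ctx.Ind1.diagonal fun e => by
      split_ifs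
      exacts [hx e, κ.ind1_zero]
  have i0 := fun s => dg_mul s fun e => (fr e).idem₀
  have i1 := fun s => dg_mul s fun e => (fr e).idem₁
  have hT' : ∀ s, dg s T = dg s P₁ * (Matrix.diagonal (fun _ => Fb) * dg s P₀) := fun s => by
    rw [mul_dg s fun _ => rfl, dg_mul s hT]
  have l0 := k0 (-1)
  have l1 := k1 (-1)
  rw [neg_neg] at l0 l1
  have e1 := swap_ind hD (i0 1) (i1 1) (i0 (-1)) (i1 (-1)) (k0 1) (k1 1) l0 l1 (mul_dg _ p0)
    (mul_dg _ p1) (mul_dg _ p0) (mul_dg _ p1) (hT' _) (hT' _) hN (hI 1)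
  have n0 : κ.Near (dg (-1) T' * dg (-1) T) (dg (-1) P₀) := by
    rw [dg_mul _ fun _ => rfl]; exact dg_near _ fun e => (fr e).inv₀
  have n1 : κ.Near (dg (-1) T * dg (-1) T') (dg (-1) P₁) := by
    rw [dg_mul _ fun _ => rfl]; exact dg_near _ fun e => (fr e).inv₁
  have e2 := Ctx.Fred.ind_unique (T' := dg (-1) T')
    ⟨i0 _, i1 _, dg_mul _ fun e => (fr e).left, dg_mul _ fun e => (fr e).right,
      dg_mul _ fun e => (fr e).left', dg_mul _ fun e => (fr e).right', n0, n1⟩ e1 (hI (-1))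
  rw [← sub_eq_zero, ← Finset.sum_sub_distrib] at e2
  refine Eq.trans (Finset.sum_congr rfl fun e _ => ?_) e2
  rcases Int.eq_one_or_neg_one_of_mul_eq_one (sg_sq Finset.univ e) with h | h <;>
    simp [show cubeSign e = _ from h]

theorem edge_dg (ha : IsAct a) (hS : SliceData a f F S) (hθ : CubeData F S θ w) {G : B}
    (g1 : ∀ g, G * ρ.L g = ρ.L g * G) (g2 : ∀ f s, G * ρ.σ f s = ρ.σ f s * G) (s : ℤ) :
    (dg (-s) fun e => ρ.br S (θ e) (f none) (f none) * G) * Dm (ρ.edge f S θ w) =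
      Dm (ρ.edge f S θ w) * dg s fun e => ρ.br S (θ e) (f none) (f none) * G :=
  Dm_comm fun j e => by
    have : cubeSign (flip j e) = -cubeSign e :=
      (sg_flip Finset.univ j e).trans (if_pos (Finset.mem_univ _))
    simp only [this, neg_inj]
    split_ifs
    · have c := ρ.br_comm g1 g2 S
      have c' : G * ρ.edge f S θ w j e = ρ.edge f S θ w j e * G := by
        rw [edge, ← mul_assoc, ← mul_assoc, c, mul_assoc _ G, g1, ← mul_assoc, mul_assoc _ G, c,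
          ← mul_assoc]
      rw [mul_assoc, c', ← mul_assoc, ← mul_assoc, edge, ← mul_assoc, ← mul_assoc,
        ρ.br_cut ha hS (hθ.hom _), mul_assoc _ _ (ρ.br S (θ e) (f none) (f none)),
        ρ.br_cut ha hS (hθ.hom _)]
    · simp

theorem edge_F (f : Option (Fin k) → 𝒜) (S : Finset Γ) (θ : (Fin k → Bool) → Γ → Λ)
    (w : Fin k → (Fin k → Bool) → Λ) :
    κ.Near (Dm (ρ.edge f S θ w) * Matrix.diagonal fun _ => ρ.F)
      (Matrix.diagonal (fun _ => ρ.F) * Dm (ρ.edge f S θ w)) := by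
  intro e' e
  simp only [Matrix.diagonal_mul, Matrix.mul_diagonal, Dm, Matrix.of_apply, Finset.mul_sum,
    Finset.sum_mul, ← Finset.sum_sub_distrib]
  refine sum_mem fun j _ => ?_
  split_ifs
  · rw [smul_mul_assoc, mul_smul_comm, ← smul_sub]
    refine zsmul_mem ?_ _
    have a1 := ρ.F_br S (θ (flip j e)) (f none) (f (some j))
    have a2 := ρ.F_br S (θ e) (f (some j)) (f none)
    rw [edge]
    generalize ρ.br S (θ (flip j e)) (f none) (f (some j)) = y at a1 ⊢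
    generalize ρ.br S (θ e) (f (some j)) (f none) = z at a2 ⊢
    have : y * ρ.L (w j e) * z * ρ.F - ρ.F * (y * ρ.L (w j e) * z) =
        -((ρ.F * y - y * ρ.F) * (ρ.L (w j e) * z) + y * ρ.L (w j e) * (ρ.F * z - z * ρ.F)) := by
      rw [sub_mul, mul_sub, mul_assoc y ρ.F, ← mul_assoc ρ.F (ρ.L _), ρ.F_L]
      simp only [mul_assoc]
      abel
    rw [this]
    exact neg_mem (add_mem (κ.J.mul_mem_right _ _ a1) (κ.J.mul_mem_left _ _ a2))
  · simp

end Cube

theorem koszul (ha : IsAct a) {k : ℕ} {f : Option (Fin k) → 𝒜} {F : Fin k → Subgroup Γ}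
    {S : Finset Γ} (hS : SliceData a f F S) {θ : (Fin k → Bool) → Γ → Λ}
    {w : Fin k → (Fin k → Bool) → Λ} (hθ : CubeData F S θ w) (x : (Fin k → Bool) → K0 R)
    (hx : ∀ e, κ.Ind1 (ρ.P₀ S (θ e) (f none)) (ρ.P₁ S (θ e) (f none)) (ρ.T S (θ e) (f none))
      (x e)) :
    ∑ e, cubeSign e • x e = 0 :=
  cube_abs (fun e => ρ.fred1 ha hS (hθ.hom e))
    (Dm_sq (ρ.edge_sq ha hS hθ) fun _ _ h => ρ.edge_comm ha hS hθ h)
    (ρ.edge_dg ha hS hθ ρ.G₀_L ρ.G₀_σ) (ρ.edge_dg ha hS hθ ρ.G₁_L ρ.G₁_σ)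
    (fun e => by rw [P₀, ← mul_assoc, ρ.br_cut ha hS (hθ.hom e)])
    (fun e => by rw [P₁, ← mul_assoc, ρ.br_cut ha hS (hθ.hom e)])
    (fun e => by rw [T, mul_assoc]) (ρ.edge_F f S θ w) x hx

end Vale.Agent.P089.LocRep
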