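import Vale.Agent.P089.AbsDefs

/-! Definitions for the slice data (task T3) and the Koszul argument (task T4). -/

noncomputable section

namespace Vale.Agent.P089

/-- An action of `Γ` on a commutative nonunital ring by ring automorphisms. -/
structure IsAct {Γ 𝒜 : Type} [Group Γ] [NonUnitalCommRing 𝒜] (a : Γ → 𝒜 → 𝒜) : Prop where
  one : ∀ f, a 1 f = f
  mul : ∀ s t f, a (s * t) f = a s (a t f)
  map_add : ∀ s f g, a s (f + g) = a s f + a s g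
  map_mul : ∀ s f g, a s (f * g) = a s f * a s g

/-- Algebraic form of a cutoff `c = f none` together with a partition `b j = f (some j)`
subordinate to slices with finite groups `F j`; `S` is the finite set of relevant elements. -/
structure SliceData {Γ 𝒜 : Type} [Group Γ] [NonUnitalCommRing 𝒜] (a : Γ → 𝒜 → 𝒜) {k : ℕ}
    (f : Option (Fin k) → 𝒜) (F : Fin k → Subgroup Γ) (S : Finset Γ) : Prop where
  one_mem : 1 ∈ S
  inv_mem : ∀ s ∈ S, s⁻¹ ∈ S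
  sub : ∀ j, ∀ s ∈ F j, s ∈ S
  vanish : ∀ i i', ∀ s, s ∉ S → f i * a s (f i') = 0
  slice : ∀ j, ∀ s, s ∉ F j → f (some j) * a s (f (some j)) = 0
  cut : ∀ i, f i * ∑ s ∈ S, a s (f none * f none) = f i
  part : ∑ j, f none * (∑ s ∈ S, a s (f (some j) * f (some j))) *
    (∑ s ∈ S, a s (f (some j) * f (some j))) = f none

/-- `θ` is multiplicative on `S`. -/
def LocHom {Γ Λ : Type} [Group Γ] [Group Λ] (S : Finset Γ) (θ : Γ → Λ) : Prop :=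
  ∀ s t, s ∈ S → t ∈ S → s * t ∈ S → θ (s * t) = θ s * θ t

/-- Abstract form of a descended Kasparov cycle: `L g = λ_g ⊗ 1`, `σ f s = 1 ⊗ π(f) U_s`,
`G₀, G₁ = (1 ± γ) / 2`, `F = 1 ⊗ F`. -/
structure LocRep {B R : Type} [Ring B] [Ring R] (κ : Ctx B R) {Γ 𝒜 : Type} [Group Γ]
    [NonUnitalCommRing 𝒜] (a : Γ → 𝒜 → 𝒜) (Λ : Type) [Group Λ] where
  L : Λ →* B
  σ : 𝒜 → Γ → B
  G₀ : B
  G₁ : B
  F : B
  σ_mul : ∀ f s f' t, σ f s * σ f' t = σ (f * a s f') (s * t)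
  σ_add : ∀ f f' s, σ (f + f') s = σ f s + σ f' s
  L_σ : ∀ g f s, L g * σ f s = σ f s * L g
  G₀_σ : ∀ f s, G₀ * σ f s = σ f s * G₀
  G₁_σ : ∀ f s, G₁ * σ f s = σ f s * G₁
  G₀_L : ∀ g, G₀ * L g = L g * G₀
  G₁_L : ∀ g, G₁ * L g = L g * G₁
  F_L : ∀ g, F * L g = L g * F
  G₀_sq : G₀ * G₀ = G₀
  G₁_sq : G₁ * G₁ = G₁
  F_G₀ : F * G₀ = G₁ * F
  F_G₁ : F * G₁ = G₀ * F
  F_σ : ∀ f s, F * σ f s - σ f s * F ∈ κ.J
  F_sq : ∀ f s, σ f s * (F * F) - σ f s ∈ κ.J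

namespace LocRep

variable {B R : Type} [Ring B] [Ring R] {κ : Ctx B R} {Γ 𝒜 : Type} [Group Γ]
  [NonUnitalCommRing 𝒜] {a : Γ → 𝒜 → 𝒜} {Λ : Type} [Group Λ] (ρ : LocRep κ a Λ)

/-- The bracket `[f, g]_θ = ∑_s λ_{θ s} ⊗ π (f · s g) U_s`. -/
def br (S : Finset Γ) (θ : Γ → Λ) (f g : 𝒜) : B := ∑ s ∈ S, ρ.L (θ s) * ρ.σ (f * a s g) s

/-- Even part of the twisted cutoff projection. -/
def P₀ (S : Finset Γ) (θ : Γ → Λ) (c : 𝒜) : B := ρ.br S θ c c * ρ.G₀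

/-- Odd part of the twisted cutoff projection. -/
def P₁ (S : Finset Γ) (θ : Γ → Λ) (c : 𝒜) : B := ρ.br S θ c c * ρ.G₁

/-- The compressed operator. -/
def T (S : Finset Γ) (θ : Γ → Λ) (c : 𝒜) : B := ρ.P₁ S θ c * ρ.F * ρ.P₀ S θ c

/-- Its parametrix. -/
def T' (S : Finset Γ) (θ : Γ → Λ) (c : 𝒜) : B := ρ.P₀ S θ c * ρ.F * ρ.P₁ S θ c

end LocRep

/-- Flip the `j`-th coordinate. -/
def flip {k : ℕ} (j : Fin k) (s : Fin k → Bool) : Fin k → Bool := Function.update s j (!s j)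

/-- The parity sign of a vertex of the cube. -/
def cubeSign {k : ℕ} (s : Fin k → Bool) : ℤ := ∏ j, if s j then -1 else 1

/-- A cube of local homomorphisms with intertwiners. -/
structure CubeData {Γ Λ : Type} [Group Γ] [Group Λ] {k : ℕ} (F : Fin k → Subgroup Γ)
    (S : Finset Γ) (θ : (Fin k → Bool) → Γ → Λ) (w : Fin k → (Fin k → Bool) → Λ) : Prop where
  hom : ∀ e, LocHom S (θ e)
  intertw : ∀ j e, ∀ s ∈ F j, θ (flip j e) s * w j e = w j e * θ e s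
  inv : ∀ j e, w j (flip j e) * w j e = 1
  comm : ∀ j j' e, j ≠ j' → ∀ t ∈ S,
    w j (flip j' e) * θ (flip j' e) t * w j' e =
      θ (flip j (flip j' e)) t * w j' (flip j e) * (θ (flip j e) t)⁻¹ * w j e * θ e t

end Vale.Agent.P089
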