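import Vale.Agent.P089.OpBasic
import Vale.Agent.P089.AbsDefs

/-! Task T2a: the analytic model of `Ctx`. See notes/P089/PROOF.md, section T2. -/

noncomputable section

namespace Vale.Agent.P089

section Aux

variable {E E' F F' G : Type} [NormedAddCommGroup E] [InnerProductSpace ℂ E]
  [NormedAddCommGroup E'] [InnerProductSpace ℂ E'] [NormedAddCommGroup F] [InnerProductSpace ℂ F]
  [NormedAddCommGroup F'] [InnerProductSpace ℂ F'] [NormedAddCommGroup G] [InnerProductSpace ℂ G]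

theorem Model.closedSpan_eq (S : Set (Op E E')) :
    closedSpan S = ((Submodule.span ℂ S).topologicalClosure : Set (Op E E')) := rfl

theorem Model.subset_closedSpan {S : Set (Op E E')} : S ⊆ closedSpan S :=
  Submodule.subset_span.trans subset_closure

theorem Model.closedSpan_map {S : Set (Op E E')} {S' : Set (Op F F')}
    (Φ : Op E E' →L[ℂ] Op F F') (h : ∀ x ∈ S, Φ x ∈ closedSpan S') {x : Op E E'}
    (hx : x ∈ closedSpan S) : Φ x ∈ closedSpan S' := by
  have h1 : Submodule.span ℂ S ≤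
      ((Submodule.span ℂ S').topologicalClosure).comap (Φ : Op E E' →ₗ[ℂ] Op F F') :=
    Submodule.span_le.2 h
  exact closure_minimal (t := Φ ⁻¹' closedSpan S') h1 (isClosed_closure.preimage Φ.continuous) hx

theorem Model.closedSpan_mono {S S' : Set (Op E E')} (h : S ⊆ closedSpan S') :
    closedSpan S ⊆ closedSpan S' :=
  fun _ hx => Model.closedSpan_map (ContinuousLinearMap.id ℂ _) h hx

theorem Model.closedSpan_comp {S₁ : Set (Op F G)} {S₂ : Set (Op E F)} {S₃ : Set (Op E G)}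
    (h : ∀ a ∈ S₁, ∀ b ∈ S₂, a.comp b ∈ closedSpan S₃) {x : Op F G} {y : Op E F}
    (hx : x ∈ closedSpan S₁) (hy : y ∈ closedSpan S₂) : x.comp y ∈ closedSpan S₃ :=
  Model.closedSpan_map ((ContinuousLinearMap.compL ℂ E F G).flip y)
    (fun a ha => Model.closedSpan_map (ContinuousLinearMap.compL ℂ E F G a) (h a ha) hy) hx

/-- compact operators into a Hilbert space are limits of finite rank operators -/
theorem Model.compact_mem {T : Op E E'} (hT : IsCompactOperator T) :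
    T ∈ closedSpan {x : Op E E' | ∃ (a : Op ℂ E') (f : Op E ℂ), x = a.comp f} := by
  refine Metric.mem_closure_iff.2 fun δ hδ => ?_
  obtain ⟨C, hC, hTC⟩ :=
    IsCompactOperator.image_closedBall_subset_compact (f := (T : E →ₗ[ℂ] E')) hT 1
  obtain ⟨t, ht, hcov⟩ := Metric.totallyBounded_iff.1 hC.totallyBounded (δ / 2) (half_pos hδ)
  let V : Submodule ℂ E' := Submodule.span ℂ t
  have : FiniteDimensional ℂ V := FiniteDimensional.span_of_finite ℂ ht
  let b := Module.finBasis ℂ V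
  refine ⟨V.starProjection.comp T, ?_, ?_⟩
  · have : V.starProjection.comp T = ∑ i, (ContinuousLinearMap.toSpanSingleton ℂ (b i : E')).comp
        (((b.coord i).toContinuousLinearMap.comp V.orthogonalProjectionOnto).comp T) := by
      ext x
      have h1 := congrArg (Subtype.val) (b.sum_repr (V.orthogonalProjectionOnto (T x)))
      rw [ContinuousLinearMap.comp_apply, Submodule.starProjection_apply, ← h1]
      simp only [ContinuousLinearMap.comp_apply, sum_apply,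
        ContinuousLinearMap.toSpanSingleton_apply, Submodule.coe_sum, Submodule.coe_smul]
      rfl
    rw [this]
    exact Submodule.sum_mem _ fun i _ => Submodule.subset_span ⟨_, _, rfl⟩
  · rw [dist_eq_norm]
    refine lt_of_le_of_lt (ContinuousLinearMap.opNorm_le_of_unit_norm (half_pos hδ).le
      fun x hx => ?_) (half_lt_self hδ)
    have h1 := hcov (hTC ⟨x, by simp [hx], rfl⟩)
    simp only [Set.mem_iUnion] at h1
    obtain ⟨y, hy, hxy⟩ := h1
    rw [sub_apply, ContinuousLinearMap.comp_apply,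
      Submodule.starProjection_minimal]
    refine le_trans ?_ (mem_ball_iff_norm.1 hxy).le
    change _ ≤ ‖T x - (⟨y, Submodule.subset_span hy⟩ : V)‖
    exact ciInf_le ⟨0, Set.forall_mem_range.mpr fun _ => norm_nonneg _⟩ _

end Aux

section Fac

variable {B : Type} [Ring B] {I : Type}

/-- the matrix factors through a multiple of `ε` -/
def Model.Fac (ε : B) (y : Matrix I I B) : Prop :=
  ∃ (n : ℕ) (A : I → Fin n → B) (C : I → Fin n → B), ∀ a b, y a b = ∑ k, A a k * (ε * C b k)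

theorem Model.Fac.zero (ε : B) : Model.Fac ε (0 : Matrix I I B) :=
  ⟨0, fun _ => Fin.elim0, fun _ => Fin.elim0, fun _ _ => by simp⟩

theorem Model.Fac.add {ε : B} {y y' : Matrix I I B} (h : Model.Fac ε y) (h' : Model.Fac ε y') :
    Model.Fac ε (y + y') := by
  obtain ⟨n, A, C, h⟩ := h
  obtain ⟨n', A', C', h'⟩ := h'
  refine ⟨n + n', fun a => Fin.append (A a) (A' a), fun b => Fin.append (C b) (C' b),
    fun a b => ?_⟩
  rw [Fin.sum_univ_add, Matrix.add_apply, h, h']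
  simp only [Fin.append_left, Fin.append_right]

theorem Model.Fac.smul [Algebra ℂ B] {ε : B} {y : Matrix I I B} (h : Model.Fac ε y) (c : ℂ) :
    Model.Fac ε (c • y) := by
  obtain ⟨n, A, C, h⟩ := h
  refine ⟨n, fun a k => c • A a k, C, fun a b => ?_⟩
  rw [Matrix.smul_apply, h, Finset.smul_sum]
  simp only [smul_mul_assoc]

theorem Model.Fac.single [DecidableEq I] (ε p q : B) (a b : I) :
    Model.Fac ε (Matrix.single a b (p * (ε * q))) := by
  refine ⟨1, fun a' _ => if a = a' then p else 0, fun b' _ => if b = b' then q else 0,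
    fun a' b' => ?_⟩
  rw [Matrix.single_apply]
  by_cases h1 : a = a' <;> by_cases h2 : b = b' <;> simp [h1, h2]

theorem Model.isUnit_of_small {B : Type} [NormedRing B] [CompleteSpace B] [Fintype I]
    [DecidableEq I] (z : Matrix I I B) (h : ∀ a b, ‖z a b‖ ≤ 1 / (Fintype.card I + 1)) :
    IsUnit (1 - z) := by
  let inst : NormedRing (Matrix I I B) := Matrix.linftyOpNormedRing
  have hc : @CompleteSpace (Matrix I I B) inst.toMetricSpace.toUniformSpace :=
    inferInstanceAs (CompleteSpace (I → I → B))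
  refine isUnit_one_sub_of_norm_lt_one ?_
  have h1 : ((Finset.univ : Finset I).sup fun i => ∑ j, ‖z i j‖₊ : NNReal) < 1 := by
    rw [Finset.sup_lt_iff (by simp)]
    intro i _
    rw [← NNReal.coe_lt_coe]
    push_cast
    refine lt_of_le_of_lt (Finset.sum_le_sum fun j _ => h i j) ?_
    rw [Finset.sum_const, Finset.card_univ, nsmul_eq_mul, mul_one_div, div_lt_one (by positivity)]
    exact lt_add_one _
  exact (Matrix.linfty_opNorm_def z).trans_lt (by exact_mod_cast h1)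

end Fac

variable {Γ : Type} [Group Γ] {K K' K'' : Type} [NormedAddCommGroup K] [InnerProductSpace ℂ K]
  [NormedAddCommGroup K'] [InnerProductSpace ℂ K'] [NormedAddCommGroup K'']
  [InnerProductSpace ℂ K'']

/-- Norm closure of the span of all `λ_s ⊗ T`, `T : K → K'`. -/
def bOps (Γ : Type) [Group Γ] (K K' : Type) [NormedAddCommGroup K] [InnerProductSpace ℂ K]
    [NormedAddCommGroup K'] [InnerProductSpace ℂ K'] : Set (Op (L2 Γ K) (L2 Γ K')) :=
  closedSpan {x | ∃ (s : Γ) (T : Op K K'), x = lamT s T}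

theorem lamT_mem_bOps (s : Γ) (T : Op K K') : lamT s T ∈ bOps Γ K K' :=
  Model.subset_closedSpan ⟨s, T, rfl⟩

theorem lamT_mem_cptOps (s : Γ) {T : Op K K'} (hT : IsCompactOperator T) :
    lamT s T ∈ cptOps Γ K K' :=
  Model.subset_closedSpan ⟨s, T, hT, rfl⟩

theorem cptOps_subset_bOps : cptOps Γ K K' ⊆ bOps Γ K K' :=
  Model.closedSpan_mono fun _ ⟨s, T, _, h⟩ => h ▸ lamT_mem_bOps s T

theorem zero_mem_cptOps : (0 : Op (L2 Γ K) (L2 Γ K')) ∈ cptOps Γ K K' :=
  (Submodule.topologicalClosure _).zero_mem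

theorem add_mem_cptOps {x y : Op (L2 Γ K) (L2 Γ K')} (hx : x ∈ cptOps Γ K K')
    (hy : y ∈ cptOps Γ K K') : x + y ∈ cptOps Γ K K' :=
  (Submodule.topologicalClosure _).add_mem hx hy

theorem neg_mem_cptOps {x : Op (L2 Γ K) (L2 Γ K')} (hx : x ∈ cptOps Γ K K') :
    -x ∈ cptOps Γ K K' :=
  (Submodule.topologicalClosure _).neg_mem hx

theorem add_mem_bOps {x y : Op (L2 Γ K) (L2 Γ K')} (hx : x ∈ bOps Γ K K')
    (hy : y ∈ bOps Γ K K') : x + y ∈ bOps Γ K K' :=
  (Submodule.topologicalClosure _).add_mem hx hy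

theorem comp_mem_bOps {x : Op (L2 Γ K') (L2 Γ K'')} {y : Op (L2 Γ K) (L2 Γ K')}
    (hx : x ∈ bOps Γ K' K'') (hy : y ∈ bOps Γ K K') : x.comp y ∈ bOps Γ K K'' := by
  refine Model.closedSpan_comp ?_ hx hy
  rintro _ ⟨s, T, rfl⟩ _ ⟨t, T', rfl⟩
  rw [lamT_comp]
  exact lamT_mem_bOps _ _

theorem comp_mem_cptOps_left {x : Op (L2 Γ K') (L2 Γ K'')} {y : Op (L2 Γ K) (L2 Γ K')}
    (hx : x ∈ bOps Γ K' K'') (hy : y ∈ cptOps Γ K K') : x.comp y ∈ cptOps Γ K K'' := by
  refine Model.closedSpan_comp ?_ hx hy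
  rintro _ ⟨s, T, rfl⟩ _ ⟨t, T', h, rfl⟩
  rw [lamT_comp]
  exact lamT_mem_cptOps _ (h.clm_comp T)

theorem comp_mem_cptOps_right {x : Op (L2 Γ K') (L2 Γ K'')} {y : Op (L2 Γ K) (L2 Γ K')}
    (hx : x ∈ cptOps Γ K' K'') (hy : y ∈ bOps Γ K K') : x.comp y ∈ cptOps Γ K K'' := by
  refine Model.closedSpan_comp ?_ hx hy
  rintro _ ⟨s, T, h, rfl⟩ _ ⟨t, T', rfl⟩
  rw [lamT_comp]
  exact lamT_mem_cptOps _ (h.comp_clm T')

/-- For `K = K' = ℂ` all three algebras agree. -/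
theorem bOps_complex : bOps Γ ℂ ℂ = (cstarAlg Γ : Set _) := by
  rw [cstarAlg_eq_closedSpan]
  refine Set.Subset.antisymm (Model.closedSpan_mono ?_) (Model.closedSpan_mono ?_)
  · rintro _ ⟨s, T, rfl⟩
    have : T = T 1 • (1 : Op ℂ ℂ) := by ext; simp
    rw [this, lamT_smul, lamT_id]
    exact subset_closure (Submodule.smul_mem _ _ (Submodule.subset_span ⟨s, rfl⟩))
  · rintro _ ⟨s, rfl⟩
    have := lamT_mem_bOps s (1 : Op ℂ ℂ)
    rwa [lamT_id] at this

theorem cptOps_complex : cptOps Γ ℂ ℂ = (cstarAlg Γ : Set _) := by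
  rw [← bOps_complex]
  refine Set.Subset.antisymm cptOps_subset_bOps (Model.closedSpan_mono ?_)
  rintro _ ⟨s, T, rfl⟩
  exact lamT_mem_cptOps s (isCompactOperator_of_locallyCompactSpace_dom T)

/-- `bOps Γ K K` as a subalgebra. -/
def bAlg (Γ : Type) [Group Γ] (K : Type) [NormedAddCommGroup K] [InnerProductSpace ℂ K] :
    Subalgebra ℂ (L2 Γ K →L[ℂ] L2 Γ K) where
  carrier := bOps Γ K K
  mul_mem' hx hy := comp_mem_bOps hx hy
  add_mem' hx hy := add_mem_bOps hx hy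
  algebraMap_mem' c := by
    have := lamT_mem_bOps (1 : Γ) (c • (1 : Op K K))
    rwa [lamT_smul, lamT_id, shift_one, ← Algebra.algebraMap_eq_smul_one] at this

/-- The ring `B(K) ⊗ C*_r(Γ)`. -/
abbrev BAlg (Γ : Type) [Group Γ] (K : Type) [NormedAddCommGroup K] [InnerProductSpace ℂ K] :
    Type := bAlg Γ K

/-- `s ↦ λ_s ⊗ 1`. -/
def lamB (Γ : Type) [Group Γ] (K : Type) [NormedAddCommGroup K] [InnerProductSpace ℂ K] :
    Γ →* BAlg Γ K where
  toFun s := ⟨shift s, lamT_id (K := K) s ▸ lamT_mem_bOps s 1⟩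
  map_one' := Subtype.ext shift_one
  map_mul' s t := Subtype.ext (shift_mul s t)

/-- `T ↦ 1 ⊗ T`. -/
def amplB (Γ : Type) [Group Γ] (K : Type) [NormedAddCommGroup K] [InnerProductSpace ℂ K] :
    (K →L[ℂ] K) →+* BAlg Γ K where
  toFun T := ⟨ampl Γ T, lamT_one (Γ := Γ) T ▸ lamT_mem_bOps 1 T⟩
  map_one' := Subtype.ext ampl_one
  map_mul' S T := Subtype.ext (ampl_comp S T).symm
  map_zero' := Subtype.ext ampl_zero
  map_add' S T := Subtype.ext (ampl_add S T)

theorem lamB_mul_amplB (s : Γ) (T : K →L[ℂ] K) :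
    lamB Γ K s * amplB Γ K T = amplB Γ K T * lamB Γ K s :=
  Subtype.ext (op_ext fun _ _ => rfl)

/-- The ideal `𝒦(K) ⊗ C*_r(Γ)`. -/
def jIdeal (Γ : Type) [Group Γ] (K : Type) [NormedAddCommGroup K] [InnerProductSpace ℂ K] :
    TwoSidedIdeal (BAlg Γ K) :=
  TwoSidedIdeal.mk' {x | x.1 ∈ cptOps Γ K K} zero_mem_cptOps (fun hx hy => add_mem_cptOps hx hy)
    (fun hx => neg_mem_cptOps hx) (fun {x _} hy => comp_mem_cptOps_left x.2 hy)
    (fun {_ y} hx => comp_mem_cptOps_right hx y.2)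

theorem mem_jIdeal {x : BAlg Γ K} : x ∈ jIdeal Γ K ↔ x.1 ∈ cptOps Γ K K :=
  TwoSidedIdeal.mem_mk' _ _ _ _ _ _ _

theorem sandwich_mem_bOps (ι₀ : Op ℂ K') (ρ₀ : Op K ℂ) (a : CStarRed Γ) :
    sandwich (ampl Γ ι₀) a.op (ampl Γ ρ₀) ∈ bOps Γ K K' :=
  comp_mem_bOps (lamT_one (Γ := Γ) ι₀ ▸ lamT_mem_bOps 1 ι₀)
    (comp_mem_bOps (bOps_complex (Γ := Γ) ▸ a.op_mem) (lamT_one (Γ := Γ) ρ₀ ▸ lamT_mem_bOps 1 ρ₀))

omit [Group Γ] in
theorem Model.rho_iota {ι₀ : Op ℂ K} {ρ₀ : Op K ℂ} (h : ρ₀.comp ι₀ = 1) (ξ : L2 Γ ℂ) :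
    ampl Γ ρ₀ (ampl Γ ι₀ ξ) = ξ := by
  rw [← ContinuousLinearMap.comp_apply, ampl_comp, h, ampl_one, one_apply_eq_self]

/-- The corner embedding `a ↦ ι₀ a ρ₀`. -/
def cornerHom (Γ : Type) [Group Γ] (ι₀ : Op ℂ K) (ρ₀ : Op K ℂ) (h : ρ₀.comp ι₀ = 1) :
    CStarRed Γ →ₙ+* BAlg Γ K where
  toFun a := ⟨sandwich (ampl Γ ι₀) a.op (ampl Γ ρ₀), sandwich_mem_bOps ι₀ ρ₀ a⟩
  map_mul' a b := by
    refine Subtype.ext (ContinuousLinearMap.ext fun ξ => ?_)
    simp [sandwich, Model.rho_iota h]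
  map_zero' := by
    refine Subtype.ext (ContinuousLinearMap.ext fun ξ => ?_)
    simp [sandwich]
  map_add' a b := by
    refine Subtype.ext (ContinuousLinearMap.ext fun ξ => ?_)
    simp [sandwich]

theorem Model.cornerHom_apply {ι₀ : Op ℂ K} {ρ₀ : Op K ℂ} (h : ρ₀.comp ι₀ = 1) (a : CStarRed Γ)
    (ξ : L2 Γ K) : (cornerHom Γ ι₀ ρ₀ h a).1 ξ = ampl Γ ι₀ (a.op (ampl Γ ρ₀ ξ)) := rfl

/-- `T ↦ λ_s ⊗ T` as a continuous linear map -/
def Model.lamL (s : Γ) : Op K K' →L[ℂ] Op (L2 Γ K) (L2 Γ K') :=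
  LinearMap.mkContinuous
    { toFun := lamT s, map_add' := lamT_add s, map_smul' := fun c T => lamT_smul s c T } 1
    (fun T => by rw [one_mul]; exact norm_lamT_le s T)

theorem Model.cpt_subset {ι₀ : Op ℂ K} {ρ₀ : Op K ℂ} (h : ρ₀.comp ι₀ = 1) :
    cptOps Γ K K ⊆ closedSpan
      {x | ∃ p q : BAlg Γ K, x = (p * (cornerHom Γ ι₀ ρ₀ h 1 * q)).1} := by
  refine Model.closedSpan_mono ?_
  rintro _ ⟨s, T, hT, rfl⟩
  refine Model.closedSpan_map (Model.lamL s) ?_ (Model.compact_mem hT)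
  rintro _ ⟨a, f, rfl⟩
  refine Model.subset_closedSpan ⟨⟨lamT s (a.comp ρ₀), lamT_mem_bOps _ _⟩,
    amplB Γ K (ι₀.comp f), op_ext fun ξ g => ?_⟩
  have h' : ∀ z, ρ₀ (ι₀ z) = z := fun z => by
    rw [← ContinuousLinearMap.comp_apply, h, one_apply_eq_self]
  change a (f (ξ (s⁻¹ * g))) = a (ρ₀ (ι₀ (ρ₀ (ι₀ (f (ξ (s⁻¹ * g)))))))
  rw [h', h']

theorem Model.exists_fac {ι₀ : Op ℂ K} {ρ₀ : Op K ℂ} (h : ρ₀.comp ι₀ = 1) {I : Type}
    [DecidableEq I] (a b : I) {x : BAlg Γ K} (hx : x.1 ∈ cptOps Γ K K) {δ : ℝ} (hδ : 0 < δ) :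
    ∃ y : BAlg Γ K, ‖y - x‖ ≤ δ ∧ Model.Fac (cornerHom Γ ι₀ ρ₀ h 1) (Matrix.single a b y) := by
  obtain ⟨y, hy, hd⟩ := Metric.mem_closure_iff.1 (Model.cpt_subset h hx) δ hδ
  have : ∃ y' : BAlg Γ K, y'.1 = y ∧
      Model.Fac (cornerHom Γ ι₀ ρ₀ h 1) (Matrix.single a b y') := by
    clear hd
    induction hy using Submodule.span_induction with
    | mem x hx =>
      obtain ⟨p, q, rfl⟩ := hx
      exact ⟨_, rfl, Model.Fac.single _ p q a b⟩
    | zero => exact ⟨0, rfl, by rw [Matrix.single_zero]; exact Model.Fac.zero _⟩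
    | add x y _ _ hx hy =>
      obtain ⟨x, rfl, hx⟩ := hx
      obtain ⟨y, rfl, hy⟩ := hy
      exact ⟨x + y, rfl, by rw [Matrix.single_add]; exact hx.add hy⟩
    | smul c x _ hx =>
      obtain ⟨x, rfl, hx⟩ := hx
      exact ⟨c • x, rfl, by rw [← Matrix.smul_single]; exact hx.smul c⟩
  obtain ⟨y, rfl, hy'⟩ := this
  refine ⟨y, ?_, hy'⟩
  rw [dist_comm, dist_eq_norm] at hd
  exact hd.le

/-- The analytic model of `Ctx`. -/
def ctx (Γ : Type) [Group Γ] [CompleteSpace K] (ι₀ : Op ℂ K) (ρ₀ : Op K ℂ)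
    (h : ρ₀.comp ι₀ = 1) : Ctx (BAlg Γ K) (CStarRed Γ) where
  J := jIdeal Γ K
  j := cornerHom Γ ι₀ ρ₀ h
  j_inj := by
    intro a b hab
    refine CStarRed.ext (ContinuousLinearMap.ext fun ξ => ?_)
    have := congrArg (fun x : BAlg Γ K => ampl Γ ρ₀ (x.1 (ampl Γ ι₀ ξ))) hab
    simpa only [Model.cornerHom_apply, Model.rho_iota h] using this
  j_range := by
    intro b
    have hm : (ampl Γ ρ₀).comp (b.1.comp (ampl Γ ι₀)) ∈ bOps Γ ℂ ℂ :=
      comp_mem_bOps (lamT_one (Γ := Γ) ρ₀ ▸ lamT_mem_bOps 1 ρ₀)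
        (comp_mem_bOps b.2 (lamT_one (Γ := Γ) ι₀ ▸ lamT_mem_bOps 1 ι₀))
    rw [bOps_complex] at hm
    exact ⟨CStarRed.mk _ hm, Subtype.ext (ContinuousLinearMap.ext fun ξ => rfl)⟩
  eps_mem := by
    rw [mem_jIdeal]
    have := lamT_mem_cptOps (1 : Γ) (T := ι₀.comp ρ₀)
      ((isCompactOperator_of_locallyCompactSpace_dom ρ₀).clm_comp ι₀)
    rw [lamT_one, ← ampl_comp] at this
    exact this
  approx := by
    intro I _ _ x hx
    have : CompleteSpace (BAlg Γ K) :=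
      IsClosed.completeSpace_coe (s := bOps Γ K K) (hs := isClosed_closure)
    choose y hy hf using fun a b => Model.exists_fac h a b (mem_jIdeal.1 (hx a b))
      (δ := 1 / (Fintype.card I + 1)) (by positivity)
    have hF : Model.Fac (cornerHom Γ ι₀ ρ₀ h 1) (Matrix.of y) := by
      rw [Matrix.matrix_eq_sum_single (Matrix.of y)]
      exact Finset.sum_induction _ _ (fun _ _ => Model.Fac.add) (Model.Fac.zero _) fun a _ =>
        Finset.sum_induction _ _ (fun _ _ => Model.Fac.add) (Model.Fac.zero _) fun b _ => hf a b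
    obtain ⟨n, A, C, hAC⟩ := hF
    refine ⟨n, Matrix.of A, Matrix.of fun k b => C b k, ?_⟩
    have e : (Matrix.of A * ((Matrix.diagonal (fun _ => cornerHom Γ ι₀ ρ₀ h 1) :
        Matrix (Fin n) (Fin n) (BAlg Γ K)) * (Matrix.of fun k b => C b k) :
        Matrix (Fin n) I (BAlg Γ K))) = Matrix.of y := by
      ext1 a b
      rw [hAC, Matrix.mul_apply]
      simp only [Matrix.diagonal_mul, Matrix.of_apply]
    rw [e, add_sub_assoc, ← sub_neg_eq_add, neg_sub]
    exact Model.isUnit_of_small _ hy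

end Vale.Agent.P089
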