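import Vale.Agent.P089.KoszulDefs

/-! Task T3: slices and partitions. See notes/P089/PROOF.md, section T3. -/

open scoped ZeroAtInfty

noncomputable section

namespace Vale.Agent.P089

variable {Γ X : Type} [Group Γ] [TopologicalSpace X] [MulAction Γ X] [ContinuousConstSMul Γ X]

@[simp] theorem act_apply (g : Γ) (f : C₀(X, ℂ)) (x : X) : act g f x = f (g⁻¹ • x) := rfl

theorem isAct_act : IsAct (act : Γ → C₀(X, ℂ) → C₀(X, ℂ)) where
  one f := by ext x; simp
  mul s t f := by ext x; simp [mul_smul]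
  map_add s f g := by ext x; simp
  map_mul s f g := by ext x; simp

theorem c0_sum_apply {ι : Type} (T : Finset ι) (f : ι → C₀(X, ℂ)) (x : X) :
    (∑ i ∈ T, f i) x = ∑ i ∈ T, f i x := by
  classical
  induction T using Finset.induction_on with
  | empty => simp
  | insert a T ha ih => rw [Finset.sum_insert ha, Finset.sum_insert ha, ← ih]; rfl

theorem exists_bumps [T2Space X] [LocallyCompactSpace X] [ProperlyDiscontinuousSMul Γ X]
    (K₀ : Set X) (hK₀ : IsCompact K₀) :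
    ∃ (k : ℕ) (φ : Fin (k + 1) → C(X, ℝ)) (F : Fin (k + 1) → Subgroup Γ),
      (∀ j, HasCompactSupport (φ j)) ∧ (∀ j, (F j : Set Γ).Finite) ∧
      (∀ j s x, φ j x ≠ 0 → φ j (s⁻¹ • x) ≠ 0 → s ∈ F j) ∧ ∀ x ∈ K₀, ∃ j, φ j x ≠ 0 := by
  classical
  have key : ∀ x : X, ∃ ψ : C(X, ℝ), HasCompactSupport ψ ∧ ψ x ≠ 0 ∧
      ∀ (s : Γ) y, ψ y ≠ 0 → ψ (s⁻¹ • y) ≠ 0 → s ∈ MulAction.stabilizer Γ x := by
    intro x
    obtain ⟨U, hU, hUs⟩ := ProperlyDiscontinuousSMul.exists_nhds_image_smul_eq_self Γ x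
    obtain ⟨ψ, h1, h0, hsupp, -⟩ := exists_continuous_one_zero_of_isCompact
      (s := {x}) (t := (interior U)ᶜ) isCompact_singleton isOpen_interior.isClosed_compl
      (by simpa using mem_interior_iff_mem_nhds.2 hU)
    have hin : ∀ y, ψ y ≠ 0 → y ∈ U := by
      intro y hy
      by_contra h
      exact hy (h0 (fun h' => h (interior_subset h')))
    refine ⟨ψ, hsupp, ?_, fun s y hy hsy => ?_⟩
    · have := h1 (Set.mem_singleton x)
      simp only [Pi.one_apply] at this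
      rw [this]; exact one_ne_zero
    · exact hUs s ⟨y, ⟨s⁻¹ • y, hin _ hsy, by simp⟩, hin _ hy⟩
  choose ψ hsupp hne hst using key
  obtain ⟨t, ht⟩ := hK₀.elim_finite_subcover (fun x => {y | ψ x y ≠ 0})
    (fun x => isOpen_ne_fun (ψ x).continuous continuous_const)
    (fun x _ => Set.mem_iUnion.2 ⟨x, hne x⟩)
  let e := t.equivFin
  refine ⟨t.card, Fin.cons 0 (fun i => ψ (e.symm i)),
    Fin.cons ⊥ (fun i => MulAction.stabilizer Γ (e.symm i : X)), ?_, ?_, ?_, ?_⟩
  · intro j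
    refine Fin.cases ?_ (fun i => ?_) j
    · simpa using HasCompactSupport.zero
    · simpa using hsupp _
  · intro j
    refine Fin.cases ?_ (fun i => ?_) j
    · simp
    · simpa using ProperlyDiscontinuousSMul.finite_stabilizer (Γ := Γ) (e.symm i : X)
  · intro j
    refine Fin.cases ?_ (fun i => ?_) j
    · intro s x h; simp at h
    · intro s x h h'
      simp only [Fin.cons_succ] at h h' ⊢
      exact hst _ s x h h'
  · intro x hx
    obtain ⟨y, hy, hxy⟩ := Set.mem_iUnion₂.1 (ht hx)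
    refine ⟨(e ⟨y, hy⟩).succ, ?_⟩
    simpa using hxy

omit [ContinuousConstSMul Γ X] in
theorem exists_finset_S [ProperlyDiscontinuousSMul Γ X] {k : ℕ} (K : Set X) (hK : IsCompact K)
    (F : Fin k → Subgroup Γ) (hF : ∀ j, (F j : Set Γ).Finite) :
    ∃ S : Finset Γ, 1 ∈ S ∧ (∀ s ∈ S, s⁻¹ ∈ S) ∧ (∀ j, ∀ s ∈ F j, s ∈ S) ∧
      ∀ s x, x ∈ K → s⁻¹ • x ∈ K → s ∈ S := by
  have hfin : ({s : Γ | ((s • ·) '' K ∩ K).Nonempty} ∪ ({1} ∪ ⋃ j, (F j : Set Γ))).Finite :=
    (ProperlyDiscontinuousSMul.finite_disjoint_inter_image hK hK).union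
      ((Set.finite_singleton _).union (Set.finite_iUnion hF))
  refine ⟨hfin.toFinset, ?_, ?_, ?_, ?_⟩
  · simp
  · intro s hs
    rw [Set.Finite.mem_toFinset] at hs ⊢
    rcases hs with ⟨y, ⟨x, hx, rfl⟩, hy⟩ | rfl | hs
    · exact Or.inl ⟨x, ⟨s • x, hy, by simp⟩, hx⟩
    · simp
    · obtain ⟨j, hj⟩ := Set.mem_iUnion.1 hs
      exact Or.inr (Or.inr (Set.mem_iUnion.2 ⟨j, (F j).inv_mem hj⟩))
  · intro j s hs
    rw [Set.Finite.mem_toFinset]
    exact Or.inr (Or.inr (Set.mem_iUnion.2 ⟨j, hs⟩))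
  · intro s x hx hsx
    rw [Set.Finite.mem_toFinset]
    exact Or.inl ⟨x, ⟨s⁻¹ • x, hsx, by simp⟩, hx⟩

omit [TopologicalSpace X] [ContinuousConstSMul Γ X] in
theorem sum_eq_finsum_of_supp {M : Type} [AddCommMonoid M] (K : Set X) (S : Finset Γ)
    (hS : ∀ s x, x ∈ K → s⁻¹ • x ∈ K → s ∈ S) (u : X → M) (hu : ∀ y, u y ≠ 0 → y ∈ K)
    (x : X) (hx : x ∈ K) : ∑ s ∈ S, u (s⁻¹ • x) = ∑ᶠ s : Γ, u (s⁻¹ • x) := by
  symm
  apply finsum_eq_sum_of_support_subset
  intro s hs
  exact hS s x hx (hu _ hs)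

omit [TopologicalSpace X] [ContinuousConstSMul Γ X] in
theorem sum_invariant {M : Type} [AddCommMonoid M] (K : Set X) (S : Finset Γ)
    (hS : ∀ s x, x ∈ K → s⁻¹ • x ∈ K → s ∈ S) (u : X → M) (hu : ∀ y, u y ≠ 0 → y ∈ K)
    (x : X) (hx : x ∈ K) (t : Γ) (htx : t⁻¹ • x ∈ K) :
    ∑ s ∈ S, u (s⁻¹ • t⁻¹ • x) = ∑ s ∈ S, u (s⁻¹ • x) := by
  rw [sum_eq_finsum_of_supp K S hS u hu x hx, sum_eq_finsum_of_supp K S hS u hu _ htx]
  rw [← finsum_comp_equiv (Equiv.mulLeft t) (f := fun s : Γ => u (s⁻¹ • x))]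
  simp [mul_smul]

theorem exists_sliceData [T2Space X] [LocallyCompactSpace X] [ProperlyDiscontinuousSMul Γ X]
    (c : C₀(X, ℂ)) (hc : IsCutoff Γ c) :
    ∃ (k : ℕ) (f : Option (Fin (k + 1)) → C₀(X, ℂ)) (F : Fin (k + 1) → Subgroup Γ)
      (S : Finset Γ), f none = c ∧ SliceData act f F S := by
  classical
  obtain ⟨k, φ, F, hsupp, hF, hsl, hcov⟩ := exists_bumps (Γ := Γ) (tsupport c) hc.supp
  set K : Set X := tsupport c ∪ ⋃ j, tsupport (φ j) with hKdef
  have hK : IsCompact K := hc.supp.union (isCompact_iUnion hsupp)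
  have hcK : ∀ y, c y ≠ 0 → y ∈ K := fun y hy => Or.inl (subset_tsupport _ hy)
  have hφK' : ∀ j, tsupport (φ j) ⊆ K := fun j y hy => Or.inr (Set.mem_iUnion.2 ⟨j, hy⟩)
  have hφK : ∀ j y, φ j y ≠ 0 → y ∈ K := fun j y hy => hφK' j (subset_tsupport _ hy)
  obtain ⟨S, h1, hinv, hsub, hS⟩ := exists_finset_S K hK F hF
  set A : Fin (k + 1) → X → ℝ := fun j x => ∑ s ∈ S, φ j (s⁻¹ • x) ^ 2 with hA
  set g : X → ℝ := fun x => ∑ j, A j x ^ 2 with hg
  have hgc : Continuous g := by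
    simp only [hg, hA]
    refine continuous_finsetSum _ fun j _ => (continuous_finsetSum _ fun s _ => ?_).pow 2
    exact ((φ j).continuous.comp (continuous_const_smul _)).pow 2
  have hAinv : ∀ j x (t : Γ), x ∈ K → t⁻¹ • x ∈ K → A j (t⁻¹ • x) = A j x := by
    intro j x t hx htx
    exact sum_invariant K S hS (fun y => φ j y ^ 2)
      (fun y hy => hφK j y (fun h => hy (by simp [h]))) x hx t htx
  have hginv : ∀ x (t : Γ), x ∈ K → t⁻¹ • x ∈ K → g (t⁻¹ • x) = g x := by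
    intro x t hx htx
    simp only [hg, hAinv _ x t hx htx]
  have hgpos : ∀ x ∈ K, 0 < g x := by
    intro x hx
    obtain ⟨s, hs⟩ : ∃ s : Γ, c (s⁻¹ • x) ≠ 0 := by
      by_contra h
      push Not at h
      have := hc.sum_sq x
      simp [h] at this
    obtain ⟨j, hj⟩ := hcov _ (subset_tsupport _ hs)
    have hsS : s ∈ S := hS s x hx (hcK _ hs)
    have hAj : 0 < A j x :=
      Finset.sum_pos' (fun _ _ => sq_nonneg _) ⟨s, hsS, by positivity⟩
    exact Finset.sum_pos' (fun _ _ => sq_nonneg _) ⟨j, Finset.mem_univ _, by positivity⟩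
  set h : X → ℝ := fun x => (√(√(g x)))⁻¹ with hh
  have hh4 : ∀ x ∈ K, g x * (h x ^ 2 * h x ^ 2) = 1 := by
    intro x hx
    have hp := hgpos x hx
    have e1 : h x ^ 2 = (√(g x))⁻¹ := by
      simp only [hh, inv_pow, Real.sq_sqrt (Real.sqrt_nonneg _)]
    rw [e1, ← mul_inv, Real.mul_self_sqrt hp.le, mul_inv_cancel₀ hp.ne']
  have hbc : ∀ j, Continuous fun x => φ j x * h x := by
    intro j
    refine ContinuousOn.continuous_of_tsupport_subset (s := {x | 0 < g x}) ?_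
      (isOpen_lt continuous_const hgc) ?_
    · refine (φ j).continuous.continuousOn.mul (ContinuousOn.inv₀ ?_ ?_)
      · exact (hgc.sqrt.sqrt).continuousOn
      · intro x hx
        exact (Real.sqrt_pos.2 (Real.sqrt_pos.2 hx)).ne'
    · exact (tsupport_mul_subset_left.trans (hφK' j)).trans hgpos
  let b : Fin (k + 1) → C₀(X, ℂ) := fun j =>
    { toFun := fun x => ((φ j x * h x : ℝ) : ℂ)
      continuous_toFun := Complex.continuous_ofReal.comp (hbc j)
      zero_at_infty' := by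
        apply HasCompactSupport.is_zero_at_infty
        exact HasCompactSupport.comp_left (g := fun r : ℝ => (r : ℂ))
          (f := fun x => φ j x * h x) ((hsupp j).mul_right) (by simp) }
  have hb : ∀ j x, b j x = ((φ j x * h x : ℝ) : ℂ) := fun _ _ => rfl
  have hbφ : ∀ j x, b j x ≠ 0 → φ j x ≠ 0 := by
    intro j x hx h0
    exact hx (by rw [hb, h0]; simp)
  let f : Option (Fin (k + 1)) → C₀(X, ℂ) := fun i => i.elim c b
  have hfK : ∀ i x, f i x ≠ 0 → x ∈ K := by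
    rintro (_ | j) x hx
    · exact hcK x hx
    · exact hφK j x (hbφ j x hx)
  refine ⟨k, f, F, S, rfl, h1, hinv, hsub, ?_, ?_, ?_, ?_⟩
  · intro i i' s hs
    ext x
    change f i x * f i' (s⁻¹ • x) = 0
    by_contra hne
    exact hs (hS s x (hfK _ _ (left_ne_zero_of_mul hne)) (hfK _ _ (right_ne_zero_of_mul hne)))
  · intro j s hs
    ext x
    change b j x * b j (s⁻¹ • x) = 0
    by_contra hne
    exact hs (hsl j s x (hbφ _ _ (left_ne_zero_of_mul hne)) (hbφ _ _ (right_ne_zero_of_mul hne)))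
  · intro i
    ext x
    change f i x * (∑ s ∈ S, act s (c * c)) x = f i x
    by_cases hx : f i x = 0
    · simp [hx]
    · rw [c0_sum_apply]
      have e : ∑ s ∈ S, act s (c * c) x = ∑ s ∈ S, c (s⁻¹ • x) ^ 2 :=
        Finset.sum_congr rfl fun s _ => by simp [sq]
      rw [e, sum_eq_finsum_of_supp K S hS (fun y => c y ^ 2)
        (fun y hy => hcK y (fun h => hy (by simp [h]))) x (hfK i x hx), hc.sum_sq, mul_one]
  · ext x
    rw [c0_sum_apply]
    change ∑ j, c x * (∑ s ∈ S, act s (b j * b j)) x * (∑ s ∈ S, act s (b j * b j)) x = c x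
    by_cases hx : c x = 0
    · simp [hx]
    · have hxK := hcK x hx
      have e : ∀ j, (∑ s ∈ S, act s (b j * b j)) x = ((A j x * h x ^ 2 : ℝ) : ℂ) := by
        intro j
        rw [c0_sum_apply]
        simp only [hA, Finset.sum_mul]
        push_cast
        refine Finset.sum_congr rfl fun s _ => ?_
        change b j (s⁻¹ • x) * b j (s⁻¹ • x) = _
        rw [hb]
        by_cases h0 : φ j (s⁻¹ • x) = 0
        · simp [h0]
        · have : h (s⁻¹ • x) = h x := by
            simp only [hh, hginv x s hxK (hφK j _ h0)]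
          rw [this]
          push_cast
          ring
      simp only [e]
      have e2 : ∑ j, c x * ((A j x * h x ^ 2 : ℝ) : ℂ) * ((A j x * h x ^ 2 : ℝ) : ℂ)
          = c x * ((g x * (h x ^ 2 * h x ^ 2) : ℝ) : ℂ) := by
        simp only [hg, Finset.sum_mul]
        push_cast
        rw [Finset.mul_sum]
        exact Finset.sum_congr rfl fun j _ => by ring
      rw [e2, hh4 x hxK]
      simp

end Vale.Agent.P089
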