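import Vale.Agent.P089.TraceAux
import Vale.Agent.P089.K0Basic

/-! Task T2c: the trace on `K₀(C*_r Γ)` takes countably many values. -/

noncomputable section

namespace Vale.Agent.P089

namespace TraceCount

theorem trace_idem_eq {R : Type} [NormedRing R] (τ : R →+ ℂ) (hτ : ∀ a b, τ (a * b) = τ (b * a))
    (hc : Continuous τ) {e f : R} (he : e * e = e) (hf : f * f = f) (h : ‖e - f‖ < 1) :
    τ e = τ f := by
  have he' : ∀ x, e * (e * x) = e * x := fun x => by rw [← mul_assoc, he]
  have hf' : ∀ x, f * (f * x) = f * x := fun x => by rw [← mul_assoc, hf]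
  have c1 : Commute e ((e - f) ^ 2) := by
    simp only [Commute, SemiconjBy, sq, mul_sub, sub_mul, mul_assoc, he, hf, he']
    abel
  have c2 : Commute f ((e - f) ^ 2) := by
    simp only [Commute, SemiconjBy, sq, mul_sub, sub_mul, mul_assoc, he, hf, hf']
    abel
  have c3 : (e - f) ^ 3 = e - f - e * f * e + f * e * f := by
    simp only [pow_succ, pow_zero, one_mul, mul_sub, sub_mul, mul_assoc, he, hf]
    abel
  have h1 : ∀ k : ℕ, τ ((e - f) ^ (2 * k + 1)) = τ (e - f) := by
    intro k
    induction k with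
    | zero => simp
    | succ k ih =>
      rw [← ih, show 2 * (k + 1) + 1 = 2 * k + 3 by ring, pow_add, pow_add, pow_mul, c3, pow_one]
      set c := ((e - f) ^ 2) ^ k
      have d1 : e * c = c * e := (c1.pow_right k).eq
      have d2 : f * c = c * f := (c2.pow_right k).eq
      have t1 : τ (c * (e * f * e)) = τ (c * (e * f)) := by
        rw [← mul_assoc, hτ, ← mul_assoc, d1, mul_assoc, he']
      have t2 : τ (c * (f * e * f)) = τ (c * (e * f)) := by
        rw [mul_assoc f, ← mul_assoc, ← d2, mul_assoc, hτ, mul_assoc, mul_assoc, hf]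
      rw [mul_add, mul_sub, map_add, map_sub, t1, t2]
      ring
  have h2 : Filter.Tendsto (fun k : ℕ => τ ((e - f) ^ (2 * k + 1))) Filter.atTop (nhds (τ 0)) :=
    (hc.tendsto 0).comp ((tendsto_pow_atTop_nhds_zero_of_norm_lt_one h).comp
      (Filter.tendsto_atTop_mono (fun k => by simp only [id]; omega) Filter.tendsto_id))
  simp only [h1, map_zero] at h2
  have h3 := tendsto_nhds_unique tendsto_const_nhds h2
  rwa [map_sub, sub_eq_zero] at h3

theorem countable_traces {R : Type} [NormedRing R] [TopologicalSpace.SeparableSpace R]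
    (τ : R →+ ℂ) (hτ : ∀ a b, τ (a * b) = τ (b * a)) (hc : Continuous τ) :
    {t | ∃ e : R, e * e = e ∧ τ e = t}.Countable := by
  obtain ⟨D, hD, hd⟩ := TopologicalSpace.exists_countable_dense R
  refine (hD.biUnion (t := fun d _ => {t | ∃ e : R, e * e = e ∧ dist e d < 1 / 2 ∧ τ e = t})
    fun d _ => Set.Subsingleton.countable ?_).mono ?_
  · rintro _ ⟨e, he, h1, rfl⟩ _ ⟨f, hf, h2, rfl⟩
    refine trace_idem_eq τ hτ hc he hf ?_
    rw [← dist_eq_norm]
    linarith [dist_triangle_right e f d]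
  · rintro _ ⟨e, he, rfl⟩
    obtain ⟨d, h1, h2⟩ := hd.exists_dist_lt e (show (0 : ℝ) < 1 / 2 by norm_num)
    exact Set.mem_biUnion h1 ⟨e, he, h2, rfl⟩

theorem countable_mat {R : Type} [NormedRing R] [TopologicalSpace.SeparableSpace R]
    (τ : R →+ ℂ) (hτ : ∀ a b, τ (a * b) = τ (b * a)) (hc : Continuous τ) (n : ℕ) :
    {t | ∃ e : Matrix (Fin n) (Fin n) R, e * e = e ∧ ∑ i, τ (e i i) = t}.Countable := by
  let τ' : Matrix (Fin n) (Fin n) R →+ ℂ :=
    { toFun := fun e => ∑ i, τ (e i i)
      map_zero' := by simp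
      map_add' := fun a b => by simp [Finset.sum_add_distrib] }
  have h1 : ∀ a b, τ' (a * b) = τ' (b * a) := by
    intro x y
    change ∑ i, τ ((x * y) i i) = ∑ i, τ ((y * x) i i)
    simp only [Matrix.mul_apply, map_sum]
    rw [Finset.sum_comm]
    simp only [hτ (x _ _)]
  have h2 : Continuous τ' := by
    change Continuous fun e : Matrix (Fin n) (Fin n) R => ∑ i, τ (e i i)
    fun_prop
  have h3 : TopologicalSpace.SeparableSpace (Matrix (Fin n) (Fin n) R) :=
    inferInstanceAs (TopologicalSpace.SeparableSpace (Fin n → Fin n → R))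
  exact @countable_traces _ Matrix.linftyOpNormedRing h3 τ' h1 h2

end TraceCount

open TraceCount TraceAux

theorem CStarRed.trace_mul_comm {Γ : Type} [Group Γ] (a b : CStarRed Γ) :
    (a * b).trace = (b * a).trace := by
  rw [trace_eq, trace_eq, CStarRed.op_mul, CStarRed.op_mul]
  have key : ∀ y : Op (L2 Γ ℂ) (L2 Γ ℂ), (∀ s : Γ, trL Γ (shift s * y) = trL Γ (y * shift s)) →
      ∀ x ∈ closedSpan (leftReg Γ), trL Γ (x * y) = trL Γ (y * x) := by
    intro y hy
    refine span_ind (isClosed_eq ((trL Γ).continuous.comp (continuous_mul_const y))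
      ((trL Γ).continuous.comp (continuous_const_mul y))) ?_ ?_ ?_ ?_
    · rintro _ ⟨s, rfl⟩
      exact hy s
    · rw [zero_mul, mul_zero]
    · intro x z h1 h2
      rw [add_mul, mul_add, map_add, map_add, h1, h2]
    · intro c x h1
      rw [smul_mul_assoc, mul_smul_comm, map_smul, map_smul, h1]
  refine key _ (fun s => (key _ (fun t => ?_) _ (op_mem_span b)).symm) _ (op_mem_span a)
  rw [← shift_mul, ← shift_mul, trL_shift, trL_shift]
  by_cases h : s * t = 1
  · rw [if_pos h, if_pos (mul_eq_one_comm.1 h)]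
  · rw [if_neg h, if_neg fun h' => h (mul_eq_one_comm.1 h')]

/-- The trace map `K₀(C*_r Γ) → ℂ`. -/
def trK0 (Γ : Type) [Group Γ] : K0 (CStarRed Γ) →+ ℂ :=
  K0.tr (CStarRed.traceHom Γ) CStarRed.trace_mul_comm

theorem countable_range_trK0 (Γ : Type) [Group Γ] [Countable Γ] :
    (Set.range (trK0 Γ)).Countable := by
  have hsep : TopologicalSpace.SeparableSpace (cstarAlg Γ) := by
    have h1 : TopologicalSpace.IsSeparable (cstarAlg Γ : Set (L2 Γ ℂ →L[ℂ] L2 Γ ℂ)) := by
      rw [cstarAlg_eq_closedSpan]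
      exact (Set.countable_range _).isSeparable.span.closure
    exact h1.separableSpace
  let τ : cstarAlg Γ →+ ℂ := CStarRed.traceHom Γ
  have hc : Continuous τ := (trL Γ).continuous.comp continuous_subtype_val
  let V : Set ℂ := ⋃ n : ℕ,
    {t | ∃ e : Matrix (Fin n) (Fin n) (cstarAlg Γ), e * e = e ∧ ∑ i, τ (e i i) = t}
  have hV : V.Countable :=
    Set.countable_iUnion fun n => countable_mat τ CStarRed.trace_mul_comm hc n
  have := hV.to_subtype
  refine (Set.countable_range (FreeAbelianGroup.lift (Subtype.val : V → ℂ))).mono ?_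
  rintro _ ⟨x, rfl⟩
  let g : Idem (CStarRed Γ) → V := fun p =>
    ⟨∑ i, τ (p.e i i), Set.mem_iUnion.2 ⟨p.n, p.e, p.idem, rfl⟩⟩
  obtain ⟨y, rfl⟩ := QuotientAddGroup.mk_surjective x
  refine ⟨FreeAbelianGroup.map g y, ?_⟩
  have h : (FreeAbelianGroup.lift (Subtype.val : V → ℂ)).comp (FreeAbelianGroup.map g)
      = (trK0 Γ).comp (QuotientAddGroup.mk' _) := by
    apply FreeAbelianGroup.lift_ext
    intro p
    simp only [AddMonoidHom.comp_apply, FreeAbelianGroup.map_of_apply, FreeAbelianGroup.lift_apply_of]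
    exact (K0.tr_of _ _ p).symm
  exact DFunLike.congr_fun h y

end Vale.Agent.P089
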