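import Vale.Agent.P089.Bridge
import Vale.Agent.P089.Slice
import Vale.Agent.P089.Koszul
import Vale.Agent.P089.Induce
import Vale.Agent.P089.TraceCount

/-! The abstract local representation attached to a Kasparov cycle. -/

open scoped ZeroAtInfty

noncomputable section

namespace Vale.Agent.P089

variable {H : Type} [NormedAddCommGroup H] [InnerProductSpace ℂ H]

/-- Extension by zero from `H` to `H ⊕ ℂ`. -/
def extH (T : H →L[ℂ] H) : HSum H ℂ →L[ℂ] HSum H ℂ := sandwich inL T prL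

theorem prL_inL (x : H) : (prL : Op (HSum H ℂ) H) ((inL : Op H (HSum H ℂ)) x) = x := rfl

theorem extH_apply (T : H →L[ℂ] H) (x : HSum H ℂ) :
    extH T x = (inL : Op H (HSum H ℂ)) (T ((prL : Op (HSum H ℂ) H) x)) := rfl

theorem extH_mul (S T : H →L[ℂ] H) : extH S * extH T = extH (S * T) := by
  ext1 x; simp [extH_apply, prL_inL]

theorem extH_add (S T : H →L[ℂ] H) : extH (S + T) = extH S + extH T := by
  ext1 x; simp [extH_apply]

theorem extH_sub (S T : H →L[ℂ] H) : extH (S - T) = extH S - extH T := by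
  ext1 x; simp [extH_apply]

theorem extH_compact {T : H →L[ℂ] H} (hT : IsCompactOperator T) : IsCompactOperator (extH T) :=
  (hT.comp_clm (prL : Op (HSum H ℂ) H)).clm_comp (inL : Op H (HSum H ℂ))

/-- `T ↦ 1 ⊗ (T ⊕ 0)`. -/
def upB (Λ : Type) [Group Λ] (T : H →L[ℂ] H) : BAlg Λ (HSum H ℂ) := amplB Λ _ (extH T)

variable {Λ : Type} [Group Λ]

theorem upB_mul (S T : H →L[ℂ] H) : upB Λ S * upB Λ T = upB Λ (S * T) := by
  rw [upB, upB, ← RingHom.map_mul, extH_mul, upB]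

theorem upB_add (S T : H →L[ℂ] H) : upB Λ (S + T) = upB Λ S + upB Λ T := by
  rw [upB, extH_add, RingHom.map_add, upB, upB]

theorem upB_sub (S T : H →L[ℂ] H) : upB Λ (S - T) = upB Λ S - upB Λ T := by
  rw [upB, extH_sub, RingHom.map_sub, upB, upB]

theorem upB_mem [CompleteSpace H] {T : H →L[ℂ] H} (hT : IsCompactOperator T) :
    upB Λ T ∈ (ctxH Λ H).J := by
  apply mem_jIdeal.2
  have := lamT_mem_cptOps (1 : Λ) (extH_compact hT)
  rwa [lamT_one] at this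

theorem upB_lamB (g : Λ) (T : H →L[ℂ] H) : upB Λ T * lamB Λ _ g = lamB Λ _ g * upB Λ T :=
  (lamB_mul_amplB g _).symm

/-- `(1 + γ) / 2`. -/
def half {A : Type} [Ring A] [Algebra ℂ A] (γ : A) : A := (2⁻¹ : ℂ) • (1 + γ)

theorem half_comm {A : Type} [Ring A] [Algebra ℂ A] {γ x : A} (h : γ * x = x * γ) :
    half γ * x = x * half γ := by
  simp [half, add_mul, mul_add, h]

theorem half_sq {A : Type} [Ring A] [Algebra ℂ A] {γ : A} (h : γ * γ = 1) :
    half γ * half γ = half γ := by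
  simp only [half, smul_mul_smul_comm, add_mul, mul_add, h, one_mul, mul_one]
  rw [add_comm γ 1, ← two_smul ℂ (1 + γ), smul_smul]
  norm_num

theorem mul_half {A : Type} [Ring A] [Algebra ℂ A] {γ F : A} (h : γ * F = -(F * γ)) :
    F * half γ = half (-γ) * F := by
  simp [half, add_mul, mul_add, h]

variable {Γ X : Type} [Group Γ] [TopologicalSpace X] [MulAction Γ X] [ContinuousConstSMul Γ X]
  [CompleteSpace H]

omit [CompleteSpace H] in
theorem compact_mul_left {S T : H →L[ℂ] H} (hT : IsCompactOperator T) :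
    IsCompactOperator (S * T : H →L[ℂ] H) := hT.clm_comp S

omit [CompleteSpace H] in
theorem compact_mul_right {S T : H →L[ℂ] H} (hS : IsCompactOperator S) :
    IsCompactOperator (S * T : H →L[ℂ] H) := hS.comp_clm T

/-- The local representation of a cycle over an arbitrary group `Λ`. -/
def locRep (z : CycleOn Γ X H) (Λ : Type) [Group Λ] :
    LocRep (ctxH Λ H) (act : Γ → C₀(X, ℂ) → C₀(X, ℂ)) Λ where
  L := lamB Λ _
  σ f s := upB Λ (z.π f * z.U s)
  G₀ := upB Λ (half z.γ)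
  G₁ := upB Λ (half (-z.γ))
  F := upB Λ z.F
  σ_mul f s f' t := by
    rw [upB_mul, map_mul, map_mul, mul_assoc, ← mul_assoc (z.U s), z.kasparov.covariant]
    simp only [mul_assoc]
  σ_add f f' s := by rw [map_add, add_mul, upB_add]
  L_σ g f s := (upB_lamB g _).symm
  G₀_σ f s := by
    rw [upB_mul, upB_mul, half_comm]
    rw [← mul_assoc, z.kasparov.even_π, mul_assoc, z.kasparov.even_U, mul_assoc]
  G₁_σ f s := by
    rw [upB_mul, upB_mul, half_comm]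
    rw [neg_mul, mul_neg, ← mul_assoc, z.kasparov.even_π, mul_assoc, z.kasparov.even_U, mul_assoc]
  G₀_L g := upB_lamB g _
  G₁_L g := upB_lamB g _
  F_L g := upB_lamB g _
  G₀_sq := by rw [upB_mul, half_sq z.kasparov.grading_sq]
  G₁_sq := by rw [upB_mul, half_sq (by rw [neg_mul_neg, z.kasparov.grading_sq])]
  F_G₀ := by rw [upB_mul, upB_mul, mul_half z.kasparov.odd_F]
  F_G₁ := by
    rw [upB_mul, upB_mul, mul_half (γ := -z.γ) (by simp [z.kasparov.odd_F]), neg_neg]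
  F_σ f s := by
    rw [upB_mul, upB_mul, ← upB_sub]
    apply upB_mem
    have h1 : IsCompactOperator (z.π f * z.F - z.F * z.π f : H →L[ℂ] H) := z.kasparov.comm_F f
    have h2 : IsCompactOperator (z.π f * (z.U s * z.F * z.U s⁻¹ - z.F) : H →L[ℂ] H) :=
      z.kasparov.inv_F s f
    have h3 := (compact_mul_right (T := z.U s) h1).add (compact_mul_right (T := z.U s) h2)
    have e : z.F * (z.π f * z.U s) - z.π f * z.U s * z.F =
        -((z.π f * z.F - z.F * z.π f) * z.U s + z.π f * (z.U s * z.F * z.U s⁻¹ - z.F) * z.U s) := by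
      have : z.U s⁻¹ * z.U s = 1 := by rw [← map_mul, inv_mul_cancel, map_one]
      simp only [mul_sub, sub_mul, mul_assoc, this, mul_one]
      abel
    rw [e]
    exact h3.neg
  F_sq f s := by
    rw [upB_mul, upB_mul, ← upB_sub]
    apply upB_mem
    have h1 : IsCompactOperator (z.π (act s⁻¹ f) * (z.F * z.F - 1) : H →L[ℂ] H) :=
      z.kasparov.sq_F _
    have h2 := z.kasparov.covariant s (act s⁻¹ f)
    rw [← isAct_act.mul, mul_inv_cancel, isAct_act.one] at h2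
    have e : z.π f * z.U s * (z.F * z.F) - z.π f * z.U s =
        z.U s * (z.π (act s⁻¹ f) * (z.F * z.F - 1)) := by
      rw [← mul_assoc (z.U s), h2, mul_sub, mul_one]
    rw [e]
    exact compact_mul_left h1

theorem br_congr {B R : Type} [Ring B] [Ring R] {κ : Ctx B R} {Γ 𝒜 : Type} [Group Γ]
    [NonUnitalCommRing 𝒜] {a : Γ → 𝒜 → 𝒜} {Λ : Type} [Group Λ] (ρ : LocRep κ a Λ) (S : Finset Γ)
    {θ θ' : Γ → Λ} (h : ∀ s ∈ S, θ s = θ' s) (f g : 𝒜) : ρ.br S θ f g = ρ.br S θ' f g :=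
  Finset.sum_congr rfl fun s hs => by rw [h s hs]

theorem LocRep.ind1_map {B R B' R' : Type} [Ring B] [Ring R] [Ring B'] [Ring R'] {κ : Ctx B R}
    {κ' : Ctx B' R'} {Γ 𝒜 : Type} [Group Γ] [NonUnitalCommRing 𝒜] {a : Γ → 𝒜 → 𝒜}
    {Λ Λ' : Type} [Group Λ] [Group Λ'] (ρ : LocRep κ a Λ) (ρ' : LocRep κ' a Λ') (S : Finset Γ)
    (c : 𝒜) {θ : Γ → Λ} {θ' : Γ → Λ'} (Φ : B →+* B') (ψ : R →+* R')
    (hL : ∀ s ∈ S, Φ (ρ.L (θ s)) = ρ'.L (θ' s)) (hσ : ∀ f s, Φ (ρ.σ f s) = ρ'.σ f s)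
    (hG₀ : Φ ρ.G₀ = ρ'.G₀) (hG₁ : Φ ρ.G₁ = ρ'.G₁) (hF : Φ ρ.F = ρ'.F)
    (hJ : ∀ b ∈ κ.J, Φ b ∈ κ'.J) (hj : ∀ r, Φ (κ.j r) = κ'.j (ψ r)) {x : K0 R}
    (hx : κ.Ind1 (ρ.P₀ S θ c) (ρ.P₁ S θ c) (ρ.T S θ c) x) :
    κ'.Ind1 (ρ'.P₀ S θ' c) (ρ'.P₁ S θ' c) (ρ'.T S θ' c) (K0.map ψ x) := by
  have hb : Φ (ρ.br S θ c c) = ρ'.br S θ' c c := by
    simp only [LocRep.br, map_sum, map_mul]
    exact Finset.sum_congr rfl fun s hs => by rw [hL s hs, hσ]
  have h0 : Φ (ρ.P₀ S θ c) = ρ'.P₀ S θ' c := by rw [LocRep.P₀, map_mul, hb, hG₀, LocRep.P₀]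
  have h0' : Φ (ρ.P₁ S θ c) = ρ'.P₁ S θ' c := by rw [LocRep.P₁, map_mul, hb, hG₁, LocRep.P₁]
  have hT : Φ (ρ.T S θ c) = ρ'.T S θ' c := by
    rw [LocRep.T, map_mul, map_mul, h0, h0', hF, LocRep.T]
  rw [← h0, ← h0', ← hT]
  exact Ctx.Ind1.map Φ ψ hJ hj hx

theorem exists_ind1_map (z : CycleOn Γ X H) {Λ Λ' : Type} [Group Λ] [Group Λ'] (S : Finset Γ)
    (c : C₀(X, ℂ)) {θ : Γ → Λ} {θ' : Γ → Λ'} (φ : Λ →* Λ') (hφ : Function.Injective φ)
    (hθ : ∀ s ∈ S, θ' s = φ (θ s)) {x : K0 (CStarRed Λ)}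
    (hx : (ctxH Λ H).Ind1 ((locRep z Λ).P₀ S θ c) ((locRep z Λ).P₁ S θ c)
      ((locRep z Λ).T S θ c) x) :
    ∃ y, trK0 Λ' y = trK0 Λ x ∧ (ctxH Λ' H).Ind1 ((locRep z Λ').P₀ S θ' c)
      ((locRep z Λ').P₁ S θ' c) ((locRep z Λ').T S θ' c) y := by
  obtain ⟨Φ, ψ, h1, h2, h3, h4, h5⟩ := exists_induce (K := HSum H ℂ) φ hφ inR prR prR_comp_inR
  refine ⟨K0.map ψ x, K0.tr_map _ _ _ _ ψ h5 x, ?_⟩
  exact (locRep z Λ).ind1_map (locRep z Λ') S c Φ ψ (fun s hs => by rw [hθ s hs]; exact h1 _)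
    (fun _ _ => h2 _) (h2 _) (h2 _) (h2 _) h3 h4 hx

omit [CompleteSpace H] [Group Γ] in
theorem extOp_mul (x y : Op (L2 Γ H) (L2 Γ H)) : extOp x * extOp y = extOp (x * y) := by
  have : (ampl Γ (prL : Op (HSum H ℂ) H)).comp (ampl Γ (inL : Op H (HSum H ℂ))) = 1 :=
    op_ext fun _ _ => rfl
  ext1 ξ
  have h := fun η => DFunLike.congr_fun this η
  simp only [ContinuousLinearMap.comp_apply, one_apply_eq_self] at h
  simp [extOp, sandwich, h]

omit [CompleteSpace H] [Group Γ] in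
theorem extOp_sum {ι : Type} (S : Finset ι) (x : ι → Op (L2 Γ H) (L2 Γ H)) :
    extOp (∑ i ∈ S, x i) = ∑ i ∈ S, extOp (x i) := by
  simp [extOp, sandwich, ContinuousLinearMap.finsetSum_comp, ContinuousLinearMap.comp_finsetSum]

theorem coe_br_mul (z : CycleOn Γ X H) (S : Finset Γ)
    (hS : ∀ s, s ∉ S → z.c * act s z.c = 0) (γ : H →L[ℂ] H) :
    ((locRep z Γ).br S id z.c z.c * upB Γ (half γ)).1 =
      extOp (descend (cutCoeff z.π z.U z.c γ)) := by
  rw [descend, opSum, finsum_eq_sum_of_support_subset (s := S), extOp_sum, LocRep.br,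
    Finset.sum_mul, AddSubmonoidClass.coe_finsetSum]
  · refine Finset.sum_congr rfl fun s _ => ?_
    have : (locRep z Γ).L (id s) * (locRep z Γ).σ (z.c * act s z.c) s * upB Γ (half γ) =
        lamB Γ _ s * upB Γ (cutCoeff z.π z.U z.c γ s) := by
      rw [mul_assoc]
      exact congrArg _ (upB_mul _ _)
    rw [this]
    exact op_ext fun _ _ => rfl
  · intro s hs
    by_contra h
    apply hs
    simp [cutCoeff, hS s h, lamT_zero]

theorem hasIndex_iff (z : CycleOn Γ X H) {k : ℕ} {f : Option (Fin k) → C₀(X, ℂ)}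
    {F : Fin k → Subgroup Γ} {S : Finset Γ} (hf : f none = z.c) (hS : SliceData act f F S)
    (x : K0 (CStarRed Γ)) :
    z.HasIndex x ↔ (ctxH Γ H).Ind1 ((locRep z Γ).P₀ S id z.c) ((locRep z Γ).P₁ S id z.c)
      ((locRep z Γ).T S id z.c) x := by
  have hv : ∀ s, s ∉ S → z.c * act s z.c = 0 := fun s hs => hf ▸ hS.vanish none none s hs
  have h0 := coe_br_mul z S hv z.γ
  have h1 := coe_br_mul z S hv (-z.γ)
  have hF : ((locRep z Γ).F).1 = extOp (ampl Γ z.F) := op_ext fun _ _ => rfl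
  have h0' : ((locRep z Γ).P₀ S id z.c).1 = _ := h0
  have h1' : ((locRep z Γ).P₁ S id z.c).1 = _ := h1
  refine isIndex_iff_ind1 _ _ _ _ _ _ ((locRep z Γ).T' S id z.c) h0 h1 ?_ ?_ ?_ x
  · rw [LocRep.T, MulMemClass.coe_mul, MulMemClass.coe_mul, h0', h1', hF, extOp_mul, extOp_mul]
    rfl
  · rw [LocRep.T', MulMemClass.coe_mul, MulMemClass.coe_mul, h0', h1', hF, extOp_mul, extOp_mul]
    rfl
  · rw [← hf]
    exact (locRep z Γ).fred1 isAct_act hS fun _ _ _ _ _ => rfl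

end Vale.Agent.P089
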