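import Vale.Agent.P089.GraphDefs

/-! The combinatorial data produced by parts A, B, C, D and used by part E. -/

noncomputable section

open Classical

namespace Vale.Agent.P089

/-- The type (own colour, colours of neighbours) of a vertex. -/
def tyOf {n m : ℕ} (X : SimpleGraph (Fin n)) (c : Fin n → Fin m) (v : Fin n) : Ty m :=
  (c v, (nbr X v).image c)

/-- The distinguished codeword. -/
def xiOf {n m : ℕ} (X : SimpleGraph (Fin n)) (c : Fin n → Fin m) : Fin n → Ty m → ZMod 2 :=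
  fun v => Pi.single (tyOf X c v) 1

/-- A group `G` containing copies `v ↦ g * ρ i v` of coloured expanders `X i`, with codes. -/
structure Setup (G : Type) [Group G] where
  m : ℕ
  d : ℕ
  h : ℕ
  ι : Type
  N : ι → ℕ
  N_pos : ∀ i, 0 < N i
  fin_le : ∀ M, {i | N i ≤ M}.Finite
  X : ∀ i, SimpleGraph (Fin (N i))
  c : ∀ i, Fin (N i) → Fin m
  deg_ge : ∀ i v, d ≤ (nbr (X i) v).card
  sparse : ∀ i (R : Finset (Fin (N i))), 32 * R.card ≤ N i →
    darts (X i) R R + 5 * R.card ≤ d * R.card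
  d_ge : 5 ≤ d
  expand : ∀ i (R : Finset (Fin (N i))), 2 * R.card ≤ N i →
    R.card ≤ h * darts (X i) R (Finset.univ \ R)
  conn : ∀ i, (X i).Preconnected
  c_adj : ∀ i u v, (X i).Adj u v → c i u ≠ c i v
  c_nbr : ∀ i u v w, (X i).Adj u v → (X i).Adj u w → c i v = c i w → v = w
  gen : (Fin m × Fin m) × Bool → G
  gen_inv : ∀ a b, gen (a, !b) = (gen (a, b))⁻¹
  gen_top : Subgroup.closure (Set.range gen) = ⊤
  ρ : ∀ i, Fin (N i) → G
  ρ_step : ∀ i u v, (X i).Adj u v → ρ i v = ρ i u * gen (letter (c i u) (c i v))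
  lev : ι → G → ℕ
  P : ∀ i, G → Fin (N i) → Prop
  par : G → (Fin m × Fin m) × Bool
  inj : ∀ i, Function.Injective (ρ i)
  meet : ∀ i i' g g' u u', g * ρ i u = g' * ρ i' u' → (i, g) ≠ (i', g') → lev i' g' ≤ lev i g →
    P i g u
  lev_zero : ∀ i u, lev i (ρ i u)⁻¹ = 0
  dart : ∀ x s, s = par x ∨ (s.1, !s.2) = par (x * gen s) ∨
    ∃ i g u v, (X i).Adj u v ∧ s = letter (c i u) (c i v) ∧ x = g * ρ i u ∧
      (¬ P i g u ∨ ¬ P i g v)
  one_nbr : ∀ i g u v v', ¬ P i g u → (X i).Adj u v → (X i).Adj u v' → P i g v → P i g v' →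
    v = v'
  exposed : ∀ i g, ∃ v, ¬ P i g v
  D : ∀ i, Submodule (ZMod 2) (Fin (N i) → Ty m → ZMod 2)
  xi_mem : ∀ i, xiOf (X i) (c i) ∈ D i
  card_D : ∀ i, Nat.card (D i) = 2 ^ (N i + 1)
  few : ∀ i, ∀ y ∈ D i, y ≠ xiOf (X i) (c i) →
    32 * (Finset.univ.filter fun v => ∃ t, y v = Pi.single t 1).card ≤ N i
  dual : ∀ i g (z : Fin (N i) → Ty m → ZMod 2), (∀ y ∈ D i, pairing z y = 0) →
    (∀ v, ¬ P i g v → z v = 0) → z = 0

namespace Setup

variable {G : Type} [Group G] (S : Setup G)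

/-- Configurations. -/
abbrev Conf : Type := G → Ty S.m → ZMod 2

/-- Admissible configurations: a codeword on every copy. -/
def Adm (y : S.Conf) : Prop := ∀ i g, (fun v => y (g * S.ρ i v)) ∈ S.D i

/-- `x` carries the valid type `t`. -/
def HasTy (y : S.Conf) (x : G) (t : Ty S.m) : Prop :=
  y x = Pi.single t 1 ∧ t.1 ∉ t.2 ∧ S.d ≤ t.2.card

/-- `x` has colour `a` and claims a neighbour of colour `b`. -/
def Claims (y : S.Conf) (x : G) (a b : Fin S.m) : Prop :=
  ∃ A, S.HasTy y x (a, A) ∧ b ∈ A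

/-- The dart from `x` (colour `a`) to `x * gen (letter a b)` (colour `b`) is claimed by both
endpoints. -/
def ActiveDart (y : S.Conf) (x : G) (a b : Fin S.m) : Prop :=
  S.Claims y x a b ∧ S.Claims y (x * S.gen (letter a b)) b a

/-- The diagonal weight: number of claims at a valid vertex, `1` at an invalid vertex. -/
def weight (y : S.Conf) (x : G) : ℂ :=
  (if ∃ t, S.HasTy y x t then 0 else 1) +
    ∑ ab : Fin S.m × Fin S.m, if S.Claims y x ab.1 ab.2 then 1 else 0

/-- The operator `Δ_y`. -/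
def lap (y : S.Conf) (f : G → ℂ) (x : G) : ℂ :=
  S.weight y x * f x - ∑ ab : Fin S.m × Fin S.m,
    if S.ActiveDart y x ab.1 ab.2 then f (x * S.gen (letter ab.1 ab.2)) else 0

/-- The copy `(i, g)` is active. -/
def ActiveCopy (y : S.Conf) (i : S.ι) (g : G) : Prop :=
  (fun v => y (g * S.ρ i v)) = xiOf (S.X i) (S.c i)

/-- The projection onto the indicator functions of the active copies of `X i`. -/
def proj (y : S.Conf) (i : S.ι) (f : G → ℂ) (x : G) : ℂ :=
  ∑ u, ∑ v, if S.ActiveCopy y i (x * (S.ρ i u)⁻¹) then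
    (S.N i : ℂ)⁻¹ * f (x * (S.ρ i u)⁻¹ * S.ρ i v) else 0

/-- Sum of the projections for the graphs of size at most `M`. -/
def projLe (y : S.Conf) (M : ℕ) (f : G → ℂ) (x : G) : ℂ :=
  ∑ i ∈ (S.fin_le M).toFinset, S.proj y i f x

end Setup

end Vale.Agent.P089
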