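import Vale.Agent.P089.WindmillAux2

/-! Task C2: the windmill construction in a tree. See notes/P089/PROOF.md, section C2. -/

namespace Vale.Agent.P089

open TreeAct St

namespace Wind

variable {F : Type} [Group F] {Y : Type} [MulAction F Y] (T : TreeAct F Y)

/-- the initial stage -/
def st0 : St T where
  O := ∅
  W := {1}
  H := ⊥
  cvx := ⟨⟨1, rfl⟩, by
    rintro _ _ x rfl rfl h
    unfold B at h
    rw [d_self] at h
    exact (T.d_eq_zero _ _).1 (by omega)⟩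
  HN := bot_le
  HW h hh a ha := by rw [Subgroup.mem_bot.1 hh, one_mul]; exact ha
  HO _ _ _ ha := ha.elim
  I2 _ _ _ ha := ha.elim
  I3 := by
    rintro y - _ _ - rfl - rfl
    rw [d_self]; omega
  I4 _ _ _ _ _ n hn _ := Subgroup.mem_bot.1 hn

/-- the stages -/
def sq : ℕ → St T
  | 0 => st0 T
  | j + 1 => (sq j).next

variable {T}

lemma C_sub {j : ℕ} {a : F} (h : a ∈ (sq T j).C) : a ∈ (sq T (j + 1)).W := C_sub_W' h

lemma W_mono {j k : ℕ} (hjk : j ≤ k) {a : F} (h : a ∈ (sq T j).W) : a ∈ (sq T k).W := by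
  induction hjk with
  | refl => exact h
  | step _ ih => exact C_sub (D_sub_C (W_sub_D ih))

lemma H_mono {j k : ℕ} (hjk : j ≤ k) : (sq T j).H ≤ (sq T k).H := by
  induction hjk with
  | refl => exact le_rfl
  | step _ ih => exact ih.trans H_le

lemma exhaust (a : F) : ∃ j, a ∈ (sq T j).W := by
  generalize hn : T.d a 1 = n
  induction n generalizing a with
  | zero => exact ⟨0, (T.d_eq_zero _ _).1 hn⟩
  | succ n ih =>
    obtain ⟨x, h1, h2⟩ := T.step a 1 (fun h => by rw [h, d_self] at hn; omega)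
    obtain ⟨j, hj⟩ := ih x (by omega)
    refine ⟨j + 1, C_sub (Or.inl ?_)⟩
    exact ((sq T j).cvx.gate_le a hj).trans h1.le

lemma N_sub {n : F} (hn : n ∈ stabGen F Y) : ∃ j, n ∈ (sq T j).H := by
  induction hn using Subgroup.closure_induction with
  | mem r hr =>
    obtain ⟨y, hy⟩ := hr
    obtain ⟨a, ha⟩ := T.S_ne y
    obtain ⟨j, hj⟩ := exhaust (T := T) a
    exact ⟨j + 1, (S_sub_C ha hj).2 r hy⟩
  | one => exact ⟨0, one_mem _⟩
  | mul x y _ _ hx hy =>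
    obtain ⟨j, hj⟩ := hx
    obtain ⟨k, hk⟩ := hy
    exact ⟨max j k, mul_mem (H_mono (le_max_left _ _) hj) (H_mono (le_max_right _ _) hk)⟩
  | inv x _ hx => exact hx.imp (fun j hj => inv_mem hj)

lemma descent {n a : F} (hn : n ∈ stabGen F Y) {j : ℕ} (ha : a ∈ (sq T j).D)
    (ha' : n * a ∈ (sq T j).D) : n ∈ (sq T j).H := by
  obtain ⟨k, hk⟩ := N_sub (T := T) hn
  have key : ∀ i, n ∈ (sq T (j + i)).H → n ∈ (sq T j).H := by
    intro i
    induction i with
    | zero => exact id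
    | succ i ih =>
      intro h
      refine ih ?_
      rcases Nat.eq_zero_or_pos i with rfl | hi
      · exact prop1 h ha ha'
      · exact prop1 h (W_sub_D (W_mono (by omega) (C_sub (D_sub_C ha))))
          (W_sub_D (W_mono (by omega) (C_sub (D_sub_C ha'))))
  exact key k (H_mono (by omega) hk)

lemma descent' {n a : F} (hn : n ∈ stabGen F Y) {j : ℕ} (ha : a ∈ (sq T j).C)
    (ha' : n * a ∈ (sq T j).C) : n ∈ (sq T j).H' :=
  descent (j := j + 1) hn (W_sub_D (C_sub ha)) (W_sub_D (C_sub ha'))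

lemma stab_N {r : F} {y : Y} (hr : r • y = y) : r ∈ stabGen F Y :=
  Subgroup.subset_closure ⟨y, hr⟩

lemma N_conj {n : F} (hn : n ∈ stabGen F Y) {m : F} (hm : m ∈ stabGen F Y) :
    m * n * m⁻¹ ∈ stabGen F Y := mul_mem (mul_mem hm hn) (inv_mem hm)

variable (T) in
/-- some translate meets the stage -/
def Meets (y : Y) (j : ℕ) : Prop := ∃ n ∈ stabGen F Y, ∃ a ∈ T.S (n • y), a ∈ (sq T j).W

lemma ex_meets (y : Y) : ∃ j, Meets T y j := by
  obtain ⟨a, ha⟩ := T.S_ne y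
  obtain ⟨j, hj⟩ := exhaust (T := T) a
  exact ⟨j, 1, one_mem _, a, by simpa using ha, hj⟩

variable (T) in
open Classical in
/-- the level -/
noncomputable def lev (y : Y) : ℕ := Nat.find (ex_meets (T := T) y)

lemma lev_le {y : Y} {j : ℕ} (h : Meets T y j) : lev T y ≤ j := by
  classical exact Nat.find_min' _ h

lemma lev_spec (y : Y) : Meets T y (lev T y) := by
  classical exact Nat.find_spec (ex_meets (T := T) y)

lemma Meets.smul {y : Y} {j : ℕ} (h : Meets T y j) {n : F} (hn : n ∈ stabGen F Y) :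
    Meets T (n • y) j := by
  obtain ⟨m, hm, a, h1, h2⟩ := h
  exact ⟨m * n⁻¹, mul_mem hm (inv_mem hn), a, by simpa [mul_smul] using h1, h2⟩

lemma lev_smul {n : F} (hn : n ∈ stabGen F Y) (y : Y) : lev T (n • y) = lev T y :=
  le_antisymm (lev_le ((lev_spec y).smul hn))
    (lev_le (by simpa using (lev_spec (n • y)).smul (inv_mem hn)))

lemma levA (y : Y) : ∃ n ∈ stabGen F Y, (sq T (lev T y)).New (n • y) := by
  obtain ⟨n, hn, a, h1, h2⟩ := lev_spec (T := T) y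
  refine ⟨n, hn, ⟨a, h1, h2⟩, fun c h3 h4 => ?_⟩
  generalize hj : lev T y = j at h4
  cases j with
  | zero => exact h4
  | succ j =>
    obtain ⟨g, hg, w, hw, rfl⟩ := h4
    have := lev_le (T := T) (y := y) (j := j) ⟨g⁻¹ * n,
      mul_mem (inv_mem ((sq T (j + 1)).HN hg)) hn, w,
      by simpa [mul_smul] using T.S_smul g⁻¹ _ _ h3, hw⟩
    omega

lemma levB {y : Y} {j : ℕ} (hy : (sq T j).New y) : lev T y = j := by
  obtain ⟨a, h1, h2⟩ := hy.1
  refine le_antisymm (lev_le ⟨1, one_mem _, a, by simpa using h1, h2⟩) ?_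
  by_contra hlt
  obtain ⟨n, hn, c, h3, h4⟩ := lev_spec (T := T) y
  obtain ⟨j, rfl⟩ : ∃ i, j = i + 1 := ⟨j - 1, by omega⟩
  have h5 : c ∈ (sq T (j + 1)).O := W_sub_O' (W_mono (by omega) h4)
  have h6 := ((sq T (j + 1)).I2 _ c h3 h5).1 (T.S_smul n y a h1)
  have h7 := descent hn (W_sub_D h2) (W_sub_D h6)
  exact hy.2 (n⁻¹ * c) (by simpa using T.S_smul n⁻¹ _ _ h3)
    ((sq T (j + 1)).HO _ (inv_mem h7) _ h5)

variable (T) in
/-- the unexposed part -/
def PP (y : Y) : Set F :=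
  {a | ∃ n ∈ stabGen F Y, (sq T (lev T y)).New (n • y) ∧ n * a ∈ (sq T (lev T y)).P (n • y)}

lemma PP_smul {n : F} (hn : n ∈ stabGen F Y) {y : Y} {a : F} (h : a ∈ PP T y) :
    n * a ∈ PP T (n • y) := by
  obtain ⟨m, hm, h1, h2⟩ := h
  refine ⟨m * n⁻¹, mul_mem hm (inv_mem hn), ?_, ?_⟩
  · simpa [mul_smul, lev_smul hn] using h1
  · simpa [mul_smul, lev_smul hn, mul_assoc] using h2

lemma PP_smul_iff {n : F} (hn : n ∈ stabGen F Y) {y : Y} {a : F} :
    n * a ∈ PP T (n • y) ↔ a ∈ PP T y :=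
  ⟨fun h => by simpa using PP_smul (inv_mem hn) h, PP_smul hn⟩

lemma PP_iff {y : Y} {j : ℕ} (hy : (sq T j).New y) (a : F) :
    a ∈ PP T y ↔ ∃ r : F, r • y = y ∧ r * a ∈ (sq T j).P y := by
  unfold PP
  rw [levB hy]
  constructor
  · rintro ⟨n, hn, h1, h2⟩
    obtain ⟨c, hc⟩ := T.S_ne y
    obtain ⟨h, hh, r, hr, rfl⟩ :=
      prop4 (descent' hn (hy.sub_C hc) (h1.sub_C (T.S_smul _ _ _ hc))) hy h1
    rw [mul_smul, hr, mul_assoc, P_iff hh] at h2
    exact ⟨r, hr, h2⟩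
  · rintro ⟨r, hr, h⟩
    exact ⟨r, stab_N hr, by rwa [hr], by rwa [hr]⟩

variable (T) in
/-- the parent relation -/
def Par (a b : F) : Prop := T.d a b = 1 ∧ ∃ j, ∃ n ∈ stabGen F Y,
  n * a ∈ (sq T j).D ∧ n * a ∉ (sq T j).W ∧ T.B (n * a) (n * b) ((sq T j).g (n * a))

lemma Par.mul {a b : F} (h : Par T a b) {n : F} (hn : n ∈ stabGen F Y) :
    Par T (n * a) (n * b) := by
  obtain ⟨h1, j, m, hm, h2⟩ := h
  exact ⟨by rwa [T.d_mul], j, m * n⁻¹, mul_mem hm (inv_mem hn), by simpa [mul_assoc] using h2⟩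

lemma Par.unique {a b b' : F} (h : Par T a b) (h' : Par T a b') : b = b' := by
  obtain ⟨h1, j, n, hn, h2, h3, h4⟩ := h
  obtain ⟨h1', j', n', hn', h2', h3', h4'⟩ := h'
  have key : ∀ {j j' : ℕ} {n n' : F}, n ∈ stabGen F Y → n' ∈ stabGen F Y → n * a ∈ (sq T j).D →
      n' * a ∈ (sq T j').D → n' * a ∉ (sq T j').W → j' ≤ j := by
    intro j j' n n' hn hn' h2 h2' h3'
    by_contra hlt
    have h5 : n * a ∈ (sq T j').W := W_mono (by omega) (C_sub (D_sub_C h2))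
    have e : n' * a = (n' * n⁻¹) * (n * a) := by group
    rw [e] at h2' h3'
    exact h3' ((sq T j').HW _ (descent (mul_mem hn' (inv_mem hn)) (W_sub_D h5) h2') _ h5)
  obtain rfl : j = j' := le_antisymm (key hn' hn h2' h2 h3) (key hn hn' h2 h2' h3')
  have e : ∀ x, n' * x = (n' * n⁻¹) * (n * x) := fun x => by group
  have h5 := descent (mul_mem hn' (inv_mem hn)) h2 (e a ▸ h2')
  rw [e a, e b', g_mul h5] at h4'
  have h6 := h4'.mul (n' * n⁻¹)⁻¹
  simp only [inv_mul_cancel_left] at h6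
  exact mul_left_cancel (nbr_unique (by rwa [T.d_mul]) (by rwa [T.d_mul]) h4 h6)

lemma par_of_D {a b : F} (h : T.d a b = 1) {j : ℕ} (ha : a ∈ (sq T j).D) (hb : b ∈ (sq T j).D)
    (hn : ¬(a ∈ (sq T j).W ∧ b ∈ (sq T j).W)) : Par T a b ∨ Par T b a := by
  rcases (sq T j).cvx.adj h hn with ⟨h1, h2⟩ | ⟨h1, h2⟩
  · exact Or.inl ⟨h, j, 1, one_mem _, by simpa using ⟨ha, h1, h2⟩⟩
  · exact Or.inr ⟨by rwa [T.d_comm], j, 1, one_mem _, by simpa using ⟨hb, h1, h2⟩⟩

lemma inj {n : F} (hn : n ∈ stabGen F Y) (y : Y) (a : F) (ha : a ∈ T.S y)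
    (ha' : n * a ∈ T.S y) : n • y = y := by
  obtain ⟨m, hm, hy⟩ := levA (T := T) y
  have h1 := T.S_smul m _ _ ha
  have h2 := T.S_smul m _ _ ha'
  have e : m * (n * a) = (m * n * m⁻¹) * (m * a) := by group
  rw [e] at h2
  simpa [mul_smul] using
    prop5 (descent' (N_conj hn hm) (hy.sub_C h1) (hy.sub_C h2)) hy h1 h2

lemma ball (y : Y) : ∃ w ∈ T.S y, ∀ a ∈ T.S y, a ∈ PP T y →
    ∃ r : F, r • y = y ∧ T.d w (r * a) ≤ 4 * T.ell y := by
  obtain ⟨m, hm, hy⟩ := levA (T := T) y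
  obtain ⟨w, h1, h2⟩ := hy.1
  refine ⟨m⁻¹ * w, by simpa using T.S_smul m⁻¹ _ _ h1, fun a _ ha => ?_⟩
  obtain ⟨r, hr, h3⟩ := (PP_iff hy _).1 (PP_smul hm ha)
  refine ⟨m⁻¹ * r * m, by simp [mul_smul, hr], ?_⟩
  have := hy.near h1 h2 h3
  rwa [T.ell_smul, ← T.d_mul m⁻¹, ← mul_assoc, ← mul_assoc] at this

lemma meet0 {y y' : Y} {j : ℕ} (hy : (sq T j).New y) {a : F} (hne : y ≠ y') (ha : a ∈ T.S y)
    (ha' : a ∈ T.S y') (hl : lev T y' ≤ j) : a ∈ PP T y := by
  rw [PP_iff hy]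
  by_contra hex
  push Not at hex
  obtain ⟨n, hn, c, h1, h2⟩ := lev_spec (T := T) y'
  have h3 := W_mono hl h2
  have h4 := T.S_smul n _ _ ha'
  have h5 := (S_sub_C h1 h3).1 _ h4
  obtain ⟨h, hh, r, hr, rfl⟩ := prop2 (descent' hn (hy.sub_C ha) h5) hy ha hex h5
  refine hex r hr ((P_iff hh _ _).1 ?_)
  have h6 := T.S_smul h _ _ (S_stab hr ha)
  rw [mul_assoc] at h4
  by_cases h7 : ∀ a ∈ T.S ((h * r) • y'), a ∉ (sq T j).O
  · refine claimA (hy.smul hh) ⟨⟨c, h1, h3⟩, h7⟩ (fun e => hne ?_) h6 h4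
    rw [mul_smul, smul_left_cancel_iff] at e
    rw [← hr] at e
    exact smul_left_cancel _ e
  · push Not at h7
    obtain ⟨e, h8, h9⟩ := h7
    exact Wp_P h6 (W_sub_Wp (((sq T j).I2 _ e h8 h9).1 h4))

lemma meet (y y' : Y) (a : F) (hne : y ≠ y') (ha : a ∈ T.S y) (ha' : a ∈ T.S y')
    (hl : lev T y' ≤ lev T y) : a ∈ PP T y := by
  obtain ⟨m, hm, hy⟩ := levA (T := T) y
  exact (PP_smul_iff hm).1 (meet0 (y' := m • y') hy (by simpa using hne) (T.S_smul _ _ _ ha)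
    (T.S_smul _ _ _ ha') (by rwa [lev_smul hm]))

lemma dart0 {a b : F} (h : T.d a b = 1) {j : ℕ} (ha : a ∈ (sq T j).C) (_hb : b ∈ (sq T j).C)
    (hn : ∀ n ∈ stabGen F Y, ¬(n * a ∈ (sq T j).W ∧ n * b ∈ (sq T j).W))
    (h1 : a ∉ (sq T j).W) (h2 : T.B a b ((sq T j).g a)) :
    Par T a b ∨ Par T b a ∨ ∃ y, a ∈ T.S y ∧ b ∈ T.S y ∧ (a ∉ PP T y ∨ b ∉ PP T y) := by
  by_cases hD : a ∈ (sq T j).D
  · exact Or.inl ⟨h, j, 1, one_mem _, by simpa using ⟨hD, h1, h2⟩⟩
  rcases ha with ha | ⟨y, hy, ha⟩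
  · exact absurd (Or.inl ha) hD
  have hb' := T.convex y _ _ _ ha (hy.g_mem ha) h2
  by_cases h3 : a ∈ PP T y ∧ b ∈ PP T y
  · obtain ⟨r, hr, h4⟩ := (PP_iff hy _).1 h3.1
    obtain ⟨r', hr', h5⟩ := (PP_iff hy _).1 h3.2
    have h6 := hy.diam h4 h5
    have h7 := T.d_tri (r * b) (r * a) (r' * b)
    rw [T.d_mul, T.d_comm b a] at h7
    have h8 := T.ell_pos y
    obtain rfl := eq_of_close hr hr' hb' (by omega)
    have hN := inv_mem (stab_N hr)
    rcases par_of_D (by rwa [T.d_mul]) (Or.inr ⟨y, hy, h4⟩) (Or.inr ⟨y, hy, h5⟩)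
      (hn r (stab_N hr)) with h9 | h9
    · exact Or.inl (by simpa using h9.mul hN)
    · exact Or.inr (Or.inl (by simpa using h9.mul hN))
  · exact Or.inr (Or.inr ⟨y, ha, hb', not_and_or.1 h3⟩)

lemma dart (a b : F) (h : T.d a b = 1) :
    Par T a b ∨ Par T b a ∨ ∃ y, a ∈ T.S y ∧ b ∈ T.S y ∧ (a ∉ PP T y ∨ b ∉ PP T y) := by
  classical
  have ex : ∃ j, ∃ n ∈ stabGen F Y, n * a ∈ (sq T j).W ∧ n * b ∈ (sq T j).W := by
    obtain ⟨j, hj⟩ := exhaust (T := T) a
    obtain ⟨k, hk⟩ := exhaust (T := T) b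
    exact ⟨max j k, 1, one_mem _, by simpa using W_mono (le_max_left _ _) hj,
      by simpa using W_mono (le_max_right _ _) hk⟩
  obtain ⟨n, hn, h1, h2⟩ := Nat.find_spec ex
  have hmin := fun j => Nat.find_min ex (m := j)
  generalize Nat.find ex = J at *
  cases J with
  | zero =>
    have e : n * a = n * b := (show n * a = 1 from h1).trans (show n * b = 1 from h2).symm
    rw [mul_left_cancel e, d_self] at h
    omega
  | succ j =>
    rcases reduce h1 h2 with ⟨g, hg, h3, h4⟩ | ⟨y, -, g, -, p, q, h3, h4, -, -, h5⟩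
    · have hm : g * n ∈ stabGen F Y := mul_mem ((sq T (j + 1)).HN hg) hn
      rw [← mul_assoc] at h3 h4
      generalize g * n = m at *
      have hn' : ∀ n ∈ stabGen F Y,
          ¬(n * (m * a) ∈ (sq T j).W ∧ n * (m * b) ∈ (sq T j).W) := fun n hn h' =>
        hmin j (by omega) ⟨n * m, mul_mem hn hm, by simpa [mul_assoc] using h'⟩
      have hd : T.d (m * a) (m * b) = 1 := by rwa [T.d_mul]
      have key : Par T (m * a) (m * b) ∨ Par T (m * b) (m * a) ∨ ∃ y, m * a ∈ T.S y ∧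
          m * b ∈ T.S y ∧ (m * a ∉ PP T y ∨ m * b ∉ PP T y) := by
        rcases (sq T j).cvx.adj hd (by simpa using hn' 1 (one_mem _)) with ⟨h5, h6⟩ | ⟨h5, h6⟩
        · exact dart0 hd h3 h4 hn' h5 h6
        · rcases dart0 (by rwa [T.d_comm]) h4 h3 (fun n hn h' => hn' n hn h'.symm) h5 h6 with
            h7 | h7 | ⟨y, h7, h8, h9⟩
          · exact Or.inr (Or.inl h7)
          · exact Or.inl h7
          · exact Or.inr (Or.inr ⟨y, h8, h7, h9.symm⟩)
      rcases key with h7 | h7 | ⟨y, h7, h8, h9⟩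
      · exact Or.inl (by simpa using h7.mul (inv_mem hm))
      · exact Or.inr (Or.inl (by simpa using h7.mul (inv_mem hm)))
      · refine Or.inr (Or.inr ⟨m⁻¹ • y, by simpa using T.S_smul m⁻¹ _ _ h7,
          by simpa using T.S_smul m⁻¹ _ _ h8, ?_⟩)
        exact h9.imp (fun h h' => h (by simpa using PP_smul hm h'))
          (fun h h' => h (by simpa using PP_smul hm h'))
    · exfalso
      have h6 := T.ell_pos y
      have h7 := T.d_tri p (n * a) q
      unfold B at h3 h4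
      rw [T.d_mul] at h3 h4
      rw [T.d_comm p (n * a)] at h7
      omega

lemma one_nbr0 {y : Y} {j : ℕ} (hy : (sq T j).New y) {a b b' : F} (ha : a ∈ T.S y)
    (hb' : b' ∈ T.S y) (h1 : a ∉ PP T y) (h2 : b ∈ PP T y) (h3 : b' ∈ PP T y)
    (h4 : T.d a b = 1) (h5 : T.d a b' = 1) : b = b' := by
  rw [PP_iff hy] at h1 h2 h3
  push Not at h1
  obtain ⟨r, hr, h2⟩ := h2
  obtain ⟨r', hr', h3⟩ := h3
  have h6 := hy.diam h2 h3
  have h7 := T.d_tri (r * b') (r * b) (r' * b')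
  have h8 := T.d_tri b' a b
  rw [T.d_comm b' a] at h8
  rw [T.d_mul] at h7
  have h9 := T.ell_pos y
  obtain rfl := eq_of_close hr hr' hb' (by omega)
  have ha1 := S_stab hr ha
  have ha2 : r * a ∉ (sq T j).W := fun h => h1 r hr (Wp_P ha1 (W_sub_Wp h))
  have key : ∀ b, r * b ∈ (sq T j).P y → T.d a b = 1 →
      T.B (r * a) (r * b) ((sq T j).g (r * a)) := by
    intro b hb hd
    rcases (sq T j).cvx.adj (a := r * a) (b := r * b) (by rwa [T.d_mul]) (fun h => ha2 h.1)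
      with h | h
    · exact h.2
    · refine absurd ⟨ha1, ?_⟩ (h1 r hr)
      have k1 := hb.2
      have k2 := h.2
      have k3 := (sq T j).cvx.gate_le (r * a) (g_mem (r * b))
      unfold B at k2
      unfold St.g at *
      omega
  exact mul_left_cancel
    (nbr_unique (by rwa [T.d_mul]) (by rwa [T.d_mul]) (key b h2 h4) (key b' h3 h5))

end Wind

theorem exists_windOut {F : Type} [Group F] {Y : Type} [MulAction F Y] (T : TreeAct F Y) :
    Nonempty (WindOut T) := by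
  refine ⟨
    { lev := Wind.lev T
      P := Wind.PP T
      Par := Wind.Par T
      lev_smul := fun n hn y => Wind.lev_smul hn y
      P_smul := fun n hn y a h => Wind.PP_smul hn h
      Par_mul := fun n hn a b h => h.mul hn
      Par_unique := fun a b b' h h' => h.unique h'
      inj := fun n hn => Wind.inj hn
      ball := Wind.ball
      meet := Wind.meet
      lev_zero := fun y h => Nat.le_zero.1
        (Wind.lev_le ⟨1, one_mem _, 1, by simpa using h, rfl⟩)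
      dart := Wind.dart
      one_nbr := fun y a b b' ha _ hb' h1 h2 h3 h4 h5 => ?_ }⟩
  obtain ⟨m, hm, hy⟩ := Wind.levA (T := T) y
  exact mul_left_cancel (Wind.one_nbr0 hy (T.S_smul m _ _ ha) (T.S_smul m _ _ hb')
    (fun h => h1 ((Wind.PP_smul_iff hm).1 h)) (Wind.PP_smul hm h2) (Wind.PP_smul hm h3)
    (by rwa [T.d_mul]) (by rwa [T.d_mul]))

end Vale.Agent.P089
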