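import Vale.Agent.P089.WindDefs

/-! Tree lemmas for the windmill construction. -/

namespace Vale.Agent.P089

namespace TreeAct

variable {F : Type} [Group F] {Y : Type} [MulAction F Y] (T : TreeAct F Y)

/-- `x` lies between `a` and `b`. -/
def B (a x b : F) : Prop := T.d a x + T.d x b = T.d a b

/-- nonempty convex sets -/
structure Cvx (C : Set F) : Prop where
  ne : C.Nonempty
  cv : ∀ a b x, a ∈ C → b ∈ C → T.B a x b → x ∈ C

/-- `g` is the gate of `a` in `C`. -/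
def IsGate (C : Set F) (a g : F) : Prop := g ∈ C ∧ ∀ c ∈ C, T.B a g c

open Classical in
/-- the gate -/
noncomputable def gate (C : Set F) (a : F) : F :=
  if h : ∃ g, T.IsGate C a g then h.choose else a

variable {T}

lemma d_self (a : F) : T.d a a = 0 := (T.d_eq_zero a a).2 rfl

lemma B.symm {a x b : F} (h : T.B a x b) : T.B b x a := by
  unfold B at *
  rw [T.d_comm b x, T.d_comm x a, T.d_comm b a]; omega

lemma B.mul {a x b : F} (h : T.B a x b) (g : F) : T.B (g * a) (g * x) (g * b) := by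
  unfold B at *
  simpa only [T.d_mul] using h

lemma B.thin {a x b : F} (h : T.B a x b) (c : F) : T.B a x c ∨ T.B c x b := T.thin a b c x h

lemma cvx_S (y : Y) : T.Cvx (T.S y) := ⟨T.S_ne y, T.convex y⟩

lemma S_iff (g : F) (y : Y) (a : F) : g * a ∈ T.S (g • y) ↔ a ∈ T.S y :=
  ⟨fun h => by simpa using T.S_smul g⁻¹ _ _ h, T.S_smul g y a⟩

lemma S_stab {r : F} {y : Y} (hr : r • y = y) {a : F} (ha : a ∈ T.S y) : r * a ∈ T.S y := by
  simpa [hr] using T.S_smul r y a ha

lemma stab_inv {r : F} {y : Y} (hr : r • y = y) : r⁻¹ • y = y := by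
  rw [inv_smul_eq_iff, hr]

lemma IsGate.unique {C : Set F} {a g g' : F} (h : T.IsGate C a g) (h' : T.IsGate C a g') :
    g = g' := by
  have h1 := h.2 g' h'.1
  have h2 := h'.2 g h.1
  unfold B at h1 h2
  rw [T.d_comm g' g] at h2
  exact (T.d_eq_zero _ _).1 (by omega)

lemma Cvx.isGate {C : Set F} (hC : T.Cvx C) (a : F) : T.IsGate C a (T.gate C a) := by
  classical
  have ex : ∃ n, ∃ g ∈ C, T.d a g = n := by
    obtain ⟨g, hg⟩ := hC.ne
    exact ⟨_, g, hg, rfl⟩
  obtain ⟨g, hg, hd⟩ := Nat.find_spec ex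
  have : ∃ g, T.IsGate C a g := by
    refine ⟨g, hg, fun c hc => ?_⟩
    obtain ⟨m, h1, h2, h3⟩ := T.median a g c
    have h4 : Nat.find ex ≤ T.d a m := Nat.find_min' ex ⟨m, hC.cv g c m hg hc h2, rfl⟩
    have h5 : m = g := (T.d_eq_zero _ _).1 (by omega)
    subst h5
    exact h3
  rw [gate, dif_pos this]
  exact this.choose_spec

lemma Cvx.gate_mem {C : Set F} (hC : T.Cvx C) (a : F) : T.gate C a ∈ C := (hC.isGate a).1

lemma Cvx.gate_B {C : Set F} (hC : T.Cvx C) (a : F) {c : F} (hc : c ∈ C) :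
    T.B a (T.gate C a) c := (hC.isGate a).2 c hc

lemma Cvx.gate_le {C : Set F} (hC : T.Cvx C) (a : F) {c : F} (hc : c ∈ C) :
    T.d a (T.gate C a) ≤ T.d a c := by
  have := hC.gate_B a hc
  unfold B at this; omega

lemma Cvx.gate_self {C : Set F} (hC : T.Cvx C) {a : F} (ha : a ∈ C) : T.gate C a = a := by
  have := hC.gate_le a ha
  rw [d_self] at this
  exact ((T.d_eq_zero _ _).1 (by omega)).symm

lemma Cvx.gate_mul {C C' : Set F} (hC : T.Cvx C) (hC' : T.Cvx C') {g : F}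
    (hg : ∀ a, g * a ∈ C' ↔ a ∈ C) (a : F) : T.gate C' (g * a) = g * T.gate C a := by
  refine (hC'.isGate _).unique ⟨(hg _).2 (hC.gate_mem a), fun c hc => ?_⟩
  have := (hC.gate_B a ((hg (g⁻¹ * c)).1 (by simpa using hc))).mul g
  simpa using this

lemma Cvx.gate_gate {C C' : Set F} (hC : T.Cvx C) (hC' : T.Cvx C') (h : C' ⊆ C) (a : F) :
    T.gate C' a = T.gate C' (T.gate C a) := by
  refine (hC'.isGate _).unique ⟨hC'.gate_mem _, fun c hc => ?_⟩
  have h1 := hC'.gate_B (T.gate C a) hc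
  have h2 := hC.gate_B a (h hc)
  have h3 := hC.gate_B a (h (hC'.gate_mem (T.gate C a)))
  unfold B at *; omega

lemma Cvx.meet {C C' : Set F} (hC : T.Cvx C) (hC' : T.Cvx C') {c a : F} (hc : c ∈ C)
    (hc' : c ∈ C') (ha : a ∈ C') : T.gate C a ∈ C' :=
  hC'.cv a c _ ha hc' (hC.gate_B a hc)

lemma Cvx.sep {C : Set F} (hC : T.Cvx C) {a b : F} (h : T.gate C a ≠ T.gate C b) :
    T.B a (T.gate C a) b := by
  rcases (hC.gate_B a (hC.gate_mem b)).thin b with h1 | h1
  · exact h1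
  · have h2 := hC.gate_B b (hC.gate_mem a)
    unfold B at h1 h2
    rw [T.d_comm (T.gate C b)] at h2
    exact absurd ((T.d_eq_zero _ _).1 (by omega)) h

lemma Cvx.union {C C' : Set F} (hC : T.Cvx C) (hC' : T.Cvx C') {c : F} (hc : c ∈ C)
    (hc' : c ∈ C') : T.Cvx (C ∪ C') := by
  refine ⟨⟨c, Or.inl hc⟩, ?_⟩
  rintro a b x (ha | ha) (hb | hb) h
  · exact Or.inl (hC.cv a b x ha hb h)
  · rcases h.thin c with h | h
    · exact Or.inl (hC.cv _ _ _ ha hc h)
    · exact Or.inr (hC'.cv _ _ _ hc' hb h)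
  · rcases h.thin c with h | h
    · exact Or.inr (hC'.cv _ _ _ ha hc' h)
    · exact Or.inl (hC.cv _ _ _ hc hb h)
  · exact Or.inr (hC'.cv a b x ha hb h)

lemma nbr_unique {a x x' w : F} (h1 : T.d a x = 1) (h2 : T.d a x' = 1) (h3 : T.B a x w)
    (h4 : T.B a x' w) : x = x' := by
  rcases h3.thin x' with h | h
  · unfold B at h; exact (T.d_eq_zero _ _).1 (by omega)
  · unfold B at *; exact ((T.d_eq_zero _ _).1 (by omega)).symm

lemma B.eq_or {a x b : F} (h : T.B a x b) (h1 : T.d a b = 1) : x = a ∨ x = b := by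
  unfold B at h
  rcases Nat.eq_zero_or_pos (T.d a x) with h2 | h2
  · exact Or.inl ((T.d_eq_zero _ _).1 h2).symm
  · exact Or.inr ((T.d_eq_zero _ _).1 (by omega))

lemma Cvx.nbhd {C : Set F} (hC : T.Cvx C) : T.Cvx {a | T.d a (T.gate C a) ≤ 1} := by
  refine ⟨?_, fun a b x ha hb h => ?_⟩
  · obtain ⟨c, hc⟩ := hC.ne
    exact ⟨c, by simp [hC.gate_self hc, d_self]⟩
  simp only [Set.mem_ofPred_eq] at *
  rcases h.thin (T.gate C a) with h | h
  · have := hC.gate_le x (hC.gate_mem a)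
    unfold B at h; omega
  · rcases h.thin (T.gate C b) with h | h
    · rw [hC.gate_self (hC.cv _ _ _ (hC.gate_mem a) (hC.gate_mem b) h), d_self]; omega
    · have := hC.gate_le x (hC.gate_mem b)
      have h' := h.symm
      unfold B at h'; omega

lemma Cvx.adj {C : Set F} (hC : T.Cvx C) {a b : F} (h : T.d a b = 1) (hn : ¬(a ∈ C ∧ b ∈ C)) :
    (a ∉ C ∧ T.B a b (T.gate C a)) ∨ (b ∉ C ∧ T.B b a (T.gate C b)) := by
  have hw : T.gate C a = T.gate C b := by
    by_contra hne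
    have h1 := (hC.sep hne).eq_or h
    have h2 := (hC.sep (Ne.symm hne)).symm.eq_or h
    have h3 := hC.gate_mem a
    have h4 := hC.gate_mem b
    rcases h1 with h1 | h1 <;> rcases h2 with h2 | h2
    · exact hne (h1.trans h2.symm)
    · exact hn ⟨h1 ▸ h3, h2 ▸ h4⟩
    · exact hn ⟨h2 ▸ h4, h1 ▸ h3⟩
    · exact hne (h1.trans h2.symm)
  obtain ⟨m, h1, h2, h3⟩ := T.median a b (T.gate C a)
  rcases B.eq_or h1 h with rfl | rfl
  · refine Or.inr ⟨fun hb => ?_, hw ▸ h2⟩
    rw [hw, hC.gate_self hb, d_self, T.d_comm b m] at h2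
    omega
  · refine Or.inl ⟨fun ha => ?_, h3⟩
    rw [hC.gate_self ha, d_self] at h3
    omega

lemma eq_of_close {r r' : F} {y : Y} (hr : r • y = y) (hr' : r' • y = y) {a : F}
    (ha : a ∈ T.S y) (h : T.d (r * a) (r' * a) < 10 * T.ell y) : r = r' := by
  by_contra hne
  have := T.girth (r⁻¹ * r') y a (by rw [mul_smul, hr', stab_inv hr])
    (fun h' => hne (by rwa [inv_mul_eq_one] at h')) ha
  rw [← T.d_mul r, ← mul_assoc, mul_inv_cancel_left] at this
  omega

end TreeAct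

end Vale.Agent.P089
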