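import Vale.Agent.P089.WindmillAux1

/-! One step of the windmill construction. -/

namespace Vale.Agent.P089

open TreeAct

variable {F : Type} [Group F] {Y : Type} [MulAction F Y]

/-- A stage of the windmill. -/
structure St (T : TreeAct F Y) where
  O : Set F
  W : Set F
  H : Subgroup F
  cvx : T.Cvx W
  HN : H ≤ stabGen F Y
  HW : ∀ h ∈ H, ∀ a ∈ W, h * a ∈ W
  HO : ∀ h ∈ H, ∀ a ∈ O, h * a ∈ O
  I2 : ∀ y a, a ∈ T.S y → a ∈ O → T.S y ⊆ W ∧ ∀ r : F, r • y = y → r ∈ H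
  I3 : ∀ y, (∀ a ∈ T.S y, a ∉ O) → ∀ a b, a ∈ T.S y → a ∈ W → b ∈ T.S y → b ∈ W →
    T.d a b ≤ 2 * T.ell y
  I4 : ∀ y, (∀ a ∈ T.S y, a ∉ O) → ∀ a, a ∈ T.S y → a ∈ W → ∀ n ∈ H, n * a ∈ T.S y → n = 1

namespace St

variable {T : TreeAct F Y} (σ : St T)

def New (y : Y) : Prop := (∃ a ∈ T.S y, a ∈ σ.W) ∧ ∀ a ∈ T.S y, a ∉ σ.O

noncomputable def g (a : F) : F := T.gate σ.W a

def Wp : Set F := {a | T.d a (σ.g a) ≤ 1}

def C : Set F := {a | a ∈ σ.Wp ∨ ∃ y, σ.New y ∧ a ∈ T.S y}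

def P (y : Y) : Set F := {a | a ∈ T.S y ∧ T.d a (σ.g a) ≤ 2 * T.ell y}

def D : Set F := {a | a ∈ σ.Wp ∨ ∃ y, σ.New y ∧ a ∈ σ.P y}

def H' : Subgroup F := Subgroup.closure {r | r ∈ σ.H ∨ ∃ y, σ.New y ∧ r • y = y}

def U (y : Y) (b : F) : Prop := T.gate (T.S y) b ∉ σ.P y

variable {σ}

lemma W_iff {h : F} (hh : h ∈ σ.H) (a : F) : h * a ∈ σ.W ↔ a ∈ σ.W :=
  ⟨fun h' => by simpa using σ.HW _ (σ.H.inv_mem hh) _ h', σ.HW h hh a⟩

lemma O_iff {h : F} (hh : h ∈ σ.H) (a : F) : h * a ∈ σ.O ↔ a ∈ σ.O :=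
  ⟨fun h' => by simpa using σ.HO _ (σ.H.inv_mem hh) _ h', σ.HO h hh a⟩

lemma g_mul {h : F} (hh : h ∈ σ.H) (a : F) : σ.g (h * a) = h * σ.g a :=
  σ.cvx.gate_mul σ.cvx (W_iff hh) a

lemma g_mem (a : F) : σ.g a ∈ σ.W := σ.cvx.gate_mem a

lemma g_self {a : F} (ha : a ∈ σ.W) : σ.g a = a := σ.cvx.gate_self ha

lemma New.smul {y : Y} (hy : σ.New y) {h : F} (hh : h ∈ σ.H) : σ.New (h • y) := by
  obtain ⟨⟨a, h1, h2⟩, h3⟩ := hy
  refine ⟨⟨h * a, T.S_smul _ _ _ h1, σ.HW h hh a h2⟩, fun b hb hO => ?_⟩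
  exact h3 (h⁻¹ * b) (by simpa using T.S_smul h⁻¹ _ _ hb) (σ.HO _ (σ.H.inv_mem hh) _ hO)

lemma New.g_mem {y : Y} (hy : σ.New y) {a : F} (ha : a ∈ T.S y) : σ.g a ∈ T.S y := by
  obtain ⟨⟨c, h1, h2⟩, -⟩ := hy
  exact σ.cvx.meet (cvx_S y) h2 h1 ha

lemma P_iff {h : F} (hh : h ∈ σ.H) (y : Y) (a : F) : h * a ∈ σ.P (h • y) ↔ a ∈ σ.P y := by
  simp only [P, Set.mem_ofPred_eq, S_iff, g_mul hh, T.d_mul, T.ell_smul]

lemma Wp_iff {h : F} (hh : h ∈ σ.H) (a : F) : h * a ∈ σ.Wp ↔ a ∈ σ.Wp := by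
  simp only [Wp, Set.mem_ofPred_eq, g_mul hh, T.d_mul]

lemma W_sub_Wp {a : F} (ha : a ∈ σ.W) : a ∈ σ.Wp := by
  simp [Wp, g_self ha, d_self]

lemma W_sub_D {a : F} (ha : a ∈ σ.W) : a ∈ σ.D := Or.inl (W_sub_Wp ha)

lemma D_sub_C {a : F} (ha : a ∈ σ.D) : a ∈ σ.C := ha.imp id (fun ⟨y, h1, h2⟩ => ⟨y, h1, h2.1⟩)

lemma New.sub_C {y : Y} (hy : σ.New y) {a : F} (ha : a ∈ T.S y) : a ∈ σ.C := Or.inr ⟨y, hy, ha⟩

lemma C_mul {h : F} (hh : h ∈ σ.H) {a : F} (ha : a ∈ σ.C) : h * a ∈ σ.C :=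
  ha.imp (Wp_iff hh a).2 (fun ⟨y, h1, h2⟩ => ⟨h • y, h1.smul hh, T.S_smul _ _ _ h2⟩)

lemma D_mul {h : F} (hh : h ∈ σ.H) {a : F} (ha : a ∈ σ.D) : h * a ∈ σ.D :=
  ha.imp (Wp_iff hh a).2 (fun ⟨y, h1, h2⟩ => ⟨h • y, h1.smul hh, (P_iff hh y a).2 h2⟩)

lemma cvx_Wp : T.Cvx σ.Wp := σ.cvx.nbhd

lemma cvx_C : T.Cvx σ.C := by
  obtain ⟨c, hc⟩ := σ.cvx.ne
  refine ⟨⟨c, D_sub_C (W_sub_D hc)⟩, fun a b x ha hb h => ?_⟩
  have key : ∀ a ∈ σ.C, ∀ x, T.B a x (σ.g a) → x ∈ σ.C := by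
    rintro a (ha | ⟨y, h1, h2⟩) x h
    · exact Or.inl (cvx_Wp.cv _ _ _ ha (W_sub_Wp (g_mem a)) h)
    · exact h1.sub_C (T.convex y _ _ _ h2 (h1.g_mem h2) h)
  rcases h.thin (σ.g a) with h | h
  · exact key a ha x h
  · rcases h.thin (σ.g b) with h | h
    · exact D_sub_C (W_sub_D (σ.cvx.cv _ _ _ (g_mem a) (g_mem b) h))
    · exact key b hb x h.symm

lemma New.near {y : Y} (hy : σ.New y) {w a : F} (hw : w ∈ T.S y) (hw' : w ∈ σ.W)
    (ha : a ∈ σ.P y) : T.d w a ≤ 4 * T.ell y := by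
  have h1 := σ.I3 y hy.2 w (σ.g a) hw hw' (hy.g_mem ha.1) (St.g_mem a)
  have h2 := ha.2
  have h3 := T.d_tri w (σ.g a) a
  rw [T.d_comm (σ.g a)] at h3
  omega

lemma New.diam {y : Y} (hy : σ.New y) {a b : F} (ha : a ∈ σ.P y) (hb : b ∈ σ.P y) :
    T.d a b ≤ 6 * T.ell y := by
  have h1 := hy.near (hy.g_mem ha.1) (St.g_mem a) hb
  have h2 := ha.2
  have h3 := T.d_tri a (σ.g a) b
  omega

lemma claimA {y y' : Y} (hy : σ.New y) (hy' : σ.New y') (hne : y ≠ y') {a : F}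
    (ha : a ∈ T.S y) (ha' : a ∈ T.S y') : a ∈ σ.P y := by
  have := T.piece y y' a (σ.g a) hne ha (hy.g_mem ha) ha' (hy'.g_mem ha')
  exact ⟨ha, by omega⟩

lemma Wp_P {y : Y} {a : F} (ha : a ∈ T.S y) (ha' : a ∈ σ.Wp) : a ∈ σ.P y := by
  have := T.ell_pos y
  have h : T.d a (σ.g a) ≤ 1 := ha'
  exact ⟨ha, by omega⟩

lemma D_P {y : Y} (hy : σ.New y) {a : F} (ha : a ∈ T.S y) (ha' : a ∈ σ.D) : a ∈ σ.P y := by
  rcases ha' with h | ⟨y', h1, h2⟩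
  · exact Wp_P ha h
  · by_cases h : y = y'
    · exact h ▸ h2
    · exact claimA hy h1 h ha h2.1

lemma U_gate {y : Y} (hy : σ.New y) {b : F} (hb : σ.U y b) :
    T.gate σ.C b ∈ T.S y ∧ T.gate σ.C b ∉ σ.P y := by
  have e := cvx_C.gate_gate (cvx_S y) (fun _ => hy.sub_C) b
  unfold U at hb
  rw [e] at hb
  have hz := (cvx_C (σ := σ)).gate_mem b
  generalize T.gate σ.C b = z at *
  by_cases h : z ∈ T.S y
  · exact ⟨h, by rwa [(cvx_S y).gate_self h] at hb⟩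
  exfalso
  obtain ⟨w, hw1, hw2⟩ := hy.1
  have hm := (cvx_S (T := T) y).gate_mem z
  rcases hz with hz | ⟨y', h1, h2⟩
  · exact hb (Wp_P hm ((cvx_S y).meet cvx_Wp hw1 (W_sub_Wp hw2) hz))
  · obtain ⟨w', hw1', hw2'⟩ := h1.1
    rcases (cvx_S y).meet (σ.cvx.union (cvx_S y') hw2' hw1') hw1 (Or.inl hw2) (Or.inr h2)
      with h3 | h3
    · exact hb (Wp_P hm (W_sub_Wp h3))
    · exact hb (claimA hy h1 (fun h' => h (h' ▸ h2)) hm h3)

lemma U_C {y : Y} (hy : σ.New y) {b : F} (hb : σ.U y b) (hc : b ∈ σ.C) :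
    b ∈ T.S y ∧ b ∉ σ.P y := by
  have := U_gate hy hb
  rwa [cvx_C.gate_self hc] at this

lemma not_U_of_D {y : Y} (hy : σ.New y) {b : F} (hb : b ∈ σ.D) : ¬σ.U y b := fun h =>
  (U_C hy h (D_sub_C hb)).2 (D_P hy (U_C hy h (D_sub_C hb)).1 hb)

lemma not_U_of_U {y y' : Y} (hy : σ.New y) (hy' : σ.New y') (hne : y ≠ y') {b : F}
    (hb : σ.U y' b) : ¬σ.U y b := fun h =>
  (U_gate hy h).2 (claimA hy hy' hne (U_gate hy h).1 (U_gate hy' hb).1)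

lemma not_U_of_S {y y' : Y} (hy : σ.New y) (hy' : σ.New y') (hne : y ≠ y') {b : F}
    (hb : b ∈ T.S y') : ¬σ.U y b := fun h =>
  (U_C hy h (hy'.sub_C hb)).2 (claimA hy hy' hne (U_C hy h (hy'.sub_C hb)).1 hb)

lemma gate_stab {y : Y} {r : F} (hr : r • y = y) (b : F) :
    T.gate (T.S y) (r * b) = r * T.gate (T.S y) b :=
  (cvx_S y).gate_mul (cvx_S y) (fun a => by
    conv_lhs => rw [← hr]
    exact S_iff r y a) b

lemma pingpong {y : Y} (hy : σ.New y) {r : F} (hr : r • y = y) (hr1 : r ≠ 1) {b : F}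
    (hb : ¬σ.U y b) : σ.U y (r * b) := by
  unfold U at *
  rw [gate_stab hr]
  intro h
  have hb' := not_not.1 hb
  have h1 := hy.diam hb' h
  have h2 := T.girth r y _ hr hr1 hb'.1
  have := T.ell_pos y
  omega

variable (σ) in
/-- normal forms -/
inductive NF : Option Y → F → Prop
  | base (h : F) (hh : h ∈ σ.H) : NF none h
  | cons (o : Option Y) (g : F) (y : Y) (r : F) (hg : NF o g) (ho : o ≠ some y) (hy : σ.New y)
      (hr : r • y = y) (hr1 : r ≠ 1) : NF (some y) (r * g)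

lemma NF.mul_H {o : Option Y} {g h : F} (hg : σ.NF o g) (hh : h ∈ σ.H) :
    σ.NF (o.map (fun y => h • y)) (h * g) := by
  induction hg with
  | base h' hh' => exact NF.base _ (σ.H.mul_mem hh hh')
  | cons o g y r hg ho hy hr hr1 ih =>
    have e : h * (r * g) = (h * r * h⁻¹) * (h * g) := by group
    rw [e]
    refine NF.cons _ _ (h • y) _ ih ?_ (hy.smul hh) (by simp [mul_smul, hr]) (by simpa using hr1)
    cases o with
    | none => simp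
    | some y' => simpa using ho

lemma NF.mul_stab {o : Option Y} {g s : F} {y : Y} (hg : σ.NF o g) (hy : σ.New y)
    (hs : s • y = y) : ∃ o', σ.NF o' (s * g) := by
  by_cases h1 : s = 1
  · exact ⟨o, by simpa [h1] using hg⟩
  by_cases h2 : o = some y
  · subst h2
    cases hg with
    | cons o g _ r hg ho _ hr hr1 =>
      rw [← mul_assoc]
      by_cases h3 : s * r = 1
      · exact ⟨o, by simpa [h3] using hg⟩
      · exact ⟨_, NF.cons o g y _ hg ho hy (by rw [mul_smul, hr, hs]) h3⟩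
  · exact ⟨_, NF.cons o g y s hg h2 hy hs h1⟩

lemma H_le : σ.H ≤ σ.H' := fun _ h => Subgroup.subset_closure (Or.inl h)

lemma New.stab {y : Y} (hy : σ.New y) {r : F} (hr : r • y = y) : r ∈ σ.H' :=
  Subgroup.subset_closure (Or.inr ⟨y, hy, hr⟩)

lemma exists_NF {g : F} (hg : g ∈ σ.H') : ∃ o, σ.NF o g := by
  induction hg using Subgroup.closure_induction_left with
  | one => exact ⟨none, NF.base 1 σ.H.one_mem⟩
  | mul_left x hx g _ ih =>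
    obtain ⟨o, ho⟩ := ih
    rcases hx with hx | ⟨y, h1, h2⟩
    · exact ⟨_, ho.mul_H hx⟩
    · exact ho.mul_stab h1 h2
  | inv_mul_cancel x hx g _ ih =>
    obtain ⟨o, ho⟩ := ih
    rcases hx with hx | ⟨y, h1, h2⟩
    · exact ⟨_, ho.mul_H (σ.H.inv_mem hx)⟩
    · exact ho.mul_stab h1 (stab_inv h2)

lemma NF.pp {o : Option Y} {g b : F} (hg : σ.NF o g) (hb : b ∈ σ.D) :
    (o = none ∧ g ∈ σ.H) ∨ ∃ y, o = some y ∧ σ.New y ∧ σ.U y (g * b) := by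
  induction hg with
  | base h hh => exact Or.inl ⟨rfl, hh⟩
  | cons o g y r _ ho hy hr hr1 ih =>
    refine Or.inr ⟨y, rfl, hy, ?_⟩
    rw [mul_assoc]
    refine pingpong hy hr hr1 ?_
    rcases ih with ⟨-, h⟩ | ⟨y', rfl, h1, h2⟩
    · exact not_U_of_D hy (D_mul h hb)
    · exact not_U_of_U hy h1 (fun h => ho (h ▸ rfl)) h2

lemma prop1 {g b : F} (hg : g ∈ σ.H') (hb : b ∈ σ.D) (hb' : g * b ∈ σ.D) : g ∈ σ.H := by
  obtain ⟨o, ho⟩ := exists_NF hg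
  rcases ho.pp hb with h | ⟨y, -, h1, h2⟩
  · exact h.2
  · exact absurd h2 (not_U_of_D h1 hb')

lemma NF.prop2 {o : Option Y} {g : F} (hg : σ.NF o g) {y0 : Y} (h0 : σ.New y0) :
    (∃ h ∈ σ.H, ∃ r : F, r • y0 = y0 ∧ g = h * r ∧ (o = none ∨ o = some (h • y0))) ∨
    ∃ y1, o = some y1 ∧ σ.New y1 ∧ ∃ r g' : F, r • y0 = y0 ∧ g = g' * r ∧
      (∀ b ∈ T.S y0, σ.U y1 (g' * b)) ∧ ∀ b ∈ T.S y0, g' * b ∈ σ.C → b ∈ σ.P y0 := by
  induction hg with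
  | base h hh => exact Or.inl ⟨h, hh, 1, one_smul _ _, (mul_one _).symm, Or.inl rfl⟩
  | cons o g y s _ ho hy hs hs1 ih =>
    have back : ∀ b, s * b ∈ T.S y → b ∈ T.S y := fun b hb => by
      simpa using S_stab (stab_inv hs) hb
    rcases ih with ⟨h, hh, r, hr, rfl, -⟩ | ⟨y1, rfl, h1, r, g', hr, rfl, h2, h3⟩
    · by_cases e : y = h • y0
      · subst e
        refine Or.inl ⟨h, hh, h⁻¹ * s * h * r, ?_, by group, Or.inr rfl⟩
        rw [mul_smul, hr, mul_smul, mul_smul, hs, inv_smul_smul]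
      · have u : ∀ b ∈ T.S y0, σ.U y (s * h * b) := fun b hb => by
          rw [mul_assoc]
          exact pingpong hy hs hs1 (not_U_of_S hy (h0.smul hh) e (T.S_smul _ _ _ hb))
        refine Or.inr ⟨y, rfl, hy, r, s * h, hr, by group, u, fun b hb hc => ?_⟩
        have h4 := (U_C hy (u b hb) hc).1
        rw [mul_assoc] at h4
        exact (P_iff hh _ _).1
          (claimA (h0.smul hh) hy (Ne.symm e) (T.S_smul _ _ _ hb) (back _ h4))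
    · have e : y ≠ y1 := fun h => ho (h ▸ rfl)
      have u : ∀ b ∈ T.S y0, σ.U y (s * g' * b) := fun b hb => by
        rw [mul_assoc]
        exact pingpong hy hs hs1 (not_U_of_U hy h1 e (h2 b hb))
      refine Or.inr ⟨y, rfl, hy, r, s * g', hr, by group, u, fun b hb hc => ?_⟩
      have h4 := (U_C hy (u b hb) hc).1
      rw [mul_assoc] at h4
      exact absurd (h2 b hb) (not_U_of_S h1 hy e.symm (back _ h4))

lemma prop2 {g b : F} (hg : g ∈ σ.H') {y : Y} (hy : σ.New y) (hb : b ∈ T.S y)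
    (hex : ∀ r : F, r • y = y → r * b ∉ σ.P y) (hc : g * b ∈ σ.C) :
    ∃ h ∈ σ.H, ∃ r : F, r • y = y ∧ g = h * r := by
  obtain ⟨o, ho⟩ := exists_NF hg
  rcases ho.prop2 hy with ⟨h, hh, r, hr, e, -⟩ | ⟨y1, -, -, r, g', hr, rfl, -, h3⟩
  · exact ⟨h, hh, r, hr, e⟩
  · exact absurd (h3 _ (S_stab hr hb) (by rwa [← mul_assoc])) (hex r hr)

lemma prop4 {g : F} (hg : g ∈ σ.H') {y : Y} (hy : σ.New y) (hy' : σ.New (g • y)) :
    ∃ h ∈ σ.H, ∃ r : F, r • y = y ∧ g = h * r := by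
  obtain ⟨o, ho⟩ := exists_NF hg
  rcases ho.prop2 hy with ⟨h, hh, r, hr, e, -⟩ | ⟨y1, -, h1, r, g', hr, rfl, h2, -⟩
  · exact ⟨h, hh, r, hr, e⟩
  · obtain ⟨w, hw1, hw2⟩ := hy'.1
    rw [mul_smul, hr] at hw1
    have := h2 (g'⁻¹ * w) (by simpa using T.S_smul g'⁻¹ _ _ hw1)
    rw [mul_inv_cancel_left] at this
    exact absurd this (not_U_of_D h1 (W_sub_D hw2))

lemma NF.loc {o : Option Y} {g b : F} (hg : σ.NF o g) (hb : b ∈ σ.C) :
    (o = none ∧ g * b ∈ σ.C) ∨ ∃ y, o = some y ∧ σ.New y ∧ (g * b ∈ T.S y ∨ σ.U y (g * b)) := by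
  induction hg with
  | base h hh => exact Or.inl ⟨rfl, C_mul hh hb⟩
  | cons o g y r _ ho hy hr hr1 ih =>
    refine Or.inr ⟨y, rfl, hy, ?_⟩
    rw [mul_assoc]
    by_cases hU : σ.U y (g * b)
    · rcases ih with ⟨-, h⟩ | ⟨y', rfl, h1, h2 | h2⟩
      · exact Or.inl (S_stab hr (U_C hy hU h).1)
      · exact absurd hU (not_U_of_S hy h1 (fun h => ho (h ▸ rfl)) h2)
      · exact absurd hU (not_U_of_U hy h1 (fun h => ho (h ▸ rfl)) h2)
    · exact Or.inr (pingpong hy hr hr1 hU)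

lemma NF.prop3 {o : Option Y} {g : F} (hg : σ.NF o g) {b : F} (hb : b ∈ σ.C) :
    ∀ a ∈ σ.C, (∃ g0 ∈ σ.H', g0 * a ∈ σ.C ∧ g0 * (g * b) ∈ σ.C) ∨
      ∃ y1, σ.New y1 ∧ ∃ g1 ∈ σ.H', ∃ p q, T.B a p (g * b) ∧ T.B a q (g * b) ∧
        p ∈ T.S (g1 • y1) ∧ q ∈ T.S (g1 • y1) ∧ 4 * T.ell y1 ≤ T.d p q := by
  induction hg with
  | base h hh => exact fun a ha => Or.inl ⟨1, one_mem _, by simpa using ha, by simpa using C_mul hh hb⟩
  | cons o g y s hg ho hy hs hs1 ih =>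
    intro a ha
    rw [mul_assoc]
    have hsH := hy.stab hs
    by_cases h1 : a ∈ T.S y
    · rcases ih (s⁻¹ * a) (hy.sub_C (S_stab (stab_inv hs) h1)) with
        ⟨g0, h2, h3, h4⟩ | ⟨y1, h2, g1, h3, p, q, h4, h5, h6, h7, h8⟩
      · exact Or.inl ⟨g0 * s⁻¹, mul_mem h2 (inv_mem hsH), by rwa [mul_assoc],
          by rwa [mul_assoc, inv_mul_cancel_left]⟩
      · refine Or.inr ⟨y1, h2, s * g1, mul_mem hsH h3, s * p, s * q, by simpa using h4.mul s,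
          by simpa using h5.mul s, ?_, ?_, by rwa [T.d_mul]⟩
        · rw [mul_smul]; exact T.S_smul _ _ _ h6
        · rw [mul_smul]; exact T.S_smul _ _ _ h7
    · by_cases hU : σ.U y (g * b)
      · rcases hg.loc hb with ⟨-, h⟩ | ⟨y', rfl, h3, h2 | h2⟩
        · exact Or.inl ⟨1, one_mem _, by simpa using ha,
            by simpa using hy.sub_C (S_stab hs (U_C hy hU h).1)⟩
        · exact absurd hU (not_U_of_S hy h3 (fun h => ho (h ▸ rfl)) h2)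
        · exact absurd hU (not_U_of_U hy h3 (fun h => ho (h ▸ rfl)) h2)
      · have h2 : T.gate (T.S y) a ∈ σ.P y := not_not.1 (fun h => h1 (U_C hy h ha).1)
        have h3 : T.gate (T.S y) (g * b) ∈ σ.P y := not_not.1 hU
        have h4 := hy.diam h3 h2
        have h5 := T.girth s y _ hs hs1 h3.1
        rw [← gate_stab hs] at h5
        have h6 := T.d_tri (T.gate (T.S y) (g * b)) (T.gate (T.S y) a)
          (T.gate (T.S y) (s * (g * b)))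
        have h7 := T.ell_pos y
        have hne : T.gate (T.S y) a ≠ T.gate (T.S y) (s * (g * b)) := fun h => by
          rw [← h] at h5; omega
        exact Or.inr ⟨y, hy, 1, one_mem _, _, _, (cvx_S y).sep hne, ((cvx_S y).sep hne.symm).symm,
          by simpa using (cvx_S y).gate_mem _, by simpa using (cvx_S y).gate_mem _, by omega⟩

lemma prop5 {n a : F} (hn : n ∈ σ.H') {y : Y} (hy : σ.New y) (ha : a ∈ T.S y)
    (ha' : n * a ∈ T.S y) : n • y = y := by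
  have key : ∀ {n a : F}, n ∈ σ.H' → a ∈ T.S y → n * a ∈ T.S y →
      (∀ r : F, r • y = y → r * a ∉ σ.P y) → n • y = y := by
    intro n a hn ha ha' hex
    obtain ⟨h, hh, r, hr, rfl⟩ := prop2 hn hy ha hex (hy.sub_C ha')
    rw [mul_smul, hr]
    by_contra hne
    rw [mul_assoc] at ha'
    exact hex r hr ((P_iff hh _ _).1
      (claimA (hy.smul hh) hy hne (T.S_smul _ _ _ (S_stab hr ha)) ha'))
  by_cases h1 : ∀ r : F, r • y = y → r * a ∉ σ.P y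
  · exact key hn ha ha' h1
  by_cases h2 : ∀ r : F, r • y = y → r * (n * a) ∉ σ.P y
  · have := key (inv_mem hn) ha' (by simpa using ha) h2
    simpa using stab_inv this
  push Not at h1 h2
  obtain ⟨r, hr, h1⟩ := h1
  obtain ⟨r', hr', h2⟩ := h2
  have e : r' * (n * a) = (r' * n * r⁻¹) * (r * a) := by group
  have h3 : r' * n * r⁻¹ ∈ σ.H := prop1
    (mul_mem (mul_mem (hy.stab hr') hn) (inv_mem (hy.stab hr))) (Or.inr ⟨y, hy, h1⟩)
    (Or.inr ⟨y, hy, e ▸ h2⟩)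
  have h4 := σ.I4 y hy.2 _ (hy.g_mem h1.1) (g_mem _) _ h3 (by
    rw [← g_mul h3, ← e]; exact hy.g_mem h2.1)
  have h5 : n = r'⁻¹ * r := by
    rw [mul_inv_eq_one] at h4
    rw [← h4, inv_mul_cancel_left]
  rw [h5, mul_smul, hr, stab_inv hr']

variable (σ) in
def W' : Set F := {a | ∃ g ∈ σ.H', ∃ c ∈ σ.C, a = g * c}

variable (σ) in
def O' : Set F := {a | ∃ g ∈ σ.H', ∃ c ∈ σ.W, a = g * c}

lemma W'_mul {g a : F} (hg : g ∈ σ.H') (ha : a ∈ σ.W') : g * a ∈ σ.W' := by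
  obtain ⟨g', h1, c, h2, rfl⟩ := ha
  exact ⟨g * g', mul_mem hg h1, c, h2, (mul_assoc _ _ _).symm⟩

lemma O'_mul {g a : F} (hg : g ∈ σ.H') (ha : a ∈ σ.O') : g * a ∈ σ.O' := by
  obtain ⟨g', h1, c, h2, rfl⟩ := ha
  exact ⟨g * g', mul_mem hg h1, c, h2, (mul_assoc _ _ _).symm⟩

lemma C_sub_W' {a : F} (ha : a ∈ σ.C) : a ∈ σ.W' := ⟨1, one_mem _, a, ha, (one_mul _).symm⟩

lemma W_sub_O' {a : F} (ha : a ∈ σ.W) : a ∈ σ.O' := ⟨1, one_mem _, a, ha, (one_mul _).symm⟩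

lemma cvx_W' : T.Cvx σ.W' := by
  have key : ∀ o g, σ.NF o g → ∀ a ∈ σ.C, ∀ b ∈ σ.C, ∀ x, T.B a x (g * b) → x ∈ σ.W' := by
    intro o g hg
    induction hg with
    | base h hh => exact fun a ha b hb x hx => C_sub_W' (cvx_C.cv _ _ _ ha (C_mul hh hb) hx)
    | cons o g y s _ _ hy hs _ ih =>
      intro a ha b hb x hx
      obtain ⟨c, hc⟩ := T.S_ne y
      rcases hx.thin c with h | h
      · exact C_sub_W' (cvx_C.cv _ _ _ ha (hy.sub_C hc) h)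
      · have h1 := h.mul s⁻¹
        rw [mul_assoc, inv_mul_cancel_left] at h1
        simpa using W'_mul (hy.stab hs) (ih _ (hy.sub_C (S_stab (stab_inv hs) hc)) b hb _ h1)
  obtain ⟨c, hc⟩ := (cvx_C (σ := σ)).ne
  refine ⟨⟨c, C_sub_W' hc⟩, ?_⟩
  rintro _ _ x ⟨g1, h1, a, ha, rfl⟩ ⟨g2, h2, b, hb, rfl⟩ h
  obtain ⟨o, ho⟩ := exists_NF (mul_mem (inv_mem h1) h2)
  have h3 := h.mul g1⁻¹
  rw [inv_mul_cancel_left, ← mul_assoc] at h3
  simpa using W'_mul h1 (key o _ ho a ha b hb _ h3)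

lemma reduce {a b : F} (ha : a ∈ σ.W') (hb : b ∈ σ.W') :
    (∃ g0 ∈ σ.H', g0 * a ∈ σ.C ∧ g0 * b ∈ σ.C) ∨
      ∃ y1, σ.New y1 ∧ ∃ g1 ∈ σ.H', ∃ p q, T.B a p b ∧ T.B a q b ∧
        p ∈ T.S (g1 • y1) ∧ q ∈ T.S (g1 • y1) ∧ 4 * T.ell y1 ≤ T.d p q := by
  obtain ⟨g1, h1, a, ha, rfl⟩ := ha
  obtain ⟨g2, h2, b, hb, rfl⟩ := hb
  obtain ⟨o, ho⟩ := exists_NF (mul_mem (inv_mem h1) h2)
  rcases ho.prop3 hb a ha with ⟨g0, h3, h4, h5⟩ | ⟨y1, h3, g, h4, p, q, h5, h6, h7, h8, h9⟩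
  · exact Or.inl ⟨g0 * g1⁻¹, mul_mem h3 (inv_mem h1), by simpa [mul_assoc] using h4,
      by simpa [mul_assoc] using h5⟩
  · refine Or.inr ⟨y1, h3, g1 * g, mul_mem h1 h4, g1 * p, g1 * q,
      by simpa [mul_assoc] using h5.mul g1, by simpa [mul_assoc] using h6.mul g1, ?_, ?_,
      by rwa [T.d_mul]⟩
    · rw [mul_smul]; exact T.S_smul _ _ _ h7
    · rw [mul_smul]; exact T.S_smul _ _ _ h8

lemma reduce' {z : Y} (hz : ∀ a ∈ T.S z, a ∉ σ.O') {a b : F} (ha : a ∈ T.S z) (ha' : a ∈ σ.W')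
    (hb : b ∈ T.S z) (hb' : b ∈ σ.W') :
    ∃ g0 ∈ σ.H', g0 * a ∈ σ.C ∧ g0 * b ∈ σ.C ∧ ∀ c ∈ T.S (g0 • z), c ∉ σ.W := by
  rcases reduce ha' hb' with ⟨g0, h1, h2, h3⟩ | ⟨y1, h1, g, h2, p, q, h3, h4, h5, h6, h7⟩
  · refine ⟨g0, h1, h2, h3, fun c hc hW => ?_⟩
    exact hz (g0⁻¹ * c) (by simpa using T.S_smul g0⁻¹ _ _ hc) ⟨g0⁻¹, inv_mem h1, c, hW, rfl⟩
  · exfalso
    by_cases e : g • y1 = z
    · obtain ⟨w, hw1, hw2⟩ := h1.1
      exact hz (g * w) (e ▸ T.S_smul _ _ _ hw1) ⟨g, h2, w, hw2, rfl⟩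
    · have := T.piece _ _ p q e h5 h6 (T.convex z _ _ _ ha hb h3) (T.convex z _ _ _ ha hb h4)
      rw [T.ell_smul] at this
      omega

lemma core {z : Y} (hz : ∀ c ∈ T.S z, c ∉ σ.W) {a b : F} (ha : a ∈ T.S z) (hb : b ∈ T.S z) :
    σ.g a = σ.g b ∧ ∃ m ∈ T.S z, T.B a m b ∧ T.B b m (σ.g b) ∧ T.B a m (σ.g a) := by
  have e : σ.g a = σ.g b := by
    by_contra hne
    exact hz _ (T.convex z _ _ _ ha hb (σ.cvx.sep hne)) (g_mem a)
  obtain ⟨m, h1, h2, h3⟩ := T.median a b (σ.g a)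
  exact ⟨e, m, T.convex z _ _ _ ha hb h1, h1, e ▸ h2, h3⟩

lemma New.ne {y z : Y} (hy : σ.New y) (hz : ∀ c ∈ T.S z, c ∉ σ.W) : y ≠ z := by
  rintro rfl
  obtain ⟨w, h1, h2⟩ := hy.1
  exact hz w h1 h2

lemma core3 {z : Y} (hz : ∀ c ∈ T.S z, c ∉ σ.W) {a b : F} (ha : a ∈ T.S z) (hb : b ∈ T.S z)
    (ha' : a ∈ σ.C) (hb' : b ∈ σ.C) : T.d a b ≤ 2 * T.ell z := by
  obtain ⟨-, m, hm, h1, h2, h3⟩ := core hz ha hb
  have key : ∀ a ∈ T.S z, a ∈ σ.C → T.B a m (σ.g a) → T.d a m ≤ T.ell z := by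
    rintro a ha (h | ⟨y, h4, h5⟩) h6
    · have h' : T.d a (σ.g a) ≤ 1 := h
      have := T.ell_pos z
      unfold B at h6; omega
    · exact (T.piece z y a m (h4.ne hz).symm ha hm h5
        (T.convex y _ _ _ h5 (h4.g_mem h5) h6)).le
  have k1 := key a ha ha' h3
  have k2 := key b hb hb' h2
  unfold B at h1
  rw [T.d_comm m b] at h1
  omega

lemma core4 {z : Y} (hz : ∀ c ∈ T.S z, c ∉ σ.W) {a n : F} (hn : n ∈ σ.H') (ha : a ∈ T.S z)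
    (hb : n * a ∈ T.S z) (ha' : a ∈ σ.C) (hb' : n * a ∈ σ.C) : n = 1 := by
  have key : ∀ {a n : F}, n ∈ σ.H' → a ∈ T.S z → n * a ∈ T.S z → a ∈ σ.C → n * a ∈ σ.C →
      a ∉ σ.D → n = 1 := by
    intro a n hn ha hb ha' hb' hD
    obtain ⟨e, m, hm, h1, h2, h3⟩ := core hz ha hb
    rcases ha' with h | ⟨y, hy, hay⟩
    · exact absurd (Or.inl h) hD
    have h4 : 2 * T.ell y < T.d a (σ.g a) := by
      by_contra h
      exact hD (Or.inr ⟨y, hy, hay, not_lt.1 h⟩)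
    have hmy := T.convex y _ _ _ hay (hy.g_mem hay) h3
    have h5 := T.piece y z a m (hy.ne hz) hay hmy ha hm
    have h6 : n * a ∈ T.S y := by
      rcases hb' with h | ⟨y', hy', h⟩
      · have h' : T.d (n * a) (σ.g (n * a)) ≤ 1 := h
        unfold B at h2 h3
        rw [← e] at h2 h'
        omega
      · by_contra hc
        have h7 := T.piece y y' m (σ.g a) (fun h' => hc (h' ▸ h)) hmy (hy.g_mem hay)
          (T.convex y' _ _ _ h (hy'.g_mem h) h2) (e ▸ hy'.g_mem h)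
        unfold B at h3
        omega
    have h7 := T.piece y z a (n * a) (hy.ne hz) hay h6 ha hb
    by_contra h8
    have := T.girth n y a (prop5 hn hy hay h6) h8 hay
    omega
  by_cases h1 : a ∈ σ.D
  · by_cases h2 : n * a ∈ σ.D
    · have h3 := (core hz ha hb).1
      rw [g_mul (prop1 hn h1 h2)] at h3
      simpa using h3
    · simpa using key (inv_mem hn) hb (by simpa using ha) hb' (by simpa using ha') h2
  · exact key hn ha hb ha' hb' h1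

lemma S_sub_C {y : Y} {w : F} (h1 : w ∈ T.S y) (h2 : w ∈ σ.W) :
    (∀ a ∈ T.S y, a ∈ σ.C) ∧ ∀ r : F, r • y = y → r ∈ σ.H' := by
  by_cases h : ∀ a ∈ T.S y, a ∉ σ.O
  · have hy : σ.New y := ⟨⟨w, h1, h2⟩, h⟩
    exact ⟨fun a => hy.sub_C, fun r => hy.stab⟩
  · push Not at h
    obtain ⟨c, h3, h4⟩ := h
    obtain ⟨h5, h6⟩ := σ.I2 y c h3 h4
    exact ⟨fun a ha => D_sub_C (W_sub_D (h5 ha)), fun r hr => H_le (h6 r hr)⟩

variable (σ) in
/-- the next stage -/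
def next : St T where
  O := σ.O'
  W := σ.W'
  H := σ.H'
  cvx := cvx_W'
  HN := (Subgroup.closure_le _).2 (by
    rintro r (h | ⟨y, -, h⟩)
    · exact σ.HN h
    · exact Subgroup.subset_closure ⟨y, h⟩)
  HW _ hh _ := W'_mul hh
  HO _ hh _ := O'_mul hh
  I2 := by
    rintro z _ h1 ⟨g, hg, w, hw, rfl⟩
    obtain ⟨h2, h3⟩ := S_sub_C (y := g⁻¹ • z) (by simpa using T.S_smul g⁻¹ _ _ h1) hw
    refine ⟨fun a ha => ⟨g, hg, g⁻¹ * a, h2 _ (T.S_smul _ _ _ ha), by simp⟩, fun r hr => ?_⟩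
    have h4 := h3 (g⁻¹ * r * g) (by simp [mul_smul, hr])
    have e : r = g * (g⁻¹ * r * g) * g⁻¹ := by group
    rw [e]
    exact mul_mem (mul_mem hg h4) (inv_mem hg)
  I3 := by
    intro z hz a b h1 h2 h3 h4
    obtain ⟨g0, -, h5, h6, h7⟩ := reduce' hz h1 h2 h3 h4
    simpa [T.d_mul, T.ell_smul] using
      core3 h7 (T.S_smul _ _ _ h1) (T.S_smul _ _ _ h3) h5 h6
  I4 := by
    intro z hz a h1 h2 n hn h3
    obtain ⟨g0, h4, h5, h6, h7⟩ := reduce' hz h1 h2 h3 (W'_mul hn h2)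
    have e : g0 * (n * a) = (g0 * n * g0⁻¹) * (g0 * a) := by group
    simpa using core4 h7 (mul_mem (mul_mem h4 hn) (inv_mem h4)) (T.S_smul _ _ _ h1)
      (e ▸ T.S_smul _ _ _ h3) h5 (e ▸ h6)

end St

end Vale.Agent.P089
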